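import Vale.Agent.P161.Basic

/-!
Elementary properties of the coefficients.
-/

open MeasureTheory ProbabilityTheory Filter Topology Finset
open scoped Classical NNReal ENNReal

namespace Vale.Agent.P161

lemma abs_clip_le_one (p : ℝ) : |clip p| ≤ 1 := by
  unfold clip
  exact abs_le.mpr ⟨le_max_left _ _, max_le (by norm_num) (min_le_right _ _)⟩

lemma clip_lip (p q : ℝ) : |clip p - clip q| ≤ |p - q| := by
  unfold clip
  refine (abs_max_sub_max_le_max _ _ _ _).trans (max_le (by simp) ?_)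
  refine (abs_min_sub_min_le_max _ _ _ _).trans (max_le le_rfl (by simp))

lemma clip_eq {p : ℝ} (h : |p| ≤ 1) : clip p = p := by
  unfold clip
  rw [min_eq_left (abs_le.mp h).2, max_eq_right (abs_le.mp h).1]

lemma abs_clip_le (p : ℝ) : |clip p| ≤ |p| := by
  have h := clip_lip p 0
  rwa [clip_eq (p := 0) (by simp), sub_zero, sub_zero] at h

lemma clip_neg (p : ℝ) : clip (-p) = -clip p := by
  unfold clip
  simp only [max_def, min_def]
  split_ifs <;> linarith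

lemma continuous_clip : Continuous clip := by
  unfold clip
  fun_prop

lemma disc_pos_alg {θ p q : ℝ} (h0 : 0 ≤ θ) (h1 : θ < 1) (hp : |p| ≤ 1) (hq : |q| ≤ 1) :
    0 < 1 - 4 * θ * ((p - θ * q) / (1 - θ ^ 2)) * ((q - θ * p) / (1 - θ ^ 2)) := by
  have hc : 0 < 1 - θ ^ 2 := by nlinarith
  have hpq : p * q ≤ 1 := by
    calc p * q ≤ |p * q| := le_abs_self _
      _ = |p| * |q| := abs_mul _ _
      _ ≤ 1 := mul_le_one₀ hp (abs_nonneg _) hq
  have h2 : (p - θ * q) * (q - θ * p) ≤ (1 - θ) ^ 2 := by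
    nlinarith [mul_nonneg h0 (sq_nonneg (p - q)), mul_le_mul_of_nonneg_right hpq (sq_nonneg (1 - θ))]
  have h3 : 1 - 4 * θ * ((p - θ * q) / (1 - θ ^ 2)) * ((q - θ * p) / (1 - θ ^ 2)) =
      ((1 - θ ^ 2) ^ 2 - 4 * θ * ((p - θ * q) * (q - θ * p))) / (1 - θ ^ 2) ^ 2 := by
    field_simp
  rw [h3]
  refine div_pos ?_ (by positivity)
  have h4 : 0 < (1 - θ) ^ 4 := pow_pos (by linarith) 4
  nlinarith [mul_le_mul_of_nonneg_left h2 h0]

lemma cav_spec_alg {θ p q : ℝ} (h0 : 0 ≤ θ) (h1 : θ < 1) (hp : |p| ≤ 1) (hq : |q| ≤ 1) :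
    ∃ D : ℝ, 0 < D ∧ D < 2 ∧ D = 1 + θ * cav θ p q * cav θ q p ∧
      q * D = cav θ p q + θ * cav θ q p ∧ p * D = cav θ q p + θ * cav θ p q := by
  have hc : 0 < 1 - θ ^ 2 := by nlinarith
  have hR := disc_pos_alg h0 h1 hp hq
  set P := (p - θ * q) / (1 - θ ^ 2) with hP
  set Q := (q - θ * p) / (1 - θ ^ 2) with hQ
  set S := √(1 - 4 * θ * P * Q) with hS
  have hS0 : 0 < S := Real.sqrt_pos.mpr hR
  have hS2 : S ^ 2 = 1 - 4 * θ * P * Q := Real.sq_sqrt hR.le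
  have e1 : cav θ p q = 2 * Q / (1 + S) := rfl
  have e2 : cav θ q p = 2 * P / (1 + S) := by
    rw [hS, mul_right_comm]
    rfl
  have e3 : q = Q + θ * P := by
    rw [hP, hQ]
    field_simp
    ring
  have e4 : p = P + θ * Q := by
    rw [hP, hQ]
    field_simp
    ring
  refine ⟨2 / (1 + S), by positivity, ?_, ?_, ?_, ?_⟩
  · rw [div_lt_iff₀ (by positivity)]
    linarith
  · rw [e1, e2]
    field_simp
    linear_combination -hS2
  · rw [e1, e2]
    conv_lhs => rw [e3]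
    ring
  · rw [e1, e2]
    conv_lhs => rw [e4]
    ring

lemma abs_cav_le {θ p q : ℝ} (h0 : 0 ≤ θ) (h1 : θ < 1) (hp : |p| ≤ 1) (hq : |q| ≤ 1) :
    |cav θ p q| ≤ 1 := by
  obtain ⟨D, hD0, hD2, hD, h2, h3⟩ := cav_spec_alg h0 h1 hp hq
  set a := cav θ p q
  set a' := cav θ q p
  obtain ⟨hq1, hq2⟩ := abs_le.mp hq
  have e1 : 0 ≤ (1 - a) * (1 - θ * a') := by nlinarith [mul_nonneg (sub_nonneg.mpr hq2) hD0.le]
  have e2 : 0 ≤ (1 + a) * (1 + θ * a') := by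
    nlinarith [mul_nonneg (by linarith : 0 ≤ 1 + q) hD0.le]
  refine abs_le.mpr ⟨?_, ?_⟩
  · by_contra h
    push Not at h
    have h4 : 1 + θ * a' ≤ 0 := by nlinarith
    nlinarith
  · by_contra h
    push Not at h
    have h4 : 1 - θ * a' ≤ 0 := by nlinarith
    nlinarith

lemma cav_eq {θ a a' : ℝ} (h0 : 0 ≤ θ) (h1 : θ < 1) (ha : |a| ≤ 1) (ha' : |a'| ≤ 1) :
    cav θ ((a' + θ * a) / (1 + θ * a * a')) ((a + θ * a') / (1 + θ * a * a')) = a := by
  have hc : 0 < 1 - θ ^ 2 := by nlinarith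
  have h2 : |θ * a * a'| < 1 := by
    rw [abs_mul, abs_mul, abs_of_nonneg h0]
    calc θ * |a| * |a'| ≤ θ * 1 * 1 := by gcongr
      _ < 1 := by linarith
  obtain ⟨h3, h4⟩ := abs_lt.mp h2
  set D := 1 + θ * a * a' with hD
  have hD0 : 0 < D := by linarith
  have e1 : ((a + θ * a') / D - θ * ((a' + θ * a) / D)) / (1 - θ ^ 2) = a / D := by
    field_simp
    ring
  have e2 : ((a' + θ * a) / D - θ * ((a + θ * a') / D)) / (1 - θ ^ 2) = a' / D := by
    field_simp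
    ring
  have e3 : 1 - 4 * θ * (a' / D) * (a / D) = ((1 - θ * a * a') / D) ^ 2 := by
    field_simp
    rw [hD]
    ring
  have e4 : 1 + (1 - θ * a * a') / D = 2 / D := by
    field_simp
    rw [hD]
    ring
  unfold cav
  rw [e1, e2, e3, Real.sqrt_sq (div_pos (by linarith) hD0).le, e4]
  field_simp

lemma bco_neg (θ p q : ℝ) : bco θ (-p) (-q) = bco θ p q := by
  have h : cav θ (-p) (-q) = -cav θ p q := by
    unfold cav
    have e1 : (-q - θ * -p) / (1 - θ ^ 2) = -((q - θ * p) / (1 - θ ^ 2)) := by ring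
    have e2 : (-p - θ * -q) / (1 - θ ^ 2) = -((p - θ * q) / (1 - θ ^ 2)) := by ring
    rw [e1, e2, mul_neg, mul_neg, mul_neg, neg_mul, neg_neg, neg_div]
  unfold bco
  rw [h, neg_sq]

lemma den_pos_alg {θ a : ℝ} (h0 : 0 ≤ θ) (h1 : θ < 1) (ha : |a| ≤ 1) : 0 < 1 - θ ^ 2 * a ^ 2 := by
  have h2 : a ^ 2 ≤ 1 := (sq_le_one_iff_abs_le_one a).mpr ha
  have h3 : θ ^ 2 < 1 := by nlinarith
  nlinarith [sq_nonneg θ]

lemma lt_one_alg {θ : ℝ} (h1 : θ ^ 2 ≤ 1 / 2) : θ ≤ 3 / 4 := by nlinarith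

lemma bco_nonneg {θ p q : ℝ} (h0 : 0 ≤ θ) (h1 : θ < 1) (hp : |p| ≤ 1) (hq : |q| ≤ 1) :
    0 ≤ bco θ p q := by
  have ha := abs_cav_le h0 h1 hp hq
  have h2 := (sq_le_one_iff_abs_le_one _).mpr ha
  exact div_nonneg (mul_nonneg h0 (by linarith)) (den_pos_alg h0 h1 ha).le

lemma bco_le {θ p q : ℝ} (h0 : 0 ≤ θ) (h1 : θ < 1) (hp : |p| ≤ 1) (hq : |q| ≤ 1) :
    bco θ p q ≤ θ := by
  have ha := abs_cav_le h0 h1 hp hq
  unfold bco
  rw [div_le_iff₀ (den_pos_alg h0 h1 ha)]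
  have h3 : 0 ≤ 1 - θ ^ 2 := by nlinarith
  nlinarith [mul_nonneg h0 (mul_nonneg h3 (sq_nonneg (cav θ p q)))]

lemma bco_symm {θ p q : ℝ} (h0 : 0 ≤ θ) (h1 : θ < 1) (hp : |p| ≤ 1) (hq : |q| ≤ 1) :
    (1 - p ^ 2) * bco θ p q = (1 - q ^ 2) * bco θ q p := by
  obtain ⟨D, hD0, -, hD, h2, h3⟩ := cav_spec_alg h0 h1 hp hq
  have d1 := den_pos_alg h0 h1 (abs_cav_le h0 h1 hp hq)
  have d2 := den_pos_alg h0 h1 (abs_cav_le h0 h1 hq hp)
  unfold bco
  set a := cav θ p q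
  set a' := cav θ q p
  have e1 : 1 - p ^ 2 = (1 - a' ^ 2) * (1 - θ ^ 2 * a ^ 2) / D ^ 2 := by
    rw [eq_div_iff (by positivity)]
    linear_combination (D + 1 + θ * a * a') * hD - (p * D + a' + θ * a) * h3
  have e2 : 1 - q ^ 2 = (1 - a ^ 2) * (1 - θ ^ 2 * a' ^ 2) / D ^ 2 := by
    rw [eq_div_iff (by positivity)]
    linear_combination (D + 1 + θ * a * a') * hD - (q * D + a + θ * a') * h2
  rw [e1, e2, div_mul_div_comm, div_mul_div_comm, div_eq_div_iff (by positivity) (by positivity)]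
  ring

lemma bco_sq_le {θ p q : ℝ} (h0 : 0 ≤ θ) (h1 : θ ^ 2 ≤ 1 / 2) (hp : |p| ≤ 1) (hq : |q| ≤ 1) :
    bco θ p q ^ 2 ≤ θ ^ 2 * (1 - cav θ p q ^ 2 / 2) := by
  have h1' : θ < 1 := by linarith [lt_one_alg h1]
  have ha := abs_cav_le h0 h1' hp hq
  have h2 := (sq_le_one_iff_abs_le_one _).mpr ha
  have d1 := den_pos_alg h0 h1' ha
  have h3 : bco θ p q ≤ θ * (1 - cav θ p q ^ 2 / 2) := by
    unfold bco
    set a := cav θ p q
    rw [div_le_iff₀ d1, mul_assoc]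
    refine mul_le_mul_of_nonneg_left ?_ h0
    have h4 : θ ^ 2 * a ^ 2 ≤ a ^ 2 / 2 := by nlinarith [sq_nonneg a]
    nlinarith [sq_nonneg (a ^ 2), mul_le_mul_of_nonneg_left h4 (by linarith : 0 ≤ 1 - a ^ 2 / 2)]
  calc bco θ p q ^ 2 = bco θ p q * bco θ p q := sq _
    _ ≤ θ * (θ * (1 - cav θ p q ^ 2 / 2)) :=
      mul_le_mul (bco_le h0 h1' hp hq) h3 (bco_nonneg h0 h1' hp hq) h0
    _ = _ := by ring

/-- The box on which the coefficients are smooth. -/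
def boxAlg : Set (ℝ × ℝ × ℝ) := Set.Icc 0 (3 / 4) ×ˢ Set.Icc (-1) 1 ×ˢ Set.Icc (-1) 1

lemma contDiffOn_cav_alg : ContDiffOn ℝ 1 (fun x : ℝ × ℝ × ℝ => cav x.1 x.2.1 x.2.2) boxAlg := by
  have hc : ∀ x ∈ boxAlg, 1 - x.1 ^ 2 ≠ 0 := fun x hx => by
    have := hx.1.1
    have := hx.1.2
    nlinarith
  unfold cav
  refine ContDiffOn.div (contDiffOn_const.mul (ContDiffOn.div (by fun_prop) (by fun_prop) hc))
    (contDiffOn_const.add (ContDiffOn.sqrt (contDiffOn_const.sub (ContDiffOn.mul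
      (ContDiffOn.mul (by fun_prop) (ContDiffOn.div (by fun_prop) (by fun_prop) hc))
      (ContDiffOn.div (by fun_prop) (by fun_prop) hc))) fun x hx => ?_)) fun x _ => by positivity
  exact (disc_pos_alg hx.1.1 (by linarith [hx.1.2]) (abs_le.mpr hx.2.1) (abs_le.mpr hx.2.2)).ne'

lemma contDiffOn_bco_alg : ContDiffOn ℝ 1 (fun x : ℝ × ℝ × ℝ => bco x.1 x.2.1 x.2.2) boxAlg := by
  unfold bco
  refine ContDiffOn.div (ContDiffOn.mul (by fun_prop)
    (contDiffOn_const.sub (contDiffOn_cav_alg.pow 2)))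
    (contDiffOn_const.sub (ContDiffOn.mul (by fun_prop) (contDiffOn_cav_alg.pow 2)))
    fun x hx => ?_
  have h1 : x.1 < 1 := by linarith [hx.1.2]
  exact (den_pos_alg hx.1.1 h1 (abs_cav_le hx.1.1 h1 (abs_le.mpr hx.2.1) (abs_le.mpr hx.2.2))).ne'

lemma exists_lip_alg {f : ℝ × ℝ × ℝ → ℝ} (hf : ContDiffOn ℝ 1 f boxAlg) :
    ∃ L : ℝ, 0 ≤ L ∧ ∀ θ θ' p q p' q' : ℝ, 0 ≤ θ → θ ^ 2 ≤ 1 / 2 → 0 ≤ θ' →
      θ' ^ 2 ≤ 1 / 2 → |p| ≤ 1 → |q| ≤ 1 → |p'| ≤ 1 → |q'| ≤ 1 →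
      |f (θ, p, q) - f (θ', p', q')| ≤ L * (|θ - θ'| + |p - p'| + |q - q'|) := by
  obtain ⟨K, hK⟩ := hf.exists_lipschitzOnWith one_ne_zero
    ((convex_Icc _ _).prod ((convex_Icc _ _).prod (convex_Icc _ _)))
    (isCompact_Icc.prod (isCompact_Icc.prod isCompact_Icc))
  refine ⟨K, K.2, fun θ θ' p q p' q' h0 h1 h0' h1' hp hq hp' hq' => ?_⟩
  have h := hK.dist_le_mul (θ, p, q) ⟨⟨h0, lt_one_alg h1⟩, abs_le.mp hp, abs_le.mp hq⟩
    (θ', p', q') ⟨⟨h0', lt_one_alg h1'⟩, abs_le.mp hp', abs_le.mp hq'⟩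
  refine h.trans (mul_le_mul_of_nonneg_left ?_ K.2)
  simp only [Prod.dist_eq, Real.dist_eq]
  have := abs_nonneg (θ - θ')
  have := abs_nonneg (p - p')
  have := abs_nonneg (q - q')
  refine max_le (by linarith) (max_le (by linarith) (by linarith))

lemma abs_cav_le_alg {θ p q : ℝ} (h0 : 0 ≤ θ) (h1 : θ ^ 2 ≤ 1 / 2) (hp : |p| ≤ 1) (hq : |q| ≤ 1) :
    |cav θ p q| ≤ 4 * (|p| + |q|) := by
  have h1' : θ < 1 := by linarith [lt_one_alg h1]
  obtain ⟨D, hD0, hD2, -, h2, h3⟩ := cav_spec_alg h0 h1' hp hq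
  have e1 : cav θ p q * (1 - θ ^ 2) = (q - θ * p) * D := by linear_combination θ * h3 - h2
  have e2 : |cav θ p q| * (1 - θ ^ 2) = |q - θ * p| * D := by
    rw [← abs_of_pos (by linarith : 0 < 1 - θ ^ 2), ← abs_mul, e1, abs_mul, abs_of_pos hD0]
  have e3 : |q - θ * p| ≤ |p| + |q| := by
    refine (abs_sub _ _).trans ?_
    rw [abs_mul, abs_of_nonneg h0]
    nlinarith [abs_nonneg p]
  have e4 : |q - θ * p| * D ≤ (|p| + |q|) * 2 := by gcongr
  nlinarith [abs_nonneg (cav θ p q)]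

theorem exists_CL : ∃ C : ℝ, 1 ≤ C ∧ ∀ θ θ' p q p' q' : ℝ, 0 ≤ θ → θ ^ 2 ≤ 1 / 2 → 0 ≤ θ' →
    θ' ^ 2 ≤ 1 / 2 → |p| ≤ 1 → |q| ≤ 1 → |p'| ≤ 1 → |q'| ≤ 1 →
    |bco θ p q - bco θ' p' q'| ≤ C * (|θ - θ'| + |p - p'| + |q - q'|) ∧
    |bco θ p q - bco θ p' q'| ≤ C * (|p| + |q| + |p'| + |q'|) * (|p - p'| + |q - q'|) ∧
    θ ^ 2 - bco θ p q ^ 2 ≤ C * (p ^ 2 + q ^ 2) ∧
    q ^ 2 ≤ C * (cav θ p q ^ 2 + cav θ q p ^ 2) := by
  obtain ⟨L, hL0, hL⟩ := exists_lip_alg contDiffOn_cav_alg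
  obtain ⟨L', hL0', hL'⟩ := exists_lip_alg contDiffOn_bco_alg
  refine ⟨128 + 16 * L + L', by linarith, fun θ θ' p q p' q' h0 h1 h0' h1' hp hq hp' hq' => ?_⟩
  have hθ := lt_one_alg h1
  have hθ1 : θ < 1 := by linarith
  have ha := abs_cav_le h0 hθ1 hp hq
  have ha2 := (sq_le_one_iff_abs_le_one _).mpr ha
  have d1 : 1 / 2 ≤ 1 - θ ^ 2 * cav θ p q ^ 2 := by nlinarith [sq_nonneg θ]
  refine ⟨(hL' θ θ' p q p' q' h0 h1 h0' h1' hp hq hp' hq').trans (by gcongr; linarith), ?_, ?_, ?_⟩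
  · have hb := abs_cav_le h0 hθ1 hp' hq'
    have hb2 := (sq_le_one_iff_abs_le_one _).mpr hb
    have d2 : 1 / 2 ≤ 1 - θ ^ 2 * cav θ p' q' ^ 2 := by nlinarith [sq_nonneg θ]
    have h2 := hL θ θ p q p' q' h0 h1 h0 h1 hp hq hp' hq'
    simp only [sub_self, abs_zero, zero_add] at h2
    have h3 := abs_cav_le_alg h0 h1 hp hq
    have h4 := abs_cav_le_alg h0 h1 hp' hq'
    unfold bco
    set a := cav θ p q
    set b := cav θ p' q'
    have e1 : θ * (1 - a ^ 2) / (1 - θ ^ 2 * a ^ 2) - θ * (1 - b ^ 2) / (1 - θ ^ 2 * b ^ 2) =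
        -(θ * (1 - θ ^ 2) / ((1 - θ ^ 2 * a ^ 2) * (1 - θ ^ 2 * b ^ 2)) * ((a + b) * (a - b))) := by
      have : 1 - θ ^ 2 * a ^ 2 ≠ 0 := by linarith
      have : 1 - θ ^ 2 * b ^ 2 ≠ 0 := by linarith
      field_simp
      ring
    have e2 : 0 ≤ θ * (1 - θ ^ 2) / ((1 - θ ^ 2 * a ^ 2) * (1 - θ ^ 2 * b ^ 2)) :=
      div_nonneg (mul_nonneg h0 (by linarith)) (mul_nonneg (by linarith) (by linarith))
    have e3 : θ * (1 - θ ^ 2) / ((1 - θ ^ 2 * a ^ 2) * (1 - θ ^ 2 * b ^ 2)) ≤ 4 := by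
      rw [div_le_iff₀ (mul_pos (by linarith) (by linarith))]
      nlinarith [sq_nonneg θ, mul_nonneg h0 (sq_nonneg θ)]
    rw [e1, abs_neg, abs_mul, abs_mul, abs_of_nonneg e2]
    have e4 : |a + b| ≤ 4 * (|p| + |q| + |p'| + |q'|) := (abs_add_le _ _).trans (by linarith)
    calc _ ≤ 4 * ((4 * (|p| + |q| + |p'| + |q'|)) * (L * (|p - p'| + |q - q'|))) := by gcongr
      _ = 16 * L * (|p| + |q| + |p'| + |q'|) * (|p - p'| + |q - q'|) := by ring
      _ ≤ _ := by gcongr; linarith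
  · have h3 := abs_cav_le_alg h0 h1 hp hq
    have h4 := bco_le h0 hθ1 hp hq
    have h5 := bco_nonneg h0 hθ1 hp hq
    have h6 : θ - 2 * cav θ p q ^ 2 ≤ bco θ p q := by
      unfold bco
      set a := cav θ p q
      rw [le_div_iff₀ (by linarith)]
      nlinarith [mul_nonneg h0 (mul_nonneg (sq_nonneg θ) (sq_nonneg a)), sq_nonneg a,
        mul_le_mul_of_nonneg_left d1 (sq_nonneg a)]
    have h7 : cav θ p q ^ 2 ≤ 32 * (p ^ 2 + q ^ 2) := by
      have h8 : |cav θ p q| ^ 2 ≤ (4 * (|p| + |q|)) ^ 2 := by gcongr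
      rw [sq_abs] at h8
      nlinarith [sq_abs p, sq_abs q, sq_nonneg (|p| - |q|)]
    have h9 : θ ^ 2 - bco θ p q ^ 2 ≤ 128 * (p ^ 2 + q ^ 2) := by
      nlinarith [mul_le_mul (by linarith : θ - bco θ p q ≤ 2 * cav θ p q ^ 2)
        (by linarith : θ + bco θ p q ≤ 2) (by linarith) (by positivity)]
    exact h9.trans (by gcongr; linarith)
  · obtain ⟨D, hD0, hD2, hD, h2, h3⟩ := cav_spec_alg h0 hθ1 hp hq
    have hb := abs_cav_le h0 hθ1 hq hp
    set a := cav θ p q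
    set b := cav θ q p
    have h4 : |θ * a * b| ≤ 3 / 4 := by
      rw [abs_mul, abs_mul, abs_of_nonneg h0]
      calc θ * |a| * |b| ≤ 3 / 4 * 1 * 1 := by gcongr
        _ = _ := by norm_num
    have h5 : 1 / 4 ≤ D := by linarith [(abs_le.mp h4).1]
    have h6 : q ^ 2 * D ^ 2 ≤ 2 * (a ^ 2 + b ^ 2) := by
      rw [← mul_pow, h2]
      nlinarith [sq_nonneg (a - θ * b), sq_nonneg b]
    have h7 : 1 / 16 ≤ D ^ 2 := by nlinarith
    have h8 : q ^ 2 ≤ 32 * (a ^ 2 + b ^ 2) := by nlinarith [sq_nonneg q]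
    exact h8.trans (by gcongr; linarith)

lemma measurable_cav (θ : ℝ) : Measurable fun p : ℝ × ℝ => cav θ p.1 p.2 := by
  unfold cav
  fun_prop

lemma measurable_bco (θ : ℝ) : Measurable fun p : ℝ × ℝ => bco θ p.1 p.2 := by
  have := measurable_cav θ
  unfold bco
  fun_prop

variable {V : Type}

lemma measurable_bf (θ : ℝ) (x y : V) : Measurable fun m : V → ℝ => bf θ m x y := by
  have h : Measurable fun m : V → ℝ => (clip (m x), clip (m y)) :=
    (continuous_clip.measurable.comp (measurable_pi_apply x)).prodMk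
      (continuous_clip.measurable.comp (measurable_pi_apply y))
  have h2 := (measurable_bco θ).comp h
  exact h2

lemma measurable_af (θ : ℝ) (x y : V) : Measurable fun m : V → ℝ => af θ m x y :=
  measurable_const.add (measurable_bf θ x y)

lemma measurable_vf (v : V) : Measurable fun m : V → ℝ => vf m v :=
  measurable_const.sub ((continuous_clip.measurable.comp (measurable_pi_apply v)).pow_const 2)

lemma continuous_bf {θ : ℝ} (h0 : 0 ≤ θ) (h1 : θ ^ 2 ≤ 1 / 2) (x y : V) :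
    Continuous fun m : V → ℝ => bf θ m x y :=
  contDiffOn_bco_alg.continuousOn.comp_continuous
    (f := fun m : V → ℝ => (θ, clip (m x), clip (m y)))
    (continuous_const.prodMk ((continuous_clip.comp (continuous_apply x)).prodMk
      (continuous_clip.comp (continuous_apply y))))
    fun _ => ⟨⟨h0, lt_one_alg h1⟩, abs_le.mp (abs_clip_le_one _), abs_le.mp (abs_clip_le_one _)⟩

lemma vf_nonneg (m : V → ℝ) (v : V) : 0 ≤ vf m v :=
  sub_nonneg.mpr ((sq_le_one_iff_abs_le_one _).mpr (abs_clip_le_one _))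

lemma vf_le_one (m : V → ℝ) (v : V) : vf m v ≤ 1 := sub_le_self _ (sq_nonneg _)

lemma vf_lip (m m' : V → ℝ) (v : V) :
    |vf m v - vf m' v| ≤ (|clip (m v)| + |clip (m' v)|) * |m v - m' v| := by
  have e : vf m v - vf m' v = -((clip (m v) + clip (m' v)) * (clip (m v) - clip (m' v))) := by
    unfold vf
    ring
  rw [e, abs_neg, abs_mul]
  exact mul_le_mul (abs_add_le _ _) (clip_lip _ _) (abs_nonneg _) (by positivity)

lemma tanh_sub_alg (x y : ℝ) :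
    Real.tanh x - Real.tanh y = Real.sinh (x - y) / (Real.cosh x * Real.cosh y) := by
  have := Real.cosh_pos x
  have := Real.cosh_pos y
  rw [Real.tanh_eq_sinh_div_cosh, Real.tanh_eq_sinh_div_cosh, Real.sinh_sub]
  field_simp

lemma hasDerivAt_tanh_alg (x : ℝ) : HasDerivAt Real.tanh (1 / Real.cosh x ^ 2) x := by
  have h := (Real.hasDerivAt_sinh x).div (Real.hasDerivAt_cosh x) (Real.cosh_pos x).ne'
  have e : Real.tanh = Real.sinh / Real.cosh := funext Real.tanh_eq_sinh_div_cosh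
  rw [e]
  refine h.congr_deriv ?_
  rw [← Real.cosh_sq_sub_sinh_sq x]
  ring

lemma tanh_mono_alg : Monotone Real.tanh := fun x y h => by
  rw [← sub_nonneg, tanh_sub_alg]
  exact div_nonneg (Real.sinh_nonneg_iff.mpr (sub_nonneg.mpr h))
    (mul_pos (Real.cosh_pos _) (Real.cosh_pos _)).le

lemma tanh_lip_alg (x y : ℝ) : |Real.tanh x - Real.tanh y| ≤ |x - y| := by
  have h := Convex.norm_image_sub_le_of_norm_hasDerivWithin_le (s := Set.univ) (C := 1)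
    (fun z _ => (hasDerivAt_tanh_alg z).hasDerivWithinAt) (fun z _ => by
      rw [Real.norm_eq_abs, abs_of_nonneg (by positivity), div_le_one (by positivity)]
      exact one_le_pow₀ (Real.one_le_cosh z)) convex_univ (Set.mem_univ y) (Set.mem_univ x)
  simpa using h

lemma th_nonneg {β t : ℝ} (hβ : 0 ≤ β) (ht : t ≤ 1) : 0 ≤ th β t := by
  have h := tanh_mono_alg (mul_nonneg hβ (sub_nonneg.mpr ht))
  rwa [Real.tanh_zero] at h

lemma th_lt_one (β t : ℝ) : th β t < 1 := Real.tanh_lt_one _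

lemma th_anti {β : ℝ} (hβ : 0 ≤ β) : Antitone (th β) := fun _ _ h =>
  tanh_mono_alg (mul_le_mul_of_nonneg_left (sub_le_sub_left h 1) hβ)

lemma th_lip {β : ℝ} (hβ : 0 ≤ β) (t t' : ℝ) : |th β t - th β t'| ≤ β * |t - t'| := by
  refine (tanh_lip_alg _ _).trans (le_of_eq ?_)
  rw [← mul_sub, abs_mul, abs_of_nonneg hβ, sub_sub_sub_cancel_left, abs_sub_comm]

lemma continuous_th (β : ℝ) : Continuous (th β) :=
  (continuous_iff_continuousAt.mpr fun x => (hasDerivAt_tanh_alg x).continuousAt).comp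
    (by fun_prop)

/-- Two sided bounds for the gap at the critical point. -/
lemma th_gap {β q : ℝ} (hβ : 0 ≤ β) (hq : 2 ≤ q) (hc : q * Real.tanh β ^ 2 = 1) :
    ∃ c C : ℝ, 0 < c ∧ c ≤ 1 ∧ 1 ≤ C ∧ ∀ t, 0 ≤ t → t ≤ 1 →
      c * t ≤ 1 - q * th β t ^ 2 ∧ 1 - q * th β t ^ 2 ≤ C * t := by
  have hT0 : 0 ≤ Real.tanh β := by simpa [th] using th_nonneg hβ (zero_le_one : (0 : ℝ) ≤ 1)
  have hT : 0 < Real.tanh β := lt_of_le_of_ne hT0 fun h => by simp [← h] at hc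
  have hβ0 : 0 < β := lt_of_le_of_ne hβ fun h => by simp [← h] at hT
  have hch := Real.cosh_pos β
  refine ⟨min 1 (q * Real.tanh β * (β / Real.cosh β ^ 2)), 1 + 2 * q * β,
    lt_min one_pos (by positivity), min_le_left _ _, by nlinarith, fun t ht0 ht1 => ?_⟩
  have hs0 := th_nonneg hβ ht1
  have hs1 := th_lt_one β t
  have hT1 := Real.tanh_lt_one β
  have e : 1 - q * th β t ^ 2 = q * (Real.tanh β + th β t) * (Real.tanh β - th β t) := by
    linear_combination -hc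
  have h1 : Real.tanh β - th β t ≤ β * t := by
    have h := th_lip hβ 0 t
    rw [zero_sub, abs_neg, abs_of_nonneg ht0] at h
    refine le_trans ?_ ((le_abs_self _).trans h)
    simp [th]
  have h2 : β / Real.cosh β ^ 2 * t ≤ Real.tanh β - th β t := by
    unfold th
    have h3 : β - β * (1 - t) = β * t := by ring
    have h4 : Real.cosh (β * (1 - t)) ≤ Real.cosh β := by
      rw [Real.cosh_le_cosh, abs_of_nonneg hβ, abs_of_nonneg (mul_nonneg hβ (by linarith))]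
      nlinarith
    have h5 : β * t ≤ Real.sinh (β * t) := Real.self_le_sinh_iff.mpr (by positivity)
    have h6 := Real.cosh_pos (β * (1 - t))
    rw [tanh_sub_alg, h3, div_mul_eq_mul_div, sq]
    gcongr
  have h3 : 0 ≤ β / Real.cosh β ^ 2 * t := by positivity
  rw [e]
  constructor
  · calc _ ≤ q * Real.tanh β * (β / Real.cosh β ^ 2) * t := by gcongr; exact min_le_right _ _
      _ = q * Real.tanh β * (β / Real.cosh β ^ 2 * t) := by ring
      _ ≤ _ := by gcongr; linarith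
  · calc _ ≤ q * 2 * (β * t) := by gcongr <;> linarith
      _ ≤ _ := by nlinarith

end Vale.Agent.P161
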