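import Vale.Agent.P161.Freeze

/-!
Approximate solutions: comparison and subsampling.
-/

open MeasureTheory ProbabilityTheory Filter Topology Finset
open scoped Classical NNReal ENNReal

namespace Vale.Agent.P161

/-- The Lipschitz constant of the coefficients. -/
noncomputable def CL : ℝ := Classical.choose exists_CL

lemma one_le_CL : 1 ≤ CL := (Classical.choose_spec exists_CL).1

variable {V : Type}

lemma bf_spec {θ θ' : ℝ} (h0 : 0 ≤ θ) (h1 : θ ^ 2 ≤ 1 / 2) (h0' : 0 ≤ θ') (h1' : θ' ^ 2 ≤ 1 / 2)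
    (m m' : V → ℝ) (x y : V) :
    |bf θ m x y - bf θ' m' x y| ≤ CL * (|θ - θ'| + |m x - m' x| + |m y - m' y|) ∧
    |bf θ m x y - bf θ m' x y| ≤
      CL * (|clip (m x)| + |clip (m y)| + |clip (m' x)| + |clip (m' y)|) *
        (|m x - m' x| + |m y - m' y|) ∧
    θ ^ 2 - bf θ m x y ^ 2 ≤ CL * (clip (m x) ^ 2 + clip (m y) ^ 2) ∧
    clip (m y) ^ 2 ≤ CL * (cav θ (clip (m x)) (clip (m y)) ^ 2 +
      cav θ (clip (m y)) (clip (m x)) ^ 2) := by
  obtain ⟨e1, e2, e3, e4⟩ := (Classical.choose_spec exists_CL).2 θ θ' _ _ _ _ h0 h1 h0' h1'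
    (abs_clip_le_one (m x)) (abs_clip_le_one (m y)) (abs_clip_le_one (m' x))
    (abs_clip_le_one (m' y))
  have hC : 0 ≤ CL := zero_le_one.trans one_le_CL
  have c1 := clip_lip (m x) (m' x)
  have c2 := clip_lip (m y) (m' y)
  refine ⟨e1.trans ?_, e2.trans ?_, e3, e4⟩
  · change CL * _ ≤ _
    gcongr
  · change CL * _ * _ ≤ _
    gcongr

lemma bf_sub_sq {θ θ' : ℝ} (h0 : 0 ≤ θ) (h1 : θ ^ 2 ≤ 1 / 2) (h0' : 0 ≤ θ') (h1' : θ' ^ 2 ≤ 1 / 2)
    (m m' : V → ℝ) (x y : V) : (bf θ m x y - bf θ' m' x y) ^ 2 ≤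
      3 * CL ^ 2 * ((θ - θ') ^ 2 + (m x - m' x) ^ 2 + (m y - m' y) ^ 2) := by
  have h := (bf_spec h0 h1 h0' h1' m m' x y).1
  have h2 := pow_le_pow_left₀ (abs_nonneg _) h 2
  rw [sq_abs, mul_pow] at h2
  refine h2.trans ?_
  rw [← sq_abs (θ - θ'), ← sq_abs (m x - m' x), ← sq_abs (m y - m' y), mul_comm 3, mul_assoc]
  refine mul_le_mul_of_nonneg_left ?_ (sq_nonneg _)
  nlinarith [sq_nonneg (|θ - θ'| - |m x - m' x|), sq_nonneg (|θ - θ'| - |m y - m' y|),
    sq_nonneg (|m x - m' x| - |m y - m' y|)]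

lemma vf_sub_sq (m m' : V → ℝ) (v : V) : (vf m v - vf m' v) ^ 2 ≤ 4 * (m v - m' v) ^ 2 := by
  have h := vf_lip m m' v
  have h1 := abs_clip_le_one (m v)
  have h2 := abs_clip_le_one (m' v)
  have h3 : |vf m v - vf m' v| ≤ 2 * |m v - m' v| :=
    h.trans (mul_le_mul_of_nonneg_right (by linarith) (abs_nonneg _))
  have h4 := pow_le_pow_left₀ (abs_nonneg _) h3 2
  rw [sq_abs, mul_pow, sq_abs] at h4
  linarith

lemma abs_vf_le (m : V → ℝ) (v : V) : |vf m v| ≤ 1 := by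
  rw [abs_of_nonneg (vf_nonneg m v)]
  exact vf_le_one m v

variable {G : SimpleGraph V} [G.LocallyFinite] {q : ℕ} {ρ β s : ℝ}

lemma Reg.sq_le_half (hG : Reg G q) {θ : ℝ} (h : q * θ ^ 2 ≤ 1) : θ ^ 2 ≤ 1 / 2 := by
  have hq : (2 : ℝ) ≤ q := by exact_mod_cast hG.two
  nlinarith [sq_nonneg θ]

lemma th_rho (hβ : 0 ≤ β) (h : q * th β s ^ 2 ≤ ρ) {t : ℝ} (hs : s ≤ t) (ht : t ≤ 1) :
    q * th β t ^ 2 ≤ ρ := by
  refine le_trans ?_ h
  have := th_nonneg hβ ht
  have := th_anti hβ hs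
  gcongr

variable {Ω : Type} [mΩ : MeasurableSpace Ω] {P : Measure Ω} {N : Noise V P}

lemma coef_field {θ t : ℝ} (h0 : 0 ≤ θ) (h1 : θ < 1) (h : q * θ ^ 2 ≤ ρ) {X : Ω → V → ℝ}
    (hX : Measurable[N.F t] X) (v : V) :
    Coef N t q ρ (fun ω => vf (X ω) v) (fun ω => af θ (X ω)) (fun ω => bf θ (X ω)) :=
  ⟨(measurable_vf v).comp hX, fun x y => (measurable_af θ x y).comp hX,
    fun x y => (measurable_bf θ x y).comp hX, fun _ => abs_vf_le _ _, fun _ => bd_field h0 h1 h _⟩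

lemma coef_th (hβ : 0 ≤ β) {t t' : ℝ} (ht : t ≤ 1) (h : q * th β t ^ 2 ≤ ρ) {X : Ω → V → ℝ}
    (hX : Measurable[N.F t'] X) (v : V) :
    Coef N t' q ρ (fun ω => vf (X ω) v) (fun ω => af (th β t) (X ω))
      (fun ω => bf (th β t) (X ω)) :=
  coef_field (th_nonneg hβ ht) (th_lt_one β t) h hX v

variable [IsProbabilityMeasure P] {J k r : ℕ} {t t' : ℝ} {X X' : Ω → V → ℝ}

lemma memLp_incr (hG : Reg G q) (hβ : 0 ≤ β) (hρ : ρ < 1) (ht : t ≤ 1) (h : q * th β t ^ 2 ≤ ρ)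
    (hX : Measurable[N.F (tm J k)] X) (r : ℕ) (v : V) :
    MemLp (fun ω => incr G β r t (X ω) (N.z J k ω) v) 2 P := by
  simpa only [incr, mul_assoc] using ((coef_th hβ ht h hX v).sq hG hρ r v).1.const_mul √β

lemma incr_sq (hG : Reg G q) (hβ : 0 ≤ β) (hρ : ρ < 1) (ht : t ≤ 1) (h : q * th β t ^ 2 ≤ ρ)
    (hX : Measurable[N.F (tm J k)] X) (r : ℕ) (v : V) :
    ∫ ω, incr G β r t (X ω) (N.z J k ω) v ^ 2 ∂P = eta J * (β * ∫ ω, vf (X ω) v ^ 2 *
      MI G (af (th β t) (X ω)) (bf (th β t) (X ω)) (af (th β t) (X ω)) (bf (th β t) (X ω)) r v ∂P) := by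
  simp only [incr, mul_assoc, mul_pow √β, integral_const_mul, Real.sq_sqrt hβ,
    ((coef_th hβ ht h hX v).sq hG hρ r v).2]
  ring

lemma incr_sq_le (hG : Reg G q) (hβ : 0 ≤ β) (hρ : ρ < 1) (ht : t ≤ 1) (h : q * th β t ^ 2 ≤ ρ)
    (hX : Measurable[N.F (tm J k)] X) (r : ℕ) (v : V) :
    ∫ ω, incr G β r t (X ω) (N.z J k ω) v ^ 2 ∂P ≤ β * ((q + 1) * (4 / (1 - ρ))) * eta J := by
  simp only [incr, mul_assoc, mul_pow √β, integral_const_mul, Real.sq_sqrt hβ]
  refine mul_le_mul_of_nonneg_left (((coef_th hβ ht h hX v).sq_le hG hρ r v).trans_eq ?_) hβ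
  ring

lemma incr_orth (hG : Reg G q) (hβ : 0 ≤ β) (hρ : ρ < 1) (ht : t ≤ 1) (h : q * th β t ^ 2 ≤ ρ)
    (hX : Measurable[N.F (tm J k)] X) (r : ℕ) (v : V) {Z : Ω → ℝ}
    (hZ : Measurable[N.F (tm J k)] Z) (hZ2 : MemLp Z 2 P) :
    ∫ ω, Z ω * incr G β r t (X ω) (N.z J k ω) v ∂P = 0 := by
  have := (coef_th hβ ht h hX v).orth hG hρ r v hZ hZ2
  simp only [incr, mul_assoc, mul_left_comm _ √β, integral_const_mul, this, mul_zero]

lemma incr_tail (hG : Reg G q) (hβ : 0 ≤ β) (hρ : ρ < 1) (ht : t ≤ 1) (h : q * th β t ^ 2 ≤ ρ)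
    (hX : Measurable[N.F (tm J k)] X) {r R : ℕ} (hr : r ≤ R) (v : V) :
    ∫ ω, (incr G β R t (X ω) (N.z J k ω) v - incr G β r t (X ω) (N.z J k ω) v) ^ 2 ∂P ≤
      β * ((q + 1) * (4 / (1 - ρ))) * ρ ^ r * eta J := by
  simp only [incr, mul_assoc, ← mul_sub √β, mul_pow √β, integral_const_mul, Real.sq_sqrt hβ]
  refine mul_le_mul_of_nonneg_left (((coef_th hβ ht h hX v).tail hG hρ hr v).trans_eq ?_) hβ
  ring

lemma incr_sub_sq (hG : Reg G q) (hβ : 0 ≤ β) (hρ : ρ < 1) (ht : t ≤ 1) (ht' : t' ≤ 1)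
    (h : q * th β t ^ 2 ≤ ρ) (h' : q * th β t' ^ 2 ≤ ρ) (hX : Measurable[N.F (tm J k)] X)
    (hX' : Measurable[N.F (tm J k)] X') (r : ℕ) (v : V) :
    ∫ ω, (incr G β r t (X ω) (N.z J k ω) v - incr G β r t' (X' ω) (N.z J k ω) v) ^ 2 ∂P =
      eta J * (β * ∫ ω, ∑ y ∈ G.neighborFinset v, Qf G (af (th β t) (X ω)) (bf (th β t) (X ω))
        (af (th β t') (X' ω)) (bf (th β t') (X' ω)) r (vf (X ω) v) (vf (X' ω) v) v y ∂P) := by
  simp only [incr, mul_assoc, ← mul_sub √β, mul_pow √β, integral_const_mul, Real.sq_sqrt hβ,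
    (coef_th hβ ht h hX v).sub_sq hG hρ (coef_th hβ ht' h' hX' v) r v]
  ring

omit mΩ [IsProbabilityMeasure P] in
/-- Crude Lipschitz estimate for one step. -/
lemma incr_lip (hG : Reg G q) (hβ : 0 ≤ β) (hρ : ρ < 1) : ∃ C : ℝ, 1 ≤ C ∧
    ∀ {Ω : Type} [MeasurableSpace Ω] {P : Measure Ω} [IsProbabilityMeasure P] {N : Noise V P}
      {J k r : ℕ} {t t' : ℝ} {X X' : Ω → V → ℝ} {W : Set V} {ε : ℝ} {v : V}, t ≤ 1 → t' ≤ 1 →
      q * th β t ^ 2 ≤ ρ → q * th β t' ^ 2 ≤ ρ → Measurable[N.F (tm J k)] X →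
      Measurable[N.F (tm J k)] X' → (∀ u, MemLp (fun ω => X ω u - X' ω u) 2 P) →
      (∀ u ∈ W, ∫ ω, (X ω u - X' ω u) ^ 2 ∂P ≤ ε) → Deep G W r v →
      ∫ ω, (incr G β r t (X ω) (N.z J k ω) v - incr G β r t' (X' ω) (N.z J k ω) v) ^ 2 ∂P ≤
        C * ((t - t') ^ 2 + ε) * eta J := by
  have h1 : 0 < 1 - ρ := by linarith
  set c₁ : ℝ := 26 * q / (1 - ρ) ^ 3 * (3 * CL ^ 2 * (β ^ 2 + 2)) with hc₁
  set c₂ : ℝ := 4 * (4 / (1 - ρ)) with hc₂
  have hc1 : 0 ≤ c₁ := by positivity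
  have hc2 : 0 ≤ c₂ := by positivity
  refine ⟨1 + β * ((q + 1) * (2 * c₁ + 2 * c₂)), le_add_of_nonneg_right (by positivity), ?_⟩
  intro Ω _ P _ N J k r t t' X X' W ε v ht ht' h h' hX hX' hL hW hv
  rw [incr_sub_sq hG hβ hρ ht ht' h h' hX hX', mul_comm]
  refine mul_le_mul_of_nonneg_right ?_ (eta_pos J).le
  have hε : 0 ≤ ε := (int_sq_nonneg _).trans (hW v hv.self)
  have mX := N.measurable_of hX
  have mX' := N.measurable_of hX'
  have c := coef_th hβ ht h hX v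
  have c' := coef_th hβ ht' h' hX' v
  have ma := fun x y => N.measurable_of (c.ma x y)
  have mb := fun x y => N.measurable_of (c.mb x y)
  have ma' := fun x y => N.measurable_of (c'.ma x y)
  have mb' := fun x y => N.measurable_of (c'.mb x y)
  have hS : ∀ x y, G.Adj x y → x ∈ W → y ∈ W →
      ∫ ω, (bf (th β t) (X ω) x y - bf (th β t') (X' ω) x y) ^ 2 ∂P ≤
        3 * CL ^ 2 * (β ^ 2 + 2) * ((t - t') ^ 2 + ε) := by
    intro x y _ hx hy
    have i1 : Integrable (fun ω => (th β t - th β t') ^ 2 + (X ω x - X' ω x) ^ 2) P :=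
      (integrable_const _).add (hL x).integrable_sq
    have i2 : Integrable (fun ω => (th β t - th β t') ^ 2 + (X ω x - X' ω x) ^ 2 +
      (X ω y - X' ω y) ^ 2) P := i1.add (hL y).integrable_sq
    refine (integral_mono_of_nonneg (ae_of_all _ fun _ => sq_nonneg _) (i2.const_mul _)
      (ae_of_all _ fun ω => bf_sub_sq (th_nonneg hβ ht) (hG.sq_le_half (h.trans hρ.le))
        (th_nonneg hβ ht') (hG.sq_le_half (h'.trans hρ.le)) _ _ x y)).trans ?_
    rw [integral_const_mul, integral_add i1 (hL y).integrable_sq,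
      integral_add (integrable_const _) (hL x).integrable_sq, mul_assoc (3 * CL ^ 2)]
    refine mul_le_mul_of_nonneg_left ?_ (by positivity)
    have e1 := pow_le_pow_left₀ (abs_nonneg _) (th_lip hβ t t') 2
    rw [sq_abs, mul_pow, sq_abs] at e1
    simp only [integral_const, probReal_univ, smul_eq_mul, one_mul]
    nlinarith [hW x hx, hW y hy, sq_nonneg (t - t'), mul_nonneg (sq_nonneg β) hε]
  have iQ : ∀ {α α' : Ω → ℝ}, Measurable α → Measurable α' → (∀ ω, |α ω| ≤ 1) →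
      (∀ ω, |α' ω| ≤ 1) → ∀ y, G.Adj v y → Integrable (fun ω => Qf G (af (th β t) (X ω))
        (bf (th β t) (X ω)) (af (th β t') (X' ω)) (bf (th β t') (X' ω)) r (α ω) (α' ω) v y) P :=
    fun hα hα' b1 b2 y hy => integrable_of_bdd (measurable_Qf ma mb ma' mb' hα hα' r v y)
      fun ω => by
        rw [abs_of_nonneg (Qf_nonneg _ _ _ _ _)]
        exact Qf_le hG (c.bd ω) (c'.bd ω) hρ r (b1 ω) (b2 ω) hy
  rw [integral_finsetSum _ fun y hy => iQ (N.measurable_of c.mα) (N.measurable_of c'.mα) c.α_le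
    c'.α_le y (by simpa using hy)]
  have key : ∀ y, G.Adj v y → ∫ ω, Qf G (af (th β t) (X ω)) (bf (th β t) (X ω))
      (af (th β t') (X' ω)) (bf (th β t') (X' ω)) r (vf (X ω) v) (vf (X' ω) v) v y ∂P ≤
      (2 * c₁ + 2 * c₂) * ((t - t') ^ 2 + ε) := by
    intro y hy
    have i1 := iQ (α := fun _ => 1) (α' := fun _ => 1) measurable_const measurable_const
      (by simp) (by simp) y hy
    have e1 := integral_Qf_le (P := P) hG hρ ma mb ma' mb' c.bd c'.bd (W := W)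
      (S := 3 * CL ^ 2 * (β ^ 2 + 2) * ((t - t') ^ 2 + ε)) (by positivity)
      (fun x y hxy hx hy => ⟨by simpa [af] using hS x y hxy hx hy, hS x y hxy hx hy⟩) r hy hv
    refine (integral_mono_of_nonneg (ae_of_all _ fun _ => Qf_nonneg _ _ _ _ _)
      ((i1.const_mul 2).add ((hL v).integrable_sq.const_mul (2 * c₂)))
      (ae_of_all _ fun ω => ?_)).trans ?_
    · refine (Qf_split r _ _ v y one_pos).trans (add_le_add ?_ ?_)
      · refine mul_le_mul_of_nonneg_right ?_ (Qf_nonneg _ _ _ _ _)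
        linarith [sq_le_one_of_abs (c.α_le ω)]
      · calc _ ≤ (1 + 1⁻¹) * (4 * (X ω v - X' ω v) ^ 2) * (4 / (1 - ρ)) := by
              gcongr
              · exact M_self_nonneg _ _ _
              · exact vf_sub_sq _ _ _
              · exact M_self_le hG (c'.bd ω) hρ r hy
          _ = _ := by rw [hc₂]; ring
    · rw [integral_add' (i1.const_mul 2) ((hL v).integrable_sq.const_mul _), integral_const_mul,
        integral_const_mul]
      have e2 := mul_le_mul_of_nonneg_left (hW v hv.self) hc2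
      have e3 : 0 ≤ c₂ * (t - t') ^ 2 := by positivity
      rw [← mul_assoc, ← hc₁] at e1
      linarith
  have e4 := mul_le_mul_of_nonneg_left (sum_nb_le hG v key) hβ
  have e5 : 0 ≤ (t - t') ^ 2 + ε := by positivity
  linarith

variable {κ : ℝ} {W : Set V} {Y Y' : ℕ → Ω → V → ℝ}

omit [IsProbabilityMeasure P] in
lemma Approx.mono (h : Approx G N β s J r κ W Y) {s' κ' : ℝ} {W' : Set V} (hs : s ≤ s')
    (hκ : κ ≤ κ') (hW : W' ⊆ W) : Approx G N β s' J r κ' W' Y :=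
  ⟨h.meas, h.memLp, fun k h1 h2 v hv => h.mart k (hs.trans h1) h2 v (hW hv),
    fun k h1 h2 v hv => (h.err k (hs.trans h1) h2 v (hW hv)).trans
      (mul_le_mul_of_nonneg_right hκ (eta_pos J).le)⟩

omit [IsProbabilityMeasure P] in
lemma Approx.meas_apply (h : Approx G N β s J r κ W Y) (k : ℕ) (v : V) :
    Measurable[N.F (tm J k)] fun ω => Y k ω v := (measurable_pi_apply v).comp (h.meas k)

/-- One step of the comparison of two approximate solutions. -/
lemma Approx.step (hG : Reg G q) (hβ : 0 ≤ β) (hρ : ρ < 1) (hs : q * th β s ^ 2 ≤ ρ)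
    (h : Approx G N β s J r κ W Y) (h' : Approx G N β s J r κ W Y') (hk : s ≤ tm J k)
    (hk' : k < 2 ^ J) {v : V} (hv : v ∈ W) :
    ∫ ω, (Y (k + 1) ω v - Y' (k + 1) ω v) ^ 2 ∂P ≤ ∫ ω, (Y k ω v - Y' k ω v) ^ 2 ∂P +
      2 * ∫ ω, (incr G β r (tm J k) (Y k ω) (N.z J k ω) v -
        incr G β r (tm J k) (Y' k ω) (N.z J k ω) v) ^ 2 ∂P + 8 * κ * eta J := by
  have ht := tm_le_one hk'.le
  have hρk := th_rho hβ hs hk ht
  have m0 := ml_sub (h.memLp k v) (h'.memLp k v)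
  have d1 := ml_sub (h.memLp (k + 1) v) (h.memLp k v)
  have d2 := ml_sub (h'.memLp (k + 1) v) (h'.memLp k v)
  have i1 := memLp_incr hG hβ hρ ht hρk (h.meas k) r v
  have i2 := memLp_incr hG hβ hρ ht hρk (h'.meas k) r v
  have e1 := int_sq_add m0 (ml_sub d1 d2)
  have hm : Measurable[N.F (tm J k)] fun ω => Y k ω v - Y' k ω v :=
    (h.meas_apply k v).sub (h'.meas_apply k v)
  have e2 : ∫ ω, (Y k ω v - Y' k ω v) *
      (Y (k + 1) ω v - Y k ω v - (Y' (k + 1) ω v - Y' k ω v)) ∂P = 0 := by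
    simp only [mul_sub (Y k _ v - Y' k _ v) (Y (k + 1) _ v - Y k _ v)]
    rw [integral_sub (int_mul m0 d1) (int_mul m0 d2), h.mart k hk hk' v hv _ hm m0,
      h'.mart k hk hk' v hv _ hm m0, sub_self]
  have e3 := int_sq_add_le (ml_sub i1 i2) (ml_sub (ml_sub d1 i1) (ml_sub d2 i2))
  have e4 := int_sq_sub_le (ml_sub d1 i1) (ml_sub d2 i2)
  have e5 := h.err k hk hk' v hv
  have e6 := h'.err k hk hk' v hv
  have f1 : ∀ a b c d : ℝ, a - b + (c - a - (d - b)) = c - d := fun _ _ _ _ => by ring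
  simp only [f1] at e1 e3
  linarith

omit mΩ [IsProbabilityMeasure P] in
/-- Comparison of two approximate solutions. -/
theorem compare (hG : Reg G q) (hβ : 0 ≤ β) (hρ : ρ < 1) : ∃ C : ℝ, 1 ≤ C ∧
    ∀ {Ω : Type} [MeasurableSpace Ω] {P : Measure Ω} [IsProbabilityMeasure P] {N : Noise V P}
      {s : ℝ} {J r : ℕ} {κ : ℝ} {W : Set V} {Y Y' : ℕ → Ω → V → ℝ} {k₀ : ℕ} {ε : ℝ},
      q * th β s ^ 2 ≤ ρ → 0 ≤ κ → 0 ≤ ε → Approx G N β s J r κ W Y → Approx G N β s J r κ W Y' →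
      s ≤ tm J k₀ → (∀ v ∈ W, ∫ ω, (Y k₀ ω v - Y' k₀ ω v) ^ 2 ∂P ≤ ε) →
      ∀ i, k₀ + i ≤ 2 ^ J → ∀ v, Deep G W (i * r) v →
        ∫ ω, (Y (k₀ + i) ω v - Y' (k₀ + i) ω v) ^ 2 ∂P ≤ C * (ε + κ) := by
  obtain ⟨C, hC, hlip⟩ := incr_lip hG hβ hρ
  refine ⟨8 * Real.exp (2 * C), ?_, ?_⟩
  · have := Real.one_le_exp (show 0 ≤ 2 * C by linarith)
    linarith
  intro Ω _ P _ N s J r κ W Y Y' k₀ ε hs hκ hε h h' hk₀ h0
  have hη := eta_pos J
  have key : ∀ i, k₀ + i ≤ 2 ^ J → ∀ v, Deep G W (i * r) v →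
      ∫ ω, (Y (k₀ + i) ω v - Y' (k₀ + i) ω v) ^ 2 ∂P ≤
        (1 + 2 * C * eta J) ^ i * (ε + 8 * κ) - 8 * κ := by
    intro i
    induction i with
    | zero => intro _ v hv; simpa using h0 v hv.self
    | succ i ih =>
      intro hi v hv
      have hk : s ≤ tm J (k₀ + i) := hk₀.trans (tm_mono J (by omega))
      have ht := tm_le_one (show k₀ + i ≤ 2 ^ J by omega)
      have hρk := th_rho hβ hs hk ht
      rw [add_mul, one_mul] at hv
      have hd := hv.add hG.tree.connected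
      have e1 := h.step hG hβ hρ hs h' hk (by omega) hv.self
      have e2 := hlip ht ht hρk hρk (h.meas _) (h'.meas _)
        (fun u => ml_sub (h.memLp _ u) (h'.memLp _ u)) (fun u hu => ih (by omega) u hu) hd
      have e3 := ih (by omega) v hd.self
      rw [← add_assoc, pow_succ]
      simp only [sub_self, ne_eq, OfNat.ofNat_ne_zero, not_false_eq_true, zero_pow,
        zero_add] at e2
      nlinarith [mul_nonneg (mul_nonneg hκ hη.le) (sub_nonneg.2 hC)]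
  intro i hi v hv
  refine (key i hi v hv).trans ?_
  have e1 : (1 + 2 * C * eta J) ^ i ≤ Real.exp (2 * C) := by
    calc _ ≤ Real.exp (2 * C * eta J) ^ i := by
          gcongr
          linarith [Real.add_one_le_exp (2 * C * eta J)]
      _ = Real.exp (2 * C * tm J i) := by rw [← Real.exp_nat_mul, tm_eq]; ring_nf
      _ ≤ _ := Real.exp_le_exp.2
          (mul_le_of_le_one_right (show 0 ≤ 2 * C by linarith) (tm_le_one (by omega)))
  have e2 := mul_le_mul_of_nonneg_right e1 (show 0 ≤ ε + 8 * κ by positivity)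
  nlinarith [Real.exp_pos (2 * C)]

omit [IsProbabilityMeasure P] in
/-- Increments of martingales over several steps. -/
lemma Approx.mart_sum {L : ℕ} (h : Approx G N β s L r κ W Y) {j : ℕ} (hj : s ≤ tm L j) {v : V}
    (hv : v ∈ W) {Z : Ω → ℝ} (hZ : Measurable[N.F (tm L j)] Z) (hZ2 : MemLp Z 2 P) (n : ℕ)
    (hn : j + n ≤ 2 ^ L) : ∫ ω, Z ω * (Y (j + n) ω v - Y j ω v) ∂P = 0 := by
  induction n with
  | zero => simp
  | succ n ih =>
    have e1 := h.mart (j + n) (hj.trans (tm_mono L (by omega))) (by omega) v hv Z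
      (N.measurable_mono hZ (tm_mono L (by omega))) hZ2
    have e2 : ∀ ω, Z ω * (Y (j + (n + 1)) ω v - Y j ω v) =
      Z ω * (Y (j + n + 1) ω v - Y (j + n) ω v) + Z ω * (Y (j + n) ω v - Y j ω v) := fun ω => by
        rw [← add_assoc]; ring
    simp only [e2]
    rw [integral_add (int_mul hZ2 (ml_sub (h.memLp _ v) (h.memLp _ v)))
      (int_mul hZ2 (ml_sub (h.memLp _ v) (h.memLp _ v))), e1, ih (by omega), add_zero]

lemma Approx.incr_bound (hG : Reg G q) (hβ : 0 ≤ β) (hρ : ρ < 1) (hs : q * th β s ^ 2 ≤ ρ)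
    {L : ℕ} (h : Approx G N β s L r κ W Y) {j : ℕ} (hj : s ≤ tm L j) {v : V} (hv : v ∈ W) (n : ℕ)
    (hn : j + n ≤ 2 ^ L) : ∫ ω, (Y (j + n) ω v - Y j ω v) ^ 2 ∂P ≤
      (2 * (β * ((q + 1) * (4 / (1 - ρ)))) + 2 * κ) * tm L n := by
  induction n with
  | zero => simp [tm]
  | succ n ih =>
    have hk : s ≤ tm L (j + n) := hj.trans (tm_mono L (by omega))
    have ht := tm_le_one (show j + n ≤ 2 ^ L by omega)
    have hρk := th_rho hβ hs hk ht
    have m0 := ml_sub (h.memLp (j + n) v) (h.memLp j v)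
    have d1 := ml_sub (h.memLp (j + n + 1) v) (h.memLp (j + n) v)
    have i1 := memLp_incr hG hβ hρ ht hρk (h.meas (j + n)) r v
    have e1 := int_sq_add m0 d1
    have e2 := h.mart (j + n) hk (by omega) v hv _ ((h.meas_apply _ v).sub
      (N.measurable_mono (h.meas_apply j v) (tm_mono L (by omega)))) m0
    have e3 := int_sq_add_le i1 (ml_sub d1 i1)
    have e4 := incr_sq_le hG hβ hρ ht hρk (h.meas (j + n)) r v
    have e5 := h.err (j + n) hk (by omega) v hv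
    have e6 := ih (by omega)
    simp only [sub_add_sub_cancel', add_sub_cancel, Pi.sub_apply] at e1 e2 e3
    rw [← add_assoc, tm_succ]
    linarith

omit mΩ [IsProbabilityMeasure P] in
/-- An approximate solution on a fine grid is an approximate solution on coarser grids. -/
theorem subsample (hG : Reg G q) (hβ : 0 ≤ β) (hρ : ρ < 1) : ∃ C : ℝ, 1 ≤ C ∧
    ∀ {Ω : Type} [MeasurableSpace Ω] {P : Measure Ω} [IsProbabilityMeasure P] {N : Noise V P}
      {s : ℝ} {J L r : ℕ} {κ : ℝ} {W : Set V} {Y : ℕ → Ω → V → ℝ},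
      q * th β s ^ 2 ≤ ρ → 0 ≤ κ → κ ≤ 1 → Approx G N β s (J + L) r κ W Y →
      Approx G N β s J r (2 * κ + C * eta J) {v | Deep G W r v} fun k => Y (k * 2 ^ L) := by
  obtain ⟨C, hC, hlip⟩ := incr_lip hG hβ hρ
  have h1 : 0 < 1 - ρ := by linarith
  set c : ℝ := 2 * (β * ((q + 1) * (4 / (1 - ρ)))) + 2 with hc
  have hc0 : 0 ≤ c := by positivity
  refine ⟨2 * C * (1 + c), by nlinarith, ?_⟩
  intro Ω _ P _ N s J L r κ W Y hs hκ hκ1 h
  have hle : ∀ k, k < 2 ^ J → k * 2 ^ L + 2 ^ L ≤ 2 ^ (J + L) := fun k hk => by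
    rw [pow_add, ← add_one_mul]
    exact Nat.mul_le_mul_right _ hk
  refine ⟨fun k => tm_mul J L k ▸ h.meas _, fun k v => h.memLp _ v, ?_, ?_⟩
  · intro k hk hk' v hv Z hZ hZ2
    rw [← tm_mul J L k] at hk hZ
    simpa only [add_one_mul] using h.mart_sum hk hv.self hZ hZ2 _ (hle k hk')
  intro k hk hk' v hv
  have ht0 := tm_le_one hk'.le
  have hρ0 := th_rho hβ hs hk ht0
  set j := k * 2 ^ L with hj
  have hj0 : tm (J + L) j = tm J k := tm_mul J L k
  have hm0 : ∀ i, Measurable[N.F (tm (J + L) (j + i))] (Y j) := fun i =>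
    N.measurable_mono (h.meas j) (tm_mono _ (by omega))
  have hk1 : ∀ i, s ≤ tm (J + L) (j + i) := fun i =>
    hk.trans (hj0 ▸ tm_mono _ (show j ≤ j + i by omega))
  have hi1 : ∀ i < 2 ^ L, j + i < 2 ^ (J + L) := fun i hi => by have := hle k hk'; omega
  let d : ℕ → Ω → ℝ := fun i ω => Y (j + i + 1) ω v - Y (j + i) ω v -
    incr G β r (tm J k) (Y j ω) (N.z (J + L) (j + i) ω) v
  have i0 := fun i => memLp_incr hG hβ hρ ht0 hρ0 (hm0 i) r v
  have hd : ∀ i, MemLp (d i) 2 P := fun i => ml_sub (ml_sub (h.memLp _ v) (h.memLp _ v)) (i0 i)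
  have hdm : ∀ i, Measurable[N.F (tm (J + L) (j + i + 1))] (d i) := fun i =>
    ((h.meas_apply _ v).sub (N.measurable_mono (h.meas_apply _ v) (tm_mono _ (by omega)))).sub (by
      simpa only [incr, mul_assoc] using ((coef_th hβ ht0 hρ0 (hm0 i) v).meas r v).const_mul √β)
  have e0 : ∀ ω, Y ((k + 1) * 2 ^ L) ω v - Y j ω v -
      incr G β r (tm J k) (Y j ω) (N.z J k ω) v = ∑ i ∈ range (2 ^ L), d i ω := by
    intro ω
    simp only [d, sum_sub_distrib (fun i => Y (j + i + 1) ω v - Y (j + i) ω v)]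
    simp only [add_assoc j]
    rw [sum_range_sub (fun i => Y (j + i) ω v), N.z_sum J L k ω, add_one_mul]
    simp only [incr, KI_sum, mul_sum, add_zero, hj]
  simp only [e0]
  rw [int_sq_sum_orth _ (fun i _ => hd i)]
  · have key : ∀ i ∈ range (2 ^ L), ∫ ω, d i ω ^ 2 ∂P ≤
        (2 * κ + 2 * C * (1 + c) * eta J) * eta (J + L) := by
      intro i hi
      rw [mem_range] at hi
      have ht := tm_le_one (hi1 i hi).le
      have hρk := th_rho hβ hs (hk1 i) ht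
      have i1 := memLp_incr hG hβ hρ ht hρk (h.meas (j + i)) r v
      have e1 := int_sq_add_le (ml_sub (ml_sub (h.memLp (j + i + 1) v) (h.memLp (j + i) v)) i1)
        (ml_sub i1 (i0 i))
      have e2 := h.err (j + i) (hk1 i) (hi1 i hi) v hv.self
      have e5 : tm (J + L) i ≤ eta J := by
        refine (tm_mono _ hi.le).trans_eq ?_
        rw [tm_eq, ← eta_add J L]
        simp
      have e3 := hlip (ε := c * eta J) ht ht0 hρk hρ0 (h.meas _) (hm0 i)
        (fun u => ml_sub (h.memLp _ u) (h.memLp _ u)) (fun u hu => by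
          refine (h.incr_bound hG hβ hρ hs (hk1 0) hu i (hi1 i hi).le).trans ?_
          have := tm_nonneg (J + L) i
          rw [hc]
          gcongr
          linarith) hv
      have e4 : (tm (J + L) (j + i) - tm J k) ^ 2 ≤ eta J := by
        have : tm (J + L) (j + i) - tm J k = tm (J + L) i := by
          rw [← hj0, tm_eq, tm_eq, tm_eq]; push_cast; ring
        rw [this]
        nlinarith [tm_nonneg (J + L) i, eta_le_one J, eta_pos J]
      have e6 : C * ((tm (J + L) (j + i) - tm J k) ^ 2 + c * eta J) * eta (J + L) ≤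
          C * (eta J + c * eta J) * eta (J + L) := by gcongr
      simp only [sub_add_sub_cancel] at e1
      simp only [d]
      linarith
    refine (sum_le_card_nsmul _ _ _ key).trans_eq ?_
    rw [card_range, nsmul_eq_mul, ← eta_add J L]
    push_cast
    ring
  · intro i hi
    have hZ : Measurable[N.F (tm (J + L) (j + i))] fun ω => ∑ l ∈ range i, d l ω :=
      Finset.measurable_sum _ fun l hl =>
        N.measurable_mono (hdm l) (tm_mono _ (by simp at hl; omega))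
    have hZ2 : MemLp (fun ω => ∑ l ∈ range i, d l ω) 2 P := memLp_finsetSum _ fun l _ => hd l
    simp only [d, mul_sub _ (Y (j + i + 1) _ v - Y (j + i) _ v)] at hZ hZ2 ⊢
    rw [integral_sub (int_mul hZ2 (ml_sub (h.memLp _ v) (h.memLp _ v))) (int_mul hZ2 (i0 i)),
      h.mart _ (hk1 i) (hi1 i hi) v hv.self _ hZ hZ2, incr_orth hG hβ hρ ht0 hρ0 (hm0 i) r v hZ hZ2,
      sub_self]

end Vale.Agent.P161
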