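import Vale.Agent.P161.Defs

/-!
Working definitions for the factor of IID construction.
-/

open MeasureTheory ProbabilityTheory Filter Topology Finset
open scoped Classical NNReal ENNReal

namespace Vale.Agent.P161

variable {V : Type}

/-- The product of the two spins at the ends of an edge. -/
def edgeSpin (η : V → Bool) : Sym2 V → ℝ :=
  Sym2.lift ⟨fun u v => spin (η u) * spin (η v), fun _ _ => mul_comm _ _⟩

/-- The edges of `G` with both ends in `D`. -/
noncomputable def edgesIn (G : SimpleGraph V) (D : Finset V) : Finset (Sym2 V) :=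
  D.sym2.filter (· ∈ G.edgeSet)

/-- The law of i.i.d. Uniform`[0,1]` labels on `V`. -/
noncomputable def iid (V : Type) : Measure (V → unitInterval) :=
  Measure.infinitePi fun _ : V => (volume : Measure unitInterval)

lemma edgeWeight_eq (θ : ℝ) (η : V → Bool) (e : Sym2 V) :
    edgeWeight θ η e = (1 + θ * edgeSpin η e) / 2 := by
  induction e using Sym2.ind with
  | h u v => simp [edgeWeight, edgeSpin, mul_assoc]

lemma isFreeIsing_iff (G : SimpleGraph V) (θ : ℝ) (μ : Measure (V → Bool)) :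
    IsFreeIsing G θ μ ↔ IsProbabilityMeasure μ ∧
      ∀ D : Finset V, (G.induce (D : Set V)).Connected → ∀ η : V → Bool,
        μ.real {x | ∀ v ∈ D, x v = η v} = 1 / 2 * ∏ e ∈ edgesIn G D, edgeWeight θ η e := Iff.rfl

instance : IsProbabilityMeasure (iid V) := by unfold iid; infer_instance

/-- `G` is the `(q+1)`-regular tree, `q ≥ 2`. -/
structure Reg (G : SimpleGraph V) [G.LocallyFinite] (q : ℕ) : Prop where
  tree : G.IsTree
  deg : ∀ v, G.degree v = q + 1
  two : 2 ≤ q

/-! ### Tree geometry -/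

/-- Vertices on the `y` side of the edge `xy`. -/
def Br (G : SimpleGraph V) (x y : V) : Set V := {u | G.dist y u < G.dist x u}

/-- The edge `xy` together with the edges on the `y` side of it. -/
def EB (G : SimpleGraph V) (x y : V) : Set (Sym2 V) :=
  {e | e ∈ G.edgeSet ∧ ∀ u ∈ e, u ∈ Br G x y ∨ u = x}

/-- The ball of radius `r` around `v` lies in `W`. -/
def Deep (G : SimpleGraph V) (W : Set V) (r : ℕ) (v : V) : Prop := ∀ u, G.dist v u ≤ r → u ∈ W

/-- Action of an automorphism on vertex labellings. -/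
def act {G : SimpleGraph V} (g : G ≃g G) {α : Type} (U : V → α) : V → α := fun v => U (g.symm v)

section

variable (G : SimpleGraph V) [G.LocallyFinite]

/-- Children of the dart `(x,y)`. -/
noncomputable def ch (x y : V) : Finset V := (G.neighborFinset y).erase x

/-- Linear form in the edge noise `ζ` carried by the branch `(x,y)`, cut at depth `r`. -/
noncomputable def K (a b : V → V → ℝ) (ζ : Sym2 V → ℝ) : ℕ → V → V → ℝ
  | 0, _, _ => 0
  | r + 1, x, y => a x y * ζ s(x, y) + b x y * ∑ z ∈ ch G x y, K a b ζ r y z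

/-- The inner product of the coefficient vectors of two such linear forms. -/
noncomputable def M (a b a' b' : V → V → ℝ) : ℕ → V → V → ℝ
  | 0, _, _ => 0
  | r + 1, x, y => a x y * a' x y + b x y * b' x y * ∑ z ∈ ch G x y, M a b a' b' r y z

/-- Sum of the linear forms over all branches at `v`. -/
noncomputable def KI (a b : V → V → ℝ) (ζ : Sym2 V → ℝ) (r : ℕ) (v : V) : ℝ :=
  ∑ y ∈ G.neighborFinset v, K G a b ζ r v y

/-- Sum of the inner products over all branches at `v`. -/
noncomputable def MI (a b a' b' : V → V → ℝ) (r : ℕ) (v : V) : ℝ :=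
  ∑ y ∈ G.neighborFinset v, M G a b a' b' r v y

end

/-! ### The coefficients -/

/-- Clamp to `[-1,1]`. -/
noncomputable def clip (p : ℝ) : ℝ := max (-1) (min p 1)

/-- Cavity magnetisation of the second vertex of an edge, from the two magnetisations. -/
noncomputable def cav (θ p q : ℝ) : ℝ :=
  2 * ((q - θ * p) / (1 - θ ^ 2)) /
    (1 + √(1 - 4 * θ * ((p - θ * q) / (1 - θ ^ 2)) * ((q - θ * p) / (1 - θ ^ 2))))

/-- Regression coefficient along an edge. -/
noncomputable def bco (θ p q : ℝ) : ℝ := θ * (1 - cav θ p q ^ 2) / (1 - θ ^ 2 * cav θ p q ^ 2)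

noncomputable def bf (θ : ℝ) (m : V → ℝ) (x y : V) : ℝ := bco θ (clip (m x)) (clip (m y))

noncomputable def af (θ : ℝ) (m : V → ℝ) (x y : V) : ℝ := 1 + bf θ m x y

noncomputable def vf (m : V → ℝ) (v : V) : ℝ := 1 - clip (m v) ^ 2

/-- The coupling at time `t`. -/
noncomputable def th (β t : ℝ) : ℝ := Real.tanh (β * (1 - t))

/-- One step of the equation for the magnetisations. -/
noncomputable def incr (G : SimpleGraph V) [G.LocallyFinite] (β : ℝ) (r : ℕ) (t : ℝ) (m : V → ℝ)
    (ζ : Sym2 V → ℝ) (v : V) : ℝ :=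
  √β * vf m v * KI G (af (th β t) m) (bf (th β t) m) ζ r v

/-- Infinite depth inner product. -/
noncomputable def MM (G : SimpleGraph V) [G.LocallyFinite] (θ : ℝ) (m m' : V → ℝ) (x y : V) : ℝ :=
  ⨆ r, M G (af θ m) (bf θ m) (af θ m') (bf θ m') r x y

/-- Infinite depth squared norm. -/
noncomputable def NN (G : SimpleGraph V) [G.LocallyFinite] (θ : ℝ) (m : V → ℝ) (x y : V) : ℝ :=
  MM G θ m m x y

/-! ### Gaussian noise -/

/-- Independent centred Gaussians of variance `η`. -/
noncomputable def gam (V : Type) (η : ℝ≥0) : Measure (Sym2 V → ℝ) :=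
  Measure.infinitePi fun _ : Sym2 V => gaussianReal 0 η

instance (η : ℝ≥0) : IsProbabilityMeasure (gam V η) := by unfold gam; infer_instance

/-- Mesh of level `J`. -/
noncomputable def eta (J : ℕ) : ℝ≥0 := (2 ^ J)⁻¹

/-- The `k`-th point of the grid of level `J`. -/
noncomputable def tm (J k : ℕ) : ℝ := k / 2 ^ J

/-- Dyadic times. -/
def Dy (t : ℝ) : Prop := ∃ J k, t = tm J k

/-- Brownian increments along dyadic grids, indexed by unordered pairs of vertices. -/
structure Noise (V : Type) {Ω : Type} [mΩ : MeasurableSpace Ω] (P : Measure Ω) where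
  F : ℝ → MeasurableSpace Ω
  mono : Monotone F
  le : ∀ t, F t ≤ mΩ
  z : ℕ → ℕ → Ω → Sym2 V → ℝ
  meas : ∀ J k, Measurable[F (tm J (k + 1))] (z J k)
  add : ∀ J k ω, z J k ω = z (J + 1) (2 * k) ω + z (J + 1) (2 * k + 1) ω
  law : ∀ J k, P.map (z J k) = gam V (eta J)
  indep : ∀ J k, Indep (F (tm J k)) (MeasurableSpace.comap (z J k) inferInstance) P

section

variable {Ω : Type} [mΩ : MeasurableSpace Ω] {P : Measure Ω}

/-- Approximate solutions on the grid of level `J`, after time `s`, at the vertices of `W`. -/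
structure Approx (G : SimpleGraph V) [G.LocallyFinite] (N : Noise V P) (β s : ℝ) (J r : ℕ)
    (κ : ℝ) (W : Set V) (X : ℕ → Ω → V → ℝ) : Prop where
  meas : ∀ k, Measurable[N.F (tm J k)] (X k)
  memLp : ∀ k v, MemLp (fun ω => X k ω v) 2 P
  mart : ∀ k, s ≤ tm J k → k < 2 ^ J → ∀ v ∈ W, ∀ Z : Ω → ℝ, Measurable[N.F (tm J k)] Z →
    MemLp Z 2 P → ∫ ω, Z ω * (X (k + 1) ω v - X k ω v) ∂P = 0
  err : ∀ k, s ≤ tm J k → k < 2 ^ J → ∀ v ∈ W,
    ∫ ω, (X (k + 1) ω v - X k ω v - incr G β r (tm J k) (X k ω) (N.z J k ω) v) ^ 2 ∂P ≤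
      κ * eta J

/-- Solutions started from zero at time `s`. -/
structure Sol (G : SimpleGraph V) [G.LocallyFinite] (N : Noise V P) (β s : ℝ)
    (m : ℝ → Ω → V → ℝ) : Prop where
  meas : ∀ t, 0 ≤ t → Measurable[N.F t] (m t)
  zero : ∀ t, t ≤ s → ∀ ω v, m t ω v = 0
  approx : ∀ κ > 0, ∃ J₀ r₀, ∀ J ≥ J₀, ∀ r ≥ r₀,
    Approx G N β s J r κ Set.univ fun k => m (tm J k)

end

/-! ### Finite volume Ising models -/

/-- Extension of a configuration on `D`. -/
noncomputable def ext (D : Finset V) (σ : D → Bool) : V → Bool :=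
  fun v => if h : v ∈ D then σ ⟨v, h⟩ else false

/-- The sum of the two spins at the ends of an edge. -/
def esum (η : V → Bool) : Sym2 V → ℝ :=
  Sym2.lift ⟨fun u v => spin (η u) + spin (η v), fun _ _ => add_comm _ _⟩

section

variable (G : SimpleGraph V)

/-- Gibbs weight with coupling `B` and edge fields `h`. -/
noncomputable def wt (D : Finset V) (B : ℝ) (h : Sym2 V → ℝ) (η : V → Bool) : ℝ :=
  Real.exp (∑ e ∈ edgesIn G D, (B * edgeSpin η e + h e * esum η e))

/-- Gibbs expectation. -/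
noncomputable def ex (D : Finset V) (B : ℝ) (h : Sym2 V → ℝ) (φ : (V → Bool) → ℝ) : ℝ :=
  (∑ σ : D → Bool, wt G D B h (ext D σ) * φ (ext D σ)) / ∑ σ : D → Bool, wt G D B h (ext D σ)

/-- Magnetisations. -/
noncomputable def pm (D : Finset V) (B : ℝ) (h : Sym2 V → ℝ) (v : V) : ℝ :=
  ex G D B h fun η => spin (η v)

/-- Restriction to the edges inside `D`. -/
noncomputable def mk (D : Finset V) (z : Sym2 V → ℝ) : Sym2 V → ℝ :=
  fun e => if e ∈ edgesIn G D then z e else 0

/-- The new field after observing `η` through Gaussian noise `z` for a time `τ`. -/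
noncomputable def obs (D : Finset V) (β τ : ℝ) (h z : Sym2 V → ℝ) (η : V → Bool) : Sym2 V → ℝ :=
  h + mk G D fun e => √β * z e + β * τ * esum η e

/-- Expectation of `Ψ η h'` where `η` is drawn from the Gibbs law and `h'` is the new field. -/
noncomputable def Stp (D : Finset V) (β B : ℝ) (h : Sym2 V → ℝ) (τ : ℝ≥0)
    (Ψ : (V → Bool) → (Sym2 V → ℝ) → ℝ) : ℝ :=
  ex G D B h fun η => ∫ z, Ψ η (obs G D β τ h z η) ∂gam V τ

/-- Restriction of a coefficient to the darts inside `D`. -/
noncomputable def rD (D : Finset V) (b : V → V → ℝ) : V → V → ℝ :=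
  fun x y => if x ∈ D ∧ y ∈ D then b x y else 0

end

/-- The one dimensional laws of a solution are limits of planted finite volume laws. -/
def LawLim (G : SimpleGraph V) {Ω : Type} [MeasurableSpace Ω] (P : Measure Ω) (β s t : ℝ)
    (m : Ω → V → ℝ) : Prop :=
  ∃ D : ℕ → Finset V, (∀ n, (G.induce (D n : Set V)).Connected) ∧
    (∀ v R, ∀ᶠ n in atTop, Deep G (D n) R v) ∧
    ∀ Ψ : (V → ℝ) → ℝ, Continuous Ψ → (∃ C, ∀ m, |Ψ m| ≤ C) →
      Tendsto (fun n => Stp G (D n) β (β * (1 - s)) 0 (t - s).toNNReal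
        fun _ h => Ψ (pm G (D n) (β * (1 - t)) h)) atTop (𝓝 (∫ ω, Ψ (m ω) ∂P))

/-! ### Equivariant families on the i.i.d. space -/

section

variable (G : SimpleGraph V) [G.LocallyFinite]

/-- A bounded equivariant family of random variables indexed by darts. -/
structure Fam (Y : V → V → (V → unitInterval) → ℝ) : Prop where
  meas : ∀ x y, Measurable (Y x y)
  bdd : ∃ C, ∀ x y, G.Adj x y → ∀ U, |Y x y U| ≤ C
  equi : ∀ (g : G ≃g G) x y, G.Adj x y → ∀ᵐ U ∂iid V, Y (g x) (g y) (act g U) = Y x y U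

/-- Sum over the children. -/
noncomputable def Bop {Ω : Type} (Y : V → V → Ω → ℝ) : V → V → Ω → ℝ :=
  fun x y ω => ∑ z ∈ ch G x y, Y y z ω

/-- An equivariant vertex field on the i.i.d. space. -/
def Equi (m : (V → unitInterval) → V → ℝ) : Prop :=
  ∀ (g : G ≃g G) U, m (act g U) = act g (m U)

/-- The noise is an equivariant function of the labels. -/
def NoiseEqui (N : Noise V (iid V)) : Prop :=
  ∀ (g : G ≃g G) J k U e, N.z J k (act g U) (e.map g) = N.z J k U e

end

end Vale.Agent.P161
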