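import Vale.Agent.P161.Basic

/-!
Shifts, convolutions and independence for the Gaussian product measure.
-/

open MeasureTheory ProbabilityTheory Filter Topology Finset
open scoped Classical NNReal ENNReal

namespace Vale.Agent.P161

variable {V : Type}

namespace CM

section general

variable {ι : Type}

theorem prod_infinitePi (μ ν : ι → Measure ℝ) [∀ i, IsProbabilityMeasure (μ i)]
    [∀ i, IsProbabilityMeasure (ν i)] :
    ((Measure.infinitePi μ).prod (Measure.infinitePi ν)).map (fun p i => (p.1 i, p.2 i))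
      = Measure.infinitePi fun i => (μ i).prod (ν i) := by
  refine Measure.eq_infinitePi _ fun s t ht => ?_
  have hm : Measurable fun (p : (ι → ℝ) × (ι → ℝ)) (i : ι) => (p.1 i, p.2 i) := by fun_prop
  have hT : MeasurableSet (Set.univ.pi fun i : s => t i) := MeasurableSet.univ_pi fun i => ht i
  have hE := (measurePreserving_arrowProdEquivProdArrow ℝ ℝ s (fun i => μ i) (fun i => ν i)).symm
  have hR : MeasurePreserving
      (Prod.map (s.restrict : (ι → ℝ) → (s → ℝ)) (s.restrict : (ι → ℝ) → (s → ℝ)))
      ((Measure.infinitePi μ).prod (Measure.infinitePi ν))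
      ((Measure.pi fun i : s => μ i).prod (Measure.pi fun i : s => ν i)) :=
    MeasurePreserving.prod ⟨s.measurable_restrict, Measure.infinitePi_map_restrict μ⟩
      ⟨s.measurable_restrict, Measure.infinitePi_map_restrict ν⟩
  have h := (hE.comp hR).measure_preimage hT.nullMeasurableSet
  rw [Measure.pi_pi, Finset.prod_coe_sort s fun i => ((μ i).prod (ν i)) (t i)] at h
  rw [Measure.map_apply hm (MeasurableSet.pi s.countable_toSet fun i _ => ht i), ← h]
  congr 1
  ext p
  simp [MeasurableEquiv.arrowProdEquivProdArrow, Equiv.arrowProdEquivProdArrow]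

theorem prod_map (μ ν : ι → Measure ℝ) [∀ i, IsProbabilityMeasure (μ i)]
    [∀ i, IsProbabilityMeasure (ν i)] (g : ι → ℝ × ℝ → ℝ) (hg : ∀ i, Measurable (g i)) :
    ((Measure.infinitePi μ).prod (Measure.infinitePi ν)).map (fun p i => g i (p.1 i, p.2 i))
      = Measure.infinitePi fun i => ((μ i).prod (ν i)).map (g i) := by
  have hm : Measurable fun (p : (ι → ℝ) × (ι → ℝ)) (i : ι) => (p.1 i, p.2 i) := by fun_prop
  have hm' : Measurable fun (x : ι → ℝ × ℝ) (i : ι) => g i (x i) :=
    measurable_pi_lambda _ fun i => (hg i).comp (measurable_pi_apply i)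
  rw [← Measure.infinitePi_map_pi _ hg, ← prod_infinitePi, Measure.map_map hm' hm]
  rfl

/-- Mixing two independent copies along a set of coordinates. -/
theorem mp_mix (μ : ι → Measure ℝ) [∀ i, IsProbabilityMeasure (μ i)] (A : Set ι) :
    MeasurePreserving (fun (p : (ι → ℝ) × (ι → ℝ)) i => if i ∈ A then p.1 i else p.2 i)
      ((Measure.infinitePi μ).prod (Measure.infinitePi μ)) (Measure.infinitePi μ) := by
  have hg : ∀ i, Measurable fun q : ℝ × ℝ => if i ∈ A then q.1 else q.2 := fun i => by
    split_ifs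
    · exact measurable_fst
    · exact measurable_snd
  refine ⟨measurable_pi_lambda _ fun i => ?_, ?_⟩
  · split_ifs
    · fun_prop
    · fun_prop
  refine (prod_map μ μ _ hg).trans ?_
  have : ∀ i, ((μ i).prod (μ i)).map (fun q : ℝ × ℝ => if i ∈ A then q.1 else q.2) = μ i := by
    intro i
    split_ifs
    · simp
    · simp
  simp only [this]

theorem integral_mul_two (μ : ι → Measure ℝ) [∀ i, IsProbabilityMeasure (μ i)] (A : Set ι)
    {f g : (ι → ℝ) → ℝ} (hf : Measurable f) (hg : Measurable g) (df : DependsOn f A)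
    (dg : DependsOn g Aᶜ) :
    ∫ z, f z * g z ∂Measure.infinitePi μ
      = (∫ z, f z ∂Measure.infinitePi μ) * ∫ z, g z ∂Measure.infinitePi μ := by
  have h := mp_mix μ A
  rw [← integral_prod_mul]
  conv_lhs => rw [← h.map_eq]
  rw [integral_map (f := fun z => f z * g z) h.measurable.aemeasurable
    (hf.mul hg).aestronglyMeasurable]
  refine integral_congr_ae (ae_of_all _ fun p => ?_)
  beta_reduce
  rw [df (y := p.1) fun i hi => if_pos hi, dg (y := p.2) fun i hi => if_neg hi]

theorem mp_update [DecidableEq ι] (μ : ι → Measure ℝ) [∀ i, IsProbabilityMeasure (μ i)] (e : ι) :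
    MeasurePreserving (fun p : ℝ × (ι → ℝ) => Function.update p.2 e p.1)
      ((μ e).prod (Measure.infinitePi μ)) (Measure.infinitePi μ) := by
  have hm : Measurable fun p : ℝ × (ι → ℝ) => Function.update p.2 e p.1 :=
    measurable_update'.comp measurable_swap
  have h1 : MeasurePreserving (Prod.map (Function.eval e) id)
      ((Measure.infinitePi μ).prod (Measure.infinitePi μ)) ((μ e).prod (Measure.infinitePi μ)) :=
    (measurePreserving_eval_infinitePi μ e).prod (MeasurePreserving.id _)
  refine ⟨hm, ?_⟩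
  rw [← h1.map_eq, Measure.map_map hm h1.measurable]
  refine Eq.trans ?_ (mp_mix μ {e}).map_eq
  congr 1
  funext p i
  by_cases hi : i = e
  · subst hi
    simp
  · simp [hi]

end general

theorem shift_one (η : ℝ≥0) (u : ℝ) :
    gaussianReal (η * u) η = (gaussianReal 0 η).withDensity
      fun x => ENNReal.ofReal (Real.exp (u * x - η * u ^ 2 / 2)) := by
  have hρ : Measurable fun x : ℝ => ENNReal.ofReal (Real.exp (u * x - η * u ^ 2 / 2)) := by
    fun_prop
  by_cases hη : η = 0
  · subst hη
    rw [gaussianReal_zero_var, gaussianReal_zero_var, withDensity_congr_ae (ae_eq_dirac' hρ)]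
    simp
  · rw [gaussianReal_of_var_ne_zero _ hη, gaussianReal_of_var_ne_zero _ hη,
      ← withDensity_mul _ (measurable_gaussianPDF _ _) hρ]
    congr 1
    funext x
    have h0 : (η : ℝ) ≠ 0 := NNReal.coe_ne_zero.2 hη
    rw [Pi.mul_apply, gaussianPDF, gaussianPDF, ← ENNReal.ofReal_mul (gaussianPDFReal_nonneg _ _ _),
      gaussianPDFReal, gaussianPDFReal, mul_assoc _ (Real.exp _), ← Real.exp_add]
    congr 3
    field_simp
    ring

theorem shift_measure (η : ℝ≥0) (S : Finset (Sym2 V)) (u : Sym2 V → ℝ) (hu : ∀ e ∉ S, u e = 0) :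
    (gam V η).map (fun z => z + (η : ℝ) • u) = (gam V η).withDensity
      fun z => ENNReal.ofReal (Real.exp (∑ e ∈ S, (u e * z e - η * u e ^ 2 / 2))) := by
  have h1 : (gam V η).map (fun z => z + (η : ℝ) • u)
      = Measure.infinitePi fun e => gaussianReal (η * u e) η := by
    have := Measure.infinitePi_map_pi (fun _ : Sym2 V => gaussianReal 0 η)
      (f := fun e x => x + η * u e) fun e => measurable_id.add_const _
    simp only [gaussianReal_map_add_const, zero_add] at this
    exact this
  rw [h1]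
  refine (Measure.eq_infinitePi _ fun s t ht => ?_).symm
  let ρ : Sym2 V → ℝ → ℝ≥0∞ := fun e x => ENNReal.ofReal (Real.exp (u e * x - η * u e ^ 2 / 2))
  have hρ : ∀ e, Measurable (ρ e) := fun e => by fun_prop
  let T : Sym2 V → Set ℝ := fun e => if e ∈ s then t e else Set.univ
  have hT : ∀ e, MeasurableSet (T e) := fun e => by
    simp only [T]
    split_ifs
    · exact ht e
    · exact MeasurableSet.univ
  have hm : ∀ e, Measurable ((T e).indicator (ρ e)) := fun e => (hρ e).indicator (hT e)
  have hs : MeasurableSet ((s : Set (Sym2 V)).pi t) :=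
    MeasurableSet.pi s.countable_toSet fun i _ => ht i
  have hi : iIndepFun (fun e (z : Sym2 V → ℝ) => (T e).indicator (ρ e) (z e)) (gam V η) :=
    iIndepFun_infinitePi hm
  have key := lintegral_prod_eq_prod_lintegral_of_indepFun (s ∪ S) _ hi
    fun e => (hm e).comp (measurable_pi_apply e)
  have h2 : ∀ e, ∫⁻ z, (T e).indicator (ρ e) (z e) ∂gam V η = gaussianReal (η * u e) η (T e) := by
    intro e
    rw [shift_one, withDensity_apply _ (hT e), ← lintegral_indicator (hT e)]
    exact (measurePreserving_eval_infinitePi (fun _ : Sym2 V => gaussianReal 0 η) e).lintegral_comp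
      (hm e)
  rw [withDensity_apply _ hs, ← lintegral_indicator hs]
  have h3 : ∏ e ∈ s ∪ S, gaussianReal (η * u e) η (T e) = ∏ e ∈ s, gaussianReal (η * u e) η (t e) := by
    rw [← Finset.prod_subset (Finset.subset_union_left (s₁ := s) (s₂ := S))]
    · exact Finset.prod_congr rfl fun e he => by simp only [T, if_pos he]
    · intro e _ he
      simp only [T, if_neg he, measure_univ]
  rw [← h3, ← Finset.prod_congr rfl fun e _ => h2 e, ← key]
  refine lintegral_congr fun z => ?_
  by_cases hz : z ∈ (s : Set (Sym2 V)).pi t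
  · rw [Set.indicator_of_mem hz, Real.exp_sum,
      ENNReal.ofReal_prod_of_nonneg fun e _ => (Real.exp_pos _).le]
    have h4 : ∀ e, (T e).indicator (ρ e) (z e) = ρ e (z e) := by
      intro e
      refine Set.indicator_of_mem ?_ _
      simp only [T]
      split_ifs with he
      · exact hz e he
      · exact Set.mem_univ _
    simp only [h4]
    refine Finset.prod_subset Finset.subset_union_right fun e _ he => ?_
    simp [hu e he]
  · rw [Set.indicator_of_notMem hz]
    simp only [Set.mem_pi, Finset.mem_coe, not_forall] at hz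
    obtain ⟨e, he, hz⟩ := hz
    refine (Finset.prod_eq_zero (Finset.mem_union_left _ he) ?_).symm
    refine Set.indicator_of_notMem ?_ _
    simp only [T, if_pos he]
    exact hz

theorem pow_four_le (x : ℝ) : x ^ 4 ≤ 12 * (Real.exp (1 * x) + Real.exp (-1 * x)) := by
  have key : ∀ y : ℝ, 0 ≤ y → y ^ 4 ≤ 12 * Real.exp y := by
    intro y hy
    have h := Real.sum_le_exp_of_nonneg hy 6
    simp only [Finset.sum_range_succ, Finset.sum_range_zero, Nat.factorial] at h
    norm_num at h
    have h1 := mul_nonneg (pow_nonneg hy 3) (sq_nonneg (y - 5 / 2))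
    have h2 := pow_nonneg hy 3
    have h3 := pow_nonneg hy 2
    nlinarith only [h, h1, h2, h3, hy]
  rw [one_mul, neg_one_mul]
  rcases le_total 0 x with hx | hx
  · have := key x hx
    have := Real.exp_pos (-x)
    linarith
  · have h := key (-x) (neg_nonneg.2 hx)
    have := Real.exp_pos x
    rw [Even.neg_pow (by decide)] at h
    linarith

theorem integrable_four (η : ℝ≥0) : Integrable (fun x : ℝ => x ^ 4) (gaussianReal 0 η) := by
  refine Integrable.mono' (((integrable_exp_mul_gaussianReal (μ := 0) (v := η) 1).add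
    (integrable_exp_mul_gaussianReal (-1))).const_mul 12) (by fun_prop) (ae_of_all _ fun x => ?_)
  rw [Real.norm_eq_abs, abs_of_nonneg (by positivity)]
  exact pow_four_le x

theorem four_std : ∫ x, x ^ 4 ∂gaussianReal 0 1 ≤ 48 := by
  have i1 := integrable_exp_mul_gaussianReal (μ := 0) (v := 1) 1
  have i2 := integrable_exp_mul_gaussianReal (μ := 0) (v := 1) (-1)
  have h := integral_mono (integrable_four 1) ((i1.add i2).const_mul 12) pow_four_le
  have m : ∀ t : ℝ, ∫ x, Real.exp (t * x) ∂gaussianReal 0 1 = Real.exp (t ^ 2 / 2) := by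
    intro t
    have := congrFun (mgf_fun_id_gaussianReal (μ := 0) (v := 1)) t
    simpa [mgf] using this
  have e : ∫ x, 12 * (Real.exp (1 * x) + Real.exp (-1 * x)) ∂gaussianReal 0 1
      = 24 * Real.exp (1 / 2) := by
    rw [integral_const_mul, integral_add i1 i2, m, m]
    norm_num
    ring
  have h2 : Real.exp (1 / 2) ≤ 2 := by
    have h3 : Real.exp (1 / 2) * Real.exp (1 / 2) = Real.exp 1 := by
      rw [← Real.exp_add]
      norm_num
    have h4 := Real.exp_one_lt_d9
    have h5 := Real.exp_pos (1 / 2)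
    nlinarith only [h3, h4, h5]
  refine h.trans ?_
  refine le_trans (le_of_eq e) ?_
  linarith

theorem four_le (η : ℝ≥0) : ∫ x, x ^ 4 ∂gaussianReal 0 η ≤ 48 * (η : ℝ) ^ 2 := by
  have h : gaussianReal 0 η = (gaussianReal 0 1).map (√(η : ℝ) * ·) := by
    rw [gaussianReal_map_const_mul, mul_zero, mul_one]
    congr 1
    ext
    simp
  rw [h, integral_map (by fun_prop) (by fun_prop)]
  have e : ∀ x : ℝ, (√(η : ℝ) * x) ^ 4 = (η : ℝ) ^ 2 * x ^ 4 := fun x => by
    have := Real.sq_sqrt η.coe_nonneg
    calc _ = (√(η : ℝ) ^ 2) ^ 2 * x ^ 4 := by ring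
      _ = _ := by rw [this]
  simp only [e]
  rw [integral_const_mul, mul_comm]
  exact mul_le_mul_of_nonneg_right four_std (sq_nonneg _)

end CM

open CM

theorem integrable_exp_lin (η : ℝ≥0) (S : Finset (Sym2 V)) (u : Sym2 V → ℝ) :
    Integrable (fun z : Sym2 V → ℝ => Real.exp (∑ e ∈ S, u e * z e)) (gam V η) := by
  have hi : iIndepFun (fun e (z : Sym2 V → ℝ) => u e * z e) (gam V η) :=
    iIndepFun_infinitePi (X := fun e x => u e * x) fun e => measurable_id.const_mul _
  have h := hi.integrable_exp_mul_sum (t := 1) (fun e => by fun_prop) (s := S) fun e _ => by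
    simp only [one_mul]
    exact (measurePreserving_eval_infinitePi (fun _ : Sym2 V => gaussianReal 0 η) e).integrable_comp_of_integrable
      (integrable_exp_mul_gaussianReal (u e))
  simpa only [one_mul, Finset.sum_apply] using h

/-- Cameron-Martin formula. -/
theorem gam_shift (η : ℝ≥0) (S : Finset (Sym2 V)) (u : Sym2 V → ℝ) (hu : ∀ e ∉ S, u e = 0)
    {F : (Sym2 V → ℝ) → ℝ} (hF : Measurable F) (hb : ∃ C, ∀ z, |F z| ≤ C) :
    ∫ z, F (z + (η : ℝ) • u) ∂gam V η =
      ∫ z, F z * Real.exp (∑ e ∈ S, (u e * z e - η * u e ^ 2 / 2)) ∂gam V η := by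
  have _ := hb
  have hm : Measurable fun z : Sym2 V → ℝ => z + (η : ℝ) • u := measurable_id.add_const _
  have hρ : Measurable fun z : Sym2 V → ℝ =>
      ENNReal.ofReal (Real.exp (∑ e ∈ S, (u e * z e - η * u e ^ 2 / 2))) := by fun_prop
  rw [← integral_map hm.aemeasurable hF.aestronglyMeasurable, shift_measure η S u hu,
    integral_withDensity_eq_integral_toReal_smul hρ (ae_of_all _ fun _ => ENNReal.ofReal_lt_top)]
  refine integral_congr_ae (ae_of_all _ fun z => ?_)
  beta_reduce
  rw [ENNReal.toReal_ofReal (Real.exp_pos _).le, smul_eq_mul, mul_comm]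

theorem gam_conv (a b : ℝ≥0) :
    ((gam V a).prod (gam V b)).map (fun p => p.1 + p.2) = gam V (a + b) := by
  have h := prod_map (fun _ : Sym2 V => gaussianReal 0 a) (fun _ : Sym2 V => gaussianReal 0 b)
    (fun _ q => q.1 + q.2) fun _ => measurable_add
  have e : ((gaussianReal 0 a).prod (gaussianReal 0 b)).map (fun q : ℝ × ℝ => q.1 + q.2)
      = gaussianReal 0 (a + b) := by
    have := gaussianReal_conv_gaussianReal (m₁ := 0) (m₂ := 0) (v₁ := a) (v₂ := b)
    rw [add_zero] at this
    exact this
  simp only [e] at h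
  exact h

theorem gam_neg (η : ℝ≥0) : (gam V η).map (fun z => -z) = gam V η := by
  have := Measure.infinitePi_map_pi (fun _ : Sym2 V => gaussianReal 0 η)
    (f := fun _ x => -x) fun _ => measurable_neg
  simp only [gaussianReal_map_neg, neg_zero] at this
  exact this

theorem gam_zero : gam V 0 = Measure.dirac 0 := by
  unfold gam
  simp only [gaussianReal_zero_var]
  exact Measure.infinitePi_dirac (fun _ : Sym2 V => (0 : ℝ))

theorem exists_unif {η : ℝ≥0} (hη : η ≠ 0) :
    ∃ u : ℝ → unitInterval, Measurable u ∧ (gaussianReal 0 η).map u = volume := by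
  set μ := gaussianReal 0 η with hμ
  have hat := nullSingletonClass_gaussianReal (μ := 0) hη
  have hmono := monotone_cdf μ
  have hcont : Continuous (cdf μ) := by
    refine continuous_iff_continuousAt.2 fun x => ?_
    rw [hmono.continuousAt_iff_leftLim_eq_rightLim, StieltjesFunction.rightLim_eq]
    have h1 := (cdf μ).measure_singleton x
    rw [measure_cdf, measure_singleton] at h1
    have h2 := ENNReal.ofReal_eq_zero.1 h1.symm
    have h3 := hmono.leftLim_le (le_refl x)
    linarith
  have hstrict : StrictMono (cdf μ) := by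
    intro x y hxy
    have h1 := (cdf μ).measure_Ioc x y
    rw [measure_cdf] at h1
    by_contra hc
    have h2 : μ (Set.Ioc x y) = 0 := by
      rw [h1]
      exact ENNReal.ofReal_eq_zero.2 (by linarith [not_lt.1 hc])
    have h3 := gaussianReal_absolutelyContinuous' 0 hη h2
    rw [Real.volume_Ioc, ENNReal.ofReal_eq_zero] at h3
    linarith
  let u : ℝ → unitInterval := fun x => ⟨cdf μ x, cdf_nonneg μ x, cdf_le_one μ x⟩
  have hu : Measurable u := hcont.measurable.subtype_mk
  have : IsProbabilityMeasure (μ.map u) := Measure.isProbabilityMeasure_map hu.aemeasurable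
  refine ⟨u, hu, Measure.ext_of_Iic _ _ fun t => ?_⟩
  rw [Measure.map_apply hu measurableSet_Iic, unitInterval.volume_Iic]
  rcases eq_or_lt_of_le t.2.1 with h0 | h0
  · have : u ⁻¹' Set.Iic t = ∅ := by
      refine Set.eq_empty_of_forall_notMem fun x hx => ?_
      have h1 : cdf μ x ≤ t := hx
      have h2 := hstrict (sub_one_lt x)
      have h3 := cdf_nonneg μ (x - 1)
      linarith
    rw [this, ← h0]
    simp
  rcases eq_or_lt_of_le t.2.2 with h1 | h1
  · have : u ⁻¹' Set.Iic t = Set.univ := by
      refine Set.eq_univ_of_forall fun x => ?_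
      change cdf μ x ≤ t
      rw [h1]
      exact cdf_le_one μ x
    rw [this, h1]
    simp
  obtain ⟨a, -, ha⟩ := isPreconnected_univ.intermediate_value_Ioo (l₁ := atBot) (l₂ := atTop)
    (by simp) (by simp) hcont.continuousOn (tendsto_cdf_atBot μ) (tendsto_cdf_atTop μ) ⟨h0, h1⟩
  have : u ⁻¹' Set.Iic t = Set.Iic a := by
    ext x
    change cdf μ x ≤ t ↔ x ≤ a
    rw [← ha, hstrict.le_iff_le]
  rw [this, ← ofReal_cdf, ha]

/-- Functions of disjoint sets of coordinates are independent. -/
theorem gam_prod (η : ℝ≥0) {ι : Type} (s : Finset ι) (A : ι → Set (Sym2 V))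
    (hA : ∀ i ∈ s, ∀ j ∈ s, i ≠ j → Disjoint (A i) (A j)) (f : ι → (Sym2 V → ℝ) → ℝ)
    (hf : ∀ i ∈ s, Measurable (f i)) (hb : ∀ i ∈ s, ∃ C, ∀ z, |f i z| ≤ C)
    (hd : ∀ i ∈ s, DependsOn (f i) (A i)) :
    ∫ z, ∏ i ∈ s, f i z ∂gam V η = ∏ i ∈ s, ∫ z, f i z ∂gam V η := by
  have hb' := hb
  clear hb' hb
  induction s using Finset.induction_on with
  | empty => simp
  | insert a s ha ih =>
    have m : ∀ {i}, i ∈ s → i ∈ insert a s := fun h => Finset.mem_insert_of_mem h
    simp only [Finset.prod_insert ha]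
    rw [← ih (fun i hi j hj => hA i (m hi) j (m hj)) (fun i hi => hf i (m hi))
      fun i hi => hd i (m hi)]
    refine integral_mul_two _ (A a) (hf a (Finset.mem_insert_self _ _))
      (Finset.measurable_fun_prod s fun i hi => hf i (m hi)) (hd a (Finset.mem_insert_self _ _)) ?_
    intro x y hxy
    refine Finset.prod_congr rfl fun i hi => hd i (m hi) fun e he => hxy e ?_
    exact Set.disjoint_left.1 (hA i (m hi) a (Finset.mem_insert_self _ _)
      fun h => ha (h ▸ hi)) he

/-- One coordinate can be integrated separately. -/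
theorem gam_split (η : ℝ≥0) (e : Sym2 V) {F : ℝ → (Sym2 V → ℝ) → ℝ}
    (hF : Measurable (Function.uncurry F)) (hd : ∀ x, DependsOn (F x) {e}ᶜ)
    (hi : Integrable (Function.uncurry F) ((gaussianReal 0 η).prod (gam V η))) :
    Integrable (fun z => F (z e) z) (gam V η) ∧
      ∫ z, F (z e) z ∂gam V η = ∫ x, ∫ z, F x z ∂gam V η ∂gaussianReal 0 η := by
  have h : MeasurePreserving (fun p : ℝ × (Sym2 V → ℝ) => Function.update p.2 e p.1)
      ((gaussianReal 0 η).prod (gam V η)) (gam V η) :=
    mp_update (fun _ : Sym2 V => gaussianReal 0 η) e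
  have hG : Measurable fun z : Sym2 V → ℝ => F (z e) z :=
    hF.comp (f := fun z : Sym2 V → ℝ => (z e, z)) ((measurable_pi_apply e).prodMk measurable_id)
  have hc : (fun z : Sym2 V → ℝ => F (z e) z) ∘ (fun p : ℝ × (Sym2 V → ℝ) =>
      Function.update p.2 e p.1) = Function.uncurry F := by
    funext p
    simp only [Function.comp_apply, Function.update_self, Function.uncurry]
    exact hd p.1 fun i hi => Function.update_of_ne hi _ _
  refine ⟨(h.integrable_comp hG.aestronglyMeasurable).1 (hc ▸ hi), ?_⟩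
  rw [integral_integral hi]
  conv_lhs => rw [← h.map_eq]
  rw [integral_map h.measurable.aemeasurable hG.aestronglyMeasurable]
  exact integral_congr_ae (ae_of_all _ fun p => congrFun hc p)

theorem gam_moment (η : ℝ≥0) (S : Finset (Sym2 V)) :
    Integrable (fun z : Sym2 V → ℝ => (∑ e ∈ S, |z e|) ^ 4) (gam V η) ∧
      ∫ z, (∑ e ∈ S, |z e|) ^ 4 ∂gam V η ≤ 48 * (S.card : ℝ) ^ 4 * η ^ 2 := by
  have mp := fun e => measurePreserving_eval_infinitePi (fun _ : Sym2 V => gaussianReal 0 η) e
  have i1 : ∀ e, Integrable (fun z : Sym2 V → ℝ => z e ^ 4) (gam V η) := fun e =>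
    (mp e).integrable_comp_of_integrable (integrable_four η)
  have e1 : ∀ e, ∫ z : Sym2 V → ℝ, z e ^ 4 ∂gam V η ≤ 48 * (η : ℝ) ^ 2 := fun e => by
    refine le_trans (le_of_eq ?_) (four_le η)
    rw [← (mp e).map_eq, integral_map (mp e).measurable.aemeasurable (by fun_prop)]
    rfl
  have i2 : Integrable (fun z : Sym2 V → ℝ => (S.card : ℝ) ^ 3 * ∑ e ∈ S, z e ^ 4) (gam V η) :=
    (integrable_finsetSum _ fun e _ => i1 e).const_mul _
  have hle : ∀ z : Sym2 V → ℝ, (∑ e ∈ S, |z e|) ^ 4 ≤ (S.card : ℝ) ^ 3 * ∑ e ∈ S, z e ^ 4 := by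
    intro z
    have h := pow_sum_le_card_mul_sum_pow (s := S) (f := fun e => |z e|) (fun e _ => abs_nonneg _) 3
    have h2 : ∀ e, |z e| ^ (3 + 1) = z e ^ 4 := fun e => Even.pow_abs (by decide) _
    simp only [h2] at h
    exact h
  have i3 : Integrable (fun z : Sym2 V → ℝ => (∑ e ∈ S, |z e|) ^ 4) (gam V η) := by
    refine i2.mono' (Measurable.aestronglyMeasurable (by fun_prop)) (ae_of_all _ fun z => ?_)
    rw [Real.norm_eq_abs, abs_of_nonneg (by positivity)]
    exact hle z
  refine ⟨i3, (integral_mono i3 i2 hle).trans ?_⟩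
  rw [integral_const_mul, integral_finsetSum _ fun e _ => i1 e]
  have h := Finset.sum_le_card_nsmul S _ _ fun e _ => e1 e
  rw [nsmul_eq_mul] at h
  calc _ ≤ (S.card : ℝ) ^ 3 * (S.card * (48 * (η : ℝ) ^ 2)) :=
        mul_le_mul_of_nonneg_left h (by positivity)
    _ = _ := by ring

end Vale.Agent.P161
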