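import Vale.Agent.P161.Ising
import Vale.Agent.P161.GaussCM

/-!
Bayes formula for Gaussian observations of a finite Ising model.
-/

open MeasureTheory ProbabilityTheory Filter Topology Finset
open scoped Classical NNReal ENNReal

namespace Vale.Agent.P161

variable {V : Type} {G : SimpleGraph V} {D : Finset V} {β B : ℝ} {h : Sym2 V → ℝ}

namespace BayesAux

lemma wt_pos (η : V → Bool) : 0 < wt G D B h η := Real.exp_pos _

lemma Z_pos : 0 < ∑ σ : D → Bool, wt G D B h (ext D σ) :=
  Finset.sum_pos (fun _ _ => wt_pos _) Finset.univ_nonempty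

lemma abs_sp (b : Bool) : |spin b| ≤ 1 := by cases b <;> simp [spin]

lemma esum_sq (η : V → Bool) (e : Sym2 V) : esum η e ^ 2 = 2 + 2 * edgeSpin η e := by
  induction e using Sym2.ind with
  | h u v =>
    simp only [esum, edgeSpin, Sym2.lift_mk]
    cases η u <;> cases η v <;> simp [spin] <;> norm_num

lemma abs_esum (η : V → Bool) (e : Sym2 V) : |esum η e| ≤ 2 := by
  induction e using Sym2.ind with
  | h u v =>
    simp only [esum, Sym2.lift_mk]
    have := abs_sp (η u)
    have := abs_sp (η v)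
    have := abs_add_le (spin (η u)) (spin (η v))
    linarith

lemma abs_edgeSpin (η : V → Bool) (e : Sym2 V) : |edgeSpin η e| ≤ 1 := by
  induction e using Sym2.ind with
  | h u v =>
    simp only [edgeSpin, Sym2.lift_mk]
    rw [abs_mul]
    exact mul_le_one₀ (abs_sp _) (abs_nonneg _) (abs_sp _)

/-- The field after adding pure noise. -/
noncomputable def fld (G : SimpleGraph V) (D : Finset V) (β : ℝ) (h z : Sym2 V → ℝ) :
    Sym2 V → ℝ := h + mk G D fun e => √β * z e

/-- The drift. -/
noncomputable def dr (G : SimpleGraph V) (D : Finset V) (β : ℝ) (η : V → Bool) :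
    Sym2 V → ℝ := mk G D fun e => √β * esum η e

lemma measurable_fld : Measurable (fld G D β h) := by
  refine measurable_pi_lambda _ fun e => ?_
  by_cases he : e ∈ edgesIn G D
  · simp only [fld, mk, Pi.add_apply, he, if_true]
    fun_prop
  · simp only [fld, mk, Pi.add_apply, he, if_false]
    fun_prop

lemma obs_eq (hβ : 0 ≤ β) (τ : ℝ) (z : Sym2 V → ℝ) (η : V → Bool) :
    obs G D β τ h z η = fld G D β h (z + τ • dr G D β η) := by
  funext e
  by_cases he : e ∈ edgesIn G D
  · simp only [obs, fld, dr, mk, Pi.add_apply, Pi.smul_apply, smul_eq_mul, he, if_true]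
    have := Real.mul_self_sqrt hβ
    linear_combination (-(τ * esum η e)) * this
  · simp only [obs, fld, dr, mk, Pi.add_apply, he, if_false]

/-- The Cameron-Martin density. -/
noncomputable def tilt (G : SimpleGraph V) (D : Finset V) (β τ : ℝ) (η : V → Bool)
    (z : Sym2 V → ℝ) : ℝ :=
  Real.exp (∑ e ∈ edgesIn G D, (dr G D β η e * z e - τ * dr G D β η e ^ 2 / 2))

lemma integrable_tilt (τ : ℝ≥0) (t : ℝ) (η : V → Bool) :
    Integrable (tilt G D β t η) (gam V τ) := by
  have h1 := (integrable_exp_lin τ (edgesIn G D) (dr G D β η)).mul_const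
    (Real.exp (-∑ e ∈ edgesIn G D, t * dr G D β η e ^ 2 / 2))
  refine h1.congr (Eventually.of_forall fun z => ?_)
  simp only [tilt]
  rw [← Real.exp_add, Finset.sum_sub_distrib, sub_eq_add_neg]

lemma wt_tilt (hβ : 0 ≤ β) (τ : ℝ) (η : V → Bool) (z : Sym2 V → ℝ) :
    wt G D B h η * tilt G D β τ η z =
      Real.exp (-∑ _e ∈ edgesIn G D, β * τ) * wt G D (B - β * τ) (fld G D β h z) η := by
  simp only [wt, tilt]
  rw [← Real.exp_add, ← Real.exp_add, ← Finset.sum_neg_distrib, ← Finset.sum_add_distrib,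
    ← Finset.sum_add_distrib]
  refine congrArg Real.exp (Finset.sum_congr rfl fun e he => ?_)
  simp only [fld, dr, mk, Pi.add_apply, he, if_true]
  have h1 := Real.mul_self_sqrt hβ
  have h2 := esum_sq η e
  linear_combination (-(τ * esum η e ^ 2 / 2)) * h1 - (β * τ / 2) * h2

lemma Stp_eq (hβ : 0 ≤ β) (τ : ℝ≥0) {Ψ : (V → Bool) → (Sym2 V → ℝ) → ℝ}
    (hΨ : ∀ η, Measurable (Ψ η)) (hb : ∃ C, ∀ η h, |Ψ η h| ≤ C) :
    Stp G D β B h τ Ψ =
      (∫ z, Real.exp (-∑ _e ∈ edgesIn G D, β * τ) *
        ∑ σ : D → Bool, wt G D (B - β * τ) (fld G D β h z) (ext D σ) *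
          Ψ (ext D σ) (fld G D β h z) ∂gam V τ) / ∑ σ : D → Bool, wt G D B h (ext D σ) := by
  obtain ⟨C, hC⟩ := hb
  have key : ∀ η, ∫ z, Ψ η (obs G D β τ h z η) ∂gam V τ =
      ∫ z, Ψ η (fld G D β h z) * tilt G D β τ η z ∂gam V τ := by
    intro η
    have := gam_shift τ (edgesIn G D) (dr G D β η) (fun e he => by simp [dr, mk, he])
      (F := fun z => Ψ η (fld G D β h z)) ((hΨ η).comp measurable_fld) ⟨C, fun z => hC _ _⟩
    simp only [obs_eq hβ]
    exact this
  have hint : ∀ η, Integrable (fun z => Ψ η (fld G D β h z) * tilt G D β τ η z) (gam V τ) :=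
    fun η => (integrable_tilt τ τ η).bdd_mul
      ((hΨ η).comp measurable_fld).aestronglyMeasurable
      (Eventually.of_forall fun z => by simpa using hC _ _)
  simp only [Stp, ex, key]
  refine congrArg (· / _) ?_
  simp only [← integral_const_mul]
  rw [← integral_finsetSum _ fun σ _ => (hint _).const_mul _]
  refine integral_congr_ae (Eventually.of_forall fun z => ?_)
  simp only [Finset.mul_sum]
  refine Finset.sum_congr rfl fun σ _ => ?_
  have := wt_tilt (G := G) (D := D) (B := B) (h := h) hβ τ (ext D σ) z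
  linear_combination (Ψ (ext D σ) (fld G D β h z)) * this

lemma abs_int_le {τ : ℝ≥0} {f : (Sym2 V → ℝ) → ℝ} {C : ℝ} (hb : ∀ z, |f z| ≤ C) :
    |∫ z, f z ∂gam V τ| ≤ C := by
  have := norm_integral_le_of_norm_le_const (μ := gam V τ) (f := f) (C := C)
    (Eventually.of_forall fun z => by simpa using hb z)
  simpa using this

lemma ex_sub (φ ψ : (V → Bool) → ℝ) :
    ex G D B h (fun η => φ η - ψ η) = ex G D B h φ - ex G D B h ψ := by
  have h1 := ex_add (G := G) (D := D) (B := B) (h := h) φ (fun η => (-1) * ψ η)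
  rw [ex_mul] at h1
  simp only [neg_one_mul] at h1
  simpa only [sub_eq_add_neg] using h1

lemma ex_tilt {B' : ℝ} {h' : Sym2 V → ℝ} {u : (V → Bool) → ℝ}
    (H : ∀ η, wt G D B' h' η = wt G D B h η * Real.exp (u η)) (φ : (V → Bool) → ℝ) :
    ex G D B' h' φ * ex G D B h (fun η => Real.exp (u η)) =
      ex G D B h (fun η => φ η * Real.exp (u η)) := by
  have h1 := Z_pos (G := G) (D := D) (B := B) (h := h)
  have h2 := Z_pos (G := G) (D := D) (B := B') (h := h')
  simp only [ex]
  simp only [← H]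
  rw [div_mul_div_comm, mul_comm (∑ σ : D → Bool, wt G D B' h' (ext D σ))
    (∑ σ : D → Bool, wt G D B h (ext D σ)), mul_div_mul_right _ _ h2.ne']
  refine congrArg (· / _) (Finset.sum_congr rfl fun σ _ => ?_)
  rw [H]
  ring

/-- Second order bound for exponential tilting. -/
lemma tilt_err {B' : ℝ} {h' : Sym2 V → ℝ} {u φ : (V → Bool) → ℝ} {L : ℝ}
    (H : ∀ η, wt G D B' h' η = wt G D B h η * Real.exp (u η)) (hφ : ∀ η, |φ η| ≤ 1)
    (hu : ∀ η, |u η| ≤ L) :
    |ex G D B' h' φ - ex G D B h φ -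
      (ex G D B h (fun η => φ η * u η) - ex G D B h φ * ex G D B h u)| ≤ 18 * L ^ 2 := by
  set a := ex G D B h φ with ha
  have hL : 0 ≤ L := (abs_nonneg _).trans (hu fun _ => true)
  have ha1 : |a| ≤ 1 := abs_ex_le hφ
  have hψ : ∀ η, |φ η - a| ≤ 2 := fun η => by
    have := abs_sub (φ η) a
    linarith [hφ η]
  have hcov : ex G D B h (fun η => φ η * u η) - a * ex G D B h u =
      ex G D B h (fun η => (φ η - a) * u η) := by
    rw [← ex_mul, ← ex_sub]
    exact ex_congr fun σ => by ring
  have hc : |ex G D B h (fun η => (φ η - a) * u η)| ≤ 2 * L :=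
    abs_ex_le fun η => by
      rw [abs_mul]
      exact mul_le_mul (hψ η) (hu η) (abs_nonneg _) (by norm_num)
  rw [hcov]
  set c := ex G D B h (fun η => (φ η - a) * u η) with hcdef
  have hp : |ex G D B' h' φ| ≤ 1 := abs_ex_le hφ
  set p := ex G D B' h' φ with hpdef
  rcases le_total L 1 with hL1 | hL1
  · have ht := ex_tilt H φ
    rw [← hpdef] at ht
    set Z := ex G D B h (fun η => Real.exp (u η)) with hZ
    have hZ1 : |Z - 1| ≤ 2 * L := by
      have : Z - 1 = ex G D B h (fun η => Real.exp (u η) - 1) := by rw [ex_sub, ex_const]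
      rw [this]
      exact abs_ex_le fun η =>
        (Real.abs_exp_sub_one_le ((hu η).trans hL1)).trans (by linarith [hu η])
    have hZ2 : 1 / 3 ≤ Z := by
      have : ex G D B h (fun _ => (1 / 3 : ℝ)) ≤ Z := by
        refine ex_mono fun η => ?_
        have h1 : -1 ≤ u η := by linarith [neg_abs_le (u η), hu η]
        have h2 := Real.exp_le_exp.2 h1
        have h3 := Real.exp_neg_one_gt_d9
        norm_num at h3 ⊢
        linarith
      rwa [ex_const] at this
    set r := ex G D B h (fun η => (φ η - a) * (Real.exp (u η) - 1 - u η)) with hr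
    have hr1 : |r| ≤ 2 * L ^ 2 := abs_ex_le fun η => by
      rw [abs_mul]
      refine mul_le_mul (hψ η) ?_ (abs_nonneg _) (by norm_num)
      refine (Real.abs_exp_sub_one_sub_id_le ((hu η).trans hL1)).trans ?_
      rw [← sq_abs]
      exact pow_le_pow_left₀ (abs_nonneg _) (hu η) 2
    have hid : (p - a) * Z = c + r := by
      have e1 : c + r = ex G D B h
          (fun η => φ η * Real.exp (u η) - a * Real.exp (u η) - φ η + a) := by
        rw [hcdef, hr, ← ex_add]
        exact ex_congr fun σ => by ring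
      rw [e1, ex_add, ex_sub, ex_sub, ex_mul, ex_const, ← ht, ← hZ, ← ha]
      ring
    have hid2 : (p - a - c) * Z = r - c * (Z - 1) := by linear_combination hid
    have hb : |r - c * (Z - 1)| ≤ 6 * L ^ 2 := by
      have h1 := abs_sub r (c * (Z - 1))
      rw [abs_mul] at h1
      have h2 : |c| * |Z - 1| ≤ (2 * L) * (2 * L) :=
        mul_le_mul hc hZ1 (abs_nonneg _) (by positivity)
      nlinarith
    rw [← hid2, abs_mul, abs_of_pos (by linarith : (0 : ℝ) < Z)] at hb
    nlinarith [abs_nonneg (p - a - c)]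
  · have h1 := abs_sub (p - a) c
    have h2 := abs_sub p a
    nlinarith

end BayesAux

open BayesAux

lemma measurable_obs (τ : ℝ) (η : V → Bool) :
    Measurable fun p : (Sym2 V → ℝ) × (Sym2 V → ℝ) => obs G D β τ p.1 p.2 η := by
  refine measurable_pi_lambda _ fun e => ?_
  by_cases he : e ∈ edgesIn G D
  · simp only [obs, mk, Pi.add_apply, he, if_true]
    fun_prop
  · simp only [obs, mk, Pi.add_apply, he, if_false]
    fun_prop

lemma abs_Stp_le {τ : ℝ≥0} {Ψ : (V → Bool) → (Sym2 V → ℝ) → ℝ} {C : ℝ} (hb : ∀ η h, |Ψ η h| ≤ C) :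
    |Stp G D β B h τ Ψ| ≤ C :=
  abs_ex_le fun _ => abs_int_le fun _ => hb _ _

lemma measurable_Stp {τ : ℝ≥0} {Ψ : (V → Bool) → (Sym2 V → ℝ) → ℝ} (hΨ : ∀ η, Measurable (Ψ η)) :
    Measurable fun h => Stp G D β B h τ Ψ := by
  refine measurable_ex (h := fun h => h) measurable_id
    (φ := fun h η => ∫ z, Ψ η (obs G D β τ h z η) ∂gam V τ) fun η => ?_
  exact (StronglyMeasurable.integral_prod_right'
    (f := fun p : (Sym2 V → ℝ) × (Sym2 V → ℝ) => Ψ η (obs G D β τ p.1 p.2 η))
    ((hΨ η).comp (measurable_obs τ η)).stronglyMeasurable).measurable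

lemma Stp_zero {F : (Sym2 V → ℝ) → ℝ} (hF : Measurable F) :
    Stp G D β B h 0 (fun _ => F) = F h := by
  have key : ∀ η, ∫ z, F (obs G D β ((0 : ℝ≥0) : ℝ) h z η) ∂gam V 0 = F h := by
    intro η
    have hm : Measurable fun z => F (obs G D β ((0 : ℝ≥0) : ℝ) h z η) :=
      hF.comp ((measurable_obs _ η).comp (measurable_const.prodMk measurable_id))
    rw [gam_zero, integral_dirac' _ _ hm.stronglyMeasurable]
    refine congrArg F (funext fun e => ?_)
    simp [obs, mk]
  simp only [Stp, key, ex_const]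

theorem Stp_bayes (hβ : 0 ≤ β) (τ : ℝ≥0) {Ψ : (V → Bool) → (Sym2 V → ℝ) → ℝ}
    (hΨ : ∀ η, Measurable (Ψ η)) (hb : ∃ C, ∀ η h, |Ψ η h| ≤ C) :
    Stp G D β B h τ (fun _ h' => ex G D (B - β * τ) h' fun η => Ψ η h') = Stp G D β B h τ Ψ := by
  obtain ⟨C, hC⟩ := hb
  rw [Stp_eq hβ τ hΨ ⟨C, hC⟩, Stp_eq hβ τ
    (fun _ => measurable_ex (h := fun h => h) measurable_id (φ := fun h' η => Ψ η h') hΨ)
    ⟨C, fun _ _ => abs_ex_le fun _ => hC _ _⟩]
  refine congrArg (· / _) (integral_congr_ae (Eventually.of_forall fun z => ?_))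
  simp only []
  rw [← Finset.sum_mul Finset.univ, ex, mul_div_cancel₀ _ Z_pos.ne']

theorem Stp_add (hβ : 0 ≤ β) (a b : ℝ≥0) {F : (Sym2 V → ℝ) → ℝ} (hF : Measurable F)
    (hb : ∃ C, ∀ h, |F h| ≤ C) :
    Stp G D β B h (a + b) (fun _ => F) =
      Stp G D β B h a fun _ h' => Stp G D β (B - β * a) h' b fun _ => F := by
  obtain ⟨C, hC⟩ := hb
  have hm : ∀ η, Measurable fun h' => ∫ z, F (obs G D β b h' z η) ∂gam V b := fun η =>
    (StronglyMeasurable.integral_prod_right'
      (f := fun p : (Sym2 V → ℝ) × (Sym2 V → ℝ) => F (obs G D β b p.1 p.2 η))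
      (hF.comp (measurable_obs b η)).stronglyMeasurable).measurable
  have h1 := Stp_bayes (G := G) (D := D) (B := B) (h := h) hβ a
    (Ψ := fun η h' => ∫ z, F (obs G D β b h' z η) ∂gam V b) hm
    ⟨C, fun _ _ => abs_int_le fun _ => hC _⟩
  refine Eq.trans ?_ h1.symm
  refine ex_congr fun σ => ?_
  set η := ext D σ
  have hm2 : Measurable fun z => F (obs G D β ((a + b : ℝ≥0) : ℝ) h z η) :=
    hF.comp ((measurable_obs _ η).comp (measurable_const.prodMk measurable_id))
  have hadd : Measurable fun p : (Sym2 V → ℝ) × (Sym2 V → ℝ) => p.1 + p.2 := by fun_prop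
  rw [← gam_conv, integral_map hadd.aemeasurable hm2.aestronglyMeasurable, integral_prod]
  · refine integral_congr_ae (Eventually.of_forall fun z => ?_)
    refine integral_congr_ae (Eventually.of_forall fun z' => ?_)
    refine congrArg F (funext fun e => ?_)
    by_cases he : e ∈ edgesIn G D
    · simp only [obs, mk, Pi.add_apply, he, if_true, NNReal.coe_add]
      ring
    · simp only [obs, mk, Pi.add_apply, he, if_false, add_zero]
  · exact Integrable.of_bound (hm2.comp hadd).aestronglyMeasurable C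
      (Eventually.of_forall fun p => by simpa using hC _)

/-- The magnetisations are martingales. -/
theorem Stp_pm (hβ : 0 ≤ β) (τ : ℝ≥0) (v : V) :
    Stp G D β B h τ (fun _ h' => pm G D (B - β * τ) h' v) = pm G D B h v := by
  have h1 := Stp_bayes (G := G) (D := D) (B := B) (h := h) hβ τ
    (Ψ := fun η _ => spin (η v)) (fun _ => measurable_const) ⟨1, fun _ _ => abs_sp _⟩
  refine h1.trans ?_
  simp [Stp, pm]

/-- First order expansion of one step. -/
theorem step_err (G : SimpleGraph V) (D : Finset V) (hβ : 0 ≤ β) : ∃ C : ℝ, 0 ≤ C ∧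
    ∀ (B : ℝ) (h : Sym2 V → ℝ) (τ : ℝ≥0), τ ≤ 1 → ∀ (v : V) (η' : V → Bool),
      ∫ z, (pm G D (B - β * τ) (obs G D β τ h z η') v - pm G D B h v -
        √β * (ex G D B h (fun η => spin (η v) * ∑ e ∈ edgesIn G D, z e * esum η e) -
          pm G D B h v * ex G D B h fun η => ∑ e ∈ edgesIn G D, z e * esum η e)) ^ 2 ∂gam V τ ≤
        C * τ ^ 2 := by
  set n : ℝ := ((edgesIn G D).card : ℝ) with hn
  have hn0 : 0 ≤ n := Nat.cast_nonneg _
  set k : ℝ := 5 * β * n with hk
  have hk0 : 0 ≤ k := by positivity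
  refine ⟨648 * 8 * (16 * β ^ 2) * (48 * n ^ 4) + (648 * 8 * k ^ 4 + 8 * k ^ 2), by positivity, ?_⟩
  intro B h τ hτ v η'
  have hτ0 : (0 : ℝ) ≤ τ := τ.2
  have hτ1 : (τ : ℝ) ≤ 1 := hτ
  obtain ⟨hi, hmom⟩ := gam_moment τ (edgesIn G D)
  have hpt : ∀ z : Sym2 V → ℝ, (pm G D (B - β * τ) (obs G D β τ h z η') v - pm G D B h v -
        √β * (ex G D B h (fun η => spin (η v) * ∑ e ∈ edgesIn G D, z e * esum η e) -
          pm G D B h v * ex G D B h fun η => ∑ e ∈ edgesIn G D, z e * esum η e)) ^ 2 ≤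
      648 * 8 * (16 * β ^ 2) * (∑ e ∈ edgesIn G D, |z e|) ^ 4 +
        (648 * 8 * k ^ 4 + 8 * k ^ 2) * τ ^ 2 := by
    intro z
    set S := ∑ e ∈ edgesIn G D, |z e| with hS
    have hS0 : 0 ≤ S := Finset.sum_nonneg fun _ _ => abs_nonneg _
    set l : (V → Bool) → ℝ := fun η => ∑ e ∈ edgesIn G D, z e * esum η e with hl
    set w : (V → Bool) → ℝ := fun η =>
      ∑ e ∈ edgesIn G D, β * τ * (esum η' e * esum η e - edgeSpin η e) with hw
    have hl1 : ∀ η, |l η| ≤ 2 * S := fun η => by
      refine (Finset.abs_sum_le_sum_abs _ _).trans ?_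
      rw [hS, Finset.mul_sum]
      refine Finset.sum_le_sum fun e _ => ?_
      rw [abs_mul, mul_comm]
      exact mul_le_mul_of_nonneg_right (abs_esum η e) (abs_nonneg _)
    have hw1 : ∀ η, |w η| ≤ k * τ := fun η => by
      refine (Finset.abs_sum_le_sum_abs _ _).trans ?_
      refine (Finset.sum_le_card_nsmul _ _ (β * τ * 5) fun e _ => ?_).trans ?_
      · rw [abs_mul, abs_of_nonneg (by positivity : 0 ≤ β * τ)]
        refine mul_le_mul_of_nonneg_left ?_ (by positivity)
        have h1 := abs_sub (esum η' e * esum η e) (edgeSpin η e)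
        rw [abs_mul] at h1
        have h2 : |esum η' e| * |esum η e| ≤ 2 * 2 :=
          mul_le_mul (abs_esum _ _) (abs_esum _ _) (abs_nonneg _) (by norm_num)
        linarith [abs_edgeSpin η e]
      · rw [nsmul_eq_mul, ← hn, hk]
        exact le_of_eq (by ring)
    have H : ∀ η, wt G D (B - β * τ) (obs G D β τ h z η') η =
        wt G D B h η * Real.exp (√β * l η + w η) := fun η => by
      simp only [wt, hl, hw]
      rw [← Real.exp_add, Finset.mul_sum, ← Finset.sum_add_distrib, ← Finset.sum_add_distrib]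
      refine congrArg Real.exp (Finset.sum_congr rfl fun e he => ?_)
      simp only [obs, mk, Pi.add_apply, he, if_true]
      ring
    have hu : ∀ η, |√β * l η + w η| ≤ √β * (2 * S) + k * τ := fun η => by
      refine (abs_add_le _ _).trans (add_le_add ?_ (hw1 η))
      rw [abs_mul, abs_of_nonneg (Real.sqrt_nonneg β)]
      exact mul_le_mul_of_nonneg_left (hl1 η) (Real.sqrt_nonneg β)
    have h1 := tilt_err (φ := fun η => spin (η v)) H (fun η => abs_sp _) hu
    have e1 : ex G D B h (fun η => spin (η v) * (√β * l η + w η)) =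
        √β * ex G D B h (fun η => spin (η v) * l η) + ex G D B h (fun η => spin (η v) * w η) := by
      rw [← ex_mul, ← ex_add]
      exact ex_congr fun σ => by ring
    have e2 : ex G D B h (fun η => √β * l η + w η) = √β * ex G D B h l + ex G D B h w := by
      rw [← ex_mul, ← ex_add]
    rw [e1, e2] at h1
    have h2 : |ex G D B h (fun η => spin (η v) * w η)| ≤ k * τ := abs_ex_le fun η => by
      rw [abs_mul]
      exact (mul_le_mul (abs_sp _) (hw1 η) (abs_nonneg _) zero_le_one).trans (by rw [one_mul])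
    have h3 : |pm G D B h v * ex G D B h w| ≤ k * τ := by
      rw [abs_mul]
      exact (mul_le_mul (abs_pm_le v) (abs_ex_le hw1) (abs_nonneg _) zero_le_one).trans
        (by rw [one_mul])
    change |pm G D (B - β * τ) (obs G D β τ h z η') v - pm G D B h v - (_ - pm G D B h v * _)| ≤ _
      at h1
    set p' := pm G D (B - β * τ) (obs G D β τ h z η') v
    set p := pm G D B h v
    set A := ex G D B h (fun η => spin (η v) * l η)
    set A' := ex G D B h l
    set W := ex G D B h (fun η => spin (η v) * w η)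
    set W' := ex G D B h w
    set x := √β * (2 * S) with hx
    set y := k * τ with hy
    have hx0 : 0 ≤ x := by positivity
    have hy0 : 0 ≤ y := by positivity
    set d := p' - p - (√β * A + W - p * (√β * A' + W')) with hd
    have e3 : p' - p - √β * (A - p * A') = d + (W - p * W') := by rw [hd]; ring
    rw [e3]
    have h4 : |W - p * W'| ≤ 2 * y := by linarith [abs_sub W (p * W')]
    have h5 : d ^ 2 ≤ (18 * (x + y) ^ 2) ^ 2 := by
      rw [← sq_abs]
      exact pow_le_pow_left₀ (abs_nonneg _) h1 2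
    have h6 : (W - p * W') ^ 2 ≤ (2 * y) ^ 2 := by
      rw [← sq_abs]
      exact pow_le_pow_left₀ (abs_nonneg _) h4 2
    have h7 : (x + y) ^ 4 ≤ 8 * (x ^ 4 + y ^ 4) := by
      have := add_pow_le hx0 hy0 4
      norm_num at this
      exact this
    have h8 : x ^ 4 = 16 * β ^ 2 * S ^ 4 := by
      have := Real.sq_sqrt hβ
      rw [hx]
      calc (√β * (2 * S)) ^ 4 = 16 * (√β ^ 2) ^ 2 * S ^ 4 := by ring
        _ = _ := by rw [this]
    have h9 : y ^ 4 ≤ k ^ 4 * τ ^ 2 := by
      rw [hy, mul_pow]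
      exact mul_le_mul_of_nonneg_left (pow_le_pow_of_le_one hτ0 hτ1 (by norm_num)) (by positivity)
    have h10 : y ^ 2 = k ^ 2 * τ ^ 2 := by rw [hy, mul_pow]
    nlinarith [sq_nonneg (d - (W - p * W'))]
  refine (integral_mono_of_nonneg (Eventually.of_forall fun z => sq_nonneg _)
    ((hi.const_mul _).add (integrable_const _)) (Eventually.of_forall hpt)).trans ?_
  rw [integral_add' (hi.const_mul _) (integrable_const _), integral_const_mul]
  simp only [integral_const, probReal_univ, smul_eq_mul, one_mul]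
  have := mul_le_mul_of_nonneg_left hmom (by positivity : (0 : ℝ) ≤ 648 * 8 * (16 * β ^ 2))
  nlinarith

end Vale.Agent.P161
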