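import Vale.Agent.P161.Approx
import Vale.Agent.P161.Bayes

/-!
The exact finite volume chain and the law of a solution.
-/

open MeasureTheory ProbabilityTheory Filter Topology Finset
open scoped Classical NNReal ENNReal

namespace Vale.Agent.P161

variable {V : Type} {G : SimpleGraph V} {D : Finset V} {β s : ℝ}

variable (G D) in
/-- Sampling from the Gibbs law with one Gaussian variable. -/
def IsSampler (B : ℝ) (η : ℝ≥0) (f : (Sym2 V → ℝ) → ℝ → (D → Bool)) : Prop :=
  Measurable (Function.uncurry f) ∧ ∀ (h : Sym2 V → ℝ) (φ : (V → Bool) → ℝ),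
    ∫ x, φ (ext D (f h x)) ∂gaussianReal 0 η = ex G D B h φ

variable (G D) in
lemma exists_sampler (B : ℝ) {η : ℝ≥0} (hη : η ≠ 0) : ∃ f, IsSampler G D B η f := by
  let p : (Sym2 V → ℝ) → (D → Bool) → ℝ := fun h σ =>
    wt G D B h (ext D σ) / ∑ σ : D → Bool, wt G D B h (ext D σ)
  have hw : ∀ η, Measurable fun h : Sym2 V → ℝ => wt G D B h η := fun η => by
    unfold wt
    fun_prop
  have hp : ∀ σ, Measurable fun h => p h σ := fun σ =>
    (hw _).div (Finset.measurable_sum _ fun σ _ => hw _)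
  have hZ : ∀ h, 0 < ∑ σ : D → Bool, wt G D B h (ext D σ) := fun h =>
    sum_pos (fun _ _ => Real.exp_pos _) univ_nonempty
  have hp0 : ∀ h σ, 0 ≤ p h σ := fun h σ => div_nonneg (Real.exp_pos _).le (hZ h).le
  have hm : Measurable (Function.uncurry fun h σ => ENNReal.ofReal (p h σ)) :=
    measurable_from_prod_countable_left fun σ => (hp σ).ennreal_ofReal
  let κ : Kernel (Sym2 V → ℝ) (D → Bool) :=
    (Kernel.const _ Measure.count).withDensity fun h σ => ENNReal.ofReal (p h σ)
  have hκ : ∀ h, κ h = Measure.count.withDensity fun σ => ENNReal.ofReal (p h σ) := fun h => by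
    rw [Kernel.withDensity_apply _ hm, Kernel.const_apply]
  have : IsMarkovKernel κ := ⟨fun h => ⟨by
    rw [hκ, withDensity_apply _ MeasurableSet.univ, Measure.restrict_univ, lintegral_count,
      tsum_fintype, ← ENNReal.ofReal_sum_of_nonneg fun σ _ => hp0 h σ, ← sum_div,
      div_self (hZ h).ne', ENNReal.ofReal_one]⟩⟩
  obtain ⟨F, hF, hFκ⟩ := κ.exists_measurable_map_eq_unitInterval
  obtain ⟨u, hu, hu'⟩ := exists_unif hη
  refine ⟨fun h x => F h (u x), hF.comp (measurable_fst.prodMk (hu.comp measurable_snd)),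
    fun h φ => ?_⟩
  have h1 : Measurable fun σ : D → Bool => φ (ext D σ) := measurable_of_countable _
  have h2 : Measurable (F h) := hF.of_uncurry_left
  rw [← integral_map (f := fun y => φ (ext D (F h y))) hu.aemeasurable
    (h1.comp h2).aestronglyMeasurable, hu', ← integral_map h2.aemeasurable h1.aestronglyMeasurable,
    hFκ, integral_fintype Integrable.of_finite, ex, sum_div]
  refine sum_congr rfl fun σ _ => ?_
  rw [hκ, measureReal_def, withDensity_apply _ (measurableSet_singleton σ), lintegral_singleton,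
    Measure.count_singleton, mul_one, ENNReal.toReal_ofReal (hp0 h σ), smul_eq_mul]
  simp only [p]
  ring

lemma IsSampler.integral {B : ℝ} {η : ℝ≥0} {f : (Sym2 V → ℝ) → ℝ → (D → Bool)}
    (hf : IsSampler G D B η f) (h : Sym2 V → ℝ) (e : Sym2 V)
    {Φ : (V → Bool) → (Sym2 V → ℝ) → ℝ} (hm : ∀ η', Measurable (Φ η'))
    (hi : ∀ η', Integrable (Φ η') (gam V η)) (hd : ∀ η', DependsOn (Φ η') {e}ᶜ) :
    Integrable (fun z => Φ (ext D (f h (z e))) z) (gam V η) ∧
      ∫ z, Φ (ext D (f h (z e))) z ∂gam V η = ex G D B h fun η' => ∫ z, Φ η' z ∂gam V η := by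
  have h1 : Measurable fun p : (Sym2 V → ℝ) × (D → Bool) => Φ (ext D p.2) p.1 :=
    measurable_from_prod_countable_left fun σ => show Measurable (Φ (ext D σ)) from hm _
  have h2 : Measurable (Function.uncurry fun x z => Φ (ext D (f h x)) z) :=
    h1.comp (measurable_snd.prodMk (hf.1.of_uncurry_left.comp measurable_fst))
  have h3 : Integrable (fun p : ℝ × (Sym2 V → ℝ) => ∑ σ : D → Bool, |Φ (ext D σ) p.2|)
      ((gaussianReal 0 η).prod (gam V η)) :=
    integrable_finsetSum _ fun σ _ => (hi _).abs.comp_snd _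
  obtain ⟨h4, h5⟩ := gam_split η e h2 (fun x => hd _) (h3.mono' h2.aestronglyMeasurable
    (ae_of_all _ fun p => single_le_sum (f := fun σ : D → Bool => |Φ (ext D σ) p.2|)
      (fun _ _ => abs_nonneg _) (mem_univ (f h p.1))))
  exact ⟨h4, h5.trans (hf.2 h fun η' => ∫ z, Φ η' z ∂gam V η)⟩

lemma diag_not_mem (o : V) : s(o, o) ∉ edgesIn G D := by simp [edgesIn]

lemma obs_congr {τ : ℝ} (h : Sym2 V → ℝ) (η : V → Bool) (o : V) {z z' : Sym2 V → ℝ}
    (H : ∀ e ∈ ({s(o, o)}ᶜ : Set (Sym2 V)), z e = z' e) : obs G D β τ h z η = obs G D β τ h z' η := by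
  funext e
  simp only [obs, mk, Pi.add_apply]
  split_ifs with he
  · rw [H e (by rintro rfl; exact diag_not_mem o he)]
  · rfl

variable (G D) in
/-- The fields of the exact chain. -/
noncomputable def chain (β s : ℝ) (L : ℕ) (f : ℕ → (Sym2 V → ℝ) → ℝ → (D → Bool)) (o : V)
    (z : ℕ → Sym2 V → ℝ) : ℕ → Sym2 V → ℝ
  | 0 => 0
  | k + 1 => if s ≤ tm L k then obs G D β (eta L) (chain β s L f o z k) (z k)
      (ext D (f k (chain β s L f o z k) (z k s(o, o)))) else chain β s L f o z k

variable {L : ℕ} {f : ℕ → (Sym2 V → ℝ) → ℝ → (D → Bool)} {o : V}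

lemma chain_zero (z : ℕ → Sym2 V → ℝ) {k : ℕ} (hk : tm L k ≤ s) : chain G D β s L f o z k = 0 := by
  induction k with
  | zero => rfl
  | succ k ih =>
    have h : tm L k < s := by linarith [tm_succ L k, eta_pos L]
    simp [chain, ih h.le, not_le.2 h]

lemma measurable_next {B : ℝ} {η : ℝ≥0} {f : (Sym2 V → ℝ) → ℝ → (D → Bool)}
    (hf : IsSampler G D B η f) (τ : ℝ) (e : Sym2 V) :
    Measurable fun p : (Sym2 V → ℝ) × (Sym2 V → ℝ) =>
      obs G D β τ p.1 p.2 (ext D (f p.1 (p.2 e))) := by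
  have h1 : Measurable fun p : ((Sym2 V → ℝ) × (Sym2 V → ℝ)) × (D → Bool) =>
      obs G D β τ p.1.1 p.1.2 (ext D p.2) :=
    measurable_from_prod_countable_left fun σ =>
      show Measurable fun p : (Sym2 V → ℝ) × (Sym2 V → ℝ) => obs G D β τ p.1 p.2 (ext D σ) from
        measurable_obs τ _
  exact h1.comp (measurable_id.prodMk
    (hf.1.comp (measurable_fst.prodMk ((measurable_pi_apply e).comp measurable_snd))))

variable {Ω : Type} [mΩ : MeasurableSpace Ω] {P : Measure Ω} (N : Noise V P)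

lemma chain_meas (hf : ∀ k, IsSampler G D (β * (1 - tm L k)) (eta L) (f k)) (k : ℕ) :
    Measurable[N.F (tm L k)] fun ω => chain G D β s L f o (fun i => N.z L i ω) k := by
  induction k with
  | zero => exact measurable_const
  | succ k ih =>
    have h1 := N.measurable_mono ih (tm_mono L (Nat.le_succ k))
    simp only [chain]
    split_ifs
    · exact (measurable_next (hf k) _ _).comp (h1.prodMk (N.meas L k))
    · exact h1

variable [IsProbabilityMeasure P]

lemma chain_step (hf : ∀ k, IsSampler G D (β * (1 - tm L k)) (eta L) (f k)) {k : ℕ}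
    (hk : s ≤ tm L k) {Z : Ω → ℝ} (hZ : Measurable[N.F (tm L k)] Z) (hZ1 : Integrable Z P)
    {F : (Sym2 V → ℝ) → ℝ} (hF : Measurable F) {C : ℝ} (hC : ∀ h, |F h| ≤ C) :
    ∫ ω, Z ω * F (chain G D β s L f o (fun i => N.z L i ω) (k + 1)) ∂P =
      ∫ ω, Z ω * Stp G D β (β * (1 - tm L k)) (chain G D β s L f o (fun i => N.z L i ω) k) (eta L)
        (fun _ => F) ∂P := by
  set h : Ω → Sym2 V → ℝ := fun ω => chain G D β s L f o (fun i => N.z L i ω) k with hh
  have hm : Measurable fun ω : Past N (tm L k) => h ω := chain_meas N hf k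
  have key := fun ω => (hf k).integral (h ω) s(o, o)
    (Φ := fun η' z => F (obs G D β (eta L) (h ω) z η'))
    (fun η' => hF.comp ((measurable_obs _ η').comp measurable_prodMk_left))
    (fun η' => integrable_of_bdd (hF.comp ((measurable_obs _ η').comp measurable_prodMk_left))
      fun z => hC _)
    (fun η' z z' H => by simp only [obs_congr (h ω) η' o H])
  obtain ⟨-, h2⟩ := N.freeze (J := L) (k := k)
    (φ := fun ω z => Z ω * F (obs G D β (eta L) (h ω) z (ext D (f k (h ω) (z s(o, o))))))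
    ((Measurable.comp (g := fun ω : Past N (tm L k) => Z ω) hZ measurable_fst).mul
      (hF.comp ((measurable_next (hf k) _ _).comp ((hm.comp measurable_fst).prodMk measurable_snd))))
    (fun ω => (key ω).1.const_mul _) (hZ1.abs.mul_const C) fun ω => by
      simp only [abs_mul, integral_const_mul]
      refine mul_le_mul_of_nonneg_left ?_ (abs_nonneg _)
      exact (integral_mono_of_nonneg (ae_of_all _ fun _ => abs_nonneg _) (integrable_const C)
        (ae_of_all _ fun _ => hC _)).trans (by simp)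
  simp only [chain, hk, if_true]
  refine h2.trans ?_
  simp only [integral_const_mul, (key _).2]
  rfl

lemma chain_law (hβ : 0 ≤ β) (hf : ∀ k, IsSampler G D (β * (1 - tm L k)) (eta L) (f k)) {k₀ : ℕ}
    (hk : s = tm L k₀) (i : ℕ) {F : (Sym2 V → ℝ) → ℝ} (hF : Measurable F) {C : ℝ}
    (hC : ∀ h, |F h| ≤ C) :
    ∫ ω, F (chain G D β s L f o (fun i => N.z L i ω) (k₀ + i)) ∂P =
      Stp G D β (β * (1 - s)) 0 (i * eta L) fun _ => F := by
  induction i generalizing F with
  | zero => simp [chain_zero _ hk.ge, Stp_zero hF]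
  | succ i ih =>
    have h1 := chain_step (o := o) N hf (k := k₀ + i) (s := s) (hk ▸ tm_mono L (by omega))
      (Z := fun _ => 1) measurable_const (integrable_const _) hF hC
    simp only [one_mul] at h1
    rw [← add_assoc, h1, ih (measurable_Stp fun _ => hF) (fun h => abs_Stp_le fun _ => hC),
      Nat.cast_succ, add_one_mul, Stp_add hβ _ _ hF ⟨C, hC⟩]
    have : β * (1 - tm L (k₀ + i)) = β * (1 - s) - β * ((i * eta L : ℝ≥0) : ℝ) := by
      rw [hk, tm_eq, tm_eq]
      push_cast
      ring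
    rw [this]

variable [G.LocallyFinite] {q : ℕ} {ρ : ℝ}

lemma chain_approx (hG : Reg G q) (hβ : 0 ≤ β) (hρ : ρ < 1) (hs : q * th β s ^ 2 ≤ ρ)
    (hD : (G.induce (D : Set V)).Connected) : ∃ C : ℝ, 0 ≤ C ∧ ∀ (L r : ℕ)
      (f : ℕ → (Sym2 V → ℝ) → ℝ → (D → Bool)) (o : V),
      (∀ k, IsSampler G D (β * (1 - tm L k)) (eta L) (f k)) →
      Approx G N β s L r (C * eta L + 2 * (β * ((q + 1) * (4 / (1 - ρ)))) * ρ ^ r)
        {v | Deep G D r v}
        fun k ω => pm G D (β * (1 - tm L k)) (chain G D β s L f o (fun i => N.z L i ω) k) := by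
  obtain ⟨C, hC, herr⟩ := step_err G D hβ
  refine ⟨2 * C, by linarith, fun L r f o hf => ?_⟩
  have hm : ∀ k, Measurable[N.F (tm L k)] fun ω =>
      pm G D (β * (1 - tm L k)) (chain G D β s L f o (fun i => N.z L i ω) k) :=
    fun k => measurable_pm.comp (chain_meas N hf k)
  have hL : ∀ k v, MemLp (fun ω =>
      pm G D (β * (1 - tm L k)) (chain G D β s L f o (fun i => N.z L i ω) k) v) 2 P := fun k v =>
    MemLp.of_bound ((measurable_pi_apply v).comp (N.measurable_of (hm k))).aestronglyMeasurable 1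
      (ae_of_all _ fun _ => abs_pm_le v)
  have hB : ∀ k, β * (1 - tm L (k + 1)) = β * (1 - tm L k) - β * eta L := fun k => by
    rw [tm_succ]; ring
  refine ⟨hm, hL, fun k hk _ v _ Z hZ hZ2 => ?_, fun k hk hk' v hv => ?_⟩
  · simp only [mul_sub (Z _)]
    rw [integral_sub (int_mul hZ2 (hL _ v)) (int_mul hZ2 (hL _ v)),
      chain_step N hf hk hZ (hZ2.integrable one_le_two)
        (F := fun h => pm G D (β * (1 - tm L (k + 1))) h v)
        ((measurable_pi_apply v).comp measurable_pm) fun _ => abs_pm_le v]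
    simp only [hB, Stp_pm hβ, sub_self]
  have ht := tm_le_one hk'.le
  have hρk := th_rho hβ hs hk ht
  have hρ0 : 0 ≤ ρ := le_trans (by positivity) hρk
  have hB0 : 0 ≤ β * (1 - tm L k) := mul_nonneg hβ (by linarith)
  set B := β * (1 - tm L k) with hBd
  set h : Ω → Sym2 V → ℝ := fun ω => chain G D β s L f o (fun i => N.z L i ω) k with hh
  have hm' : Measurable fun ω : Past N (tm L k) => h ω := chain_meas N hf k
  let a : (Sym2 V → ℝ) → V → V → ℝ := fun h => rD D (af (Real.tanh B) (pm G D B h))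
  let b : (Sym2 V → ℝ) → V → V → ℝ := fun h => rD D (bf (Real.tanh B) (pm G D B h))
  have hbd : ∀ h, Bd q ρ (a h) (b h) := fun h =>
    (bd_field (th_nonneg hβ ht) (th_lt_one β _) hρk _).rD hρ0 D
  have e1 : ∀ h z, incr G β r (tm L k) (pm G D B h) z v =
      √β * (vf (pm G D B h) v * KI G (a h) (b h) z r v) := fun h z => by
    rw [incr, mul_assoc, KI_congr hG.tree.connected (W := D) (a' := a h) (b' := b h) (ζ' := z) _ hv]
    intro x y _ hx hy
    simp only [a, b, rD, mem_coe.1 hx, mem_coe.1 hy, and_self, if_true, and_true]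
    exact ⟨rfl, rfl⟩
  let Φ : (Sym2 V → ℝ) → (V → Bool) → (Sym2 V → ℝ) → ℝ := fun h η' z =>
    pm G D (B - β * eta L) (obs G D β (eta L) h z η') v - pm G D B h v -
      √β * (vf (pm G D B h) v * KI G (a h) (b h) z (r + D.card) v)
  let T : (Sym2 V → ℝ) → (Sym2 V → ℝ) → ℝ := fun h z =>
    √β * (vf (pm G D B h) v * (KI G (a h) (b h) z (r + D.card) v - KI G (a h) (b h) z r v))
  have e2 := fun h z => cov_formula (h := h) hG.tree hD hB0 (mem_coe.1 hv.self) z
    (show D.card ≤ r + D.card by omega)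
  have mK : ∀ h r, Measurable fun z => KI G (a h) (b h) z r v := fun h r =>
    measurable_KI (G := G) (a := fun _ => a h) (b := fun _ => b h) (ζ := fun z => z)
      (fun _ _ => measurable_const) (fun _ _ => measurable_const)
      (fun e => measurable_pi_apply e) r v
  have mo : ∀ h η', Measurable fun z => pm G D (B - β * eta L) (obs G D β (eta L) h z η') v :=
    fun h η' => (measurable_pi_apply v).comp
      (measurable_pm.comp ((measurable_obs _ η').comp measurable_prodMk_left))
  have hΦ : ∀ h η', MemLp (Φ h η') 2 (gam V (eta L)) := fun h η' =>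
    ml_sub (ml_sub (MemLp.of_bound (mo h η').aestronglyMeasurable 1
      (ae_of_all _ fun _ => abs_pm_le v)) (memLp_const _))
      (((memLp_KI _ _ v).const_mul _).const_mul _)
  have hT : ∀ h, MemLp (T h) 2 (gam V (eta L)) := fun h =>
    ((ml_sub (memLp_KI _ _ v) (memLp_KI _ _ v)).const_mul _).const_mul _
  have key := fun h => (hf k).integral h s(o, o) (Φ := fun η' z => Φ h η' z ^ 2)
    (fun η' => (((mo h η').sub_const _).sub (((mK h _).const_mul _).const_mul _)).pow_const 2)
    (fun η' => (hΦ h η').integrable_sq) (fun η' z z' H => by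
      simp only [Φ, obs_congr h η' o H]
      rw [KI_congr hG.tree.connected (W := Set.univ) (a' := a h) (b' := b h) (ζ' := z') _
        (deep_univ _ v)]
      intro x y hxy _ _
      refine ⟨rfl, rfl, H _ ?_⟩
      rw [Set.mem_compl_singleton_iff]
      intro he
      exact (G.not_isDiag_of_mem_edgeSet (show s(x, y) ∈ G.edgeSet from hxy)) (by rw [he]; simp))
  have e3 : ∀ h, ∫ z, Φ h (ext D (f k h (z s(o, o)))) z ^ 2 ∂gam V (eta L) ≤ C * eta L ^ 2 := by
    intro h
    rw [(key h).2, ← ex_const (G := G) (D := D) (B := B) (h := h) (C * eta L ^ 2)]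
    refine ex_mono fun η' => ?_
    simpa only [Φ, e2] using herr B h (eta L) (by exact_mod_cast eta_le_one L) v η'
  have e4 : ∀ h, ∫ z, T h z ^ 2 ∂gam V (eta L) ≤
      β * ((q + 1) * (4 / (1 - ρ))) * ρ ^ r * eta L := by
    intro h
    simp only [T, mul_pow, integral_const_mul, Real.sq_sqrt hβ, mul_assoc]
    refine mul_le_mul_of_nonneg_left ?_ hβ
    refine (mul_le_of_le_one_left (int_sq_nonneg _) (sq_le_one_of_abs (abs_vf_le _ _))).trans ?_
    rw [integral_KI_tail hG.tree]
    refine (mul_le_mul_of_nonneg_left (MI_tail hG (hbd h) hρ r _ v) (eta_pos L).le).trans_eq ?_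
    ring
  let φ : Ω → (Sym2 V → ℝ) → ℝ := fun ω z =>
    (pm G D (B - β * eta L) (obs G D β (eta L) (h ω) z (ext D (f k (h ω) (z s(o, o))))) v -
      pm G D B (h ω) v - incr G β r (tm L k) (pm G D B (h ω)) z v) ^ 2
  have e5 : ∀ ω z, φ ω z = (Φ (h ω) (ext D (f k (h ω) (z s(o, o)))) z + T (h ω) z) ^ 2 :=
    fun ω z => by simp only [φ, Φ, T, e1]; ring
  have m1 : Measurable fun p : Past N (tm L k) × (Sym2 V → ℝ) => φ p.1 p.2 := by
    have c := (coef_th hβ ht hρk (hm k) v).meas_prod (G := G) r v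
    refine Measurable.pow_const (Measurable.sub (Measurable.sub ?_ ?_) ?_) 2
    · exact (measurable_pi_apply v).comp (measurable_pm.comp
        ((measurable_next (hf k) _ _).comp ((hm'.comp measurable_fst).prodMk measurable_snd)))
    · exact (measurable_pi_apply v).comp (measurable_pm.comp (hm'.comp measurable_fst))
    · simpa only [incr, mul_assoc] using c.const_mul √β
  have l1 : ∀ ω, MemLp (fun z => Φ (h ω) (ext D (f k (h ω) (z s(o, o)))) z) 2 (gam V (eta L)) :=
    fun ω => (memLp_two_iff_integrable_sq (Measurable.aestronglyMeasurable (by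
      refine Measurable.sub (Measurable.sub_const ?_ _) (((mK _ _).const_mul _).const_mul _)
      exact (measurable_pi_apply v).comp (measurable_pm.comp
        ((measurable_next (hf k) _ _).comp measurable_prodMk_left))))).2 (key (h ω)).1
  have e6 : ∀ ω, ∫ z, φ ω z ∂gam V (eta L) ≤
      (2 * C * eta L + 2 * (β * ((q + 1) * (4 / (1 - ρ)))) * ρ ^ r) * eta L := fun ω => by
    simp only [e5]
    have := int_sq_add_le (l1 ω) (hT (h ω))
    linarith [e3 (h ω), e4 (h ω)]
  obtain ⟨-, h2⟩ := N.freeze m1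
    (fun ω => by simpa only [← e5] using (ml_add (l1 ω) (hT (h ω))).integrable_sq)
    (integrable_const _) fun ω => by simpa only [φ, abs_sq] using e6 ω
  simp only [chain, hk, if_true, hB]
  refine h2.trans_le ?_
  exact (integral_mono_of_nonneg (ae_of_all _ fun ω => integral_nonneg fun _ => sq_nonneg _)
    (integrable_const _) (ae_of_all _ e6)).trans (by simp)

variable {N} {m : ℝ → Ω → V → ℝ}

lemma Sol.approx_chain (hG : Reg G q) (hβ : 0 ≤ β) (hs : q * th β s ^ 2 < 1) (hd : Dy s)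
    (hm : Sol G N β s m) {t : ℝ} (ht : Dy t) (hst : s ≤ t) (ht1 : t ≤ 1) {ε : ℝ} (hε : 0 < ε)
    (S : Finset V) (R : ℕ) : ∃ D : Finset V, (G.induce (D : Set V)).Connected ∧
      (∀ v ∈ S, Deep G D R v) ∧ ∃ h : Ω → Sym2 V → ℝ, Measurable h ∧
      (∀ F : (Sym2 V → ℝ) → ℝ, Measurable F → (∃ C, ∀ h, |F h| ≤ C) →
        ∫ ω, F (h ω) ∂P = Stp G D β (β * (1 - s)) 0 (t - s).toNNReal fun _ => F) ∧
      ∀ v ∈ S, ∫ ω, (pm G D (β * (1 - t)) (h ω) v - m t ω v) ^ 2 ∂P ≤ ε := by
  set ρ := q * th β s ^ 2 with hρ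
  have hρ0 : 0 ≤ ρ := by positivity
  have h1 : 0 < 1 - ρ := by linarith
  set c := 2 * (β * ((q + 1) * (4 / (1 - ρ)))) with hc
  obtain ⟨C₁, hC₁, hsub⟩ := subsample hG hβ hs
  obtain ⟨C₂, hC₂, hcmp⟩ := compare hG hβ hs
  set κ := min 1 (ε / C₂) with hκ
  have hκ0 : 0 < κ := lt_min one_pos (by positivity)
  obtain ⟨J₀, r₀, hap⟩ := hm.approx κ hκ0
  obtain ⟨a, ha⟩ := hd.exists_level
  obtain ⟨a', ha'⟩ := ht.exists_level
  have t1 : Tendsto (fun J => C₁ * (eta J : ℝ)) atTop (𝓝 0) := by
    simpa using tendsto_eta.const_mul C₁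
  have t2 : Tendsto (fun r : ℕ => c * ρ ^ r) atTop (𝓝 0) := by
    simpa using (tendsto_pow_atTop_nhds_zero_of_lt_one hρ0 hs).const_mul c
  obtain ⟨J, hJ1, hJ2⟩ := ((t1.eventually (ge_mem_nhds (half_pos hκ0))).and
    (eventually_ge_atTop (J₀ + a + a'))).exists
  obtain ⟨r, hr1, hr2⟩ := ((t2.eventually (ge_mem_nhds (show 0 < κ / 8 by positivity))).and
    (eventually_ge_atTop r₀)).exists
  obtain ⟨D, hD, hdeep⟩ := exists_deep hG.tree.connected S (r + r + 2 ^ J * r + R)
  obtain ⟨C₃, hC₃, hch⟩ := chain_approx N hG hβ hs le_rfl hD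
  have t3 : Tendsto (fun L => C₃ * (eta (L + J) : ℝ)) atTop (𝓝 0) := by
    simpa using ((tendsto_add_atTop_iff_nat J).2 tendsto_eta).const_mul C₃
  obtain ⟨L, hL⟩ := (t3.eventually (ge_mem_nhds (show 0 < κ / 8 by positivity))).exists
  rw [add_comm] at hL
  choose f hf using fun k => exists_sampler G D (β * (1 - tm (J + L) k))
    (η := eta (J + L)) (by simp [eta])
  obtain ⟨o⟩ := hG.tree.connected.nonempty
  obtain ⟨k₀, hk₀⟩ := ha J (by omega)
  obtain ⟨k, hk⟩ := ha' J (by omega)
  obtain ⟨i, rfl⟩ := Nat.exists_eq_add_of_le (tm_le_iff.1 (hk₀ ▸ hk ▸ hst : tm J k₀ ≤ tm J k))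
  have hki : k₀ + i ≤ 2 ^ J := tm_le_iff.1 (by rw [tm_pow, ← hk]; exact ht1)
  have hκ1 : κ ≤ 1 := min_le_left _ _
  have A1 := (hsub le_rfl (by positivity) (by linarith) (hch (J + L) r f o hf)).mono le_rfl
    (show _ ≤ κ by linarith) le_rfl
  have A2 := (hap J (by omega) r hr2).mono le_rfl le_rfl
    (Set.subset_univ {v | Deep G {v | Deep G D r v} r v})
  refine ⟨D, hD, fun v hv => (hdeep v hv).mono (by omega), fun ω =>
    chain G D β s (J + L) f o (fun i => N.z (J + L) i ω) ((k₀ + i) * 2 ^ L),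
    N.measurable_of (chain_meas N hf _), fun F hF ⟨C, hC⟩ => ?_, fun v hv => ?_⟩
  · rw [add_mul, chain_law N hβ hf (hk₀.trans (tm_mul J L k₀).symm) _ hF hC]
    congr 1
    refine NNReal.eq ?_
    rw [Real.coe_toNNReal _ (sub_nonneg.2 hst), hk, hk₀, ← tm_mul J L, ← tm_mul J L k₀, tm_eq, tm_eq]
    push_cast
    ring
  · have := hcmp (ε := 0) le_rfl hκ0.le le_rfl A1 A2 hk₀.le (fun v hv => by
      have h0 : pm G D (β * (1 - s)) 0 v = 0 := by
        have := pm_neg (G := G) (B := β * (1 - s)) (h := 0) (mem_coe.1 hv.self.self)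
        rw [neg_zero] at this
        linarith
      simp [tm_mul, ← hk₀, chain_zero _ ((tm_mul J L k₀).trans hk₀.symm).le, h0,
        hm.zero s le_rfl]) i hki v
      (((hdeep v hv).mono (show r + (r + i * r) ≤ _ by
        have := Nat.mul_le_mul_right r (show i ≤ 2 ^ J by omega)
        omega)).add hG.tree.connected |>.add hG.tree.connected)
    simp only [tm_mul, ← hk, zero_add] at this
    refine this.trans ?_
    rw [← le_div_iff₀' (by linarith)]
    exact min_le_right _ _

theorem Sol.lawLim (hG : Reg G q) (hβ : 0 ≤ β) (hs : q * th β s ^ 2 < 1) (hd : Dy s)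
    (hm : Sol G N β s m) {t : ℝ} (ht : Dy t) (hst : s ≤ t) (ht1 : t ≤ 1) :
    LawLim G P β s t (m t) := by
  obtain ⟨D', -, hD'⟩ := exists_exh hG.tree.connected
  choose D hD hdeep h hh hlaw herr using fun n : ℕ => hm.approx_chain hG hβ hs hd ht hst ht1
    (ε := ((1 / 2) ^ n) ^ 2) (by positivity) (D' n) n
  have hev : ∀ v, ∀ᶠ n in atTop, v ∈ D' n := fun v => (hD' v 0).mono fun n hn => hn.self
  refine ⟨D, hD, fun v R => ?_, fun Ψ hΨ ⟨C, hC⟩ => ?_⟩
  · filter_upwards [hev v, eventually_ge_atTop R] with n h1 h2 using (hdeep n v h1).mono h2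
  have := countable_V hG.tree.connected
  have hmp : ∀ n, Measurable fun ω => pm G (D n) (β * (1 - t)) (h n ω) :=
    fun n => measurable_pm.comp (hh n)
  simp only [← hlaw _ (fun h => Ψ (pm G (D _) (β * (1 - t)) h)) (hΨ.measurable.comp measurable_pm)
    ⟨C, fun _ => hC _⟩]
  refine tendsto_integral_of_dominated_convergence (fun _ => C)
    (fun n => (hΨ.measurable.comp (hmp n)).aestronglyMeasurable) (integrable_const C)
    (fun n => ae_of_all _ fun ω => hC _) ?_
  have hL : ∀ v, MemLp (fun ω => m t ω v) 2 P := fun v => by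
    obtain ⟨J₀, r₀, hap⟩ := hm.approx 1 one_pos
    obtain ⟨a, ha⟩ := ht.exists_level
    obtain ⟨k, rfl⟩ := ha (J₀ + a) (by omega)
    exact (hap _ (by omega) r₀ le_rfl).memLp k v
  have key : ∀ v, ∀ᵐ ω ∂P, Tendsto (fun n => pm G (D n) (β * (1 - t)) (h n ω) v) atTop
      (𝓝 (m t ω v)) := fun v =>
    ae_tendsto_of_nrm (fun n => MemLp.of_bound
      ((measurable_pi_apply v).comp (hmp n)).aestronglyMeasurable 1
      (ae_of_all _ fun _ => abs_pm_le v)) (hL v) summable_geometric_two
      (fun a b hab => pow_le_pow_of_le_one (by norm_num) (by norm_num) hab)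
      ((hev v).mono fun n hn => (nrm_le_iff (by positivity)).2 (herr n v hn))
  filter_upwards [ae_all_iff.2 key] with ω hω
  exact (hΨ.tendsto _).comp (tendsto_pi_nhds.2 hω)

end Vale.Agent.P161
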