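import Vale.Agent.P161.Tree

/-! Spectral bound for factors of i.i.d. on a regular tree. -/

namespace Vale.Agent.P161

open MeasureTheory ProbabilityTheory SimpleGraph Filter Topology
open scoped RealInnerProductSpace

variable {V : Type*} {G : SimpleGraph V} {d : ℕ}

section Walk

/-- adjacency operator on functions of the vertices -/
def Lab.adjOp (L : Lab d G) (φ : V → ℝ) : V → ℝ := fun v => ∑ a, φ (L.s a v)

theorem Lab.adjOp_iter_mono (L : Lab d G) {φ ψ : V → ℝ} (h : ∀ v, φ v ≤ ψ v) (n : ℕ) (v : V) :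
    L.adjOp^[n] φ v ≤ L.adjOp^[n] ψ v := by
  induction n generalizing v with
  | zero => exact h v
  | succ n ih =>
    simp only [Function.iterate_succ_apply', Lab.adjOp]
    exact Finset.sum_le_sum fun a _ => ih _

theorem Lab.adjOp_iter_smul (L : Lab d G) (c : ℝ) (φ : V → ℝ) (n : ℕ) (v : V) :
    L.adjOp^[n] (fun v => c * φ v) v = c * L.adjOp^[n] φ v := by
  induction n generalizing v with
  | zero => rfl
  | succ n ih =>
    simp only [Function.iterate_succ_apply', Lab.adjOp, ih, Finset.mul_sum]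

theorem Lab.adjOp_iter_le (L : Lab d G) {φ : V → ℝ} {c : ℝ} (hc : 0 ≤ c)
    (h : ∀ v, L.adjOp φ v ≤ c * φ v) (n : ℕ) (v : V) : L.adjOp^[n] φ v ≤ c ^ n * φ v := by
  induction n generalizing v with
  | zero => simp
  | succ n ih =>
    rw [Function.iterate_succ_apply]
    calc L.adjOp^[n] (L.adjOp φ) v ≤ L.adjOp^[n] (fun v => c * φ v) v :=
          L.adjOp_iter_mono h n v
      _ = c * L.adjOp^[n] φ v := L.adjOp_iter_smul c φ n v
      _ ≤ c * (c ^ n * φ v) := by gcongr; exact ih v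
      _ = c ^ (n + 1) * φ v := by ring

theorem Lab.adjOp_iter_eq (L : Lab d G) {φ : V → ℝ} {c : ℝ}
    (h : ∀ v, L.adjOp φ v = c * φ v) (n : ℕ) (v : V) : L.adjOp^[n] φ v = c ^ n * φ v := by
  induction n generalizing v with
  | zero => simp
  | succ n ih =>
    rw [Function.iterate_succ_apply]
    have : L.adjOp φ = fun v => c * φ v := funext h
    rw [this, L.adjOp_iter_smul, ih]
    ring

open Classical in
/-- the adjacency operator on radial functions -/
theorem Lab.adjOp_radial (L : Lab d G) (hT : G.IsTree) (r : V) (f : ℕ → ℝ) (v : V) :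
    L.adjOp (fun v => f (G.dist r v)) v =
      if v = r then d * f 1 else f (G.dist r v - 1) + (d - 1) * f (G.dist r v + 1) := by
  classical
  split_ifs with h
  · subst h
    have : ∀ a, G.dist v (L.s a v) = 1 := fun a => dist_eq_one_iff_adj.2 (L.adj_s a v)
    simp [Lab.adjOp, this]
  · obtain ⟨a, ha⟩ := L.exists_down hT h
    have h1 : ∀ b ∈ Finset.univ.erase a, f (G.dist r (L.s b v)) = f (G.dist r v + 1) := by
      intro b hb
      rcases L.dist_s hT r v b with h2 | h2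
      · rw [h2]
      · exact absurd (L.down_unique hT r v h2 ha) (Finset.ne_of_mem_erase hb)
    have hd : 1 ≤ d := Nat.one_le_iff_ne_zero.2 fun h0 => by subst h0; exact a.elim0
    unfold Lab.adjOp
    rw [← Finset.add_sum_erase _ _ (Finset.mem_univ a), Finset.sum_congr rfl h1]
    have : G.dist r (L.s a v) = G.dist r v - 1 := by omega
    simp [this, Finset.card_erase_of_mem, Nat.cast_sub hd]

end Walk

theorem symm_pow_bound {H : Type*} [NormedAddCommGroup H] [InnerProductSpace ℝ H]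
    (B : H →L[ℝ] H) (hB : ∀ x y, ⟪B x, y⟫ = ⟪x, B y⟫) (g : H) {c C : ℝ} (hc : 0 < c)
    (h : ∀ n, ⟪(B ^ n) g, g⟫ ≤ C * c ^ n) : ‖B g‖ ≤ c * ‖g‖ := by
  have hpow : ∀ n x y, ⟪(B ^ n) x, y⟫ = ⟪x, (B ^ n) y⟫ := by
    intro n
    induction n with
    | zero => simp
    | succ n ih =>
      intro x y
      rw [pow_succ, mul_apply_eq_comp, ih, hB, ← mul_apply_eq_comp,
        ← pow_succ', pow_succ]
  have hsq : ∀ n, ‖(B ^ n) g‖ ^ 2 = ⟪(B ^ (2 * n)) g, g⟫ := by
    intro n
    rw [← real_inner_self_eq_norm_sq, two_mul, pow_add, mul_apply_eq_comp, hpow n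
      ((B ^ n) g)]
  by_contra hcon
  push Not at hcon
  have hg : 0 < ‖g‖ := by
    rcases (norm_nonneg g).eq_or_lt with h0 | h0
    · rw [norm_eq_zero.1 h0.symm] at hcon
      simp at hcon
    · exact h0
  set t := ‖B g‖ / ‖g‖ with ht
  have htc : c < t := by rw [ht, lt_div_iff₀ hg]; exact hcon
  have key : ∀ m : ℕ, t ^ (2 ^ m) * ‖g‖ ≤ ‖(B ^ (2 ^ m)) g‖ := by
    intro m
    induction m with
    | zero => simp [ht, hg.ne']
    | succ m ih =>
      have h1 : ‖(B ^ (2 ^ m)) g‖ ^ 2 ≤ ‖(B ^ (2 ^ (m + 1))) g‖ * ‖g‖ := by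
        rw [hsq, pow_succ' 2 m]
        exact real_inner_le_norm _ _
      have h2 : (t ^ (2 ^ m) * ‖g‖) ^ 2 ≤ ‖(B ^ (2 ^ m)) g‖ ^ 2 := by
        have : 0 < t := hc.trans htc
        gcongr
      have h3 : t ^ (2 ^ (m + 1)) * ‖g‖ * ‖g‖ ≤ ‖(B ^ (2 ^ (m + 1))) g‖ * ‖g‖ := by
        calc _ = (t ^ (2 ^ m) * ‖g‖) ^ 2 := by rw [pow_succ 2 m, pow_mul]; ring
          _ ≤ _ := h2.trans h1
      exact le_of_mul_le_mul_right h3 hg
  have key2 : ∀ m : ℕ, (t / c) ^ (2 ^ (m + 1)) ≤ C / ‖g‖ ^ 2 := by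
    intro m
    have h2 : (t ^ (2 ^ m) * ‖g‖) ^ 2 ≤ ‖(B ^ (2 ^ m)) g‖ ^ 2 := by
      have : 0 < t := hc.trans htc
      gcongr
      exact key m
    rw [hsq] at h2
    have h3 := h2.trans (h _)
    rw [div_pow, div_le_div_iff₀ (by positivity) (by positivity), pow_succ' 2 m]
    calc _ = (t ^ (2 ^ m) * ‖g‖) ^ 2 := by rw [mul_comm 2, pow_mul]; ring
      _ ≤ _ := h3
  have h1 : 1 < t / c := (one_lt_div hc).2 htc
  have h2 : Tendsto (fun m : ℕ => (t / c) ^ (2 ^ (m + 1))) atTop atTop := by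
    refine (tendsto_pow_atTop_atTop_of_one_lt h1).comp ?_
    exact (tendsto_pow_atTop_atTop_of_one_lt (by norm_num : 1 < 2)).comp (tendsto_add_atTop_nat 1)
  obtain ⟨m, hm⟩ := (h2.eventually_gt_atTop (C / ‖g‖ ^ 2)).exists
  exact absurd (key2 m) (not_le.2 hm)

section Koopman

variable {X : Type*} [MeasurableSpace X] (ν : Measure X) [IsProbabilityMeasure ν]

theorem mp_reindex {f : V → V} (hf : Function.Injective f) :
    MeasurePreserving (fun (ω : V → X) v => ω (f v)) (Measure.infinitePi fun _ : V => ν)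
      (Measure.infinitePi fun _ : V => ν) :=
  ⟨by fun_prop, Measure.map_infinitePi_infinitePi_of_inj (P := fun _ : V => ν) hf⟩

theorem Lab.tr_injective (L : Lab d G) (hT : G.IsTree) (x y : V) :
    Function.Injective (L.tr hT x y) := (L.aut hT x y).injective

/-- Koopman operator of the label preserving automorphism sending `r` to `y`. -/
noncomputable def koop (L : Lab d G) (hT : G.IsTree) (r y : V) :
    Lp ℝ 2 (Measure.infinitePi fun _ : V => ν) →ₗᵢ[ℝ] Lp ℝ 2 (Measure.infinitePi fun _ : V => ν) :=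
  Lp.compMeasurePreservingₗᵢ ℝ _ (mp_reindex ν (L.tr_injective hT r y))

theorem koop_coe (L : Lab d G) (hT : G.IsTree) (r y : V)
    (f : Lp ℝ 2 (Measure.infinitePi fun _ : V => ν)) :
    koop ν L hT r y f =ᵐ[Measure.infinitePi fun _ : V => ν] fun ω => f fun v => ω (L.tr hT r y v) :=
  Lp.coeFn_compMeasurePreserving f _

theorem koop_koop (L : Lab d G) (hT : G.IsTree) (r y z : V)
    (f : Lp ℝ 2 (Measure.infinitePi fun _ : V => ν)) :
    koop ν L hT r y (koop ν L hT r z f) = koop ν L hT r (L.tr hT r y z) f := by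
  have h : L.tr hT r (L.tr hT r y z) = fun v => L.tr hT r y (L.tr hT r z v) :=
    L.comm_ext hT (L.tr_s hT _ _) (fun a v => by simp [L.tr_s]) (x := r) (by simp)
  have := Lp.compMeasurePreserving_comp_apply f (mp_reindex ν (L.tr_injective hT r z))
    (mp_reindex ν (L.tr_injective hT r y))
  refine this.symm.trans ?_
  show _ = Lp.compMeasurePreserving _ (mp_reindex ν (L.tr_injective hT r (L.tr hT r y z))) f
  congr 2
  funext ω v
  simp [h]

theorem koop_self (L : Lab d G) (hT : G.IsTree) (r : V)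
    (f : Lp ℝ 2 (Measure.infinitePi fun _ : V => ν)) : koop ν L hT r r f = f := by
  apply Lp.ext
  filter_upwards [koop_coe ν L hT r r f] with ω h
  simpa using h

/-- adjacency operator on `L^2` -/
noncomputable def adjL (L : Lab d G) (hT : G.IsTree) (r : V) :
    Lp ℝ 2 (Measure.infinitePi fun _ : V => ν) →L[ℝ] Lp ℝ 2 (Measure.infinitePi fun _ : V => ν) :=
  ∑ a, (koop ν L hT r (L.s a r)).toContinuousLinearMap

theorem adjL_apply (L : Lab d G) (hT : G.IsTree) (r : V)
    (f : Lp ℝ 2 (Measure.infinitePi fun _ : V => ν)) :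
    adjL ν L hT r f = ∑ a, koop ν L hT r (L.s a r) f := by
  simp [adjL]

theorem adjL_symm (L : Lab d G) (hT : G.IsTree) (r : V)
    (f g : Lp ℝ 2 (Measure.infinitePi fun _ : V => ν)) :
    ⟪adjL ν L hT r f, g⟫ = ⟪f, adjL ν L hT r g⟫ := by
  rw [adjL_apply, adjL_apply, sum_inner, inner_sum]
  refine Finset.sum_congr rfl fun a _ => ?_
  rw [← (koop ν L hT r (L.s a r)).inner_map_map, koop_koop]
  simp [L.tr_s, L.inv, koop_self]

theorem inner_adjL_pow (L : Lab d G) (hT : G.IsTree) (r : V)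
    (g h : Lp ℝ 2 (Measure.infinitePi fun _ : V => ν)) (n : ℕ) (y : V) :
    ⟪koop ν L hT r y ((adjL ν L hT r ^ n) g), h⟫ =
      L.adjOp^[n] (fun y => ⟪koop ν L hT r y g, h⟫) y := by
  induction n generalizing y with
  | zero => simp
  | succ n ih =>
    rw [pow_succ', mul_apply_eq_comp, adjL_apply, map_sum, sum_inner,
      Function.iterate_succ_apply']
    refine Finset.sum_congr rfl fun a _ => ?_
    rw [koop_koop, ih]
    simp [L.tr_s]

theorem finite_bad (L : Lab d G) (hT : G.IsTree) (r : V) (K : Finset V) :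
    {y | ∃ k ∈ K, L.tr hT r y k ∈ K}.Finite := by
  refine ((K.finite_toSet.prod K.finite_toSet).image fun p => L.tr hT p.1 p.2 r).subset ?_
  rintro y ⟨k, hk, hk'⟩
  refine ⟨(k, L.tr hT r y k), ⟨hk, hk'⟩, ?_⟩
  have : L.tr hT k (L.tr hT r y k) = L.tr hT r y :=
    L.comm_ext hT (L.tr_s hT _ _) (L.tr_s hT _ _) (x := k) (by simp)
  simp [this]

/-- Norm bound on vectors with finitely supported matrix coefficients. -/
theorem norm_adjL_pow_le (L : Lab d G) (hT : G.IsTree) (hd : 2 ≤ d) (r : V)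
    (g : Lp ℝ 2 (Measure.infinitePi fun _ : V => ν))
    (hg : {y | ⟪koop ν L hT r y g, g⟫ ≠ 0}.Finite) (n : ℕ) :
    ‖(adjL ν L hT r ^ n) g‖ ≤ (2 * √(d - 1)) ^ n * ‖g‖ := by
  have hb : (1 : ℝ) ≤ d - 1 := by
    have : (2 : ℝ) ≤ d := by exact_mod_cast hd
    linarith
  set q : ℝ := √(d - 1) with hq
  have hq1 : 1 ≤ q := Real.one_le_sqrt.2 hb
  have hq2 : q ^ 2 = d - 1 := Real.sq_sqrt (by linarith)
  let χ : V → ℝ := fun v => (q⁻¹) ^ G.dist r v
  have hχ : ∀ v, L.adjOp χ v ≤ 2 * q * χ v := by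
    intro v
    rw [L.adjOp_radial hT r (fun k => (q⁻¹) ^ k)]
    split_ifs with h
    · subst h
      simp only [χ, dist_self, pow_one, pow_zero, mul_one]
      rw [← div_eq_mul_inv, div_le_iff₀ (by linarith)]
      nlinarith
    · have h1 : G.dist r v ≠ 0 := fun h0 => h (hT.connected.dist_eq_zero_iff.1 h0).symm
      obtain ⟨k, hk⟩ := Nat.exists_eq_succ_of_ne_zero h1
      simp only [χ, hk, Nat.succ_eq_add_one, Nat.add_sub_cancel, ← hq2]
      apply le_of_eq
      have hq0 : q ≠ 0 := by linarith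
      simp only [pow_succ]
      field_simp
      ring
  obtain ⟨C, hC⟩ : ∃ C : ℝ, ∀ y, ⟪koop ν L hT r y g, g⟫ ≤ C * χ y := by
    obtain ⟨C, hC⟩ := (hg.image fun y => ⟪koop ν L hT r y g, g⟫ / χ y).bddAbove
    refine ⟨max C 0, fun y => ?_⟩
    have hpos : 0 < χ y := by positivity
    by_cases hy : ⟪koop ν L hT r y g, g⟫ = 0
    · rw [hy]; positivity
    · rw [← div_le_iff₀ hpos]
      exact (hC ⟨y, hy, rfl⟩).trans (le_max_left _ _)
  have hpow : ∀ n x y, ⟪(adjL ν L hT r ^ n) x, y⟫ = ⟪x, (adjL ν L hT r ^ n) y⟫ := by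
    intro n
    induction n with
    | zero => simp
    | succ n ih =>
      intro x y
      rw [pow_succ, mul_apply_eq_comp, ih, adjL_symm, ← mul_apply_eq_comp,
        ← pow_succ', pow_succ]
  refine symm_pow_bound _ (hpow n) g (C := max C 0) (by positivity) fun m => ?_
  rw [← pow_mul, ← pow_mul, ← koop_self ν L hT r ((adjL ν L hT r ^ (n * m)) g), inner_adjL_pow]
  calc _ ≤ L.adjOp^[n * m] (fun y => max C 0 * χ y) r :=
        L.adjOp_iter_mono (fun y => (hC y).trans (by gcongr; exact le_max_left _ _)) _ _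
    _ = max C 0 * L.adjOp^[n * m] χ r := L.adjOp_iter_smul _ _ _ _
    _ ≤ max C 0 * ((2 * q) ^ (n * m) * χ r) := by
        gcongr
        exact L.adjOp_iter_le (by positivity) hχ _ _
    _ = _ := by simp [χ]

end Koopman

end Vale.Agent.P161
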