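import Vale.Agent.P161.Defs
import Vale.Agent.P161.Spectral

/-! The free Ising measure is not a factor of i.i.d. above the threshold. -/

namespace Vale.Agent.P161

open MeasureTheory ProbabilityTheory SimpleGraph Filter Topology
open scoped RealInnerProductSpace symmDiff

variable {V : Type*} {G : SimpleGraph V} {d : ℕ}

theorem measurable_spin : Measurable spin := measurable_of_finite _

theorem abs_spin (b : Bool) : |spin b| = 1 := by cases b <;> simp [spin]

theorem spin_mul_self (b : Bool) : spin b * spin b = 1 := by cases b <;> simp [spin]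

theorem measurableSet_cyl (D : Finset V) (η : V → Bool) :
    MeasurableSet {x : V → Bool | ∀ v ∈ D, x v = η v} := by
  have : {x : V → Bool | ∀ v ∈ D, x v = η v} = ⋂ v ∈ D, {x | x v = η v} := by
    ext x; simp
  rw [this]
  exact D.measurableSet_biInter fun v _ => measurableSet_eq_fun (measurable_pi_apply v) (by fun_prop)

theorem connected_single (r : V) : (G.induce (({r} : Finset V) : Set V)).Connected := by
  rw [Finset.coe_singleton]
  simp

/-- vertices on the path described by a word -/
def Lab.path [DecidableEq V] (L : Lab d G) (r : V) : List (Fin d) → Finset V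
  | [] => {r}
  | a :: α => insert (L.act (a :: α) r) (L.path r α)

theorem Lab.end_mem_path [DecidableEq V] (L : Lab d G) (r : V) (α : List (Fin d)) :
    L.act α r ∈ L.path r α := by
  cases α <;> simp [Lab.path]

theorem Lab.root_mem_path [DecidableEq V] (L : Lab d G) (r : V) (α : List (Fin d)) :
    r ∈ L.path r α := by
  induction α with
  | nil => simp [Lab.path]
  | cons a α ih => simp [Lab.path, ih]

theorem Lab.dist_of_mem_path [DecidableEq V] (L : Lab d G) (hT : G.IsTree) (r : V) :
    ∀ α : List (Fin d), α.IsChain (· ≠ ·) → ∀ w ∈ L.path r α,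
      G.dist r w ≤ α.length ∧ (G.dist r w = α.length → w = L.act α r)
  | [], _, w, hw => by
    simp only [Lab.path, Finset.mem_singleton] at hw
    simp [hw]
  | a :: α, h, w, hw => by
    simp only [Lab.path, Finset.mem_insert] at hw
    rcases hw with rfl | hw
    · exact ⟨(L.dist_act hT r _ h).le, fun _ => rfl⟩
    · have := (L.dist_of_mem_path hT r α h.tail w hw).1
      simp only [List.length_cons]
      exact ⟨by omega, fun h => by omega⟩

theorem Lab.path_connected [DecidableEq V] (L : Lab d G) (r : V) (α : List (Fin d)) :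
    (G.induce (L.path r α : Set V)).Connected := by
  induction α with
  | nil => exact connected_single r
  | cons a α ih =>
    have h1 : (G.induce ({L.act (a :: α) r} : Set V)).Connected := by simp
    have := connected_induce_union h1.preconnected ih.preconnected
      (v := L.act (a :: α) r) (w := L.act α r) rfl (by simpa using L.end_mem_path r α)
      (L.adj_s a _).symm
    rw [Lab.path, Finset.coe_insert, Set.insert_eq]
    exact this

open Classical in
theorem edges_insert [DecidableEq V] {D : Finset V} {v p : V} (hv : v ∉ D) (hp : p ∈ D)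
    (hadj : G.Adj v p) (huniq : ∀ w ∈ D, G.Adj v w → w = p) (F : Sym2 V → ℝ) :
    ∏ e ∈ (insert v D).sym2.filter (· ∈ G.edgeSet), F e =
      F s(v, p) * ∏ e ∈ D.sym2.filter (· ∈ G.edgeSet), F e := by
  rw [← Finset.prod_insert]
  · congr 1
    ext e
    induction e using Sym2.ind with
    | _ x y =>
      simp only [Finset.mem_filter, Finset.mk_mem_sym2_iff, Finset.mem_insert, mem_edgeSet,
        Sym2.eq_iff]
      constructor
      · rintro ⟨⟨rfl | hx, rfl | hy⟩, h⟩
        · exact absurd h G.irrefl
        · exact Or.inl (Or.inl ⟨rfl, huniq _ hy h⟩)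
        · exact Or.inl (Or.inr ⟨huniq _ hx h.symm, rfl⟩)
        · exact Or.inr ⟨⟨hx, hy⟩, h⟩
      · rintro ((⟨rfl, rfl⟩ | ⟨rfl, rfl⟩) | ⟨⟨hx, hy⟩, h⟩)
        · exact ⟨⟨Or.inl rfl, Or.inr hp⟩, hadj⟩
        · exact ⟨⟨Or.inr hp, Or.inl rfl⟩, hadj.symm⟩
        · exact ⟨⟨Or.inr hx, Or.inr hy⟩, h⟩
  · simp [hv]

open Classical in
theorem edges_congr {D : Finset V} {θ : ℝ} {x y : V → Bool} (h : ∀ v ∈ D, x v = y v) :
    ∏ e ∈ D.sym2.filter (· ∈ G.edgeSet), edgeWeight θ x e =
      ∏ e ∈ D.sym2.filter (· ∈ G.edgeSet), edgeWeight θ y e := by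
  refine Finset.prod_congr rfl fun e he => ?_
  induction e using Sym2.ind with
  | _ u v =>
    simp only [Finset.mem_filter, Finset.mk_mem_sym2_iff] at he
    simp [edgeWeight, h u he.1.1, h v he.1.2]

/-- one step of the broadcast: conditional mean of a new leaf -/
theorem IsFreeIsing.leaf_step [DecidableEq V] {θ : ℝ} {μ : Measure (V → Bool)}
    (hμ : IsFreeIsing G θ μ) {D : Finset V} {v p : V} (hv : v ∉ D) (hp : p ∈ D)
    (hadj : G.Adj v p) (huniq : ∀ w ∈ D, G.Adj v w → w = p)
    (hD : (G.induce (D : Set V)).Connected)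
    (hD' : (G.induce ((insert v D : Finset V) : Set V)).Connected)
    (f : (V → Bool) → ℝ) (hf : ∀ x y, (∀ v ∈ D, x v = y v) → f x = f y) :
    ∫ x, f x * spin (x v) ∂μ = θ * ∫ x, f x * spin (x p) ∂μ := by
  have := hμ.1
  have key : ∀ η : V → Bool, ∫ x in {x | ∀ w ∈ D, x w = η w}, spin (x v) ∂μ =
      θ * spin (η p) * μ.real {x | ∀ w ∈ D, x w = η w} := by
    intro η
    have hb : ∀ b : Bool, μ.real ({x | ∀ w ∈ D, x w = η w} ∩ {x | x v = b}) =
        (1 + θ * spin b * spin (η p)) / 2 * μ.real {x | ∀ w ∈ D, x w = η w} := by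
      intro b
      have h1 := hμ.2 _ hD' (Function.update η v b)
      have h2 : ∀ w ∈ D, Function.update η v b w = η w := fun w hw =>
        Function.update_of_ne (by rintro rfl; exact hv hw) _ _
      rw [edges_insert hv hp hadj huniq, edges_congr h2] at h1
      rw [hμ.2 _ hD η]
      have h3 : {x : V → Bool | ∀ w ∈ D, x w = η w} ∩ {x | x v = b} =
          {x | ∀ w ∈ insert v D, x w = Function.update η v b w} := by
        ext x
        simp only [Set.mem_inter_iff, Set.mem_ofPred_eq, Finset.mem_insert, forall_eq_or_imp,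
          Function.update_self]
        constructor
        · rintro ⟨h4, h5⟩
          exact ⟨h5, fun w hw => by rw [h2 w hw, h4 w hw]⟩
        · rintro ⟨h4, h5⟩
          exact ⟨fun w hw => by rw [← h2 w hw, h5 w hw], h4⟩
      rw [h3, h1]
      simp only [edgeWeight, Sym2.lift_mk, Function.update_self, h2 p hp]
      ring
    have hm : ∀ b : Bool, MeasurableSet {x : V → Bool | x v = b} := fun b =>
      measurableSet_eq_fun (measurable_pi_apply v) (by fun_prop)
    have h4 : (fun x : V → Bool => spin (x v)) = fun x =>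
        Set.indicator {x | x v = true} (fun _ => (1 : ℝ)) x -
          Set.indicator {x | x v = false} (fun _ => (1 : ℝ)) x := by
      funext x
      cases h : x v <;> simp [spin, h]
    rw [h4, integral_sub ((integrable_const _).indicator (hm _))
      ((integrable_const _).indicator (hm _)), integral_indicator_const _ (hm _),
      integral_indicator_const _ (hm _), measureReal_restrict_apply (hm _),
      measureReal_restrict_apply (hm _), Set.inter_comm, hb, Set.inter_comm, hb]
    simp only [spin, smul_eq_mul, if_true, Bool.false_eq_true, if_false]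
    ring
  have hsum : ∀ g : (V → Bool) → ℝ, Measurable g → (∀ x, |g x| ≤ 1) →
      ∫ x, f x * g x ∂μ = ∑ ξ : D → Bool, f (fun v => if h : v ∈ D then ξ ⟨v, h⟩ else false) *
        ∫ x in {x | ∀ w ∈ D, x w = (fun v => if h : v ∈ D then ξ ⟨v, h⟩ else false) w}, g x ∂μ := by
    intro g hg hb
    have hi : Integrable g μ := Integrable.of_bound hg.aestronglyMeasurable 1 (ae_of_all _ hb)
    have h1 : ∀ x, f x * g x = ∑ ξ : D → Bool,
        f (fun v => if h : v ∈ D then ξ ⟨v, h⟩ else false) * Set.indicator {x | ∀ v ∈ D,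
        x v = (fun v => if h : v ∈ D then ξ ⟨v, h⟩ else false) v} g x := by
      intro x
      rw [Finset.sum_eq_single (fun v : D => x v)]
      · rw [Set.indicator_of_mem]
        · congr 1
          exact hf _ _ fun v hv => by simp [hv]
        · intro v hv; simp [hv]
      · intro ξ _ hξ
        rw [Set.indicator_of_notMem, mul_zero]
        intro h
        apply hξ
        funext v
        have := h v v.2
        simpa using this.symm
      · simp
    simp_rw [h1]
    rw [integral_finsetSum]
    · refine Finset.sum_congr rfl fun ξ _ => ?_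
      rw [integral_const_mul, integral_indicator (measurableSet_cyl D _)]
    · intro ξ _
      exact (hi.indicator (measurableSet_cyl D _)).const_mul _
  rw [hsum (fun x => spin (x v)) (measurable_spin.comp (measurable_pi_apply v))
      (fun x => (abs_spin _).le),
    hsum (fun x => spin (x p)) (measurable_spin.comp (measurable_pi_apply p))
      (fun x => (abs_spin _).le),
    Finset.mul_sum]
  refine Finset.sum_congr rfl fun ξ _ => ?_
  rw [key, setIntegral_congr_fun (measurableSet_cyl D _)
    (g := fun _ => spin (if h : p ∈ D then ξ ⟨p, h⟩ else false)) (fun x hx => by simp [hx p hp])]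
  simp only [integral_const, smul_eq_mul, measureReal_restrict_apply_univ]
  ring

theorem IsFreeIsing.corr {θ : ℝ} {μ : Measure (V → Bool)} (hμ : IsFreeIsing G θ μ)
    (L : Lab d G) (hT : G.IsTree) (r v : V) :
    ∫ x, spin (x r) * spin (x v) ∂μ = θ ^ G.dist r v := by
  classical
  have := hμ.1
  have key : ∀ α : List (Fin d), α.IsChain (· ≠ ·) →
      ∫ x, spin (x r) * spin (x (L.act α r)) ∂μ = θ ^ α.length := by
    intro α
    induction α with
    | nil => simp [spin_mul_self]
    | cons a α ih =>
      intro h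
      have hd := L.dist_act hT r _ h
      rw [hμ.leaf_step (D := L.path r α) (p := L.act α r) (v := L.act (a :: α) r) ?_ (L.end_mem_path r α)
        (L.adj_s a _).symm ?_ (L.path_connected r α) (L.path_connected r (a :: α))
        (fun x => spin (x r)) ?_,
        ih h.tail, List.length_cons, pow_succ']
      · intro hm
        have := (L.dist_of_mem_path hT r α h.tail _ hm).1
        simp only [List.length_cons] at hd
        omega
      · intro w hw hadj
        have h1 := L.dist_of_mem_path hT r α h.tail _ hw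
        apply h1.2
        simp only [List.length_cons] at hd
        rcases hT.dist_eq_dist_add_one_of_adj r hadj with h2 | h2 <;> omega
      · intro x y hxy
        rw [hxy r (L.root_mem_path r α)]
  rw [← L.length_word hT, ← key _ (L.word_chain hT r v), L.act_word]

theorem IsFreeIsing.half {θ : ℝ} {μ : Measure (V → Bool)} (hμ : IsFreeIsing G θ μ) (r : V) :
    μ.real {x | x r = true} = 1 / 2 := by
  classical
  have h := hμ.2 {r} (connected_single r) (fun _ => true)
  have h2 : ({r} : Finset V).sym2.filter (· ∈ G.edgeSet) = ∅ := by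
    simp
  rw [h2] at h
  simpa using h

section Main

variable {X : Type*} [MeasurableSpace X] (ν : Measure X) [IsProbabilityMeasure ν]

theorem inner_koop_indicator (L : Lab d G) (hT : G.IsTree) (r y : V) {A B : Set (V → X)}
    (hA : MeasurableSet A) (hB : MeasurableSet B) (a b : ℝ) :
    ⟪koop ν L hT r y (indicatorConstLp 2 hA (measure_ne_top _ _) a), indicatorConstLp 2 hB
      (measure_ne_top (Measure.infinitePi fun _ : V => ν) _) b⟫ =
    a * b * (Measure.infinitePi fun _ : V => ν).real
      ((fun ω v => ω (L.tr hT r y v)) ⁻¹' A ∩ B) := by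
  have : koop ν L hT r y (indicatorConstLp 2 hA (measure_ne_top _ _) a) =
      indicatorConstLp 2 (hA.preimage (mp_reindex ν (L.tr_injective hT r y)).measurable)
        (measure_ne_top _ _) a :=
    Lp.indicatorConstLp_compMeasurePreserving hA _ a (mp_reindex ν (L.tr_injective hT r y))
  rw [this, L2.inner_indicatorConstLp_indicatorConstLp]
  simp
  ring

/-- centred indicator -/
noncomputable def cInd {A : Set (V → X)} (hA : MeasurableSet A) :
    Lp ℝ 2 (Measure.infinitePi fun _ : V => ν) :=
  indicatorConstLp 2 hA (measure_ne_top _ _) (1 : ℝ) -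
    indicatorConstLp 2 MeasurableSet.univ (measure_ne_top _ _)
      ((Measure.infinitePi fun _ : V => ν).real A)

theorem inner_koop_cInd (L : Lab d G) (hT : G.IsTree) (r y : V) {A : Set (V → X)}
    (hA : MeasurableSet A) :
    ⟪koop ν L hT r y (cInd ν hA), cInd ν hA⟫ =
      (Measure.infinitePi fun _ : V => ν).real ((fun ω v => ω (L.tr hT r y v)) ⁻¹' A ∩ A) -
        (Measure.infinitePi fun _ : V => ν).real A ^ 2 := by
  have h := (mp_reindex ν (L.tr_injective hT r y)).measureReal_preimage hA.nullMeasurableSet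
  simp only [cInd, map_sub, inner_sub_left, inner_sub_right, inner_koop_indicator,
    Set.preimage_univ, Set.inter_univ, Set.univ_inter, h, probReal_univ]
  ring

theorem norm_cInd_sub {A B : Set (V → X)} (hA : MeasurableSet A) (hB : MeasurableSet B) :
    ‖cInd ν hA - cInd ν hB‖ ≤ √((Measure.infinitePi fun _ : V => ν).real (A ∆ B)) +
      (Measure.infinitePi fun _ : V => ν).real (A ∆ B) := by
  set P := (Measure.infinitePi fun _ : V => ν)
  have h1 : cInd ν hA - cInd ν hB =
      (indicatorConstLp 2 hA (measure_ne_top P _) (1 : ℝ) -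
        indicatorConstLp 2 hB (measure_ne_top P _) (1 : ℝ)) -
      indicatorConstLp 2 MeasurableSet.univ (measure_ne_top P _) (P.real A - P.real B) := by
    rw [← indicatorConstLp_sub]
    simp only [cInd]
    abel
  rw [h1]
  refine (norm_sub_le _ _).trans (add_le_add ?_ ?_)
  · rw [← dist_eq_norm, dist_indicatorConstLp_eq_norm, norm_indicatorConstLp (by simp) (by simp)]
    simp [Real.sqrt_eq_rpow, P]
  · rw [norm_indicatorConstLp (by simp) (by simp)]
    simpa using abs_measureReal_sub_le_measureReal_symmDiff hA.nullMeasurableSet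
      hB.nullMeasurableSet

theorem cInd_cylinder_finite (L : Lab d G) (hT : G.IsTree) (r : V) (K : Finset V)
    {S : Set (K → X)} (hS : MeasurableSet S) :
    {y | ⟪koop ν L hT r y (cInd ν (hS.cylinder K)), cInd ν (hS.cylinder K)⟫ ≠ 0}.Finite := by
  classical
  refine (finite_bad L hT r K).subset fun y hy => ?_
  by_contra hcon
  apply hy
  rw [inner_koop_cInd]
  have hdisj : Disjoint (K.image (L.tr hT r y)) K := by
    rw [Finset.disjoint_left]
    intro x hx hxK
    obtain ⟨k, hk, rfl⟩ := Finset.mem_image.1 hx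
    exact hcon ⟨k, hk, hxK⟩
  have hind := (iIndepFun_infinitePi (P := fun _ : V => ν) (X := fun _ ω => ω)
    (by fun_prop)).indepFun_finset _ _ hdisj (by fun_prop)
  have hm : Measurable (fun (z : (K.image (L.tr hT r y)) → X) (k : K) =>
      z ⟨L.tr hT r y k, Finset.mem_image_of_mem _ k.2⟩) := by fun_prop
  have h2 := hind.measure_inter_preimage_eq_mul _ _ (hm hS) hS
  have h3 := (mp_reindex ν (L.tr_injective hT r y)).measure_preimage
    (hS.cylinder K).nullMeasurableSet
  have h4 : (Measure.infinitePi fun _ : V => ν)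
      ((fun ω v => ω (L.tr hT r y v)) ⁻¹' cylinder K S ∩ cylinder K S) =
      (Measure.infinitePi fun _ : V => ν) (cylinder K S) *
        (Measure.infinitePi fun _ : V => ν) (cylinder K S) := by
    conv_rhs => enter [1]; rw [← h3]
    exact h2
  simp only [measureReal_def, h4, ENNReal.toReal_mul]
  ring

theorem norm_adjL_pow_cInd (L : Lab d G) (hT : G.IsTree) (hd : 2 ≤ d) (r : V)
    {A : Set (V → X)} (hA : MeasurableSet A) (n : ℕ) :
    ‖(adjL ν L hT r ^ n) (cInd ν hA)‖ ≤ (2 * √(d - 1)) ^ n * ‖cInd ν hA‖ := by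
  set P := (Measure.infinitePi fun _ : V => ν)
  set B := adjL ν L hT r ^ n
  set c : ℝ := (2 * √(d - 1)) ^ n
  have hc : 0 ≤ c := by positivity
  have key : ∀ δ : ℝ, 0 < δ → ‖B (cInd ν hA)‖ ≤ c * ‖cInd ν hA‖ + (‖B‖ + c) * (√δ + δ) := by
    intro δ hδ
    obtain ⟨t, ht, h⟩ := exists_measure_symmDiff_lt_of_generateFrom_isSetRing (μ := P)
      isSetRing_measurableCylinders ⟨{Set.univ}, Set.countable_singleton _, by
        simpa using univ_mem_measurableCylinders (fun _ : V => X), by simp⟩
      generateFrom_measurableCylinders.symm hA (ε := ENNReal.ofReal δ) (by simpa using hδ)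
    obtain ⟨K, S, hS, rfl⟩ := (mem_measurableCylinders _).1 ht
    have h1 : P.real (cylinder K S ∆ A) ≤ δ := ENNReal.toReal_le_of_le_ofReal hδ.le h.le
    have h2 : ‖cInd ν (hS.cylinder K) - cInd ν hA‖ ≤ √δ + δ :=
      (norm_cInd_sub ν _ _).trans (by gcongr)
    have h3 := norm_adjL_pow_le ν L hT hd r _ (cInd_cylinder_finite ν L hT r K hS) n
    have h4 : ‖cInd ν (hS.cylinder K)‖ ≤ ‖cInd ν hA‖ + (√δ + δ) := by
      have := norm_sub_norm_le (cInd ν (hS.cylinder K)) (cInd ν hA)
      linarith
    have h5 : ‖B (cInd ν hA)‖ ≤ ‖B (cInd ν (hS.cylinder K))‖ + ‖B‖ * (√δ + δ) := by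
      have h6 := norm_sub_norm_le (B (cInd ν hA)) (B (cInd ν (hS.cylinder K)))
      rw [norm_sub_rev, ← map_sub] at h6
      have h7 := B.le_opNorm (cInd ν (hS.cylinder K) - cInd ν hA)
      have h8 : ‖B‖ * ‖cInd ν (hS.cylinder K) - cInd ν hA‖ ≤ ‖B‖ * (√δ + δ) := by gcongr
      linarith
    have h9 : c * ‖cInd ν (hS.cylinder K)‖ ≤ c * (‖cInd ν hA‖ + (√δ + δ)) := by gcongr
    nlinarith
  have hlim : Tendsto (fun δ : ℝ => c * ‖cInd ν hA‖ + (‖B‖ + c) * (√δ + δ)) (𝓝[>] 0)
      (𝓝 (c * ‖cInd ν hA‖ + (‖B‖ + c) * (√0 + 0))) :=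
    tendsto_nhdsWithin_of_tendsto_nhds (Continuous.tendsto (by fun_prop) 0)
  simp only [Real.sqrt_zero, add_zero, mul_zero] at hlim
  exact ge_of_tendsto hlim (eventually_nhdsWithin_of_forall key)

end Main

theorem IsFreeIsing.both {θ : ℝ} {μ : Measure (V → Bool)} (hμ : IsFreeIsing G θ μ)
    (L : Lab d G) (hT : G.IsTree) (r v : V) :
    μ.real ({x | x v = true} ∩ {x | x r = true}) - (1 / 2) ^ 2 = θ ^ G.dist r v / 4 := by
  have := hμ.1
  have hm : ∀ v, MeasurableSet {x : V → Bool | x v = true} := fun v =>
    measurableSet_eq_fun (measurable_pi_apply v) (by fun_prop)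
  have h1 := hμ.corr L hT r v
  have h2 : (fun x : V → Bool => spin (x r) * spin (x v)) = fun x =>
      Set.indicator ({x | x v = true} ∩ {x | x r = true}) (fun _ => (4 : ℝ)) x -
        Set.indicator {x | x r = true} (fun _ => (2 : ℝ)) x -
        Set.indicator {x | x v = true} (fun _ => (2 : ℝ)) x + 1 := by
    funext x
    cases hr : x r <;> cases hv : x v <;> simp [spin, hr, hv] <;> norm_num
  have i1 := (integrable_const (μ := μ) (4 : ℝ)).indicator ((hm v).inter (hm r))
  have i2 := fun v => (integrable_const (μ := μ) (2 : ℝ)).indicator (hm v)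
  rw [h2, integral_add (by exact (i1.sub (i2 r)).sub (i2 v)) (integrable_const _),
    integral_sub (by exact i1.sub (i2 r)) (i2 v), integral_sub i1 (i2 r),
    integral_indicator_const _ ((hm v).inter (hm r)), integral_indicator_const _ (hm _),
    integral_indicator_const _ (hm _), hμ.half, hμ.half] at h1
  simp only [smul_eq_mul, integral_const, probReal_univ] at h1
  linarith

theorem not_factor_of_gt (hT : G.IsTree) (hd : 3 ≤ d) (hreg : ∀ v, (G.neighborSet v).encard = d)
    {θ : ℝ} (hθ : 1 < θ * √(d - 1)) {μ : Measure (V → Bool)} (hμ : IsFreeIsing G θ μ) :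
    ¬ IsFactorOfIID G μ := by
  classical
  rintro ⟨Φ, hΦ, hmap, heq⟩
  obtain ⟨L⟩ := exists_lab hT hreg
  obtain ⟨r⟩ := hT.connected.nonempty
  set P := (Measure.infinitePi fun _ : V => (volume : Measure unitInterval))
  have hm : ∀ v, MeasurableSet {x : V → Bool | x v = true} := fun v =>
    measurableSet_eq_fun (measurable_pi_apply v) (by fun_prop)
  have hA : MeasurableSet (Φ ⁻¹' {x | x r = true}) := hΦ (hm r)
  have hmp : MeasurePreserving Φ P μ := ⟨hΦ, hmap⟩
  have hin : ∀ y, ⟪koop volume L hT r y (cInd volume hA), cInd volume hA⟫ =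
      θ ^ G.dist r y / 4 := by
    intro y
    rw [inner_koop_cInd, ← hμ.both L hT r y, ← hmp.measureReal_preimage
      ((hm y).inter (hm r)).nullMeasurableSet, hmp.measureReal_preimage (hm r).nullMeasurableSet,
      hμ.half]
    congr 1
    apply measureReal_congr
    filter_upwards [heq (L.aut hT y r)] with U hU
    have h1 : Φ (fun v => U (L.tr hT r y v)) r = Φ U y := by
      simpa using congrFun hU r
    apply propext
    show (Φ (fun v => U (L.tr hT r y v)) r = true ∧ Φ U r = true) ↔ (Φ U y = true ∧ Φ U r = true)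
    rw [h1]
  have hb : (2 : ℝ) ≤ d - 1 := by
    have : (3 : ℝ) ≤ d := by exact_mod_cast hd
    linarith
  set q : ℝ := √(d - 1) with hq
  have hq1 : 1 ≤ q := Real.one_le_sqrt.2 (by linarith)
  have hq2 : q ^ 2 = d - 1 := Real.sq_sqrt (by linarith)
  have hθ0 : 0 < θ := by
    by_contra h
    push Not at h
    nlinarith
  set lam : ℝ := 1 / θ + q ^ 2 * θ with hlam
  set ρ : ℝ := 1 / (q ^ 2 * θ) with hρ
  have hρ0 : 0 < ρ := by positivity
  have hρθ : ρ < θ := by
    rw [hρ, div_lt_iff₀ (by positivity)]
    nlinarith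
  set α : ℝ := (lam / d - ρ) / (θ - ρ) with hα
  let φ : ℕ → ℝ := fun k => α * θ ^ k + (1 - α) * ρ ^ k
  have hd0 : (d : ℝ) ≠ 0 := by positivity
  have hφ : ∀ v, L.adjOp (fun v => φ (G.dist r v)) v = lam * φ (G.dist r v) := by
    intro v
    rw [L.adjOp_radial hT r φ]
    split_ifs with h
    · subst h
      have : θ - ρ ≠ 0 := by linarith
      simp only [φ, dist_self, pow_one, pow_zero, mul_one, hα]
      field_simp
      ring
    · have h1 : G.dist r v ≠ 0 := fun h0 => h (hT.connected.dist_eq_zero_iff.1 h0).symm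
      obtain ⟨k, hk⟩ := Nat.exists_eq_succ_of_ne_zero h1
      have hq0 : q ≠ 0 := by linarith
      have e1 : 1 + q ^ 2 * θ ^ 2 = lam * θ := by rw [hlam]; field_simp
      have e2 : 1 + q ^ 2 * ρ ^ 2 = lam * ρ := by rw [hlam, hρ]; field_simp; ring
      simp only [φ, hk, Nat.succ_eq_add_one, Nat.add_sub_cancel, ← hq2]
      linear_combination α * θ ^ k * e1 + (1 - α) * ρ ^ k * e2
  set C : ℝ := |α| + |1 - α| with hC
  have hφle : ∀ k, φ k ≤ 4 * C * (θ ^ k / 4) := by
    intro k
    have h1 : α * θ ^ k ≤ |α| * θ ^ k := by gcongr; exact le_abs_self _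
    have h2 : (1 - α) * ρ ^ k ≤ |1 - α| * θ ^ k := by
      calc _ ≤ |1 - α| * ρ ^ k := by gcongr; exact le_abs_self _
        _ ≤ _ := by gcongr
    simp only [φ, hC]
    linarith
  have hmain : ∀ n, lam ^ n ≤ 4 * C * ‖cInd volume hA‖ ^ 2 * (2 * q) ^ n := by
    intro n
    have h1 := L.adjOp_iter_eq hφ n r
    have h2 := L.adjOp_iter_mono (fun v => hφle (G.dist r v)) n r
    rw [L.adjOp_iter_smul, h1] at h2
    have h3 := inner_adjL_pow volume L hT r (cInd volume hA) (cInd volume hA) n r
    simp only [hin, koop_self] at h3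
    rw [← h3] at h2
    have h4 := real_inner_le_norm ((adjL volume L hT r ^ n) (cInd volume hA)) (cInd volume hA)
    have h5 := norm_adjL_pow_cInd volume L hT (by omega) r hA n
    have h6 : ‖(adjL volume L hT r ^ n) (cInd volume hA)‖ * ‖cInd volume hA‖ ≤
        (2 * q) ^ n * ‖cInd volume hA‖ * ‖cInd volume hA‖ := by gcongr
    have hC0 : 0 ≤ 4 * C := by positivity
    have h7 := mul_le_mul_of_nonneg_left (h4.trans h6) hC0
    simp only [φ, dist_self, pow_zero, mul_one, add_sub_cancel] at h2
    linarith
  have hgt : 1 < lam / (2 * q) := by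
    rw [one_lt_div (by positivity), hlam, ← sub_pos]
    have : 1 / θ + q ^ 2 * θ - 2 * q = (θ * q - 1) ^ 2 / θ := by field_simp; ring
    rw [this]
    have : 0 < θ * q - 1 := by linarith
    positivity
  obtain ⟨n, hn⟩ := ((tendsto_pow_atTop_atTop_of_one_lt hgt).eventually_gt_atTop
    (4 * C * ‖cInd volume hA‖ ^ 2)).exists
  rw [div_pow, lt_div_iff₀ (by positivity)] at hn
  exact absurd (hmain n) (not_le.2 hn)

end Vale.Agent.P161
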