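import Vale.Agent.P161.CritDefs

/-!
Comparison of the coefficients of two equivariant fields.
-/

open MeasureTheory ProbabilityTheory Filter Topology Finset
open scoped Classical NNReal ENNReal

namespace Vale.Agent.P161

variable {V : Type} {G : SimpleGraph V} [G.LocallyFinite] {q : ℕ}

namespace PairAux

lemma pt_first {v v' N N' M H D S B b L : ℝ} (hv : 0 ≤ v) (hv1 : v ≤ 1) (hd : |v - v'| ≤ D)
    (hH : 1 ≤ H) (hN : N' ≤ H) (hP : N - N' = S + b ^ 2 * B) (hb : 0 ≤ b) (hb1 : b ≤ 1)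
    (hS : S ^ 2 ≤ 16 * L ^ 2 * (H * D) ^ 2) :
    v ^ 2 * N - 2 * v * v' * M + v' ^ 2 * N' ≤
      v * v' * (N + N' - 2 * M) + ((2 + 16 * L ^ 2) * (H * D) ^ 2 + B ^ 2) := by
  have h1 : (v - v') ^ 2 ≤ D ^ 2 := sq_le_sq' (abs_le.1 hd).1 (abs_le.1 hd).2
  have h2 : D ^ 2 * H ≤ (H * D) ^ 2 := by
    have : D ^ 2 * H * 1 ≤ D ^ 2 * H * H := by gcongr
    nlinarith
  have h3 : D ^ 2 ≤ D ^ 2 * H := le_mul_of_one_le_right (sq_nonneg _) hH
  have h4 : (v - v') ^ 2 * N' ≤ D ^ 2 * H :=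
    (mul_le_mul_of_nonneg_left hN (sq_nonneg _)).trans (by gcongr)
  have h5 : (b ^ 2 * B) ^ 2 ≤ B ^ 2 := by
    rw [mul_pow]
    exact mul_le_of_le_one_left (sq_nonneg _) (pow_le_one₀ (sq_nonneg _) (pow_le_one₀ hb hb1))
  have h6 : (v * (N - N')) ^ 2 ≤ (N - N') ^ 2 := by
    rw [mul_pow]
    exact mul_le_of_le_one_left (sq_nonneg _) (pow_le_one₀ hv hv1)
  have h7 : (N - N') ^ 2 ≤ 2 * S ^ 2 + 2 * (b ^ 2 * B) ^ 2 := by
    rw [hP]
    nlinarith [sq_nonneg (S - b ^ 2 * B)]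
  have h8 : (v - v') * (v * (N - N')) ≤ ((v - v') ^ 2 + (v * (N - N')) ^ 2) / 2 := by
    nlinarith [sq_nonneg ((v - v') - v * (N - N'))]
  have e : v ^ 2 * N - 2 * v * v' * M + v' ^ 2 * N' =
      v * v' * (N + N' - 2 * M) + ((v - v') * (v * (N - N')) + (v - v') ^ 2 * N') := by ring
  rw [e]
  nlinarith [sq_nonneg (H * D)]

lemma pt_src {R H T D B b b' L : ℝ} (hR : 0 ≤ R) (hRH : R ≤ H) (hT : 0 ≤ T) (hTH : T ≤ H)
    (hd : |b - b'| ≤ L * D) (hb : 0 ≤ b) (hb1 : b ≤ 1) :
    R * ((b - b') ^ 2 * T + b * (b - b') * B) ≤ 2 * L ^ 2 * (H * D) ^ 2 + B ^ 2 := by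
  have h1 : (b - b') ^ 2 ≤ (L * D) ^ 2 := sq_le_sq' (abs_le.1 hd).1 (abs_le.1 hd).2
  have hH : 0 ≤ H := hR.trans hRH
  have h2 : R * ((b - b') ^ 2 * T) ≤ H * ((L * D) ^ 2 * H) := by gcongr
  have h3 : (R * (b - b')) ^ 2 ≤ H ^ 2 * (L * D) ^ 2 := by
    rw [mul_pow]
    gcongr
  have h4 : (b * B) ^ 2 ≤ B ^ 2 := by
    rw [mul_pow]
    exact mul_le_of_le_one_left (sq_nonneg _) (pow_le_one₀ hb hb1)
  nlinarith [sq_nonneg (R * (b - b') - b * B), sq_nonneg B, sq_nonneg (L * (H * D))]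

lemma pt_S {H T D b b' L : ℝ} (hT : 1 ≤ T) (hTH : T ≤ H) (hd : |b - b'| ≤ L * D)
    (hb : 0 ≤ b) (hb1 : b ≤ 1) (hb' : 0 ≤ b') (hb1' : b' ≤ 1) :
    ((b - b') * (2 + (b + b') * T)) ^ 2 ≤ 16 * L ^ 2 * (H * D) ^ 2 := by
  have h1 : (b - b') ^ 2 ≤ (L * D) ^ 2 := sq_le_sq' (abs_le.1 hd).1 (abs_le.1 hd).2
  have h2 : (b + b') * T ≤ 2 * H := by gcongr; linarith
  have h3 : 0 ≤ (b + b') * T := by positivity
  have h4 : (2 + (b + b') * T) ^ 2 ≤ (4 * H) ^ 2 := by gcongr; linarith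
  calc _ = (b - b') ^ 2 * (2 + (b + b') * T) ^ 2 := by ring
    _ ≤ (L * D) ^ 2 * (4 * H) ^ 2 := by gcongr
    _ = _ := by ring

lemma vf_sub_le (m m' : V → ℝ) (x y : V) : |vf m x - vf m' x| ≤
    (|clip (m x)| + |clip (m y)| + |clip (m' x)| + |clip (m' y)|) *
      (|clip (m x) - clip (m' x)| + |clip (m y) - clip (m' y)|) := by
  have e : vf m x - vf m' x = -((clip (m x) + clip (m' x)) * (clip (m x) - clip (m' x))) := by
    unfold vf
    ring
  rw [e, abs_neg, abs_mul]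
  refine mul_le_mul ((abs_add_le _ _).trans ?_) (le_add_of_nonneg_right (abs_nonneg _))
    (abs_nonneg _) (by positivity)
  linarith [abs_nonneg (clip (m y)), abs_nonneg (clip (m' y))]

lemma bf_sub_le {θ : ℝ} (h0 : 0 ≤ θ) (h1 : θ ^ 2 ≤ 1 / 2) (m m' : V → ℝ) (x y : V) :
    |bf θ m x y - bf θ m' x y| ≤ CL *
      ((|clip (m x)| + |clip (m y)| + |clip (m' x)| + |clip (m' y)|) *
        (|clip (m x) - clip (m' x)| + |clip (m y) - clip (m' y)|)) := by
  rw [← mul_assoc]
  exact ((Classical.choose_spec exists_CL).2 θ θ _ _ _ _ h0 h1 h0 h1 (abs_clip_le_one (m x))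
    (abs_clip_le_one (m y)) (abs_clip_le_one (m' x)) (abs_clip_le_one (m' y))).2.1

lemma vf_bf {θ : ℝ} (h0 : 0 ≤ θ) (h1 : θ < 1) (m : V → ℝ) (x y : V) :
    vf m x * bf θ m x y = vf m y * bf θ m y x :=
  bco_symm h0 h1 (abs_clip_le_one _) (abs_clip_le_one _)

end PairAux

open PairAux

theorem pair_transport (hG : Reg G q) : ∃ C : ℝ, 1 ≤ C ∧ ∀ (θ ρ : ℝ)
    (m m' : (V → unitInterval) → V → ℝ), 0 ≤ θ → q * θ ^ 2 ≤ ρ → ρ < 1 → Measurable m → Equi G m →
      Measurable m' → Equi G m' → ∀ x y, G.Adj x y →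
      ∫ U, (vf (m U) x ^ 2 * NN G θ (m U) x y -
          2 * vf (m U) x * vf (m' U) x * MM G θ (m U) (m' U) x y +
          vf (m' U) x ^ 2 * NN G θ (m' U) x y) ∂iid V ≤
        C * (∫ U, HH G θ (m U) (m' U) x y ^ 2 ∂iid V + (nn G θ m x y - nn G θ m' x y) ^ 2) := by
  obtain ⟨C, hC0, hC⟩ := small_gain hG
  have hL := one_le_CL
  have hL2 : 1 ≤ CL ^ 2 := one_le_pow₀ hL
  refine ⟨(20 + 32 * C) * CL ^ 2, by nlinarith, ?_⟩
  intro θ ρ m m' h0 h hρ hm he hm' he' x y hxy
  have h2 : θ ^ 2 ≤ 1 / 2 := hG.sq_le_half (h.trans hρ.le)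
  have h1 : θ < 1 := by linarith [lt_one_alg h2]
  set N : V → V → (V → unitInterval) → ℝ := fun x y U => NN G θ (m U) x y with hN
  set N' : V → V → (V → unitInterval) → ℝ := fun x y U => NN G θ (m' U) x y with hN'
  set W : V → V → (V → unitInterval) → ℝ := fun x y U => MM G θ (m U) (m' U) x y with hW
  set b : V → V → (V → unitInterval) → ℝ := fun x y U => bf θ (m U) x y with hb
  set b' : V → V → (V → unitInterval) → ℝ := fun x y U => bf θ (m' U) x y with hb'
  have fN : Fam G N := fam_NN hG h0 h hρ hm he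
  have fN' : Fam G N' := fam_NN hG h0 h hρ hm' he'
  have fW : Fam G W := fam_MM hG h0 h hρ hm he hm' he'
  have fb : Fam G b := fam_bf h0 h1 hm he
  have fb' : Fam G b' := fam_bf h0 h1 hm' he'
  have fv := fam_vf hm he
  have fv' := fam_vf hm' he'
  have fc := fam_clip hm he
  have fc' := fam_clip hm' he'
  set P : V → V → (V → unitInterval) → ℝ := fun x y U => N x y U - N' x y U with hP
  set Q : V → V → (V → unitInterval) → ℝ := fun x y U => N x y U + N' x y U - 2 * W x y U with hQ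
  set R : V → V → (V → unitInterval) → ℝ :=
    fun x y U => vf (m U) x * vf (m' U) x * (1 + Bop G W y x U) with hR
  set S : V → V → (V → unitInterval) → ℝ := fun x y U =>
    (b x y U - b' x y U) * (2 + (b x y U + b' x y U) * (1 + Bop G N' x y U)) with hS
  set H : V → V → (V → unitInterval) → ℝ := fun x y U =>
    1 + N' x y U + Bop G (fun x y U => N x y U + N' x y U) x y U +
      Bop G (fun x y U => N x y U + N' x y U) y x U with hH
  set D : V → V → (V → unitInterval) → ℝ := fun x y U =>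
    (|clip (m U x)| + |clip (m U y)| + |clip (m' U x)| + |clip (m' U y)|) *
      (|clip (m U x) - clip (m' U x)| + |clip (m U y) - clip (m' U y)|) with hD
  have fP : Fam G P := fN.sub fN'
  have fQ : Fam G Q := (fN.add fN').sub ((Fam.const 2).mul fW)
  have fR : Fam G R := (fv.mul fv').mul ((Fam.const 1).add (fW.bop hG).rev)
  have fS : Fam G S :=
    (fb.sub fb').mul ((Fam.const 2).add ((fb.add fb').mul ((Fam.const 1).add (fN'.bop hG))))
  have fH : Fam G H :=
    (((Fam.const 1).add fN').add ((fN.add fN').bop hG)).add ((fN.add fN').bop hG).rev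
  have fD : Fam G D :=
    ((((fc.comp continuous_abs).add (fc.rev.comp continuous_abs)).add
      (fc'.comp continuous_abs)).add (fc'.rev.comp continuous_abs)).mul
      (((fc.sub fc').comp continuous_abs).add ((fc.rev.sub fc'.rev).comp continuous_abs))
  have fZ : Fam G fun x y U => b x y U * b' x y U * R x y U := (fb.mul fb').mul fR
  have eH : ∀ U, HH G θ (m U) (m' U) x y = H x y U * D x y U := fun U => mul_assoc _ _ _
  have b0 : ∀ x y U, 0 ≤ b x y U := fun x y U => bf_nonneg h0 h1 _ x y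
  have b0' : ∀ x y U, 0 ≤ b' x y U := fun x y U => bf_nonneg h0 h1 _ x y
  have b1 : ∀ x y U, b x y U ≤ 1 := fun x y U => (bf_le h0 h1 _ x y).trans h1.le
  have b1' : ∀ x y U, b' x y U ≤ 1 := fun x y U => (bf_le h0 h1 _ x y).trans h1.le
  have eN : ∀ x y, G.Adj x y → ∀ U, N x y U =
      (1 + b x y U) * (1 + b x y U) + b x y U * b x y U * Bop G N x y U :=
    fun x y hxy U => MM_eq hG h0 h hρ hxy
  have eN' : ∀ x y, G.Adj x y → ∀ U, N' x y U =
      (1 + b' x y U) * (1 + b' x y U) + b' x y U * b' x y U * Bop G N' x y U :=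
    fun x y hxy U => MM_eq hG h0 h hρ hxy
  have eW : ∀ x y, G.Adj x y → ∀ U, W x y U =
      (1 + b x y U) * (1 + b' x y U) + b x y U * b' x y U * Bop G W x y U :=
    fun x y hxy U => MM_eq hG h0 h hρ hxy
  have N1 : ∀ x y, G.Adj x y → ∀ U, 1 ≤ N x y U := fun x y hxy U => one_le_MM hG h0 h hρ hxy
  have N1' : ∀ x y, G.Adj x y → ∀ U, 1 ≤ N' x y U := fun x y hxy U => one_le_MM hG h0 h hρ hxy
  have W1 : ∀ x y, G.Adj x y → ∀ U, 1 ≤ W x y U := fun x y hxy U => one_le_MM hG h0 h hρ hxy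
  have W2 : ∀ x y, G.Adj x y → ∀ U, W x y U ≤ (N x y U + N' x y U) / 2 :=
    fun x y hxy U => MM_le_half hG h0 h hρ hxy
  have bP : ∀ x y U, Bop G P x y U = Bop G N x y U - Bop G N' x y U := fun x y U =>
    sum_sub_distrib _ _
  have bQ : ∀ U, Bop G Q x y U = Bop G N x y U + Bop G N' x y U - 2 * Bop G W x y U := by
    intro U
    simp only [Bop, hQ, sum_sub_distrib, sum_add_distrib, mul_sum]
  have eP : ∀ x y, G.Adj x y → ∀ U, P x y U = S x y U + b x y U ^ 2 * Bop G P x y U := by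
    intro x y hxy U
    rw [bP]
    change N x y U - N' x y U =
      (b x y U - b' x y U) * (2 + (b x y U + b' x y U) * (1 + Bop G N' x y U)) + _
    linear_combination eN x y hxy U - eN' x y hxy U
  have B0 : ∀ x y U, 0 ≤ Bop G N' x y U ∧ 0 ≤ Bop G W x y U ∧
      Bop G N' x y U ≤ Bop G (fun x y U => N x y U + N' x y U) x y U ∧
      Bop G W x y U ≤ Bop G (fun x y U => N x y U + N' x y U) x y U := by
    intro x y U
    refine ⟨sum_nonneg fun z hz => ?_, sum_nonneg fun z hz => ?_, sum_le_sum fun z hz => ?_,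
      sum_le_sum fun z hz => ?_⟩ <;> have hz' := (mem_ch.1 hz).1 <;>
      linarith [N1 y z hz' U, N1' y z hz' U, W1 y z hz' U, W2 y z hz' U]
  have H1 : ∀ U, N' x y U ≤ H x y U ∧ 1 + Bop G N' x y U ≤ H x y U ∧
      1 + Bop G W y x U ≤ H x y U := by
    intro U
    obtain ⟨a1, -, a2, -⟩ := B0 x y U
    obtain ⟨-, a3, -, a4⟩ := B0 y x U
    have a5 := N1' x y hxy U
    refine ⟨?_, ?_, ?_⟩ <;> simp only [hH] <;> linarith
  have hSq : ∀ U, S x y U ^ 2 ≤ 16 * CL ^ 2 * (H x y U * D x y U) ^ 2 := fun U =>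
    pt_S (by linarith [(B0 x y U).1]) (H1 U).2.1 (bf_sub_le h0 h2 _ _ x y) (b0 x y U) (b1 x y U)
      (b0' x y U) (b1' x y U)
  have iH : Integrable (fun U => (H x y U * D x y U) ^ 2) (iid V) :=
    (TemperAux.fam_sq (fH.mul fD)).integrable hxy
  have iB : Integrable (fun U => Bop G P x y U ^ 2) (iid V) :=
    (TemperAux.fam_sq (fP.bop hG)).integrable hxy
  have k1 := hC P S (fun x y U => b x y U ^ 2) fP fS (TemperAux.fam_sq fb) (fun x y hxy U =>
    ⟨sq_nonneg _, ((bd_field h0 h1 h (m U)).b_le x y).trans hρ.le, eP x y hxy U⟩) x y hxy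
  have k2 : ∫ U, S x y U ^ 2 ∂iid V ≤ 16 * CL ^ 2 * ∫ U, (H x y U * D x y U) ^ 2 ∂iid V := by
    rw [← integral_const_mul]
    exact integral_mono ((TemperAux.fam_sq fS).integrable hxy) (iH.const_mul _) hSq
  have k3 : ∫ U, P x y U ∂iid V = nn G θ m x y - nn G θ m' x y :=
    integral_sub (fN.integrable hxy) (fN'.integrable hxy)
  have k4 := fQ.dual hG fZ hxy
  have iQ : Integrable (fun U => vf (m U) x * vf (m' U) x * Q x y U) (iid V) :=
    ((fv.mul fv').mul fQ).integrable hxy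
  have iZ : Integrable (fun U => Q x y U * ∑ w ∈ ch G y x, b w x U * b' w x U * R w x U) (iid V) :=
    (fQ.mul (fZ.rev.bop hG).rev).integrable hxy
  have iZ' : Integrable (fun U => b x y U * b' x y U * R x y U * Bop G Q x y U) (iid V) :=
    (fZ.mul (fQ.bop hG)).integrable hxy
  have k5 : ∫ U, vf (m U) x * vf (m' U) x * Q x y U ∂iid V ≤
      2 * CL ^ 2 * ∫ U, (H x y U * D x y U) ^ 2 ∂iid V + ∫ U, Bop G P x y U ^ 2 ∂iid V := by
    have a : ∫ U, (vf (m U) x * vf (m' U) x * Q x y U +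
        Q x y U * ∑ w ∈ ch G y x, b w x U * b' w x U * R w x U) ∂iid V ≤
        ∫ U, (2 * CL ^ 2 * (H x y U * D x y U) ^ 2 + Bop G P x y U ^ 2 +
          b x y U * b' x y U * R x y U * Bop G Q x y U) ∂iid V := by
      refine integral_mono (iQ.add iZ) (((iH.const_mul _).add iB).add iZ') fun U => ?_
      have v0 : 0 ≤ vf (m U) x * vf (m' U) x := mul_nonneg (vf_nonneg _ _) (vf_nonneg _ _)
      have v1 : vf (m U) x * vf (m' U) x ≤ 1 :=
        mul_le_one₀ (vf_le_one _ _) (vf_nonneg _ _) (vf_le_one _ _)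
      have a1 : ∑ w ∈ ch G y x, b w x U * b' w x U * R w x U ≤
          vf (m U) x * vf (m' U) x * Bop G W y x U := by
        rw [Bop, mul_sum]
        refine sum_le_sum fun w hw => ?_
        have e : b w x U * b' w x U * R w x U =
            vf (m U) x * vf (m' U) x * (b x w U * b' x w U * (1 + Bop G W x w U)) := by
          calc _ = vf (m U) w * bf θ (m U) w x * (vf (m' U) w * bf θ (m' U) w x) *
                (1 + Bop G W x w U) := by simp only [hR, hb, hb']; ring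
            _ = _ := by rw [vf_bf h0 h1 (m U) w x, vf_bf h0 h1 (m' U) w x]; ring
        rw [e]
        refine mul_le_mul_of_nonneg_left ?_ v0
        rw [eW x w (mem_ch.1 hw).1 U]
        linarith [b0 x w U, b0' x w U]
      have a2 : 0 ≤ Q x y U := by
        have := W2 x y hxy U
        simp only [hQ]
        linarith
      have a3 : 0 ≤ 1 + Bop G W y x U := by linarith [(B0 y x U).2.1]
      have a4 := pt_src (R := R x y U) (B := Bop G P x y U) (mul_nonneg v0 a3)
        ((mul_le_of_le_one_left a3 v1).trans (H1 U).2.2) (by linarith [(B0 x y U).1]) (H1 U).2.1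
        (bf_sub_le h0 h2 (m U) (m' U) x y) (b0 x y U) (b1 x y U)
      have a5 : Q x y U = (b x y U - b' x y U) ^ 2 * (1 + Bop G N' x y U) +
          b x y U * (b x y U - b' x y U) * Bop G P x y U + b x y U * b' x y U * Bop G Q x y U := by
        rw [bP, bQ]
        change N x y U + N' x y U - 2 * W x y U = _
        linear_combination eN x y hxy U + eN' x y hxy U - 2 * eW x y hxy U
      have a6 := mul_le_mul_of_nonneg_left a1 a2
      have a7 : vf (m U) x * vf (m' U) x * Q x y U +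
          Q x y U * (vf (m U) x * vf (m' U) x * Bop G W y x U) = R x y U * Q x y U := by
        simp only [hR]
        ring
      have a8 : R x y U * Q x y U = R x y U * ((b x y U - b' x y U) ^ 2 * (1 + Bop G N' x y U) +
          b x y U * (b x y U - b' x y U) * Bop G P x y U) +
          b x y U * b' x y U * R x y U * Bop G Q x y U := by
        linear_combination R x y U * a5
      change R x y U * ((b x y U - b' x y U) ^ 2 * (1 + Bop G N' x y U) +
          b x y U * (b x y U - b' x y U) * Bop G P x y U) ≤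
          2 * CL ^ 2 * (H x y U * D x y U) ^ 2 + Bop G P x y U ^ 2 at a4
      simp only
      linarith
    rw [integral_add iQ iZ, integral_add (by exact (iH.const_mul _).add iB) iZ',
      integral_add (iH.const_mul _) iB, integral_const_mul] at a
    linarith
  have k6 : ∫ U, (vf (m U) x ^ 2 * N x y U - 2 * vf (m U) x * vf (m' U) x * W x y U +
      vf (m' U) x ^ 2 * N' x y U) ∂iid V ≤ ∫ U, vf (m U) x * vf (m' U) x * Q x y U ∂iid V +
      ((2 + 16 * CL ^ 2) * ∫ U, (H x y U * D x y U) ^ 2 ∂iid V +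
        ∫ U, Bop G P x y U ^ 2 ∂iid V) := by
    rw [← integral_const_mul, ← integral_add (iH.const_mul _) iB,
      ← integral_add iQ (by exact (iH.const_mul _).add iB)]
    refine integral_mono (((((TemperAux.fam_sq fv).mul fN).sub
      ((((Fam.const 2).mul fv).mul fv').mul fW)).add ((TemperAux.fam_sq fv').mul fN')).integrable
      hxy) (iQ.add ((iH.const_mul _).add iB)) fun U => ?_
    exact pt_first (vf_nonneg _ _) (vf_le_one _ _) (vf_sub_le _ _ x y)
      ((N1' x y hxy U).trans (H1 U).1) (H1 U).1 (eP x y hxy U) (b0 x y U) (b1 x y U) (hSq U)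
  simp only [eH]
  rw [k3] at k1
  have k7 : 0 ≤ ∫ U, (H x y U * D x y U) ^ 2 ∂iid V := integral_nonneg fun U => sq_nonneg _
  set I := ∫ U, (H x y U * D x y U) ^ 2 ∂iid V
  set E := (nn G θ m x y - nn G θ m' x y) ^ 2
  have k8 : 0 ≤ E := sq_nonneg _
  have k9 : C * (∫ U, S x y U ^ 2 ∂iid V + E) ≤ C * (16 * CL ^ 2 * I + CL ^ 2 * E) := by
    gcongr
    exact le_mul_of_one_le_left k8 hL2
  have k10 : I ≤ CL ^ 2 * I := le_mul_of_one_le_left k7 hL2
  have k11 : 0 ≤ CL ^ 2 * E := by positivity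
  have k12 : 0 ≤ C * (CL ^ 2 * E) := by positivity
  refine k6.trans ?_
  nlinarith

end Vale.Agent.P161
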