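import Vale.Agent.P161.CritDefs

/-!
The weight in the comparison, from the tail bounds.
-/

open MeasureTheory ProbabilityTheory Filter Topology Finset
open scoped Classical NNReal ENNReal

namespace Vale.Agent.P161

variable {V : Type} {G : SimpleGraph V} [G.LocallyFinite] {q : ℕ} {β : ℝ}

namespace PairTail

lemma NN_nonneg (θ : ℝ) (m : V → ℝ) (x y : V) : 0 ≤ NN G θ m x y :=
  Real.iSup_nonneg fun r => M_self_nonneg r x y

lemma ell_pow_le {t : ℝ} (h0 : 0 < t) (h1 : t ≤ 1) : ell t ^ 4 / √t ≤ 16 ^ 4 / √√t ^ 3 := by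
  obtain ⟨w, hw⟩ : ∃ w, w = √√t := ⟨_, rfl⟩
  obtain ⟨u, hu⟩ : ∃ u, u = √√w := ⟨_, rfl⟩
  have hw0 : 0 < w := by rw [hw]; positivity
  have hu0 : 0 < u := by rw [hu]; positivity
  have e1 : w ^ 2 = √t := by rw [hw]; exact Real.sq_sqrt (by positivity)
  have e2 : u ^ 4 = w := by
    have a1 : u ^ 2 = √w := by rw [hu]; exact Real.sq_sqrt (by positivity)
    have a2 : √w ^ 2 = w := Real.sq_sqrt hw0.le
    calc u ^ 4 = (u ^ 2) ^ 2 := by ring
      _ = w := by rw [a1, a2]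
  have e3 : t = u ^ 16 := by
    have a1 : √t ^ 2 = t := Real.sq_sqrt h0.le
    calc t = (w ^ 2) ^ 2 := by rw [e1, a1]
      _ = u ^ 16 := by rw [← e2]; ring
  have h2 : ell t ≤ 16 / u := by
    have a1 := Real.log_le_sub_one_of_pos (inv_pos.mpr hu0)
    rw [Real.log_inv] at a1
    have a2 : Real.log t = 16 * Real.log u := by rw [e3, Real.log_pow]; norm_num
    unfold ell
    rw [a2, div_eq_mul_inv]
    linarith
  have h3 : ell t ^ 4 ≤ (16 / u) ^ 4 :=
    pow_le_pow_left₀ (le_trans zero_le_one (one_le_ell h0 h1)) h2 4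
  rw [← hw, ← e1]
  calc ell t ^ 4 / w ^ 2 ≤ (16 / u) ^ 4 / w ^ 2 := by gcongr
    _ = 16 ^ 4 / w ^ 3 := by rw [div_pow, e2]; field_simp

lemma log_sq_le {x : ℝ} (h : 1 ≤ x) : Real.log x ^ 2 ≤ 4 * x := by
  have h0 : 0 < √x := by positivity
  have a1 := Real.log_le_sub_one_of_pos h0
  have a2 : Real.log x = 2 * Real.log √x := by
    rw [Real.log_sqrt (by linarith)]; ring
  have a3 : 0 ≤ Real.log x := Real.log_nonneg h
  have a4 : Real.log x ≤ 2 * √x := by linarith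
  calc Real.log x ^ 2 ≤ (2 * √x) ^ 2 := pow_le_pow_left₀ a3 a4 2
    _ = 4 * x := by rw [mul_pow, Real.sq_sqrt (by linarith)]; norm_num

lemma good_bound {C₀ t l l' A : ℝ} (hC₀ : 1 ≤ C₀) (h0 : 0 < t) (h1 : t ≤ 1) (hl : 1 ≤ l)
    (hl1 : 1 ≤ l') (hl' : l' ≤ 2 * l * ell t) (hA1 : A ^ 2 ≤ 16)
    (hA2 : A ^ 2 ≤ 16 * (C₀ * l' * √t * ell t)) :
    (C₀ * ell t / √t + C₀ * (ell t + Real.log l')) ^ 2 * A ^ 2 ≤
      C₀ ^ 3 * 512 * 16 ^ 4 * (l / √√t ^ 3) := by
  have he := one_le_ell h0 h1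
  obtain ⟨e, he'⟩ : ∃ e, e = ell t := ⟨_, rfl⟩
  obtain ⟨s, hs⟩ : ∃ s, s = √t := ⟨_, rfl⟩
  have hp := ell_pow_le h0 h1
  rw [← he'] at he hl' hA2 hp ⊢
  have hs0 : 0 < s := by rw [hs]; positivity
  have hs1 : s ≤ 1 := by rw [hs]; exact Real.sqrt_le_one.mpr h1
  have hp' : e ^ 4 / s ≤ 16 ^ 4 / √√t ^ 3 := by rw [hs]; exact hp
  rw [← hs] at hA2
  have hgoal : (C₀ * e / s + C₀ * (e + Real.log l')) ^ 2 * A ^ 2 ≤
      C₀ ^ 3 * 512 * l * (e ^ 4 / s) := by
    have hL := log_sq_le hl1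
    have hL0 : 0 ≤ Real.log l' := Real.log_nonneg hl1
    have b1 : C₀ * e ≤ C₀ * e / s := le_div_self (by positivity) hs0 hs1
    have b2 : (C₀ * e / s + C₀ * (e + Real.log l')) ^ 2 ≤
        8 * (C₀ * e / s) ^ 2 + 2 * (C₀ * Real.log l') ^ 2 := by
      have c1 : C₀ * e / s + C₀ * (e + Real.log l') ≤ 2 * (C₀ * e / s) + C₀ * Real.log l' := by
        linarith
      have c2 : (C₀ * e / s + C₀ * (e + Real.log l')) ^ 2 ≤
          (2 * (C₀ * e / s) + C₀ * Real.log l') ^ 2 := pow_le_pow_left₀ (by positivity) c1 2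
      nlinarith [sq_nonneg (2 * (C₀ * e / s) - C₀ * Real.log l')]
    have b3 : (C₀ * e / s) ^ 2 * A ^ 2 ≤ 32 * C₀ ^ 3 * l * (e ^ 4 / s) := by
      calc (C₀ * e / s) ^ 2 * A ^ 2 ≤ (C₀ * e / s) ^ 2 * (16 * (C₀ * (2 * l * e) * s * e)) := by
            refine mul_le_mul_of_nonneg_left (hA2.trans ?_) (sq_nonneg _)
            gcongr
        _ = 32 * C₀ ^ 3 * l * (e ^ 4 / s) := by field_simp; ring
    have b4 : (C₀ * Real.log l') ^ 2 * A ^ 2 ≤ 128 * C₀ ^ 3 * l * (e ^ 4 / s) := by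
      have c1 : e ≤ e ^ 4 / s := by
        have d1 : e ≤ e ^ 4 := le_self_pow₀ he (by norm_num)
        exact d1.trans (le_div_self (by positivity) hs0 hs1)
      have c2 : C₀ ^ 2 ≤ C₀ ^ 3 := pow_le_pow_right₀ hC₀ (by norm_num)
      calc (C₀ * Real.log l') ^ 2 * A ^ 2 = C₀ ^ 2 * Real.log l' ^ 2 * A ^ 2 := by ring
        _ ≤ C₀ ^ 3 * (4 * (2 * l * e)) * 16 := by
            gcongr
            linarith
        _ = 128 * C₀ ^ 3 * l * e := by ring
        _ ≤ _ := by gcongr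
    calc _ ≤ (8 * (C₀ * e / s) ^ 2 + 2 * (C₀ * Real.log l') ^ 2) * A ^ 2 :=
          mul_le_mul_of_nonneg_right b2 (sq_nonneg _)
      _ = 8 * ((C₀ * e / s) ^ 2 * A ^ 2) + 2 * ((C₀ * Real.log l') ^ 2 * A ^ 2) := by ring
      _ ≤ _ := by linarith
  rw [← hs]
  calc _ ≤ _ := hgoal
    _ ≤ C₀ ^ 3 * 512 * l * (16 ^ 4 / √√t ^ 3) := by gcongr
    _ = _ := by rw [hs]; ring

/-- The first factor of the weight is bounded by the largest of its terms. -/
lemma first_le (hG : Reg G q) {θ : ℝ} {m m' : V → ℝ} {x y : V} (hxy : G.Adj x y) {τ : ℝ}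
    (hτ : 1 ≤ τ) (h1 : NN G θ m' x y ≤ τ)
    (h2 : ∀ z ∈ ch G x y, NN G θ m y z ≤ τ ∧ NN G θ m' y z ≤ τ)
    (h3 : ∀ w ∈ ch G y x, NN G θ m x w ≤ τ ∧ NN G θ m' x w ≤ τ) :
    1 + NN G θ m' x y + ∑ z ∈ ch G x y, (NN G θ m y z + NN G θ m' y z) +
      ∑ w ∈ ch G y x, (NN G θ m x w + NN G θ m' x w) ≤ (4 * q + 2) * τ := by
  have a1 := sum_le_card_nsmul (ch G x y) (fun z => NN G θ m y z + NN G θ m' y z) (2 * τ)
    fun z hz => by have := h2 z hz; linarith [this.1, this.2]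
  have a2 := sum_le_card_nsmul (ch G y x) (fun w => NN G θ m x w + NN G θ m' x w) (2 * τ)
    fun z hz => by have := h3 z hz; linarith [this.1, this.2]
  rw [hG.card_ch hxy, nsmul_eq_mul] at a1
  rw [hG.card_ch hxy.symm, nsmul_eq_mul] at a2
  linarith

lemma first_nonneg (θ : ℝ) (m m' : V → ℝ) (x y : V) :
    0 ≤ 1 + NN G θ m' x y + ∑ z ∈ ch G x y, (NN G θ m y z + NN G θ m' y z) +
      ∑ w ∈ ch G y x, (NN G θ m x w + NN G θ m' x w) := by
  have a1 : 0 ≤ ∑ z ∈ ch G x y, (NN G θ m y z + NN G θ m' y z) :=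
    sum_nonneg fun z _ => add_nonneg (NN_nonneg _ _ _ _) (NN_nonneg _ _ _ _)
  have a2 : 0 ≤ ∑ w ∈ ch G y x, (NN G θ m x w + NN G θ m' x w) :=
    sum_nonneg fun z _ => add_nonneg (NN_nonneg _ _ _ _) (NN_nonneg _ _ _ _)
  have := NN_nonneg (G := G) θ m' x y
  linarith

lemma four_sq_le {a b c d τ : ℝ} (ha : a ^ 2 ≤ τ) (hb : b ^ 2 ≤ τ) (hc : c ^ 2 ≤ τ)
    (hd : d ^ 2 ≤ τ) : (|a| + |b| + |c| + |d|) ^ 2 ≤ 16 * τ := by
  rw [← sq_abs] at ha hb hc hd
  nlinarith [sq_nonneg (|a| - |b|), sq_nonneg (|a| - |c|), sq_nonneg (|a| - |d|),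
    sq_nonneg (|b| - |c|), sq_nonneg (|b| - |d|), sq_nonneg (|c| - |d|)]

lemma clip_sq_le (p : ℝ) : clip p ^ 2 ≤ p ^ 2 := sq_le_sq.mpr (abs_clip_le p)

lemma clip_sq_le_one (p : ℝ) : clip p ^ 2 ≤ 1 := by
  have := abs_clip_le_one p
  rw [← sq_abs]
  nlinarith [abs_nonneg (clip p)]

lemma clip_sub_sq_le (p p' : ℝ) : (clip p - clip p') ^ 2 ≤ 4 := by
  have a1 := clip_sq_le_one p
  have a2 := clip_sq_le_one p'
  nlinarith [sq_nonneg (clip p + clip p')]

lemma two_sq_le (a b : ℝ) : (|a| + |b|) ^ 2 ≤ 2 * a ^ 2 + 2 * b ^ 2 := by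
  rw [← sq_abs a, ← sq_abs b]
  nlinarith [sq_nonneg (|a| - |b|)]

end PairTail

open PairTail in
theorem pair_tail (hG : Reg G q) (hβ : 0 ≤ β) {C₀ : ℝ} (hC₀ : 1 ≤ C₀) : ∃ C : ℝ, 1 ≤ C ∧
    ∀ (t ε l : ℝ) (m m' : (V → unitInterval) → V → ℝ), 0 < t → t ≤ 1 → q * th β t ^ 2 < 1 →
      Good G β C₀ t m → Good G β C₀ t m' →
      (∀ v, ∫ U, (clip (m U v) - clip (m' U v)) ^ 2 ∂iid V ≤ ε) → 1 ≤ l → ∀ x y, G.Adj x y →
      ∫ U, HH G (th β t) (m U) (m' U) x y ^ 2 ∂iid V ≤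
        C * (l / √√t ^ 3 * ε + Real.exp (-l)) := by
  obtain ⟨c₁, hc₁⟩ : ∃ c : ℝ, c = (4 * q + 2) ^ 2 * (C₀ ^ 3 * 512 * 16 ^ 4) := ⟨_, rfl⟩
  obtain ⟨c₂, hc₂⟩ : ∃ c : ℝ, c = ((4 * q + 2) * C₀) ^ 2 * 256 := ⟨_, rfl⟩
  have hc₁0 : 0 ≤ c₁ := by rw [hc₁]; positivity
  have hc₂0 : 0 ≤ c₂ := by rw [hc₂]; positivity
  have hq0 : (0 : ℝ) ≤ q := Nat.cast_nonneg q
  refine ⟨1 + 4 * c₁ + c₂ * (4 * q + 1 + 4 * C₀), ?_, ?_⟩
  · have : 0 ≤ c₂ * (4 * q + 1 + 4 * C₀) := by positivity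
    linarith
  intro t ε l m m' h0 h1 _ hm hm' hε hl x y hxy
  have he := one_le_ell h0 h1
  obtain ⟨l', hl'⟩ : ∃ l', l' = l + 2 * (ell t - 1) := ⟨_, rfl⟩
  have hl1 : 1 ≤ l' := by rw [hl']; linarith
  have hl2 : l' ≤ 2 * l * ell t := by rw [hl']; nlinarith
  have hexp : Real.exp (-l') = t ^ 2 * Real.exp (-l) := by
    have e1 : -l' = 2 * Real.log t + -l := by rw [hl', ell]; ring
    have e2 : Real.exp (2 * Real.log t) = t ^ 2 := by
      rw [show 2 * Real.log t = Real.log (t ^ 2) by rw [Real.log_pow]; norm_num,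
        Real.exp_log (by positivity)]
    rw [e1, Real.exp_add, e2]
  obtain ⟨τN, hτN⟩ : ∃ τ, τ = C₀ * ell t / √t + C₀ * (ell t + Real.log l') := ⟨_, rfl⟩
  obtain ⟨τm, hτm⟩ : ∃ τ, τ = C₀ * l' * √t * ell t := ⟨_, rfl⟩
  have hτN1 : 1 ≤ τN := by
    have a1 : 0 ≤ C₀ * ell t / √t := by positivity
    have a2 : 0 ≤ Real.log l' := Real.log_nonneg hl1
    rw [hτN]
    nlinarith
  let S : ((V → unitInterval) → V → ℝ) → V → V → Set (V → unitInterval) :=
    fun μ a b => {U | τN ≤ NN G (th β t) (μ U) a b}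
  let T : ((V → unitInterval) → V → ℝ) → V → Set (V → unitInterval) :=
    fun μ v => {U | τm < μ U v ^ 2}
  have hSm : ∀ μ, Measurable μ → ∀ a b, MeasurableSet (S μ a b) := fun μ hμ a b =>
    measurableSet_le measurable_const (measurable_MM hμ hμ _ a b)
  have hTm : ∀ μ, Measurable μ → ∀ v, MeasurableSet (T μ v) := fun μ hμ v =>
    measurableSet_lt measurable_const (by fun_prop)
  have hS : ∀ μ, Good G β C₀ t μ → ∀ a b, G.Adj a b → (iid V).real (S μ a b) ≤ Real.exp (-l') := by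
    intro μ hμ a b hab
    have := hμ.tailN a b hab l' hl1
    rw [← hτN] at this
    exact this
  have hT : ∀ μ, Good G β C₀ t μ → ∀ v, (iid V).real (T μ v) ≤ C₀ * Real.exp (-l') := by
    intro μ hμ v
    have := hμ.tailm v l' hl1
    rw [← hτm] at this
    exact this
  obtain ⟨B, hB⟩ : ∃ B : Set (V → unitInterval), B = (S m' x y ∪
      ((⋃ z ∈ ch G x y, (S m y z ∪ S m' y z)) ∪ ⋃ w ∈ ch G y x, (S m x w ∪ S m' x w))) ∪
      ((T m x ∪ T m y) ∪ (T m' x ∪ T m' y)) := ⟨_, rfl⟩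
  have hBm : MeasurableSet B := by
    rw [hB]
    refine ((hSm _ hm'.meas _ _).union (MeasurableSet.union ?_ ?_)).union
      (((hTm _ hm.meas _).union (hTm _ hm.meas _)).union
        ((hTm _ hm'.meas _).union (hTm _ hm'.meas _)))
    · exact measurableSet_biUnion _ fun z _ => (hSm _ hm.meas _ _).union (hSm _ hm'.meas _ _)
    · exact measurableSet_biUnion _ fun z _ => (hSm _ hm.meas _ _).union (hSm _ hm'.meas _ _)
  have hch : ∀ a b, G.Adj a b → (iid V).real (⋃ z ∈ ch G a b, (S m b z ∪ S m' b z)) ≤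
      q * (2 * Real.exp (-l')) := by
    intro a b hab
    refine (measureReal_biUnion_finset_le _ _).trans ?_
    have := sum_le_card_nsmul (ch G a b) (fun z => (iid V).real (S m b z ∪ S m' b z))
      (2 * Real.exp (-l')) fun z hz => by
        have a1 := hS m hm b z (mem_ch.1 hz).1
        have a2 := hS m' hm' b z (mem_ch.1 hz).1
        have a3 := measureReal_union_le (μ := iid V) (S m b z) (S m' b z)
        linarith
    rwa [hG.card_ch hab, nsmul_eq_mul] at this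
  have hBP : (iid V).real B ≤ (4 * q + 1 + 4 * C₀) * Real.exp (-l') := by
    rw [hB]
    have a1 := hS m' hm' x y hxy
    have a2 := hch x y hxy
    have a3 := hch y x hxy.symm
    have a4 := hT m hm x
    have a5 := hT m hm y
    have a6 := hT m' hm' x
    have a7 := hT m' hm' y
    refine (measureReal_union_le _ _).trans ?_
    have b1 := measureReal_union_le (μ := iid V) (S m' x y)
      ((⋃ z ∈ ch G x y, (S m y z ∪ S m' y z)) ∪ ⋃ w ∈ ch G y x, (S m x w ∪ S m' x w))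
    have b2 := measureReal_union_le (μ := iid V) (⋃ z ∈ ch G x y, (S m y z ∪ S m' y z))
      (⋃ w ∈ ch G y x, (S m x w ∪ S m' x w))
    have b3 := measureReal_union_le (μ := iid V) (T m x ∪ T m y) (T m' x ∪ T m' y)
    have b4 := measureReal_union_le (μ := iid V) (T m x) (T m y)
    have b5 := measureReal_union_le (μ := iid V) (T m' x) (T m' y)
    linarith
  obtain ⟨K, hK⟩ : ∃ K, K = c₁ * (l / √√t ^ 3) := ⟨_, rfl⟩
  have hw : 0 ≤ l / √√t ^ 3 := by positivity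
  have hK0 : 0 ≤ K := by rw [hK]; positivity
  have hpt : ∀ U, HH G (th β t) (m U) (m' U) x y ^ 2 ≤
      K * (2 * (clip (m U x) - clip (m' U x)) ^ 2 + 2 * (clip (m U y) - clip (m' U y)) ^ 2) +
        c₂ / t ^ 2 * B.indicator 1 U := by
    intro U
    have hD := two_sq_le (clip (m U x) - clip (m' U x)) (clip (m U y) - clip (m' U y))
    have hA : (|clip (m U x)| + |clip (m U y)| + |clip (m' U x)| + |clip (m' U y)|) ^ 2 ≤
        16 * 1 := four_sq_le (clip_sq_le_one _) (clip_sq_le_one _) (clip_sq_le_one _)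
          (clip_sq_le_one _)
    have hH0 := first_nonneg (G := G) (th β t) (m U) (m' U) x y
    unfold HH
    rw [mul_pow, mul_pow]
    by_cases hU : U ∈ B
    · rw [Set.indicator_of_mem hU, Pi.one_apply, mul_one]
      have hτ : 1 ≤ C₀ / t := by rw [le_div_iff₀ h0]; linarith
      have hH := first_le hG (θ := th β t) (m := m U) (m' := m' U) hxy hτ (hm'.bd x y hxy U)
        (fun z hz => ⟨hm.bd _ _ (mem_ch.1 hz).1 U, hm'.bd _ _ (mem_ch.1 hz).1 U⟩)
        (fun z hz => ⟨hm.bd _ _ (mem_ch.1 hz).1 U, hm'.bd _ _ (mem_ch.1 hz).1 U⟩)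
      have hD' : (|clip (m U x) - clip (m' U x)| + |clip (m U y) - clip (m' U y)|) ^ 2 ≤ 16 := by
        have a1 := clip_sub_sq_le (m U x) (m' U x)
        have a2 := clip_sub_sq_le (m U y) (m' U y)
        linarith
      refine le_add_of_nonneg_of_le (by positivity) ?_
      calc _ ≤ ((4 * q + 2) * (C₀ / t)) ^ 2 * (16 * 1) * 16 := by gcongr
        _ = _ := by rw [hc₂]; field_simp; ring
    · rw [Set.indicator_of_notMem hU, mul_zero, add_zero]
      rw [hB] at hU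
      simp only [Set.mem_union, Set.mem_iUnion, not_or, not_exists, S, T, Set.mem_ofPred_eq,
        not_le, not_lt] at hU
      obtain ⟨⟨u1, u2, u3⟩, ⟨u4, u5⟩, u6, u7⟩ := hU
      have hH := first_le hG (θ := th β t) (m := m U) (m' := m' U) hxy hτN1 u1.le
        (fun z hz => ⟨(u2 z hz).1.le, (u2 z hz).2.le⟩)
        (fun z hz => ⟨(u3 z hz).1.le, (u3 z hz).2.le⟩)
      have hA2 := four_sq_le ((clip_sq_le _).trans u4) ((clip_sq_le _).trans u5)
        ((clip_sq_le _).trans u6) ((clip_sq_le _).trans u7)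
      rw [hτm] at hA2
      have hg := good_bound hC₀ h0 h1 hl hl1 hl2 (by simpa using hA) hA2
      rw [← hτN] at hg
      refine mul_le_mul ?_ hD (sq_nonneg _) hK0
      calc _ ≤ ((4 * q + 2) * τN) ^ 2 *
            (|clip (m U x)| + |clip (m U y)| + |clip (m' U x)| + |clip (m' U y)|) ^ 2 := by gcongr
        _ = (4 * q + 2) ^ 2 * (τN ^ 2 *
            (|clip (m U x)| + |clip (m U y)| + |clip (m' U x)| + |clip (m' U y)|) ^ 2) := by ring
        _ ≤ (4 * q + 2) ^ 2 * (C₀ ^ 3 * 512 * 16 ^ 4 * (l / √√t ^ 3)) := by gcongr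
        _ = K := by rw [hK, hc₁]; ring
  have hint : ∀ v, Integrable (fun U => (clip (m U v) - clip (m' U v)) ^ 2) (iid V) := by
    intro v
    have a1 := hm.meas
    have a2 := hm'.meas
    have a3 := continuous_clip.measurable
    refine integrable_of_bdd (c := 4) (by fun_prop) fun U => ?_
    rw [abs_of_nonneg (sq_nonneg _)]
    exact clip_sub_sq_le _ _
  have hind : Integrable (fun U => B.indicator (1 : (V → unitInterval) → ℝ) U) (iid V) :=
    (integrable_const (1 : ℝ)).indicator hBm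
  have hε0 : 0 ≤ ε := (integral_nonneg fun U => sq_nonneg _).trans (hε x)
  have hI1 : Integrable (fun U => 2 * (clip (m U x) - clip (m' U x)) ^ 2 +
      2 * (clip (m U y) - clip (m' U y)) ^ 2) (iid V) :=
    ((hint x).const_mul 2).add ((hint y).const_mul 2)
  refine (integral_mono_of_nonneg (ae_of_all _ fun U => sq_nonneg _)
    ((hI1.const_mul K).add (hind.const_mul (c₂ / t ^ 2))) (ae_of_all _ hpt)).trans ?_
  have e1 : ∫ U, (K * (2 * (clip (m U x) - clip (m' U x)) ^ 2 +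
      2 * (clip (m U y) - clip (m' U y)) ^ 2) + c₂ / t ^ 2 * B.indicator 1 U) ∂iid V =
      K * (2 * ∫ U, (clip (m U x) - clip (m' U x)) ^ 2 ∂iid V +
        2 * ∫ U, (clip (m U y) - clip (m' U y)) ^ 2 ∂iid V) + c₂ / t ^ 2 * (iid V).real B := by
    rw [integral_add (hI1.const_mul K) (hind.const_mul _), integral_const_mul, integral_const_mul,
      integral_add ((hint x).const_mul 2) ((hint y).const_mul 2), integral_const_mul,
      integral_const_mul, integral_indicator_one hBm]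
  refine le_of_eq_of_le e1 ?_
  have a1 := hε x
  have a2 := hε y
  have a3 : c₂ / t ^ 2 * (iid V).real B ≤ c₂ * (4 * q + 1 + 4 * C₀) * Real.exp (-l) := by
    calc _ ≤ c₂ / t ^ 2 * ((4 * q + 1 + 4 * C₀) * Real.exp (-l')) := by gcongr
      _ = _ := by rw [hexp]; field_simp
  have a4 : K * (2 * ∫ U, (clip (m U x) - clip (m' U x)) ^ 2 ∂iid V +
      2 * ∫ U, (clip (m U y) - clip (m' U y)) ^ 2 ∂iid V) ≤ 4 * c₁ * (l / √√t ^ 3 * ε) := by
    calc _ ≤ K * (2 * ε + 2 * ε) := by gcongr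
      _ = _ := by rw [hK]; ring
  have a5 : 0 ≤ l / √√t ^ 3 * ε := by positivity
  have a6 : 0 ≤ Real.exp (-l) := (Real.exp_pos _).le
  have a7 : 0 ≤ c₂ * (4 * q + 1 + 4 * C₀) := by positivity
  nlinarith [mul_nonneg a7 a5, mul_nonneg hc₁0 a6]

end Vale.Agent.P161
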