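import Vale.Agent.P161.DynB
import Vale.Agent.P161.Pair
import Vale.Agent.P161.PairTail

/-!
Two solutions started at small times are close at the final time.
-/

open MeasureTheory ProbabilityTheory Filter Topology Finset
open scoped Classical NNReal ENNReal

namespace Vale.Agent.P161

variable {V : Type} {G : SimpleGraph V} [G.LocallyFinite] {q : ℕ} {β : ℝ} {N : Noise V (iid V)}

lemma root_pow_crit {t : ℝ} (h : 0 ≤ t) : √√t ^ 4 = t := by
  rw [show 4 = 2 * 2 from rfl, pow_mul, Real.sq_sqrt (Real.sqrt_nonneg _), Real.sq_sqrt h]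

lemma sqrt_ell_crit {t : ℝ} (h0 : 0 < t) (h1 : t ≤ 1) : √t * ell t ≤ 5 * √√t := by
  set w := √√t with hw
  have hw0 : 0 < w := Real.sqrt_pos.2 (Real.sqrt_pos.2 h0)
  have hw1 : w ≤ 1 := Real.sqrt_le_one.2 (Real.sqrt_le_one.2 h1)
  have e1 : √t = w ^ 2 := (Real.sq_sqrt (Real.sqrt_nonneg _)).symm
  have e2 : Real.log t = 4 * Real.log w := by
    rw [← root_pow_crit h0.le, Real.log_pow]; norm_num [hw]
  have e3 : -Real.log w ≤ w⁻¹ := by
    rw [← Real.log_inv]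
    linarith [Real.log_le_sub_one_of_pos (inv_pos.2 hw0)]
  have e4 : w ^ 2 * w⁻¹ = w := by field_simp
  have e5 := mul_le_mul_of_nonneg_left e3 (sq_nonneg w)
  rw [e1, ell, e2]
  nlinarith

lemma eta_div_crit (J k : ℕ) :
    eta J / √√(tm J (k + 1)) ^ 3 ≤ 4 * (√√(tm J (k + 1)) - √√(tm J k)) := by
  have h0 : 0 < tm J (k + 1) := by linarith [tm_succ J k, tm_nonneg J k, eta_pos J]
  have ha : 0 < √√(tm J (k + 1)) := Real.sqrt_pos.2 (Real.sqrt_pos.2 h0)
  have hb : 0 ≤ √√(tm J k) := Real.sqrt_nonneg _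
  have hab : √√(tm J k) ≤ √√(tm J (k + 1)) :=
    Real.sqrt_le_sqrt (Real.sqrt_le_sqrt (tm_mono J (Nat.le_succ k)))
  have e1 := root_pow_crit h0.le
  have e2 := root_pow_crit (tm_nonneg J k)
  have e3 := tm_succ J k
  rw [div_le_iff₀ (by positivity)]
  generalize √√(tm J (k + 1)) = a at *
  generalize √√(tm J k) = b at *
  have e4 : (eta J : ℝ) = (a - b) * (a ^ 3 + a ^ 2 * b + a * b ^ 2 + b ^ 3) := by
    linear_combination e2 - e1 - e3
  have f1 : a ^ 2 * b ≤ a ^ 2 * a := by gcongr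
  have f2 : a * b ^ 2 ≤ a * a ^ 2 := by gcongr
  have f3 : b ^ 3 ≤ a ^ 3 := by gcongr
  have f4 : a ^ 3 + a ^ 2 * b + a * b ^ 2 + b ^ 3 ≤ 4 * a ^ 3 := by nlinarith
  have f5 := mul_le_mul_of_nonneg_left f4 (sub_nonneg.2 hab)
  rw [e4]
  linarith

lemma gron_crit {u : ℕ → ℝ} {J k₀ k₁ : ℕ} {A B : ℝ} (hA : 0 ≤ A) (hB : 0 ≤ B)
    (h0 : 0 ≤ u (k₀ + 1))
    (hu : ∀ k, k₀ + 1 ≤ k → k < k₁ →
      u (k + 1) ≤ (1 + A * (eta J / √√(tm J k) ^ 3)) * u k + B * eta J) (k : ℕ) (hk : k₀ ≤ k)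
    (hk' : k + 1 ≤ k₁) :
    u (k + 1) ≤ (u (k₀ + 1) + B * tm J (k + 1)) * Real.exp (4 * A * √√(tm J k)) := by
  induction k, hk using Nat.le_induction with
  | base =>
    have e1 : 1 ≤ Real.exp (4 * A * √√(tm J k₀)) := Real.one_le_exp (by positivity)
    have e2 : 0 ≤ B * tm J (k₀ + 1) := mul_nonneg hB (tm_nonneg _ _)
    nlinarith
  | succ k hk ih =>
    have e0 := ih (by omega)
    have e1 := hu (k + 1) (by omega) (by omega)
    have hη := eta_pos J
    have e2 : 1 + A * (eta J / √√(tm J (k + 1)) ^ 3) ≤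
        Real.exp (4 * A * (√√(tm J (k + 1)) - √√(tm J k))) := by
      have := mul_le_mul_of_nonneg_left (eta_div_crit J k) hA
      linarith [Real.add_one_le_exp (4 * A * (√√(tm J (k + 1)) - √√(tm J k)))]
    have e3 : 0 ≤ 1 + A * (eta J / √√(tm J (k + 1)) ^ 3) := by positivity
    have e4 : 0 ≤ u (k₀ + 1) + B * tm J (k + 1) := add_nonneg h0 (mul_nonneg hB (tm_nonneg _ _))
    have e5 : 1 ≤ Real.exp (4 * A * √√(tm J (k + 1))) := Real.one_le_exp (by positivity)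
    have e6 : Real.exp (4 * A * (√√(tm J (k + 1)) - √√(tm J k))) *
        Real.exp (4 * A * √√(tm J k)) = Real.exp (4 * A * √√(tm J (k + 1))) := by
      rw [← Real.exp_add]; ring_nf
    calc u (k + 1 + 1) ≤ (1 + A * (eta J / √√(tm J (k + 1)) ^ 3)) *
          ((u (k₀ + 1) + B * tm J (k + 1)) * Real.exp (4 * A * √√(tm J k))) + B * eta J :=
          e1.trans (add_le_add_left (mul_le_mul_of_nonneg_left e0 e3) _)
      _ ≤ Real.exp (4 * A * (√√(tm J (k + 1)) - √√(tm J k))) *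
          ((u (k₀ + 1) + B * tm J (k + 1)) * Real.exp (4 * A * √√(tm J k))) +
          B * eta J * Real.exp (4 * A * √√(tm J (k + 1))) :=
          add_le_add (mul_le_mul_of_nonneg_right e2 (by positivity))
            (le_mul_of_one_le_right (by positivity) e5)
      _ = _ := by rw [mul_left_comm, e6, tm_succ J (k + 1)]; ring

lemma rho_crit (hG : Reg G q) (hβ : 0 ≤ β) (hc : q * Real.tanh β ^ 2 = 1) {t : ℝ} (h0 : 0 < t)
    (h1 : t ≤ 1) : q * th β t ^ 2 < 1 := by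
  obtain ⟨c, C, hc0, -, -, h⟩ := th_gap hβ (show (2 : ℝ) ≤ q by exact_mod_cast hG.two) hc
  linarith [(h t h0.le h1).1, mul_pos hc0 h0]

lemma CS.memLp_crit {s t : ℝ} {m : ℝ → (V → unitInterval) → V → ℝ} (h : CS G N β s m) (ht : Dy t)
    (v : V) : MemLp (fun U => m t U v) 2 (iid V) := by
  obtain ⟨J₀, r₀, hJ⟩ := h.sol.approx 1 one_pos
  obtain ⟨J₁, hJ₁⟩ := ht.exists_level
  obtain ⟨k, rfl⟩ := hJ₁ (max J₀ J₁) (le_max_right _ _)
  exact (hJ _ (le_max_left _ _) r₀ le_rfl).memLp k v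

lemma CS.eps_eq_crit (hG : Reg G q) {s s' t : ℝ} {m m' : ℝ → (V → unitInterval) → V → ℝ}
    (h : CS G N β s m) (h' : CS G N β s' m') (ht : 0 ≤ t) (v v' : V) :
    ∫ U, (m t U v - m' t U v) ^ 2 ∂iid V = ∫ U, (m t U v' - m' t U v') ^ 2 ∂iid V :=
  integral_vert_eq hG (N.measurable_of (h.sol.meas t ht)) (h.equi t)
    (N.measurable_of (h'.sol.meas t ht)) (h'.equi t) (f := fun p => (p.1 - p.2) ^ 2)
    (by fun_prop) v v'

lemma step_crit (hG : Reg G q) (hβ : 0 ≤ β) (hc : q * Real.tanh β ^ 2 = 1) : ∃ A : ℝ, 1 ≤ A ∧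
    ∀ (s s' : ℝ) (m m' : ℝ → (V → unitInterval) → V → ℝ), CS G N β s m → CS G N β s' m' →
      ∀ J k r, 2 * s ≤ tm J k → 2 * s' ≤ tm J k → tm J k ≤ 1 → ∀ x y, G.Adj x y → ∀ l, 1 ≤ l →
      ∀ v, ∫ U, (incr G β r (tm J k) (m (tm J k) U) (N.z J k U) v -
          incr G β r (tm J k) (m' (tm J k) U) (N.z J k U) v) ^ 2 ∂iid V ≤
        eta J * (A * (l / √√(tm J k) ^ 3 * ∫ U, (m (tm J k) U v - m' (tm J k) U v) ^ 2 ∂iid V +
          Real.exp (-l) + (nn G (th β (tm J k)) (m (tm J k)) x y -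
            nn G (th β (tm J k)) (m' (tm J k)) x y) ^ 2)) := by
  obtain ⟨C₀, hC₀, hgood⟩ := dyn_good (N := N) hG hβ hc
  obtain ⟨C₁, hC₁, htail⟩ := pair_tail hG hβ hC₀
  obtain ⟨C₂, hC₂, htr⟩ := pair_transport hG
  have hA : 0 ≤ β * ((q + 1) * (C₂ * C₁)) := by positivity
  refine ⟨1 + β * ((q + 1) * (C₂ * C₁)), by linarith, ?_⟩
  intro s s' m m' h h' J k r hs hs' h1 x y hxy l hl v
  set t := tm J k with ht
  have hd : Dy t := ⟨J, k, rfl⟩
  have h0 : 0 < t := by linarith [h.pos]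
  have hρ := rho_crit hG hβ hc h0 h1
  have hθ := th_nonneg hβ h1
  have g1 := hgood s m h t hd hs h1
  have g2 := hgood s' m' h' t hd hs' h1
  set ε := ∫ U, (m t U v - m' t U v) ^ 2 ∂iid V with hε
  have hε0 : 0 ≤ ε := int_sq_nonneg _
  have hclip : ∀ u, ∫ U, (clip (m t U u) - clip (m' t U u)) ^ 2 ∂iid V ≤ ε := fun u => by
    rw [hε, h.eps_eq_crit hG h' h0.le v u]
    refine integral_mono_of_nonneg (ae_of_all _ fun _ => sq_nonneg _)
      (ml_sub (h.memLp_crit hd u) (h'.memLp_crit hd u)).integrable_sq (ae_of_all _ fun U => ?_)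
    exact sq_le_sq.2 (clip_lip _ _)
  have fN := fam_NN hG hθ le_rfl hρ g1.meas g1.equi
  have fN' := fam_NN hG hθ le_rfl hρ g2.meas g2.equi
  have fM := fam_MM hG hθ le_rfl hρ g1.meas g1.equi g2.meas g2.equi
  have fv := fam_vf g1.meas g1.equi
  have fv' := fam_vf g2.meas g2.equi
  have fQ : Fam G fun x y U => vf (m t U) x ^ 2 * NN G (th β t) (m t U) x y -
      2 * vf (m t U) x * vf (m' t U) x * MM G (th β t) (m t U) (m' t U) x y +
      vf (m' t U) x ^ 2 * NN G (th β t) (m' t U) x y := by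
    simpa only [sq] using ((((fv.mul fv).mul fN).sub
      ((((Fam.const 2).mul fv).mul fv').mul fM)).add ((fv'.mul fv').mul fN'))
  set D := (nn G (th β t) (m t) x y - nn G (th β t) (m' t) x y) ^ 2 with hD
  have hD0 : 0 ≤ D := sq_nonneg _
  set S := l / √√t ^ 3 * ε + Real.exp (-l) with hS
  have hS0 : 0 ≤ S := by positivity
  have key : ∀ z, G.Adj v z → ∫ U, (vf (m t U) v ^ 2 * NN G (th β t) (m t U) v z -
      2 * vf (m t U) v * vf (m' t U) v * MM G (th β t) (m t U) (m' t U) v z +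
      vf (m' t U) v ^ 2 * NN G (th β t) (m' t U) v z) ∂iid V ≤ C₂ * C₁ * (S + D) := by
    intro z hz
    refine (htr _ _ _ _ hθ le_rfl hρ g1.meas g1.equi g2.meas g2.equi v z hz).trans ?_
    have e1 := htail t ε l _ _ h0 h1 hρ g1 g2 hclip hl v z hz
    have e2 : nn G (th β t) (m t) v z = nn G (th β t) (m t) x y := fN.integral_eq hG hz hxy
    have e3 : nn G (th β t) (m' t) v z = nn G (th β t) (m' t) x y := fN'.integral_eq hG hz hxy
    rw [e2, e3, mul_assoc]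
    refine mul_le_mul_of_nonneg_left ?_ (by linarith)
    nlinarith
  rw [incr_sub_sq hG hβ hρ h1 h1 le_rfl le_rfl (h.sol.meas _ h0.le) (h'.sol.meas _ h0.le)]
  refine mul_le_mul_of_nonneg_left ?_ (eta_pos J).le
  have e1 := integral_mono_of_nonneg (μ := iid V)
    (f := fun U => ∑ z ∈ G.neighborFinset v, Qf G (af (th β t) (m t U)) (bf (th β t) (m t U))
      (af (th β t) (m' t U)) (bf (th β t) (m' t U)) r (vf (m t U) v) (vf (m' t U) v) v z)
    (ae_of_all _ fun _ => sum_nonneg fun _ _ => Qf_nonneg _ _ _ _ _)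
    (integrable_finsetSum (G.neighborFinset v) fun z hz => fQ.integrable (by simpa using hz))
    (ae_of_all _ fun U => sum_le_sum fun z hz =>
      Qf_le_lim hG hθ le_rfl hρ (by simpa using hz) r _ _)
  rw [integral_finsetSum _ fun z hz => fQ.integrable (by simpa using hz)] at e1
  have e2 := mul_le_mul_of_nonneg_left (e1.trans (sum_nb_le hG v key)) hβ
  nlinarith

lemma level_crit {i J : ℕ} (h : i ≤ J) : ∃ k, tm J (k + 1) = tm i 1 := by
  obtain ⟨L, rfl⟩ := Nat.exists_eq_add_of_le h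
  obtain ⟨k, hk⟩ := Nat.exists_eq_add_one_of_ne_zero (show 1 * 2 ^ L ≠ 0 by positivity)
  exact ⟨k, hk ▸ tm_mul i L 1⟩

lemma tm_one_crit (i : ℕ) : tm i 1 = eta i := by simp [tm_eq]

theorem crit_close (hG : Reg G q) (hβ : 0 ≤ β) (hc : q * Real.tanh β ^ 2 = 1) {δ : ℝ}
    (hδ : 0 < δ) : ∃ (i : ℕ) (δ' : ℝ), 0 < δ' ∧
      ∀ (s s' : ℝ) (m m' : ℝ → (V → unitInterval) → V → ℝ), CS G N β s m → CS G N β s' m' →
        2 * s ≤ tm i 1 → 2 * s' ≤ tm i 1 → ∀ x y, G.Adj x y →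
        (∀ t, Dy t → tm i 1 ≤ t → t ≤ 1 →
          |nn G (th β t) (m t) x y - nn G (th β t) (m' t) x y| ≤ δ') →
        ∀ v, ∫ U, (m 1 U v - m' 1 U v) ^ 2 ∂iid V ≤ δ := by
  obtain ⟨A, hA, hstep⟩ := step_crit (N := N) hG hβ hc
  obtain ⟨M, hM, hmean⟩ := dyn_mean (N := N) hG hβ hc
  have hpos : ∀ i, 0 < tm i 1 := fun i => tm_one_crit i ▸ eta_pos i
  have hone : ∀ i, tm i 1 ≤ 1 := fun i => tm_one_crit i ▸ eta_le_one i
  have hw : ∀ c : ℝ, Tendsto (fun i => c * √√(tm i 1)) atTop (𝓝 0) := fun c => by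
    simpa only [tm_one_crit, Real.sqrt_zero, mul_zero] using tendsto_eta.sqrt.sqrt.const_mul c
  obtain ⟨i₁, hi₁⟩ := ((hw (8 * A)).eventually (ge_mem_nhds one_half_pos)).exists
  have hρ₁ := rho_crit hG hβ hc (hpos i₁) (hone i₁)
  obtain ⟨C, hC, hcmp⟩ := compare hG hβ hρ₁
  have hl : Tendsto (fun l : ℝ => C * (2 * A) * Real.exp (-(l / 2))) atTop (𝓝 0) := by
    simpa using (Real.tendsto_exp_neg_atTop_nhds_zero.comp
      (tendsto_id.atTop_div_const two_pos)).const_mul (C * (2 * A))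
  have hδ4 : 0 < δ / 4 := by positivity
  obtain ⟨l, hl₁, hl₂⟩ := ((hl.eventually (ge_mem_nhds hδ4)).and (eventually_ge_atTop 1)).exists
  set E := Real.exp (l / 2) with hE
  have hE0 : 0 < E := Real.exp_pos _
  obtain ⟨i, hi, hi'⟩ := (((hw (C * E * (20 * M))).eventually (ge_mem_nhds hδ4)).and
    (eventually_ge_atTop i₁)).exists
  have hK : 0 < C * E * (2 * A) := by positivity
  have hK' : 0 < C * (8 * E + 1) := by positivity
  refine ⟨i, √(δ / 4 / (C * E * (2 * A))), by positivity, ?_⟩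
  intro s s' m m' h h' hs hs' x y hxy hnn v
  set d := δ / 4 / (C * E * (2 * A)) with hd
  have hd0 : 0 < d := by positivity
  set κ := δ / 4 / (C * (8 * E + 1)) with hκ
  have hκ0 : 0 < κ := by positivity
  obtain ⟨J₀, r₀, ha⟩ := h.sol.approx κ hκ0
  obtain ⟨J₁, r₁, ha'⟩ := h'.sol.approx κ hκ0
  set J := max i (max J₀ J₁) with hJ
  set r := max r₀ r₁ with hr
  have a1 := ha J (by omega) r (by omega)
  have a2 := ha' J (by omega) r (by omega)
  obtain ⟨k₀, hk₀⟩ := level_crit (show i ≤ J by omega)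
  obtain ⟨k₁, hk₁⟩ := level_crit (show i₁ ≤ J by omega)
  have hii : tm i 1 ≤ tm i₁ 1 := by
    rw [tm_one_crit, tm_one_crit, coe_eta, coe_eta]
    gcongr
    exact one_le_two
  have hk : k₀ + 1 ≤ k₁ + 1 := tm_le_iff.1 (by rw [hk₀, hk₁]; exact hii)
  have hk' : k₁ + 1 ≤ 2 ^ J := tm_le_iff.1 (by rw [hk₁, tm_pow]; exact hone i₁)
  have hsτ : s ≤ tm i 1 := by linarith [h.pos]
  have hsτ' : s' ≤ tm i 1 := by linarith [h'.pos]
  have hρ := rho_crit hG hβ hc (hpos i) (hone i)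
  have hη := eta_pos J
  set B := 2 * A * (Real.exp (-l) + d) + 8 * κ with hB
  have hB0 : 0 ≤ B := by positivity
  have hgr := gron_crit (J := J) (k₀ := k₀) (k₁ := k₁ + 1) (A := 2 * A * l) (B := B)
    (u := fun k => ∫ U, (m (tm J k) U v - m' (tm J k) U v) ^ 2 ∂iid V) (by positivity) hB0
    (int_sq_nonneg _) (fun k h1 h2 => by
      have t1 : tm i 1 ≤ tm J k := hk₀ ▸ tm_mono J h1
      have t2 : tm J k ≤ 1 := tm_le_one (by omega)
      have e1 := (a1.mono hsτ le_rfl le_rfl).step hG hβ hρ le_rfl (a2.mono hsτ' le_rfl le_rfl)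
        t1 (by omega) (Set.mem_univ v)
      have e2 := hstep s s' m m' h h' J k r (hs.trans t1) (hs'.trans t1) t2 x y hxy l hl₂ v
      have e3 := pow_le_pow_left₀ (abs_nonneg _) (hnn _ ⟨J, k, rfl⟩ t1 t2) 2
      rw [sq_abs, Real.sq_sqrt hd0.le] at e3
      have e4 := mul_le_mul_of_nonneg_left e3 (show 0 ≤ eta J * A by positivity)
      have e5 : ∀ a b : ℝ, 2 * A * l * (eta J / a) * b = 2 * (eta J * (A * (l / a * b))) :=
        fun a b => by ring
      rw [add_mul, one_mul, e5, hB]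
      linarith) k₁ (by omega) le_rfl
  have hexp : Real.exp (4 * (2 * A * l) * √√(tm J k₁)) ≤ E := by
    refine Real.exp_le_exp.2 ?_
    have e1 : √√(tm J k₁) ≤ √√(tm i₁ 1) :=
      Real.sqrt_le_sqrt (Real.sqrt_le_sqrt (hk₁ ▸ tm_mono J (Nat.le_succ k₁)))
    have e2 : 8 * A * √√(tm J k₁) ≤ 1 / 2 := le_trans (by gcongr) hi₁
    nlinarith
  have hinit : ∫ U, (m (tm i 1) U v - m' (tm i 1) U v) ^ 2 ∂iid V ≤ 20 * M * √√(tm i 1) := by
    have hd : Dy (tm i 1) := ⟨i, 1, rfl⟩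
    rw [h.eps_eq_crit hG h' (hpos i).le v x]
    have e1 := int_sq_sub_le (h.memLp_crit hd x) (h'.memLp_crit hd x)
    have e2 := (hmean s m h _ hd hsτ (hone i) x y hxy).1
    have e3 := (hmean s' m' h' _ hd hsτ' (hone i) x y hxy).1
    have e4 := mul_le_mul_of_nonneg_left (sqrt_ell_crit (hpos i) (hone i))
      (show 0 ≤ M by linarith)
    unfold xx at e2 e3
    linarith
  have hmid : ∫ U, (m (tm J (k₁ + 1)) U v - m' (tm J (k₁ + 1)) U v) ^ 2 ∂iid V ≤
      (20 * M * √√(tm i 1) + B) * E := by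
    refine hgr.trans (mul_le_mul ?_ hexp (Real.exp_pos _).le (by positivity))
    rw [hk₀]
    exact add_le_add hinit (mul_le_of_le_one_right hB0 (tm_le_one hk'))
  obtain ⟨n, hn⟩ := Nat.exists_eq_add_of_le hk'
  have hfin := hcmp (k₀ := k₁ + 1) le_rfl hκ0.le (by positivity)
    (a1.mono (hsτ.trans hii) le_rfl le_rfl) (a2.mono (hsτ'.trans hii) le_rfl le_rfl) hk₁.ge
    (fun u _ => (h.eps_eq_crit hG h' (tm_nonneg _ _) u v).trans_le hmid) n hn.ge v (deep_univ _ v)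
  rw [← hn, tm_pow] at hfin
  have e1 : Real.exp (-l) * E = Real.exp (-(l / 2)) := by rw [hE, ← Real.exp_add]; ring_nf
  have e2 : C * E * (2 * A) * d = δ / 4 := by rw [hd]; field_simp
  have e3 : C * (8 * E + 1) * κ = δ / 4 := by rw [hκ]; field_simp
  have e4 : C * ((20 * M * √√(tm i 1) + B) * E + κ) = C * E * (20 * M) * √√(tm i 1) +
      C * (2 * A) * (Real.exp (-l) * E) + C * E * (2 * A) * d + C * (8 * E + 1) * κ := by
    rw [hB]; ring
  rw [e4, e1, e2, e3] at hfin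
  linarith

end Vale.Agent.P161
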