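import Vale.Agent.P161.Geom

/-!
The linear forms `K` under Gaussian noise.
-/

open MeasureTheory ProbabilityTheory Filter Topology Finset
open scoped Classical NNReal ENNReal

namespace Vale.Agent.P161

variable {V : Type} {G : SimpleGraph V} [G.LocallyFinite]

namespace GaussAux

/-- The linear form with finitely supported coefficients `c`. -/
noncomputable def lin (c : Sym2 V →₀ ℝ) (ζ : Sym2 V → ℝ) : ℝ := ∑ e ∈ c.support, c e * ζ e

lemma lin_eq (c : Sym2 V →₀ ℝ) (ζ : Sym2 V → ℝ) :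
    lin c ζ = Finsupp.linearCombination ℝ ζ c := by
  rw [Finsupp.linearCombination_apply, Finsupp.sum]
  rfl

lemma lin_zero (ζ : Sym2 V → ℝ) : lin 0 ζ = 0 := by simp [lin]

lemma lin_add (c c' : Sym2 V →₀ ℝ) (ζ : Sym2 V → ℝ) : lin (c + c') ζ = lin c ζ + lin c' ζ := by
  simp only [lin_eq, map_add]

lemma lin_sub (c c' : Sym2 V →₀ ℝ) (ζ : Sym2 V → ℝ) : lin (c - c') ζ = lin c ζ - lin c' ζ := by
  simp only [lin_eq, map_sub]

lemma lin_smul (t : ℝ) (c : Sym2 V →₀ ℝ) (ζ : Sym2 V → ℝ) : lin (t • c) ζ = t * lin c ζ := by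
  simp only [lin_eq, map_smul, smul_eq_mul]

lemma lin_sum {ι : Type} (s : Finset ι) (c : ι → Sym2 V →₀ ℝ) (ζ : Sym2 V → ℝ) :
    lin (∑ i ∈ s, c i) ζ = ∑ i ∈ s, lin (c i) ζ := by
  simp only [lin_eq, map_sum]

lemma lin_single (e : Sym2 V) (t : ℝ) (ζ : Sym2 V → ℝ) :
    lin (Finsupp.single e t) ζ = t * ζ e := by
  simp only [lin_eq, Finsupp.linearCombination_single, smul_eq_mul]

lemma lin_comm (c c' : Sym2 V →₀ ℝ) : lin c c' = lin c' c := by
  unfold lin
  rw [← sum_subset (s₁ := c.support ∩ c'.support) inter_subset_left,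
    ← sum_subset (s₁ := c.support ∩ c'.support) (s₂ := c'.support) inter_subset_right]
  · exact sum_congr rfl fun e _ => mul_comm _ _
  · intro e h1 h2
    have : c e = 0 := by
      by_contra h
      exact h2 (mem_inter.2 ⟨Finsupp.mem_support_iff.2 h, h1⟩)
    simp [this]
  · intro e h1 h2
    have : c' e = 0 := by
      by_contra h
      exact h2 (mem_inter.2 ⟨h1, Finsupp.mem_support_iff.2 h⟩)
    simp [this]

lemma lin_eq_zero {c : Sym2 V →₀ ℝ} {ζ : Sym2 V → ℝ} (h : ∀ e, c e ≠ 0 → ζ e = 0) :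
    lin c ζ = 0 :=
  sum_eq_zero fun e he => by rw [h e (Finsupp.mem_support_iff.1 he), mul_zero]

lemma mp_eval (η : ℝ≥0) (e : Sym2 V) :
    MeasurePreserving (fun ζ : Sym2 V → ℝ => ζ e) (gam V η) (gaussianReal 0 η) :=
  measurePreserving_eval_infinitePi (fun _ : Sym2 V => gaussianReal 0 η) e

lemma indep_eval (η : ℝ≥0) :
    iIndepFun (fun (e : Sym2 V) (ζ : Sym2 V → ℝ) => ζ e) (gam V η) :=
  iIndepFun_infinitePi (X := fun _ x => x) fun _ => measurable_id

lemma memLp_eval (η : ℝ≥0) (e : Sym2 V) :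
    MemLp (fun ζ : Sym2 V → ℝ => ζ e) 2 (gam V η) :=
  (memLp_id_gaussianReal' (μ := 0) (v := η) 2 (by simp)).comp_measurePreserving (mp_eval η e)

lemma integral_eval (η : ℝ≥0) (e : Sym2 V) : ∫ ζ, ζ e ∂gam V η = 0 := by
  have := (mp_eval η e).hasLaw.integral_eq
  rw [this]
  exact integral_id_gaussianReal

lemma integral_eval_mul (η : ℝ≥0) (e e' : Sym2 V) :
    ∫ ζ, ζ e * ζ e' ∂gam V η = if e = e' then (η : ℝ) else 0 := by
  split_ifs with h
  · subst h
    have h1 := (mp_eval η e).hasLaw.variance_eq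
    rw [variance_id_gaussianReal,
      variance_of_integral_eq_zero (memLp_eval η e).aemeasurable (integral_eval η e)] at h1
    rw [← h1]
    simp only [sq]
  · have h1 := ((indep_eval η).indepFun h).integral_fun_mul_eq_mul_integral
      (memLp_eval η e).aestronglyMeasurable (memLp_eval η e').aestronglyMeasurable
    rw [h1, integral_eval, zero_mul]

lemma memLp_lin (η : ℝ≥0) (c : Sym2 V →₀ ℝ) : MemLp (fun ζ => lin c ζ) 2 (gam V η) :=
  memLp_finsetSum _ fun e _ => (memLp_eval η e).const_mul _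

lemma integral_lin (η : ℝ≥0) (c : Sym2 V →₀ ℝ) : ∫ ζ, lin c ζ ∂gam V η = 0 := by
  unfold lin
  rw [integral_finsetSum _ fun e _ => ((memLp_eval η e).integrable one_le_two).const_mul _]
  exact sum_eq_zero fun e _ => by rw [integral_const_mul, integral_eval, mul_zero]

lemma integral_eval_lin (η : ℝ≥0) (e : Sym2 V) (c : Sym2 V →₀ ℝ) :
    ∫ ζ, ζ e * lin c ζ ∂gam V η = η * c e := by
  unfold lin
  simp only [mul_sum]
  rw [integral_finsetSum (f := fun e' (ζ : Sym2 V → ℝ) => ζ e * (c e' * ζ e')) _ fun e' _ =>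
    (memLp_eval η e).integrable_mul ((memLp_eval η e').const_mul _)]
  have : ∀ e' : Sym2 V, ∫ ζ, ζ e * (c e' * ζ e') ∂gam V η = if e = e' then η * c e' else 0 := by
    intro e'
    simp only [mul_left_comm _ (c e')]
    rw [integral_const_mul, integral_eval_mul]
    split_ifs <;> simp [mul_comm]
  simp only [this, sum_ite_eq]
  split_ifs with h
  · rfl
  · rw [Finsupp.notMem_support_iff.1 h, mul_zero]

lemma integral_lin_mul (η : ℝ≥0) (c c' : Sym2 V →₀ ℝ) :
    ∫ ζ, lin c ζ * lin c' ζ ∂gam V η = η * lin c c' := by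
  conv_lhs => enter [2, ζ]; rw [lin.eq_1 c, sum_mul]
  rw [integral_finsetSum (f := fun e ζ => c e * ζ e * lin c' ζ) _ fun e _ =>
    ((memLp_eval η e).const_mul _).integrable_mul (memLp_lin η c'), lin.eq_1 c, mul_sum]
  refine sum_congr rfl fun e _ => ?_
  simp only [mul_assoc]
  rw [integral_const_mul, integral_eval_lin]
  ring

lemma indep_mul (η : ℝ≥0) (c : Sym2 V →₀ ℝ) :
    iIndepFun (fun (e : Sym2 V) (ζ : Sym2 V → ℝ) => c e * ζ e) (gam V η) :=
  (indep_eval η).comp (fun e x => c e * x) fun _ => measurable_const_mul _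

lemma integrable_exp_eval (η : ℝ≥0) (e : Sym2 V) (t : ℝ) :
    Integrable (fun ζ : Sym2 V → ℝ => Real.exp (t * ζ e)) (gam V η) :=
  (mp_eval η e).integrable_comp_of_integrable (integrable_exp_mul_gaussianReal t)

lemma integrable_exp_lin (η : ℝ≥0) (c : Sym2 V →₀ ℝ) (l : ℝ) :
    Integrable (fun ζ => Real.exp (l * lin c ζ)) (gam V η) := by
  have := (indep_mul η c).integrable_exp_mul_sum (t := l) (s := c.support)
    (fun e => by fun_prop) fun e _ => by
      simpa only [mul_assoc] using integrable_exp_eval η e (l * c e)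
  simpa only [Finset.sum_apply, lin] using this

lemma integral_exp_lin (η : ℝ≥0) (c : Sym2 V →₀ ℝ) (l : ℝ) :
    ∫ ζ, Real.exp (l * lin c ζ) ∂gam V η = Real.exp (l ^ 2 * η * lin c c / 2) := by
  have h1 := (indep_mul η c).mgf_sum (t := l) (fun e => by fun_prop) c.support
  have h2 : ∀ e : Sym2 V, mgf (fun ζ : Sym2 V → ℝ => c e * ζ e) (gam V η) l =
      Real.exp (l ^ 2 * η * (c e * c e) / 2) := by
    intro e
    have h3 := mgf_gaussianReal (mp_eval η e).map_eq (l * c e)
    have h4 : mgf (fun ζ : Sym2 V → ℝ => c e * ζ e) (gam V η) l =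
        mgf (fun ζ : Sym2 V → ℝ => ζ e) (gam V η) (l * c e) := by
      simp only [mgf, mul_assoc]
    rw [h4, h3]
    congr 1
    ring
  simp only [h2] at h1
  rw [← Real.exp_sum] at h1
  have h5 : ∫ ζ, Real.exp (l * lin c ζ) ∂gam V η =
      mgf (∑ e ∈ c.support, fun ζ : Sym2 V → ℝ => c e * ζ e) (gam V η) l := by
    simp only [mgf, Finset.sum_apply, lin]
  rw [h5, h1, lin, mul_sum, sum_div]

variable (G) in
/-- Coefficient vector of `K`. -/
noncomputable def kap (a b : V → V → ℝ) : ℕ → V → V → (Sym2 V →₀ ℝ)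
  | 0, _, _ => 0
  | r + 1, x, y => Finsupp.single s(x, y) (a x y) + b x y • ∑ z ∈ ch G x y, kap a b r y z

variable (G) in
/-- Coefficient vector of `KI`. -/
noncomputable def kapI (a b : V → V → ℝ) (r : ℕ) (v : V) : Sym2 V →₀ ℝ :=
  ∑ y ∈ G.neighborFinset v, kap G a b r v y

variable {a b a' b' : V → V → ℝ}

lemma K_eq (ζ : Sym2 V → ℝ) (r : ℕ) : ∀ x y, K G a b ζ r x y = lin (kap G a b r x y) ζ := by
  induction r with
  | zero => intro x y; simp only [K, kap, lin_zero]
  | succ r ih => intro x y; simp only [K, kap, lin_add, lin_single, lin_smul, lin_sum, ih]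

lemma KI_eq (ζ : Sym2 V → ℝ) (r : ℕ) (v : V) : KI G a b ζ r v = lin (kapI G a b r v) ζ := by
  simp only [KI, kapI, lin_sum, K_eq]

lemma kap_supp (hT : G.IsTree) (r : ℕ) :
    ∀ x y, G.Adj x y → ∀ e, kap G a b r x y e ≠ 0 → e ∈ EB G x y := by
  induction r with
  | zero => intro x y _ e he; simp [kap] at he
  | succ r ih =>
    intro x y h e he
    by_contra hn
    apply he
    have h1 : e ≠ s(x, y) := fun h2 => hn (h2 ▸ self_mem_EB h)
    have h2 : ∀ z ∈ ch G x y, kap G a b r y z e = 0 := by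
      intro z hz
      by_contra h3
      obtain ⟨h4, h5⟩ := mem_ch.1 hz
      exact hn (EB_sub hT h h4 h5 (ih y z h4 e h3))
    simp only [kap, Finsupp.add_apply, Finsupp.smul_apply, Finsupp.finsetSum_apply]
    rw [sum_eq_zero h2, Finsupp.single_eq_of_ne h1]
    simp

lemma lin_sum_sum (hT : G.IsTree) {y : V} {s : Finset V} (hs : ∀ z ∈ s, G.Adj y z) (r r' : ℕ) :
    lin (∑ z ∈ s, kap G a b r y z) (∑ z ∈ s, kap G a' b' r' y z : Sym2 V →₀ ℝ) =
      ∑ z ∈ s, lin (kap G a b r y z) (kap G a' b' r' y z) := by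
  rw [lin_sum]
  refine sum_congr rfl fun z hz => ?_
  rw [lin_comm, lin_sum, sum_eq_single_of_mem z hz, lin_comm]
  intro z' hz' hne
  refine lin_eq_zero fun e he => ?_
  by_contra h
  exact EB_disj hT (hs z' hz') (hs z hz) hne (kap_supp hT _ _ _ (hs z' hz') e he)
    (kap_supp hT _ _ _ (hs z hz) e h)

lemma sum_kap_self (hT : G.IsTree) {x y : V} (h : G.Adj x y) (r : ℕ) :
    (∑ z ∈ ch G x y, kap G a b r y z : Sym2 V →₀ ℝ) s(x, y) = 0 := by
  rw [Finsupp.finsetSum_apply]
  refine sum_eq_zero fun z hz => ?_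
  by_contra h1
  obtain ⟨h4, h5⟩ := mem_ch.1 hz
  exact not_mem_EB hT h h4 h5 (kap_supp hT _ _ _ h4 _ h1)

lemma lin_kap (hT : G.IsTree) (k r : ℕ) : ∀ x y, G.Adj x y →
    lin (kap G a b r x y) (kap G a' b' (r + k) x y) = M G a b a' b' r x y := by
  induction r with
  | zero => intro x y _; simp only [kap, M, lin_zero]
  | succ r ih =>
    intro x y h
    have e : r + 1 + k = (r + k) + 1 := by ring
    rw [e]
    simp only [M]
    rw [kap, lin_add, lin_single, lin_smul, lin_comm, kap, lin_add, lin_single, lin_smul,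
      sum_kap_self hT h, Finsupp.add_apply, Finsupp.smul_apply, sum_kap_self hT h,
      Finsupp.single_eq_same, lin_comm, lin_sum_sum hT fun z hz => (mem_ch.1 hz).1,
      sum_congr rfl fun z hz => ih y z (mem_ch.1 hz).1]
    simp only [smul_eq_mul]
    ring

lemma lin_kapI (hT : G.IsTree) (k r : ℕ) (v : V) :
    lin (kapI G a b r v) (kapI G a' b' (r + k) v) = MI G a b a' b' r v := by
  unfold kapI MI
  rw [lin_sum_sum hT fun z hz => (G.mem_neighborFinset v z).1 hz]
  exact sum_congr rfl fun z hz => lin_kap hT k r v z ((G.mem_neighborFinset v z).1 hz)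

lemma K_congr (hc : G.Connected) {W : Set V} {ζ ζ' : Sym2 V → ℝ}
    (h : ∀ x y, G.Adj x y → x ∈ W → y ∈ W →
      a x y = a' x y ∧ b x y = b' x y ∧ ζ s(x, y) = ζ' s(x, y)) (r : ℕ) :
    ∀ x y, G.Adj x y → x ∈ W → Deep G W r y →
      K G a b ζ (r + 1) x y = K G a' b' ζ' (r + 1) x y := by
  induction r with
  | zero =>
    intro x y hxy hx hy
    obtain ⟨h1, h2, h3⟩ := h x y hxy hx hy.self
    simp only [K, h1, h2, h3]
  | succ r ih =>
    intro x y hxy hx hy
    obtain ⟨h1, h2, h3⟩ := h x y hxy hx hy.self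
    rw [K, K, h1, h2, h3, sum_congr rfl fun z hz =>
      ih y z (mem_ch.1 hz).1 hy.self (hy.adj hc (mem_ch.1 hz).1)]

lemma K_iso (g : G ≃g G) {ζ ζ' : Sym2 V → ℝ} (ha : ∀ x y, a' (g x) (g y) = a x y)
    (hb : ∀ x y, b' (g x) (g y) = b x y) (hζ : ∀ e, ζ' (e.map g) = ζ e) (r : ℕ) :
    ∀ x y, K G a' b' ζ' r (g x) (g y) = K G a b ζ r x y := by
  induction r with
  | zero => intro x y; simp only [K]
  | succ r ih =>
    intro x y
    have := hζ s(x, y)
    rw [Sym2.map_mk] at this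
    rw [K, K, sum_ch_iso, ha, hb, this]
    simp only [ih]

end GaussAux

open GaussAux

section

variable {Ω : Type} [MeasurableSpace Ω] {a b a' b' : Ω → V → V → ℝ} {ζ : Ω → Sym2 V → ℝ}

lemma measurable_K (ha : ∀ x y, Measurable fun ω => a ω x y) (hb : ∀ x y, Measurable fun ω => b ω x y)
    (hζ : ∀ e, Measurable fun ω => ζ ω e) (r : ℕ) (x y : V) :
    Measurable fun ω => K G (a ω) (b ω) (ζ ω) r x y := by
  induction r generalizing x y with
  | zero => simp only [K]; exact measurable_const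
  | succ r ih =>
    simp only [K]
    exact ((ha x y).mul (hζ _)).add ((hb x y).mul (Finset.measurable_sum _ fun z _ => ih y z))

lemma measurable_KI (ha : ∀ x y, Measurable fun ω => a ω x y) (hb : ∀ x y, Measurable fun ω => b ω x y)
    (hζ : ∀ e, Measurable fun ω => ζ ω e) (r : ℕ) (v : V) :
    Measurable fun ω => KI G (a ω) (b ω) (ζ ω) r v :=
  Finset.measurable_sum _ fun y _ => measurable_K ha hb hζ r v y

lemma measurable_M (ha : ∀ x y, Measurable fun ω => a ω x y) (hb : ∀ x y, Measurable fun ω => b ω x y)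
    (ha' : ∀ x y, Measurable fun ω => a' ω x y) (hb' : ∀ x y, Measurable fun ω => b' ω x y)
    (r : ℕ) (x y : V) : Measurable fun ω => M G (a ω) (b ω) (a' ω) (b' ω) r x y := by
  induction r generalizing x y with
  | zero => simp only [M]; exact measurable_const
  | succ r ih =>
    simp only [M]
    exact ((ha x y).mul (ha' x y)).add
      (((hb x y).mul (hb' x y)).mul (Finset.measurable_sum _ fun z _ => ih y z))

lemma measurable_MI (ha : ∀ x y, Measurable fun ω => a ω x y) (hb : ∀ x y, Measurable fun ω => b ω x y)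
    (ha' : ∀ x y, Measurable fun ω => a' ω x y) (hb' : ∀ x y, Measurable fun ω => b' ω x y)
    (r : ℕ) (v : V) : Measurable fun ω => MI G (a ω) (b ω) (a' ω) (b' ω) r v :=
  Finset.measurable_sum _ fun y _ => measurable_M ha hb ha' hb' r v y

end

variable {a b a' b' : V → V → ℝ}

lemma KI_add (ζ ζ' : Sym2 V → ℝ) (r : ℕ) (v : V) :
    KI G a b (ζ + ζ') r v = KI G a b ζ r v + KI G a b ζ' r v := by
  simp only [KI_eq, lin, Pi.add_apply, mul_add, sum_add_distrib]

lemma KI_sum {ι : Type} (s : Finset ι) (ζ : ι → Sym2 V → ℝ) (r : ℕ) (v : V) :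
    KI G a b (∑ i ∈ s, ζ i) r v = ∑ i ∈ s, KI G a b (ζ i) r v := by
  simp only [KI_eq, lin, Finset.sum_apply, mul_sum]
  exact sum_comm

lemma KI_congr (hc : G.Connected) {W : Set V} {ζ ζ' : Sym2 V → ℝ}
    (h : ∀ x y, G.Adj x y → x ∈ W → y ∈ W →
      a x y = a' x y ∧ b x y = b' x y ∧ ζ s(x, y) = ζ' s(x, y)) {r : ℕ} {v : V}
    (hv : Deep G W r v) : KI G a b ζ r v = KI G a' b' ζ' r v := by
  refine sum_congr rfl fun y hy => ?_
  have hy' := (G.mem_neighborFinset v y).1 hy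
  cases r with
  | zero => simp only [K]
  | succ r => exact K_congr hc h r v y hy' hv.self (hv.adj hc hy')

lemma KI_iso (g : G ≃g G) {ζ ζ' : Sym2 V → ℝ} (ha : ∀ x y, a' (g x) (g y) = a x y)
    (hb : ∀ x y, b' (g x) (g y) = b x y) (hζ : ∀ e, ζ' (e.map g) = ζ e) (r : ℕ) (v : V) :
    KI G a' b' ζ' r (g v) = KI G a b ζ r v := by
  unfold KI
  rw [sum_nb_iso]
  exact sum_congr rfl fun y _ => K_iso g ha hb hζ r v y

lemma M_iso (g : G ≃g G) {c d c' d' : V → V → ℝ} (ha : ∀ x y, c (g x) (g y) = a x y)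
    (hb : ∀ x y, d (g x) (g y) = b x y) (ha' : ∀ x y, c' (g x) (g y) = a' x y)
    (hb' : ∀ x y, d' (g x) (g y) = b' x y) (r : ℕ) (x y : V) :
    M G c d c' d' r (g x) (g y) = M G a b a' b' r x y := by
  induction r generalizing x y with
  | zero => simp only [M]
  | succ r ih =>
    rw [M, M, sum_ch_iso, ha, hb, ha', hb']
    simp only [ih]

theorem memLp_KI (η : ℝ≥0) (r : ℕ) (v : V) : MemLp (fun ζ => KI G a b ζ r v) 2 (gam V η) := by
  simp only [KI_eq]
  exact memLp_lin η _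

theorem integral_KI (η : ℝ≥0) (r : ℕ) (v : V) : ∫ ζ, KI G a b ζ r v ∂gam V η = 0 := by
  simp only [KI_eq]
  exact integral_lin η _

theorem integral_KI_mul (hT : G.IsTree) (η : ℝ≥0) (r : ℕ) (v : V) :
    ∫ ζ, KI G a b ζ r v * KI G a' b' ζ r v ∂gam V η = η * MI G a b a' b' r v := by
  simp only [KI_eq]
  rw [integral_lin_mul, ← lin_kapI hT 0 r v, add_zero]

theorem integral_KI_tail (hT : G.IsTree) (η : ℝ≥0) (r k : ℕ) (v : V) :
    ∫ ζ, (KI G a b ζ (r + k) v - KI G a b ζ r v) ^ 2 ∂gam V η =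
      η * (MI G a b a b (r + k) v - MI G a b a b r v) := by
  simp only [KI_eq, ← lin_sub, sq]
  have h0 : ∀ n, lin (kapI G a b n v) (kapI G a b n v) = MI G a b a b n v := fun n =>
    lin_kapI hT 0 n v
  have h1 := lin_kapI (a := a) (b := b) (a' := a) (b' := b) hT k r v
  rw [integral_lin_mul, lin_sub, lin_comm, lin_comm (kapI G a b r v), lin_sub, lin_sub, h0, h0,
    lin_comm (kapI G a b (r + k) v), h1]
  ring

theorem integrable_exp_KI (η : ℝ≥0) (r : ℕ) (v : V) (l : ℝ) :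
    Integrable (fun ζ => Real.exp (l * KI G a b ζ r v)) (gam V η) := by
  simp only [KI_eq]
  exact integrable_exp_lin η _ l

theorem integral_exp_KI (hT : G.IsTree) (η : ℝ≥0) (r : ℕ) (v : V) (l : ℝ) :
    ∫ ζ, Real.exp (l * KI G a b ζ r v) ∂gam V η =
      Real.exp (l ^ 2 * η * MI G a b a b r v / 2) := by
  simp only [KI_eq]
  rw [integral_exp_lin, ← lin_kapI hT 0 r v, add_zero]

end Vale.Agent.P161
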