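import Vale.Agent.P161.Bayes
import Vale.Agent.P161.Gauss

/-!
Independence of even functionals of distinct branches, and the law at the final time.
-/

open MeasureTheory ProbabilityTheory Filter Topology Finset
open scoped Classical NNReal ENNReal

namespace Vale.Agent.P161

variable {V : Type} {G : SimpleGraph V} [G.LocallyFinite] {q : ℕ} {β : ℝ}

namespace IndepAux

/-- Flip of the spins of D. -/
noncomputable def flipD (D : Finset V) (η : V → Bool) : V → Bool :=
  fun v => if v ∈ D then !η v else η v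

lemma spin_not (b : Bool) : spin (!b) = -spin b := by cases b <;> simp [spin]

lemma sum_even {D : Finset V} {y : V} (hy : y ∈ D) {F : (V → Bool) → ℝ}
    (hF : ∀ η, F (flipD D η) = F η) :
    ∑ σ : D → Bool, F (ext D σ) = ∑ σ : D → Bool, F (Function.update (ext D σ) y true) := by
  let φ : (D → Bool) → (D → Bool) := fun σ v =>
    if v.1 = y then σ v else if σ ⟨y, hy⟩ then σ v else !σ v
  have hφ : Function.Involutive φ := fun σ => by
    funext v
    by_cases h1 : v.1 = y <;> by_cases h2 : σ ⟨y, hy⟩ = true <;> simp [φ, h1, h2]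
  rw [← Equiv.sum_comp hφ.toPerm fun σ => F (Function.update (ext D σ) y true)]
  refine Finset.sum_congr rfl fun σ _ => ?_
  by_cases h2 : σ ⟨y, hy⟩ = true
  · congr 1
    funext v
    by_cases h1 : v = y
    · subst h1; simp [ext, hy, h2]
    · by_cases h3 : v ∈ D <;> simp [ext, φ, h1, h2, h3]
  · rw [← hF]
    congr 1
    funext v
    by_cases h1 : v = y
    · subst h1; simp [ext, flipD, hy, h2]
    · by_cases h3 : v ∈ D <;> simp [ext, flipD, φ, h1, h2, h3]

lemma sum_mul_even {D : Finset V} {y : V} (hy : y ∈ D) {A : Set V} (hA : y ∉ A)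
    {a b : (V → Bool) → ℝ} (ha : DependsOn a (insert y A)) (hb : DependsOn b Aᶜ)
    (ha' : ∀ η, a (flipD D η) = a η) (hb' : ∀ η, b (flipD D η) = b η) :
    (∑ σ : D → Bool, a (ext D σ) * b (ext D σ)) * 2 ^ D.card =
      (∑ σ : D → Bool, a (ext D σ)) * ∑ σ : D → Bool, b (ext D σ) := by
  rw [sum_even hy ha', sum_even hy hb',
    sum_even hy (F := fun η => a η * b η) fun η => by rw [ha', hb']]
  refine sum_mul_sum (A := A) (f := fun η => a (Function.update η y true))
    (g := fun η => b (Function.update η y true)) (fun η η' h => ha fun v hv => ?_)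
    fun η η' h => hb fun v hv => ?_
  · by_cases h1 : v = y
    · subst h1; simp
    · simp [h1, h v (hv.resolve_left h1)]
  · by_cases h1 : v = y
    · subst h1; simp
    · simp [h1, h v hv]

omit [G.LocallyFinite] in
lemma mem_of_edgesIn {D : Finset V} {e : Sym2 V} (he : e ∈ edgesIn G D) : ∀ u ∈ e, u ∈ D :=
  Finset.mem_sym2_iff.1 (Finset.mem_filter.1 he).1

lemma edgeSpin_congr {η η' : V → Bool} {e : Sym2 V} (h : ∀ u ∈ e, η u = η' u) :
    edgeSpin η e = edgeSpin η' e := by
  induction e using Sym2.ind with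
  | h u v => simp [edgeSpin, h u (Sym2.mem_mk_left _ _), h v (Sym2.mem_mk_right _ _)]

lemma esum_congr {η η' : V → Bool} {e : Sym2 V} (h : ∀ u ∈ e, η u = η' u) :
    esum η e = esum η' e := by
  induction e using Sym2.ind with
  | h u v => simp [esum, h u (Sym2.mem_mk_left _ _), h v (Sym2.mem_mk_right _ _)]

lemma edgeSpin_flip {D : Finset V} (η : V → Bool) {e : Sym2 V} (h : ∀ u ∈ e, u ∈ D) :
    edgeSpin (flipD D η) e = edgeSpin η e := by
  induction e using Sym2.ind with
  | h u v =>
    simp [edgeSpin, flipD, h u (Sym2.mem_mk_left _ _), h v (Sym2.mem_mk_right _ _), spin_not]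

lemma esum_flip {D : Finset V} (η : V → Bool) {e : Sym2 V} (h : ∀ u ∈ e, u ∈ D) :
    esum (flipD D η) e = -esum η e := by
  induction e using Sym2.ind with
  | h u v =>
    simp [esum, flipD, h u (Sym2.mem_mk_left _ _), h v (Sym2.mem_mk_right _ _), spin_not, add_comm]

omit [G.LocallyFinite] in
lemma ex_mul_even (hT : G.IsTree) {D : Finset V} (B : ℝ) {y z : V} (hy : y ∈ D) (hz : G.Adj y z)
    {a b : (V → Bool) → ℝ} (ha : DependsOn a (insert y (Br G y z))) (hb : DependsOn b (Br G y z)ᶜ)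
    (ha' : ∀ η, a (flipD D η) = a η) (hb' : ∀ η, b (flipD D η) = b η) :
    ex G D B 0 (fun η => a η * b η) = ex G D B 0 a * ex G D B 0 b := by
  set wi : (V → Bool) → ℝ := fun η =>
    Real.exp (∑ e ∈ (edgesIn G D).filter (· ∈ EB G y z), B * edgeSpin η e) with hwi
  set wo : (V → Bool) → ℝ := fun η =>
    Real.exp (∑ e ∈ (edgesIn G D).filter (· ∉ EB G y z), B * edgeSpin η e) with hwo
  have hw : ∀ η, wt G D B 0 η = wi η * wo η := fun η => by
    simp only [wt, hwi, hwo, ← Real.exp_add, Finset.sum_filter_add_sum_filter_not, Pi.zero_apply,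
      zero_mul, add_zero]
  have di : DependsOn wi (insert y (Br G y z)) := fun η η' h => by
    simp only [hwi]
    refine congrArg _ (Finset.sum_congr rfl fun e he => ?_)
    rw [edgeSpin_congr fun u hu => h u (((Finset.mem_filter.1 he).2.2 u hu).symm)]
  have dO : DependsOn wo (Br G y z)ᶜ := fun η η' h => by
    simp only [hwo]
    refine congrArg _ (Finset.sum_congr rfl fun e he => ?_)
    obtain ⟨h1, h2⟩ := Finset.mem_filter.1 he
    rw [edgeSpin_congr fun u hu =>
      h u ((EB_or_out hT hz (Finset.mem_filter.1 h1).2).resolve_left h2 u hu)]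
  have ei : ∀ η, wi (flipD D η) = wi η := fun η => by
    simp only [hwi]
    refine congrArg _ (Finset.sum_congr rfl fun e he => ?_)
    rw [edgeSpin_flip η (mem_of_edgesIn (Finset.mem_filter.1 he).1)]
  have eo : ∀ η, wo (flipD D η) = wo η := fun η => by
    simp only [hwo]
    refine congrArg _ (Finset.sum_congr rfl fun e he => ?_)
    rw [edgeSpin_flip η (mem_of_edgesIn (Finset.mem_filter.1 he).1)]
  have hA := not_mem_Br (G := G) y z
  have da : DependsOn (fun η => wi η * a η) (insert y (Br G y z)) := fun η η' h => by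
    simp only [di h, ha h]
  have db : DependsOn (fun η => wo η * b η) (Br G y z)ᶜ := fun η η' h => by
    simp only [dO h, hb h]
  have ea : ∀ η, wi (flipD D η) * a (flipD D η) = wi η * a η := fun η => by rw [ei, ha']
  have eb : ∀ η, wo (flipD D η) * b (flipD D η) = wo η * b η := fun η => by rw [eo, hb']
  have h1 := sum_mul_even hy hA da db ea eb
  have h2 := sum_mul_even hy hA da dO ea eo
  have h3 := sum_mul_even hy hA di db ei eb
  have h4 := sum_mul_even hy hA di dO ei eo
  have hZ : 0 < ∑ σ : D → Bool, wi (ext D σ) * wo (ext D σ) :=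
    Finset.sum_pos (fun σ _ => mul_pos (Real.exp_pos _) (Real.exp_pos _)) Finset.univ_nonempty
  have e1 : ∀ η, wi η * wo η * (a η * b η) = wi η * a η * (wo η * b η) := fun η => by ring
  have e2 : ∀ η, wi η * wo η * a η = wi η * a η * wo η := fun η => by ring
  have e3 : ∀ η, wi η * wo η * b η = wi η * (wo η * b η) := fun η => by ring
  simp only [ex, hw, e1, e2, e3]
  have h5 : (2 : ℝ) ^ D.card ≠ 0 := by positivity
  rw [div_mul_div_comm, div_eq_div_iff hZ.ne' (mul_pos hZ hZ).ne']
  refine mul_right_cancel₀ (mul_ne_zero h5 h5) ?_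
  linear_combination
    ((∑ σ : D → Bool, wi (ext D σ) * wo (ext D σ)) ^ 2 * 2 ^ D.card) * h1
    + ((∑ σ : D → Bool, wi (ext D σ) * a (ext D σ)) * (∑ σ : D → Bool, wo (ext D σ) * b (ext D σ))
      * ∑ σ : D → Bool, wi (ext D σ) * wo (ext D σ)) * h4
    - ((∑ σ : D → Bool, wi (ext D σ) * wo (ext D σ)) *
      (∑ σ : D → Bool, wi (ext D σ) * (wo (ext D σ) * b (ext D σ))) * 2 ^ D.card) * h2
    - ((∑ σ : D → Bool, wi (ext D σ) * wo (ext D σ)) *
      (∑ σ : D → Bool, wi (ext D σ) * a (ext D σ)) * (∑ σ : D → Bool, wo (ext D σ))) * h3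

omit [G.LocallyFinite] in
lemma ex_prod_even (hT : G.IsTree) {D : Finset V} (B : ℝ) {y : V} (hy : y ∈ D) (s : Finset V)
    (hs : ∀ z ∈ s, G.Adj y z) (F : V → (V → Bool) → ℝ)
    (hd : ∀ z ∈ s, DependsOn (F z) (insert y (Br G y z)))
    (he : ∀ z ∈ s, ∀ η, F z (flipD D η) = F z η) :
    ex G D B 0 (fun η => ∏ z ∈ s, F z η) = ∏ z ∈ s, ex G D B 0 (F z) := by
  induction s using Finset.induction_on with
  | empty => simp [ex_const]
  | insert z s hz ih =>
    have m1 : ∀ w ∈ s, w ∈ insert z s := fun w hw => Finset.mem_insert_of_mem hw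
    have m2 := Finset.mem_insert_self z s
    simp only [Finset.prod_insert hz]
    rw [ex_mul_even hT B hy (hs z m2) (hd z m2) ?_ (he z m2)
      (fun η => Finset.prod_congr rfl fun w hw => he w (m1 w hw) η),
      ih (fun w hw => hs w (m1 w hw)) (fun w hw => hd w (m1 w hw)) fun w hw => he w (m1 w hw)]
    intro η η' h
    refine Finset.prod_congr rfl fun w hw => hd w (m1 w hw) fun u hu => h u ?_
    rcases hu with rfl | hu
    · exact not_mem_Br _ _
    · exact Br_disj hT (hs w (m1 w hw)) (hs z m2) (fun e => hz (e ▸ hw)) hu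

lemma M_congr (hT : G.IsTree) {W : Set V} {θ : ℝ} {m m' : V → ℝ} (r : ℕ) : ∀ x y, G.Adj x y →
    Deep G W r x → (∀ a b, G.Adj a b → a ∈ W → b ∈ W → EB G a b ⊆ EB G x y →
      bf θ m a b = bf θ m' a b) →
    M G (af θ m) (bf θ m) (af θ m) (bf θ m) r x y =
      M G (af θ m') (bf θ m') (af θ m') (bf θ m') r x y := by
  induction r with
  | zero => intros; rfl
  | succ r ih =>
    intro x y hxy hD H
    have hy := hD.adj hT.connected hxy
    have h1 := H x y hxy hD.self hy.self Set.Subset.rfl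
    simp only [M, af, h1]
    congr 2
    refine Finset.sum_congr rfl fun z hz => ?_
    obtain ⟨h2, h3⟩ := mem_ch.1 hz
    exact ih y z h2 hy fun a b hab ha hb hs => H a b hab ha hb (hs.trans (EB_sub hT hxy h2 h3))

lemma continuous_M {θ : ℝ} (h0 : 0 ≤ θ) (h1 : θ ^ 2 ≤ 1 / 2) (r : ℕ) : ∀ x y,
    Continuous fun m : V → ℝ => M G (af θ m) (bf θ m) (af θ m) (bf θ m) r x y := by
  induction r with
  | zero => intros; exact continuous_const
  | succ r ih =>
    intro x y
    have h := continuous_bf h0 h1 x y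
    have h' : Continuous fun m : V → ℝ => af θ m x y := continuous_const.add h
    exact (h'.mul h').add ((h.mul h).mul (continuous_finsetSum _ fun z _ => ih y z))

lemma bdd_M {θ : ℝ} (h0 : 0 ≤ θ) (h1 : θ < 1) (r : ℕ) : ∀ x y, ∃ C, ∀ m : V → ℝ,
    |M G (af θ m) (bf θ m) (af θ m) (bf θ m) r x y| ≤ C := by
  induction r with
  | zero => intro x y; exact ⟨0, fun m => by simp [M]⟩
  | succ r ih =>
    intro x y
    choose C hC using ih
    refine ⟨4 + ∑ z ∈ ch G x y, C y z, fun m => ?_⟩
    have h2 : 0 ≤ bf θ m x y := bco_nonneg h0 h1 (abs_clip_le_one _) (abs_clip_le_one _)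
    have h3 : bf θ m x y ≤ θ := bco_le h0 h1 (abs_clip_le_one _) (abs_clip_le_one _)
    have h4 := (Finset.abs_sum_le_sum_abs _ _).trans
      (Finset.sum_le_sum (s := ch G x y) fun z _ => hC y z m)
    simp only [M]
    refine (abs_add_le _ _).trans (add_le_add ?_ ?_)
    · rw [abs_mul_self, af]; nlinarith
    · rw [abs_mul, abs_mul_self]
      refine le_trans (mul_le_of_le_one_left (abs_nonneg _) (by nlinarith)) h4

end IndepAux

open IndepAux

theorem Stp_prod (hT : G.IsTree) {D : Finset V} (B : ℝ) (τ : ℝ≥0) {y : V} (hy : y ∈ D)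
    {s : Finset V} (hs : ∀ z ∈ s, G.Adj y z) (g : V → (Sym2 V → ℝ) → ℝ)
    (hm : ∀ z ∈ s, Measurable (g z)) (hb : ∀ z ∈ s, ∃ C, ∀ h, |g z h| ≤ C)
    (hd : ∀ z ∈ s, DependsOn (g z) (EB G y z)) (he : ∀ z ∈ s, ∀ h, g z (-h) = g z h) :
    Stp G D β B 0 τ (fun _ h => ∏ z ∈ s, g z h) = ∏ z ∈ s, Stp G D β B 0 τ fun _ h => g z h := by
  have hob : ∀ η, Measurable fun ζ => obs G D β τ 0 ζ η := fun η =>
    (measurable_obs τ η).comp (measurable_const.prodMk measurable_id)
  have h1 : ∀ η, ∫ ζ, ∏ z ∈ s, g z (obs G D β τ 0 ζ η) ∂gam V τ =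
      ∏ z ∈ s, ∫ ζ, g z (obs G D β τ 0 ζ η) ∂gam V τ := fun η =>
    gam_prod τ s (fun z => EB G y z)
      (fun z hz z' hz' hne => Set.disjoint_left.2 fun e he => EB_disj hT (hs z hz) (hs z' hz') hne he)
      (fun z ζ => g z (obs G D β τ 0 ζ η)) (fun z hz => (hm z hz).comp (hob η))
      (fun z hz => (hb z hz).imp fun C hC ζ => hC _)
      (fun z hz ζ ζ' h => hd z hz fun e he => by simp [obs, mk, h e he])
  simp only [Stp, h1]
  refine ex_prod_even hT B hy s hs _ (fun z hz η η' h => ?_) fun z hz η => ?_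
  · refine integral_congr_ae (ae_of_all _ fun ζ => hd z hz fun e he => ?_)
    simp only [obs, mk, Pi.add_apply, esum_congr fun u hu => h u (he.2 u hu).symm]
  · conv_lhs => rw [← gam_neg τ]
    have hme : Measurable fun ζ => g z (obs G D β τ 0 ζ (flipD D η)) := (hm z hz).comp (hob _)
    rw [integral_map (by fun_prop) hme.aestronglyMeasurable]
    refine integral_congr_ae (ae_of_all _ fun ζ => ?_)
    simp only
    rw [← he z hz]
    congr 1
    funext e
    by_cases h : e ∈ edgesIn G D
    · simp only [obs, mk, Pi.add_apply, Pi.neg_apply, Pi.zero_apply, if_pos h,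
        esum_flip η (mem_of_edgesIn h)]
      ring
    · simp [obs, mk, h]

variable {Ω : Type} [MeasurableSpace Ω] {P : Measure Ω} [IsProbabilityMeasure P] {s t : ℝ}
  {m : Ω → V → ℝ}

theorem LawLim.abs_le (hm : Measurable m) (h : LawLim G P β s t m) (v : V) :
    ∀ᵐ ω ∂P, |m ω v| ≤ 1 := by
  obtain ⟨D, -, -, h⟩ := h
  have hb : ∀ x : ℝ, |min 1 (max 0 (|x| - 1))| ≤ 1 := fun x => by
    rw [abs_of_nonneg (le_min zero_le_one (le_max_left _ _))]; exact min_le_left _ _
  have h1 := h (fun m => min 1 (max 0 (|m v| - 1))) (by fun_prop) ⟨1, fun m => hb _⟩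
  have h2 : ∀ n h', min 1 (max 0 (|pm G (D n) (β * (1 - t)) h' v| - 1)) = 0 := fun n h' => by
    rw [max_eq_left (by linarith [abs_pm_le (G := G) (D := D n) (B := β * (1 - t)) (h := h') v])]
    simp
  simp only [h2, Stp, integral_zero, ex_const] at h1
  have h3 := tendsto_nhds_unique tendsto_const_nhds h1
  have hme : Measurable fun ω => min 1 (max 0 (|m ω v| - 1)) := by
    have := (measurable_pi_apply v).comp hm
    fun_prop
  have h4 := (integral_eq_zero_iff_of_nonneg (fun ω => le_min zero_le_one (le_max_left _ _))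
    (Integrable.of_bound hme.aestronglyMeasurable 1 (ae_of_all _ fun ω => hb _))).1 h3.symm
  filter_upwards [h4] with ω hω
  by_contra hc
  have : 0 < min 1 (max 0 (|m ω v| - 1)) := lt_min one_pos (lt_max_of_lt_right (by linarith [not_le.1 hc]))
  exact this.ne' hω

theorem LawLim.indep (hG : Reg G q) (hβ : 0 ≤ β) (ht : t ≤ 1) (hρ : q * th β t ^ 2 ≤ 1)
    (h : LawLim G P β s t m) {x y : V} (hxy : G.Adj x y) (r : ℕ) (l : ℝ) :
    ∫ ω, ∏ z ∈ ch G x y, Real.exp (l * M G (af (th β t) (m ω)) (bf (th β t) (m ω))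
        (af (th β t) (m ω)) (bf (th β t) (m ω)) r y z) ∂P =
      ∏ z ∈ ch G x y, ∫ ω, Real.exp (l * M G (af (th β t) (m ω)) (bf (th β t) (m ω))
        (af (th β t) (m ω)) (bf (th β t) (m ω)) r y z) ∂P := by
  obtain ⟨D, -, hD, h⟩ := h
  have h0 := th_nonneg hβ ht
  have h1 := th_lt_one β t
  have h2 : th β t ^ 2 ≤ 1 / 2 := by
    have : (2 : ℝ) ≤ q := by exact_mod_cast hG.two
    nlinarith [sq_nonneg (th β t)]
  have hB : 0 ≤ β * (1 - t) := mul_nonneg hβ (by linarith)
  set Ψ : V → (V → ℝ) → ℝ := fun z m => Real.exp (l * M G (af (th β t) m) (bf (th β t) m)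
    (af (th β t) m) (bf (th β t) m) r y z) with hΨ
  have hc : ∀ z, Continuous (Ψ z) := fun z =>
    Real.continuous_exp.comp (continuous_const.mul (continuous_M h0 h2 r y z))
  have hb : ∀ z, ∃ C, ∀ m, |Ψ z m| ≤ C := fun z => by
    obtain ⟨C, hC⟩ := bdd_M (G := G) h0 h1 r y z
    refine ⟨Real.exp (|l| * C), fun m => ?_⟩
    rw [abs_of_pos (Real.exp_pos _)]
    refine Real.exp_le_exp.2 ((le_abs_self _).trans ?_)
    rw [abs_mul]
    exact mul_le_mul_of_nonneg_left (hC m) (abs_nonneg l)
  have hme : ∀ z, Measurable (Ψ z) := fun z => Real.measurable_exp.comp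
    ((measurable_M (measurable_af _) (measurable_bf _) (measurable_af _) (measurable_bf _)
      r y z).const_mul l)
  have t1 := h (fun m => ∏ z ∈ ch G x y, Ψ z m) (continuous_finsetProd _ fun z _ => hc z) (by
    choose C hC using hb
    refine ⟨∏ z ∈ ch G x y, C z, fun m => ?_⟩
    rw [Finset.abs_prod]
    exact Finset.prod_le_prod (fun z _ => abs_nonneg _) fun z _ => hC z m)
  have t2 := tendsto_finsetProd (ch G x y) fun z _ => h (Ψ z) (hc z) (hb z)
  refine tendsto_nhds_unique t1 (t2.congr' ?_)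
  filter_upwards [hD y r, hD y 0] with n hn hn0
  refine (Stp_prod hG.tree _ _ hn0.self (fun z hz => (mem_ch.1 hz).1)
    (fun z h' => Ψ z (pm G (D n) (β * (1 - t)) h')) (fun z _ => (hme z).comp measurable_pm)
    (fun z _ => (hb z).imp fun C hC h' => hC _) (fun z hz h₁ h₂ H => ?_) fun z hz h' => ?_).symm
  · simp only [hΨ]
    rw [M_congr (θ := th β t) hG.tree r y z (mem_ch.1 hz).1 hn fun a b hab ha hb hs =>
      bf_pm_congr hG.tree hB hab ha hb fun e he => H e (hs he)]
  · simp only [hΨ]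
    rw [M_congr (m' := pm G (D n) (β * (1 - t)) h') hG.tree r y z (mem_ch.1 hz).1 hn
      fun a b hab ha hb hs => ?_]
    simp only [bf, pm_neg ha, pm_neg hb, clip_neg, bco_neg]

theorem LawLim.final (hT : G.IsTree) (hβ : 0 ≤ β) (hs : s ≤ 1) (h : LawLim G P β s 1 m)
    (S : Finset V) (hS : (G.induce (S : Set V)).Connected) (η : V → Bool) :
    ∫ ω, ∏ v ∈ S, (1 + spin (η v) * clip (m ω v)) / 2 ∂P =
      1 / 2 * ∏ e ∈ edgesIn G S, edgeWeight (th β s) η e := by
  obtain ⟨D, -, hD, h⟩ := h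
  have t1 := h (fun m => ∏ v ∈ S, (1 + spin (η v) * clip (m v)) / 2)
    (continuous_finsetProd _ fun v _ => (continuous_const.add (continuous_const.mul
      (continuous_clip.comp (continuous_apply v)))).div_const 2) ⟨1, fun m => by
      rw [Finset.abs_prod]
      refine Finset.prod_le_one (fun v _ => abs_nonneg _) fun v _ => ?_
      have := _root_.abs_le.1 (abs_clip_le_one (m v))
      rw [_root_.abs_le]
      cases η v <;> simp only [spin, if_true, Bool.false_eq_true, if_false] <;>
        constructor <;> linarith⟩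
  refine tendsto_nhds_unique t1 (tendsto_const_nhds.congr' ?_)
  filter_upwards [(eventually_all_finset S).2 fun v _ => hD v 0] with n hn
  have hSD : S ⊆ D n := fun v hv => (hn v hv).self
  have e1 : β * (1 - 1) = β * (1 - s) - β * ((1 - s).toNNReal : ℝ) := by
    rw [Real.coe_toNNReal _ (by linarith)]; ring
  have e2 : ∀ h', ∏ v ∈ S, (1 + spin (η v) * clip (pm G (D n) (β * (1 - 1)) h' v)) / 2 =
      ex G (D n) (β * (1 - s) - β * ((1 - s).toNNReal : ℝ)) h'
        fun η' => if ∀ v ∈ S, η' v = η v then 1 else 0 := fun h' => by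
    rw [← e1, sub_self, mul_zero, ex_zero_coupling hSD]
    exact Finset.prod_congr rfl fun v _ => by rw [clip_eq (abs_pm_le v)]
  simp only [e2]
  rw [Stp_bayes hβ _ (Ψ := fun η' _ => if ∀ v ∈ S, η' v = η v then 1 else 0)
    (fun _ => measurable_const) ⟨1, fun η' _ => by split_ifs <;> simp⟩]
  simp only [Stp, integral_const, probReal_univ, one_smul]
  exact (ex_zero_field hT hSD hS η).symm

end Vale.Agent.P161
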