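import Vale.Agent.P161.Spectral

/-! The adjacency operator on centred square integrable functions of i.i.d. labels. -/

namespace Vale.Agent.P161

open MeasureTheory ProbabilityTheory SimpleGraph Filter Topology
open scoped RealInnerProductSpace symmDiff

namespace TemperAux

theorem cheb_bound {H : Type*} [NormedAddCommGroup H] [InnerProductSpace ℝ H]
    (T : H →L[ℝ] H) (hT : ∀ x y, ⟪T x, y⟫ = ⟪x, T y⟫) {s : ℝ} (hs : 1 ≤ s) (x : ℕ → H)
    (hrec : ∀ j, x (j + 2) = T (x (j + 1)) - s ^ 2 • x j)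
    (hb : ∀ j, ‖T (x j)‖ ≤ 2 * s * ‖x j‖) (j : ℕ) :
    ‖x j‖ ≤ (j + 1) * s ^ j * (‖x 0‖ + ‖x 1‖) := by
  set E : ℕ → ℝ := fun j => ‖x (j + 1)‖ ^ 2 + s ^ 2 * ‖x j‖ ^ 2 - ⟪T (x (j + 1)), x j⟫ with hE
  have h1 : ∀ j, E (j + 1) = s ^ 2 * E j := by
    intro j
    have e : T (x (j + 1)) = x (j + 2) + s ^ 2 • x j := by rw [hrec]; simp
    simp only [hE]
    rw [hT (x (j + 1 + 1)), e, inner_add_right, inner_add_left, inner_smul_right, inner_smul_left,
      real_inner_self_eq_norm_sq, real_inner_self_eq_norm_sq]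
    simp only [conj_trivial]
    ring
  have h2 : ∀ j, E j = (s ^ j) ^ 2 * E 0 := by
    intro j
    induction j with
    | zero => simp
    | succ j ih => rw [h1, ih]; ring
  have hin : ∀ j, |⟪T (x (j + 1)), x j⟫| ≤ 2 * s * ‖x (j + 1)‖ * ‖x j‖ := fun j =>
    (abs_real_inner_le_norm _ _).trans (by gcongr; exact hb _)
  set c := ‖x 1‖ + s * ‖x 0‖ with hc
  have h3 : E 0 ≤ c ^ 2 := by
    have := (abs_le.1 (hin 0)).1
    simp only [hE, hc, zero_add] at this ⊢
    nlinarith
  have h4 : ∀ j, ‖x (j + 1)‖ ≤ s * ‖x j‖ + s ^ j * c := by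
    intro j
    have h5 := (abs_le.1 (hin j)).2
    have h6 : (‖x (j + 1)‖ - s * ‖x j‖) ^ 2 ≤ (s ^ j * c) ^ 2 := by
      calc _ ≤ E j := by simp only [hE]; nlinarith
        _ = _ := h2 j
        _ ≤ (s ^ j) ^ 2 * c ^ 2 := by gcongr
        _ = _ := by ring
    have := abs_le_of_sq_le_sq' h6 (by positivity)
    linarith [this.2]
  have h7 : ∀ j : ℕ, s * ‖x j‖ ≤ s ^ (j + 1) * ‖x 0‖ + j * s ^ j * c := by
    intro j
    induction j with
    | zero => simp
    | succ j ih =>
      have h8 : s * ‖x (j + 1)‖ ≤ s * (s * ‖x j‖ + s ^ j * c) := by gcongr; exact h4 j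
      have h9 : s * (s * ‖x j‖) ≤ s * (s ^ (j + 1) * ‖x 0‖ + j * s ^ j * c) := by gcongr
      push_cast
      calc _ ≤ s * (s ^ (j + 1) * ‖x 0‖ + j * s ^ j * c) + s * (s ^ j * c) := by linarith
        _ = _ := by ring
  have h10 : c ≤ s * (‖x 0‖ + ‖x 1‖) := by
    have : 1 * ‖x 1‖ ≤ s * ‖x 1‖ := by gcongr
    simp only [hc]
    linarith
  refine le_of_mul_le_mul_left ?_ (show 0 < s by linarith)
  calc _ ≤ _ := h7 j
    _ ≤ s ^ (j + 1) * (‖x 0‖ + ‖x 1‖) + j * s ^ j * (s * (‖x 0‖ + ‖x 1‖)) := by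
        gcongr
        exact le_add_of_nonneg_right (norm_nonneg _)
    _ = _ := by ring

variable {V : Type*} {G : SimpleGraph V} {d : ℕ}
  {X : Type*} [MeasurableSpace X] (ν : Measure X) [IsProbabilityMeasure ν]

/-- Functions of finitely many labels. -/
def Loc : Submodule ℝ (Lp ℝ 2 (Measure.infinitePi fun _ : V => ν)) where
  carrier := {g | ∃ (K : Finset V) (f : (K → X) → ℝ), Measurable f ∧
    g =ᵐ[Measure.infinitePi fun _ : V => ν] fun ω => f (K.restrict ω)}
  add_mem' := by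
    classical
    rintro g g' ⟨K, f, hf, hg⟩ ⟨K', f', hf', hg'⟩
    refine ⟨K ∪ K', fun z => f (Finset.restrict₂ (π := fun _ => X) Finset.subset_union_left z) +
      f' (Finset.restrict₂ (π := fun _ => X) Finset.subset_union_right z), ?_, ?_⟩
    · exact (hf.comp (Finset.measurable_restrict₂ _)).add
        (hf'.comp (Finset.measurable_restrict₂ _))
    · filter_upwards [Lp.coeFn_add g g', hg, hg'] with ω h1 h2 h3
      rw [h1, Pi.add_apply, h2, h3]
      rfl
  zero_mem' := ⟨∅, fun _ => 0, measurable_const, Lp.coeFn_zero _ _ _⟩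
  smul_mem' := by
    rintro c g ⟨K, f, hf, hg⟩
    refine ⟨K, fun z => c * f z, hf.const_mul c, ?_⟩
    filter_upwards [Lp.coeFn_smul c g, hg] with ω h1 h2
    rw [h1, Pi.smul_apply, h2, smul_eq_mul]

theorem loc_dense (g : Lp ℝ 2 (Measure.infinitePi fun _ : V => ν)) :
    g ∈ (Loc ν).topologicalClosure := by
  refine Lp.induction (by simp : (2 : ENNReal) ≠ ⊤) (· ∈ (Loc ν).topologicalClosure) ?_
    (fun _ _ _ _ _ h1 h2 => Submodule.add_mem _ h1 h2) (Loc ν).isClosed_topologicalClosure g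
  · intro c A hA hμ
    let P := (Measure.infinitePi fun _ : V => ν)
    rw [Lp.simpleFunc.coe_indicatorConst]
    have h0 : indicatorConstLp 2 hA hμ.ne c = c • indicatorConstLp 2 hA hμ.ne (1 : ℝ) := by
      apply Lp.ext
      filter_upwards [Lp.coeFn_smul c (indicatorConstLp 2 hA hμ.ne (1 : ℝ)),
        indicatorConstLp_coeFn (p := 2) (hs := hA) (hμs := hμ.ne) (c := (1 : ℝ)),
        indicatorConstLp_coeFn (p := 2) (hs := hA) (hμs := hμ.ne) (c := c)] with ω h1 h2 h3
      rw [h1, h3, Pi.smul_apply, h2]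
      by_cases h : ω ∈ A <;> simp [h]
    rw [h0]
    refine Submodule.smul_mem _ _ ?_
    rw [← SetLike.mem_coe, Submodule.topologicalClosure_coe, Metric.mem_closure_iff]
    intro ε hε
    obtain ⟨t, ht, h⟩ := exists_measure_symmDiff_lt_of_generateFrom_isSetRing (μ := P)
      isSetRing_measurableCylinders ⟨{Set.univ}, Set.countable_singleton _, by
        simpa using univ_mem_measurableCylinders (fun _ : V => X), by simp⟩
      generateFrom_measurableCylinders.symm hA (ε := ENNReal.ofReal (ε ^ 2))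
      (by simpa using pow_pos hε 2)
    obtain ⟨K, S, hS, rfl⟩ := (mem_measurableCylinders _).1 ht
    refine ⟨indicatorConstLp 2 (hS.cylinder K) (measure_ne_top _ _) (1 : ℝ), ?_, ?_⟩
    · refine ⟨K, S.indicator fun _ => 1, measurable_const.indicator hS, ?_⟩
      filter_upwards [indicatorConstLp_coeFn (p := 2) (hs := hS.cylinder K)
        (hμs := measure_ne_top P _) (c := (1 : ℝ))] with ω hω
      rw [hω]
      rfl
    · rw [_root_.dist_comm, dist_indicatorConstLp_eq_norm, norm_indicatorConstLp (by simp) (by simp)]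
      have h1 : P.real (cylinder K S ∆ A) < ε ^ 2 := ENNReal.toReal_lt_of_lt_ofReal h
      have h2 := Real.sqrt_lt_sqrt measureReal_nonneg h1
      rw [Real.sqrt_sq hε.le] at h2
      simpa [Real.sqrt_eq_rpow] using h2

theorem loc_finite (L : Lab d G) (hT : G.IsTree) (r : V)
    {g : Lp ℝ 2 (Measure.infinitePi fun _ : V => ν)} (hg : g ∈ Loc ν)
    (h0 : ∫ ω, g ω ∂(Measure.infinitePi fun _ : V => ν) = 0) :
    {y | ⟪koop ν L hT r y g, g⟫ ≠ 0}.Finite := by
  classical
  obtain ⟨K, f, hf, hg⟩ := hg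
  refine (finite_bad L hT r K).subset fun y hy => ?_
  by_contra hcon
  apply hy
  have hdisj : Disjoint (K.image (L.tr hT r y)) K := by
    rw [Finset.disjoint_left]
    intro x hx hxK
    obtain ⟨k, hk, rfl⟩ := Finset.mem_image.1 hx
    exact hcon ⟨k, hk, hxK⟩
  have hind := (iIndepFun_infinitePi (P := fun _ : V => ν) (X := fun _ ω => ω)
    (by fun_prop)).indepFun_finset _ _ hdisj (by fun_prop)
  have hm : Measurable (fun (z : (K.image (L.tr hT r y)) → X) (k : K) =>
      z ⟨L.tr hT r y k, Finset.mem_image_of_mem _ k.2⟩) := by fun_prop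
  have h2 := (hind.comp (hf.comp hm) hf).integral_fun_mul_eq_mul_integral
    ((hf.comp hm).comp (by fun_prop)).aestronglyMeasurable
    (hf.comp (by fun_prop)).aestronglyMeasurable
  have h3 : ∫ ω, f (K.restrict ω) ∂(Measure.infinitePi fun _ : V => ν) = 0 := by
    rw [← h0]
    exact (integral_congr_ae hg).symm
  rw [L2.inner_def]
  refine Eq.trans (integral_congr_ae ?_) (h2.trans (mul_eq_zero_of_right _ h3))
  filter_upwards [koop_coe ν L hT r y g, hg,
    (mp_reindex ν (L.tr_injective hT r y)).quasiMeasurePreserving.ae hg] with ω h4 h5 h6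
  rw [h4, h5, h6, real_inner_comm]
  rfl

theorem norm_adjL_le (L : Lab d G) (hT : G.IsTree) (hd : 2 ≤ d) (r : V)
    (g : Lp ℝ 2 (Measure.infinitePi fun _ : V => ν))
    (h0 : ∫ ω, g ω ∂(Measure.infinitePi fun _ : V => ν) = 0) :
    ‖adjL ν L hT r g‖ ≤ 2 * √(d - 1) * ‖g‖ := by
  let P := (Measure.infinitePi fun _ : V => ν)
  let e : Lp ℝ 2 P := indicatorConstLp 2 MeasurableSet.univ (measure_ne_top P _) (1 : ℝ)
  have he : ∀ g : Lp ℝ 2 P, ⟪e, g⟫ = ∫ ω, g ω ∂P := fun g => by
    rw [L2.inner_indicatorConstLp_one]; simp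
  have hee : ⟪e, e⟫ = 1 := by
    rw [L2.inner_indicatorConstLp_indicatorConstLp]; simp
  have heL : e ∈ Loc ν := by
    refine ⟨∅, fun _ => 1, measurable_const, ?_⟩
    filter_upwards [indicatorConstLp_coeFn (p := 2) (hs := MeasurableSet.univ)
      (hμs := measure_ne_top P _) (c := (1 : ℝ))] with ω hω
    exact hω.trans (by simp)
  have key : ∀ g ∈ (Loc ν).topologicalClosure,
      ‖adjL ν L hT r (g - ⟪e, g⟫ • e)‖ ≤ 2 * √(d - 1) * ‖g - ⟪e, g⟫ • e‖ := by
    intro g hg
    rw [← SetLike.mem_coe, Submodule.topologicalClosure_coe] at hg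
    refine closure_minimal (t := {g | ‖adjL ν L hT r (g - ⟪e, g⟫ • e)‖ ≤
      2 * √(d - 1) * ‖g - ⟪e, g⟫ • e‖}) ?_ (isClosed_le (by fun_prop) (by fun_prop)) hg
    intro g hg
    have := norm_adjL_pow_le ν L hT hd r _ (loc_finite ν L hT r
      (Submodule.sub_mem _ hg (Submodule.smul_mem _ ⟪e, g⟫ heL)) (by
        rw [← he, inner_sub_right, inner_smul_right, hee]; ring)) 1
    simpa using this
  have := key g (loc_dense ν g)
  rw [he, h0] at this
  simpa using this

end TemperAux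

end Vale.Agent.P161
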