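import Vale.Agent.P161.Trans
import Vale.Agent.P161.TemperAux

/-!
Mass transport and temperedness for equivariant families on the i.i.d. space.
-/

open MeasureTheory ProbabilityTheory Filter Topology Finset
open scoped Classical NNReal ENNReal

namespace Vale.Agent.P161

variable {V : Type} {G : SimpleGraph V} [G.LocallyFinite] {q : ℕ}
  {Y Z : V → V → (V → unitInterval) → ℝ}

omit [G.LocallyFinite] in
lemma measurePreserving_act (g : G ≃g G) :
    MeasurePreserving (act g : (V → unitInterval) → V → unitInterval) (iid V) (iid V) :=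
  mp_reindex volume g.symm.injective

omit [G.LocallyFinite] in
lemma Fam.const (c : ℝ) : Fam G fun _ _ _ => c :=
  ⟨fun _ _ => measurable_const, ⟨|c|, fun _ _ _ _ => le_rfl⟩, fun _ _ _ _ => ae_of_all _ fun _ => rfl⟩

omit [G.LocallyFinite] in
lemma Fam.add (hY : Fam G Y) (hZ : Fam G Z) : Fam G fun x y U => Y x y U + Z x y U := by
  obtain ⟨C, hC⟩ := hY.bdd
  obtain ⟨C', hC'⟩ := hZ.bdd
  refine ⟨fun x y => (hY.meas x y).add (hZ.meas x y), ⟨C + C', fun x y h U =>
    (abs_add_le _ _).trans (add_le_add (hC x y h U) (hC' x y h U))⟩, fun g x y h => ?_⟩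
  filter_upwards [hY.equi g x y h, hZ.equi g x y h] with U h1 h2
  rw [h1, h2]

omit [G.LocallyFinite] in
lemma Fam.sub (hY : Fam G Y) (hZ : Fam G Z) : Fam G fun x y U => Y x y U - Z x y U := by
  obtain ⟨C, hC⟩ := hY.bdd
  obtain ⟨C', hC'⟩ := hZ.bdd
  refine ⟨fun x y => (hY.meas x y).sub (hZ.meas x y), ⟨C + C', fun x y h U =>
    (abs_sub _ _).trans (add_le_add (hC x y h U) (hC' x y h U))⟩, fun g x y h => ?_⟩
  filter_upwards [hY.equi g x y h, hZ.equi g x y h] with U h1 h2
  rw [h1, h2]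

omit [G.LocallyFinite] in
lemma Fam.mul (hY : Fam G Y) (hZ : Fam G Z) : Fam G fun x y U => Y x y U * Z x y U := by
  obtain ⟨C, hC⟩ := hY.bdd
  obtain ⟨C', hC'⟩ := hZ.bdd
  refine ⟨fun x y => (hY.meas x y).mul (hZ.meas x y), ⟨C * C', fun x y h U => ?_⟩,
    fun g x y h => ?_⟩
  · rw [abs_mul]
    exact mul_le_mul (hC x y h U) (hC' x y h U) (abs_nonneg _) ((abs_nonneg _).trans (hC x y h U))
  filter_upwards [hY.equi g x y h, hZ.equi g x y h] with U h1 h2
  rw [h1, h2]

omit [G.LocallyFinite] in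
lemma Fam.comp (hY : Fam G Y) {f : ℝ → ℝ} (hf : Continuous f) :
    Fam G fun x y U => f (Y x y U) := by
  obtain ⟨C, hC⟩ := hY.bdd
  obtain ⟨C', hC'⟩ := (isCompact_Icc (a := -C) (b := C)).exists_bound_of_continuousOn
    hf.continuousOn
  refine ⟨fun x y => hf.measurable.comp (hY.meas x y), ⟨C', fun x y h U =>
    hC' _ (abs_le.1 (hC x y h U))⟩, fun g x y h => ?_⟩
  filter_upwards [hY.equi g x y h] with U h1
  rw [h1]

omit [G.LocallyFinite] in
lemma Fam.rev (hY : Fam G Y) : Fam G fun x y U => Y y x U := by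
  obtain ⟨C, hC⟩ := hY.bdd
  exact ⟨fun x y => hY.meas y x, ⟨C, fun x y h => hC y x h.symm⟩,
    fun g x y h => hY.equi g y x h.symm⟩

lemma Fam.bop (hG : Reg G q) (hY : Fam G Y) : Fam G (Bop G Y) := by
  obtain ⟨C, hC⟩ := hY.bdd
  refine ⟨fun x y => Finset.measurable_sum _ fun z _ => hY.meas y z, ⟨q * C, fun x y h U => ?_⟩,
    fun g x y h => ?_⟩
  · refine (abs_sum_le_sum_abs _ _).trans ((sum_le_card_nsmul _ _ C fun z hz =>
      hC y z (mem_ch.1 hz).1 U).trans ?_)
    simp [hG.card_ch h]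
  · filter_upwards [(eventually_all_finset (ch G x y)).2 fun z hz =>
      hY.equi g y z (mem_ch.1 hz).1] with U hU
    simp only [Bop]
    rw [sum_ch_iso]
    exact sum_congr rfl hU

omit [G.LocallyFinite] in
lemma Fam.integrable (hY : Fam G Y) {x y : V} (h : G.Adj x y) : Integrable (Y x y) (iid V) := by
  obtain ⟨C, hC⟩ := hY.bdd
  exact Integrable.of_bound (hY.meas x y).aestronglyMeasurable C (ae_of_all _ (hC x y h))

omit [G.LocallyFinite] in
lemma Fam.memLp (hY : Fam G Y) {x y : V} (h : G.Adj x y) (p : ℝ≥0∞) :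
    MemLp (Y x y) p (iid V) := by
  obtain ⟨C, hC⟩ := hY.bdd
  exact MemLp.of_bound (hY.meas x y).aestronglyMeasurable C (ae_of_all _ (hC x y h))

/-- All darts have the same law. -/
theorem Fam.map_eq (hG : Reg G q) (hY : Fam G Y) {x y x' y' : V} (h : G.Adj x y)
    (h' : G.Adj x' y') : (iid V).map (Y x y) = (iid V).map (Y x' y') := by
  obtain ⟨g, rfl, rfl⟩ := hG.exists_iso_dart h h'
  conv_rhs => rw [← (measurePreserving_act g).map_eq]
  rw [Measure.map_map (hY.meas _ _) (measurePreserving_act g).measurable]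
  exact Measure.map_congr (EventuallyEq.symm (hY.equi g x y h))

theorem Fam.integral_eq (hG : Reg G q) (hY : Fam G Y) {x y x' y' : V} (h : G.Adj x y)
    (h' : G.Adj x' y') : ∫ U, Y x y U ∂iid V = ∫ U, Y x' y' U ∂iid V := by
  have h1 := fun x y => integral_map (μ := iid V) (hY.meas x y).aemeasurable
    (f := fun t : ℝ => t) aestronglyMeasurable_id
  rw [← h1, ← h1, hY.map_eq hG h h']

theorem Fam.integral_bop (hG : Reg G q) (hY : Fam G Y) {x y : V} (h : G.Adj x y) :
    ∫ U, Bop G Y x y U ∂iid V = q * ∫ U, Y x y U ∂iid V := by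
  simp only [Bop]
  rw [integral_finsetSum _ fun z hz => hY.integrable (mem_ch.1 hz).1,
    sum_congr rfl fun z hz => hY.integral_eq hG (mem_ch.1 hz).1 h]
  simp [hG.card_ch h]

namespace TemperAux

omit [G.LocallyFinite] in
lemma fam_sq (hY : Fam G Y) : Fam G fun x y U => Y x y U ^ 2 := hY.comp (f := (· ^ 2)) (by fun_prop)

lemma integral_sum_sq (hG : Reg G q) (hY : Fam G Y) {x y v : V} (h : G.Adj x y) (s : Finset V)
    (hs : ∀ z ∈ s, G.Adj v z) :
    ∫ U, (∑ z ∈ s, Y v z U) ^ 2 ∂iid V ≤ s.card ^ 2 * ∫ U, Y x y U ^ 2 ∂iid V := by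
  have hi : ∀ z ∈ s, Integrable (fun U => Y v z U ^ 2) (iid V) := fun z hz =>
    (fam_sq hY).integrable (hs z hz)
  calc _ ≤ ∫ U, s.card * ∑ z ∈ s, Y v z U ^ 2 ∂iid V :=
        integral_mono_of_nonneg (ae_of_all _ fun U => sq_nonneg _)
          ((integrable_finsetSum _ hi).const_mul _) (ae_of_all _ fun U => sq_sum_le_card_mul_sum_sq)
    _ = _ := by
        rw [integral_const_mul, integral_finsetSum _ hi,
          sum_congr rfl fun z hz => (fam_sq hY).integral_eq hG (hs z hz) h]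
        simp
        ring

lemma arc_eq (hG : Reg G q) (hY : Fam G Y) (hZ : Fam G Z) {x y z x' y' z' : V} (h : G.Adj x y)
    (hz : z ∈ ch G x y) (h' : G.Adj x' y') (hz' : z' ∈ ch G x' y') :
    ∫ U, Z x y U * Y y z U ∂iid V = ∫ U, Z x' y' U * Y y' z' U ∂iid V := by
  obtain ⟨g, rfl, rfl, rfl⟩ := hG.exists_iso_arc h hz h' hz'
  conv_rhs => rw [← (measurePreserving_act g).map_eq]
  rw [integral_map (measurePreserving_act g).measurable.aemeasurable
    ((hZ.meas _ _).fun_mul (hY.meas _ _)).aestronglyMeasurable]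
  refine integral_congr_ae ?_
  filter_upwards [hZ.equi g x y h, hY.equi g y z (mem_ch.1 hz).1] with U h1 h2
  rw [h1, h2]

end TemperAux

open TemperAux

theorem Fam.integral_bop_sq (hG : Reg G q) (hY : Fam G Y) {x y : V} (h : G.Adj x y) :
    ∫ U, Bop G Y x y U ^ 2 ∂iid V ≤ q ^ 2 * ∫ U, Y x y U ^ 2 ∂iid V := by
  have := integral_sum_sq hG hY h (ch G x y) fun z hz => (mem_ch.1 hz).1
  rwa [hG.card_ch h] at this

/-- Mass transport. -/
theorem Fam.dual (hG : Reg G q) (hY : Fam G Y) (hZ : Fam G Z) {x y : V} (h : G.Adj x y) :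
    ∫ U, Z x y U * Bop G Y x y U ∂iid V = ∫ U, Y x y U * ∑ w ∈ ch G y x, Z w x U ∂iid V := by
  obtain ⟨z0, hz0⟩ := hG.exists_ch h
  simp only [Bop, mul_sum]
  rw [integral_finsetSum (f := fun z U => Z x y U * Y y z U) _ fun z hz =>
      (hZ.memLp h 2).integrable_mul (hY.memLp (mem_ch.1 hz).1 2),
    integral_finsetSum (f := fun w U => Y x y U * Z w x U) _ fun w hw =>
      (hY.memLp h 2).integrable_mul (hZ.memLp (mem_ch.1 hw).1.symm 2),
    sum_congr rfl fun z hz => arc_eq hG hY hZ h hz h hz0,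
    sum_congr (s₁ := ch G y x) rfl (g := fun _ => ∫ U, Z x y U * Y y z0 U ∂iid V) fun w hw => ?_]
  · simp [hG.card_ch h, hG.card_ch h.symm]
  · rw [← arc_eq hG hY hZ (mem_ch.1 hw).1.symm (mem_ch.2 ⟨h, (mem_ch.1 hw).2.symm⟩) h hz0]
    simp only [mul_comm]

namespace TemperAux

lemma fam_iter (hG : Reg G q) (hY : Fam G Y) (j : ℕ) : Fam G ((Bop G)^[j] Y) := by
  induction j with
  | zero => exact hY
  | succ j ih => rw [Function.iterate_succ_apply']; exact ih.bop hG

lemma integral_iter_sq (hG : Reg G q) (hY : Fam G Y) {x y : V} (h : G.Adj x y) (j : ℕ) :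
    ∫ U, (Bop G)^[j] Y x y U ^ 2 ∂iid V ≤ q ^ (2 * j) * ∫ U, Y x y U ^ 2 ∂iid V := by
  induction j with
  | zero => simp
  | succ j ih =>
    rw [Function.iterate_succ_apply']
    refine ((fam_iter hG hY j).integral_bop_sq hG h).trans ?_
    calc _ ≤ (q : ℝ) ^ 2 * (q ^ (2 * j) * ∫ U, Y x y U ^ 2 ∂iid V) := by gcongr
      _ = _ := by ring

lemma sum_lab {d : ℕ} (L : Lab d G) (v : V) (f : V → ℝ) :
    ∑ a, f (L.s a v) = ∑ z ∈ G.neighborFinset v, f z := by
  refine sum_bij (fun a _ => L.s a v) (fun a _ => ?_) (fun a _ b _ h => L.inj v a b h)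
    (fun z hz => ?_) fun _ _ => rfl
  · simpa using L.adj_s a v
  · obtain ⟨a, rfl⟩ := (L.adj v z).1 (by simpa using hz)
    exact ⟨a, mem_univ _, rfl⟩

/-- Sum over all darts leaving a vertex. -/
noncomputable def vs (G : SimpleGraph V) [G.LocallyFinite] (Y : V → V → (V → unitInterval) → ℝ)
    (j : ℕ) (v : V) (U : V → unitInterval) : ℝ :=
  ∑ z ∈ G.neighborFinset v, (Bop G)^[j] Y v z U

lemma iter_succ (j : ℕ) {x y : V} (h : G.Adj x y) (U : V → unitInterval) :
    (Bop G)^[j + 1] Y x y U = vs G Y j y U - (Bop G)^[j] Y y x U := by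
  rw [Function.iterate_succ_apply', vs, Bop, ch, sum_erase_eq_sub (by simpa using h.symm)]

lemma vs_rec (hG : Reg G q) (j : ℕ) (v : V) (U : V → unitInterval) :
    vs G Y (j + 2) v U = ∑ z ∈ G.neighborFinset v, vs G Y (j + 1) z U - q * vs G Y j v U := by
  rw [vs, sum_congr rfl fun z hz => iter_succ (j + 1) (show G.Adj v z by simpa using hz) U,
    sum_sub_distrib, sum_congr (f := fun z => (Bop G)^[j + 1] Y z v U) rfl fun z hz =>
      iter_succ j (show G.Adj v z by simpa using hz).symm U, sum_sub_distrib, sum_const,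
    hG.card_nb, ← vs]
  simp
  ring

lemma vs_memLp (hG : Reg G q) (hY : Fam G Y) (j : ℕ) (v : V) : MemLp (vs G Y j v) 2 (iid V) :=
  memLp_finsetSum _ fun z hz => (fam_iter hG hY j).memLp (by simpa using hz) 2

lemma vs_equi (hG : Reg G q) (hY : Fam G Y) (j : ℕ) (v : V) (g : G ≃g G) :
    ∀ᵐ U ∂iid V, vs G Y j (g v) (act g U) = vs G Y j v U := by
  filter_upwards [(eventually_all_finset (G.neighborFinset v)).2 fun z hz =>
    (fam_iter hG hY j).equi g v z (by simpa using hz)] with U hU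
  simp only [vs]
  rw [sum_nb_iso]
  exact sum_congr rfl hU

lemma vs_bound (hG : Reg G q) (hY : Fam G Y)
    (h0 : ∀ x y, G.Adj x y → ∫ U, Y x y U ∂iid V = 0) (j : ℕ) (r : V) {x y : V} (h : G.Adj x y) :
    ∫ U, vs G Y j r U ^ 2 ∂iid V ≤
      (j + 1) ^ 2 * q ^ j * (q + 1) ^ 4 * ∫ U, Y x y U ^ 2 ∂iid V := by
  obtain ⟨L⟩ := hG.exists_lab
  have hq : (2 : ℝ) ≤ q := by exact_mod_cast hG.two
  let P := Measure.infinitePi fun _ : V => (volume : Measure unitInterval)
  let X : ℕ → Lp ℝ 2 P := fun j => MemLp.toLp (μ := P) _ (vs_memLp hG hY j r)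
  have hX : ∀ j, X j =ᵐ[P] vs G Y j r := fun j => MemLp.coeFn_toLp _
  have hn : ∀ j, ‖X j‖ ^ 2 = ∫ U, vs G Y j r U ^ 2 ∂iid V := by
    intro j
    rw [← real_inner_self_eq_norm_sq, L2.inner_def]
    refine integral_congr_ae ?_
    filter_upwards [hX j] with U hU
    rw [hU, real_inner_self_eq_norm_sq, Real.norm_eq_abs, sq_abs]
  have hmean : ∀ j x y, G.Adj x y → ∫ U, (Bop G)^[j] Y x y U ∂iid V = 0 := by
    intro j
    induction j with
    | zero => exact h0
    | succ j ih =>
      intro x y h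
      rw [Function.iterate_succ_apply', (fam_iter hG hY j).integral_bop hG h, ih x y h, mul_zero]
  have hA : ∀ j, adjL volume L hG.tree r (X j) =ᵐ[P]
      fun U => ∑ z ∈ G.neighborFinset r, vs G Y j z U := by
    intro j
    rw [adjL_apply]
    filter_upwards [Lp.coeFn_finsetSum (E := ℝ) (p := 2) (μ := P) univ
        (fun a => koop volume L hG.tree r (L.s a r) (X j)),
      eventually_all.2 fun a => koop_coe volume L hG.tree r (L.s a r) (X j),
      eventually_all.2 fun a => (mp_reindex volume (L.tr_injective hG.tree r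
        (L.s a r))).quasiMeasurePreserving.ae (hX j),
      eventually_all.2 fun a => vs_equi hG hY j (L.s a r) (L.aut hG.tree (L.s a r) r)]
      with U h1 h2 h3 h4
    refine h1.trans ?_
    rw [← sum_lab L, Finset.sum_apply]
    refine sum_congr rfl fun a _ => ?_
    rw [h2 a, h3 a, ← h4 a]
    simp only [Lab.aut_apply, Lab.tr_self]
    rfl
  have hs : √(q : ℝ) ^ 2 = q := Real.sq_sqrt (by linarith)
  have key := cheb_bound (adjL volume L hG.tree r) (adjL_symm volume L hG.tree r) (s := √q)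
    (Real.one_le_sqrt.2 (by linarith)) X (fun j => by
      apply Lp.ext
      filter_upwards [hX (j + 2), hX j, hA (j + 1), Lp.coeFn_sub
        (adjL volume L hG.tree r (X (j + 1))) (√(q : ℝ) ^ 2 • X j),
        Lp.coeFn_smul (√(q : ℝ) ^ 2) (X j)] with U h1 h2 h3 h4 h5
      refine h1.trans (Eq.trans ?_ h4.symm)
      rw [Pi.sub_apply, h3, h5, Pi.smul_apply, h2, vs_rec hG, hs, smul_eq_mul]) (fun j => by
      have := norm_adjL_le volume L hG.tree (by have := hG.two; omega) r (X j) (by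
        refine (integral_congr_ae (hX j)).trans ?_
        exact (integral_finsetSum _ fun z hz =>
          (fam_iter hG hY j).integrable (by simpa using hz)).trans
          (sum_eq_zero fun z hz => hmean j r z (by simpa using hz)))
      simpa using this) j
  set n := ∫ U, Y x y U ^ 2 ∂iid V
  have hn0 : 0 ≤ n := integral_nonneg fun U => sq_nonneg _
  have hb : ∀ j, ‖X j‖ ≤ (q + 1) * q ^ j * √n := by
    intro j
    refine abs_le_of_sq_le_sq' ?_ (by positivity) |>.2
    have := integral_sum_sq hG (fam_iter hG hY j) h (G.neighborFinset r) (v := r) (by simp)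
    rw [hG.card_nb] at this
    rw [hn, mul_pow, Real.sq_sqrt hn0]
    refine this.trans ?_
    push_cast
    calc _ ≤ ((q : ℝ) + 1) ^ 2 * (q ^ (2 * j) * n) := by gcongr; exact integral_iter_sq hG hY h j
      _ = _ := by ring
  rw [← hn]
  calc ‖X j‖ ^ 2 ≤ ((j + 1) * √q ^ j * ((q + 1) * q ^ 0 * √n + (q + 1) * q ^ 1 * √n)) ^ 2 := by
        gcongr
        refine key.trans ?_
        gcongr
        exacts [hb 0, hb 1]
    _ = (j + 1) ^ 2 * (√q ^ 2) ^ j * (q + 1) ^ 4 * √n ^ 2 := by ring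
    _ = _ := by rw [hs, Real.sq_sqrt hn0]

end TemperAux

/-- Temperedness. -/
theorem tempered (hG : Reg G q) {κ : ℝ} (hκ : √q < κ) : ∃ C : ℝ, 0 ≤ C ∧
    ∀ Y : V → V → (V → unitInterval) → ℝ, Fam G Y →
      (∀ x y, G.Adj x y → ∫ U, Y x y U ∂iid V = 0) → ∀ (J : ℕ) (x y : V), G.Adj x y →
        ∫ U, (Bop G)^[J] Y x y U ^ 2 ∂iid V ≤ C * κ ^ (2 * J) * ∫ U, Y x y U ^ 2 ∂iid V := by
  have hq : (2 : ℝ) ≤ q := by exact_mod_cast hG.two
  have hκ2 : q < κ ^ 2 := by
    have := Real.sq_sqrt (show (0 : ℝ) ≤ q by linarith)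
    have := Real.sqrt_nonneg (q : ℝ)
    nlinarith
  have hk : 0 < κ ^ 2 := by linarith
  obtain ⟨C, hC⟩ : ∃ C : ℝ, ∀ j : ℕ, (j + 1 : ℝ) ^ 2 * (q / κ ^ 2) ^ (j + 1) ≤ C := by
    have := (tendsto_pow_const_mul_const_pow_of_abs_lt_one 2 (r := q / κ ^ 2)
      (by rw [abs_of_pos (by positivity), div_lt_one hk]; exact hκ2)).bddAbove_range
    obtain ⟨C, hC⟩ := this
    exact ⟨C, fun j => by simpa using hC ⟨j + 1, rfl⟩⟩
  have hC0 : 0 ≤ C := le_trans (by positivity) (hC 0)
  have hC2 : ∀ j : ℕ, (j + 1 : ℝ) ^ 2 * q ^ j ≤ C * (κ ^ 2) ^ (j + 1) := by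
    intro j
    have := hC j
    rw [div_pow, ← mul_div_assoc, div_le_iff₀ (by positivity)] at this
    refine le_trans ?_ this
    gcongr
    · linarith
    · omega
  set A := 2 * C * (q + 1) ^ 4 * κ ^ 2 / (κ ^ 2 - 2) with hA
  have hA0 : 0 ≤ A := div_nonneg (by positivity) (by linarith)
  have hA1 : A * (κ ^ 2 - 2) = 2 * C * (q + 1) ^ 4 * κ ^ 2 := div_mul_cancel₀ _ (by linarith)
  refine ⟨A + 1, by positivity, fun Y hY h0 J => ?_⟩
  induction J with
  | zero =>
    intro x y h
    have : 0 ≤ ∫ U, Y x y U ^ 2 ∂iid V := integral_nonneg fun U => sq_nonneg _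
    simp only [Function.iterate_zero, id_eq, mul_zero, pow_zero, mul_one]
    nlinarith
  | succ j ih =>
    intro x y h
    have h1 := ih y x h.symm
    rw [(fam_sq hY).integral_eq hG h.symm h] at h1
    have h2 := vs_bound hG hY h0 j y h
    set n := ∫ U, Y x y U ^ 2 ∂iid V
    have hn0 : 0 ≤ n := integral_nonneg fun U => sq_nonneg _
    have i1 := (vs_memLp hG hY j y).integrable_sq
    have i2 := (fam_sq (fam_iter hG hY j)).integrable h.symm
    have h3 : ∫ U, (Bop G)^[j + 1] Y x y U ^ 2 ∂iid V ≤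
        ∫ U, (2 * vs G Y j y U ^ 2 + 2 * (Bop G)^[j] Y y x U ^ 2) ∂iid V := by
      refine integral_mono_of_nonneg (ae_of_all _ fun U => sq_nonneg _)
        ((i1.const_mul 2).add (i2.const_mul 2)) (ae_of_all _ fun U => ?_)
      simp only [iter_succ j h]
      nlinarith [sq_nonneg (vs G Y j y U + (Bop G)^[j] Y y x U)]
    rw [integral_add (i1.const_mul 2) (i2.const_mul 2), integral_const_mul,
      integral_const_mul] at h3
    have h4 : (j + 1 : ℝ) ^ 2 * q ^ j * (q + 1) ^ 4 * n ≤ C * (κ ^ 2) ^ (j + 1) * (q + 1) ^ 4 * n := by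
      gcongr ?_ * _ * _
      exact hC2 j
    rw [pow_mul] at h1 ⊢
    have h5 : 0 ≤ (κ ^ 2) ^ j * n := by positivity
    calc _ ≤ 2 * (C * (κ ^ 2) ^ (j + 1) * (q + 1) ^ 4 * n) + 2 * ((A + 1) * (κ ^ 2) ^ j * n) := by
          linarith
      _ = (A * κ ^ 2 + 2) * ((κ ^ 2) ^ j * n) := by
          linear_combination (-(κ ^ 2) ^ j * n) * hA1
      _ ≤ ((A + 1) * κ ^ 2) * ((κ ^ 2) ^ j * n) := by gcongr; linarith
      _ = _ := by ring

/-- Small gain estimate. -/
theorem small_gain (hG : Reg G q) : ∃ C : ℝ, 0 ≤ C ∧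
    ∀ P S w : V → V → (V → unitInterval) → ℝ, Fam G P → Fam G S → Fam G w →
      (∀ x y, G.Adj x y → ∀ U, 0 ≤ w x y U ∧ q * w x y U ≤ 1 ∧
        P x y U = S x y U + w x y U * Bop G P x y U) → ∀ x y, G.Adj x y →
      ∫ U, Bop G P x y U ^ 2 ∂iid V ≤
        C * (∫ U, S x y U ^ 2 ∂iid V + (∫ U, P x y U ∂iid V) ^ 2) := by
  have hq : (2 : ℝ) ≤ q := by exact_mod_cast hG.two
  obtain ⟨C, hC0, hC⟩ := tempered hG (κ := √(3 / 2 * q)) (Real.sqrt_lt_sqrt (by linarith)
    (by linarith))
  obtain ⟨J, hJ⟩ : ∃ J : ℕ, C * √(3 / 2 * q) ^ (2 * J) ≤ q ^ (2 * J) / 8 := by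
    have := (tendsto_pow_atTop_nhds_zero_of_lt_one (r := (3 / 4 : ℝ)) (by norm_num)
      (by norm_num)).const_mul C
    rw [mul_zero] at this
    obtain ⟨J, hJ⟩ := (this.eventually (ge_mem_nhds (show (0 : ℝ) < 1 / 8 by norm_num))).exists
    refine ⟨J, ?_⟩
    rw [pow_mul, pow_mul, Real.sq_sqrt (by positivity)]
    calc _ ≤ C * (3 / 4 * q ^ 2) ^ J := by gcongr C * ?_ ^ J; nlinarith
      _ = C * (3 / 4) ^ J * (q ^ 2) ^ J := by rw [mul_pow, mul_assoc]
      _ ≤ 1 / 8 * (q ^ 2) ^ J := by gcongr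
      _ = _ := by ring
  refine ⟨q ^ 2 * (24 * 2 ^ (J + 1) + 8), by positivity, fun P S w hP hS hw hrec x y h => ?_⟩
  let T : (V → V → (V → unitInterval) → ℝ) → V → V → (V → unitInterval) → ℝ :=
    fun Y x y U => w x y U * Bop G Y x y U
  have hR : ∀ j, Fam G (T^[j] P) := by
    intro j
    induction j with
    | zero => exact hP
    | succ j ih => rw [Function.iterate_succ_apply']; exact hw.mul (ih.bop hG)
  set m := ∫ U, P x y U ∂iid V
  set nS := ∫ U, S x y U ^ 2 ∂iid V
  set nP := ∫ U, P x y U ^ 2 ∂iid V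
  have hS0 : 0 ≤ nS := integral_nonneg fun U => sq_nonneg _
  have hE : ∀ j, ∫ U, (P x y U - T^[j] P x y U) ^ 2 ∂iid V ≤ (2 ^ (j + 1) - 2) * nS := by
    intro j
    induction j with
    | zero => simp
    | succ j ih =>
      have hF := hP.sub (hR j)
      have h1 := hF.integral_bop_sq hG h
      have i1 := ((fam_sq hS).integrable h).const_mul 2
      have i2 := ((fam_sq (hF.bop hG)).integrable h).const_mul (2 / q ^ 2)
      calc _ ≤ ∫ U, (2 * S x y U ^ 2 + 2 / q ^ 2 *
            Bop G (fun x y U => P x y U - T^[j] P x y U) x y U ^ 2) ∂iid V := by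
            refine integral_mono_of_nonneg (ae_of_all _ fun U => sq_nonneg _) (i1.add i2)
              (ae_of_all _ fun U => ?_)
            obtain ⟨a1, a2, a3⟩ := hrec x y h U
            have e : P x y U - T^[j + 1] P x y U = S x y U + w x y U *
                Bop G (fun x y U => P x y U - T^[j] P x y U) x y U := by
              rw [Function.iterate_succ_apply', a3]
              simp only [T, Bop, sum_sub_distrib]
              ring
            have a4 : w x y U ^ 2 ≤ 1 / q ^ 2 := by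
              rw [le_div_iff₀ (by positivity), ← mul_pow]
              exact pow_le_one₀ (by positivity) (by linarith)
            simp only [e]
            set b := Bop G (fun x y U => P x y U - T^[j] P x y U) x y U
            have a5 : w x y U ^ 2 * b ^ 2 ≤ 1 / q ^ 2 * b ^ 2 := by gcongr
            have a6 : 2 / (q : ℝ) ^ 2 * b ^ 2 = 2 * (1 / q ^ 2 * b ^ 2) := by ring
            nlinarith [sq_nonneg (S x y U - w x y U * b)]
        _ ≤ 2 * nS + 2 / q ^ 2 * (q ^ 2 * ((2 ^ (j + 1) - 2) * nS)) := by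
            rw [integral_add i1 i2, integral_const_mul, integral_const_mul]
            gcongr
            exact h1.trans (by gcongr)
        _ = _ := by field_simp; ring
  have hPa : Fam G fun x y U => |P x y U| := hP.comp continuous_abs
  have hP0 : Fam G fun x y U => P x y U - m := hP.sub (Fam.const m)
  have hcmp : ∀ j x y, G.Adj x y → ∀ U,
      |(Bop G)^[j] P x y U| ≤ (Bop G)^[j] (fun x y U => |P x y U|) x y U ∧
      |2 * q ^ j * T^[j] P x y U - (Bop G)^[j] P x y U| ≤
        (Bop G)^[j] (fun x y U => |P x y U|) x y U ∧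
      (Bop G)^[j] P x y U = (Bop G)^[j] (fun x y U => P x y U - m) x y U + q ^ j * m := by
    intro j
    induction j with
    | zero =>
      intro x y h U
      simp [two_mul]
    | succ j ih =>
      intro x y h U
      obtain ⟨a1, a2, -⟩ := hrec x y h U
      have b1 : |Bop G ((Bop G)^[j] P) x y U| ≤
          Bop G ((Bop G)^[j] fun x y U => |P x y U|) x y U :=
        (abs_sum_le_sum_abs _ _).trans (sum_le_sum fun z hz => (ih y z (mem_ch.1 hz).1 U).1)
      have b2 : |2 * q ^ j * Bop G (T^[j] P) x y U - Bop G ((Bop G)^[j] P) x y U| ≤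
          Bop G ((Bop G)^[j] fun x y U => |P x y U|) x y U := by
        simp only [Bop, mul_sum, ← sum_sub_distrib]
        exact (abs_sum_le_sum_abs _ _).trans
          (sum_le_sum fun z hz => (ih y z (mem_ch.1 hz).1 U).2.1)
      simp only [Function.iterate_succ_apply']
      refine ⟨b1, ?_, ?_⟩
      · rw [abs_le] at b1 b2 ⊢
        have e : 2 * q ^ (j + 1) * T (T^[j] P) x y U =
            (q * w x y U) * (2 * q ^ j * Bop G (T^[j] P) x y U) := by simp only [T]; ring
        have a3 : 0 ≤ q * w x y U := by positivity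
        rw [e]
        constructor <;> nlinarith [b1.1, b1.2, b2.1, b2.2]
      · simp only [Bop]
        rw [sum_congr rfl fun z hz => (ih y z (mem_ch.1 hz).1 U).2.2, sum_add_distrib, sum_const,
          hG.card_ch h]
        simp
        ring
  have h1 : ∫ U, (P x y U - m) ^ 2 ∂iid V ≤ nP := by
    have i1 := (fam_sq hP).integrable h
    have i2 := (hP.integrable h).const_mul (2 * m)
    have : ∀ U, (P x y U - m) ^ 2 = P x y U ^ 2 - 2 * m * P x y U + m ^ 2 := fun U => by ring
    simp only [this]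
    rw [integral_add (by exact i1.sub i2) (integrable_const _), integral_sub i1 i2,
      integral_const_mul]
    simp only [integral_const, probReal_univ, smul_eq_mul]
    nlinarith [sq_nonneg m]
  have h2 := hC _ hP0 (fun x' y' h' => by
    rw [integral_sub (hP.integrable h') (integrable_const _), hP.integral_eq hG h' h]
    simp [m]) J x y h
  have h3 := integral_iter_sq hG hPa h J
  simp only [sq_abs] at h3
  have hQ : (0 : ℝ) < q ^ (2 * J) := by positivity
  have h4 : 4 * q ^ (2 * J) * ∫ U, T^[J] P x y U ^ 2 ∂iid V ≤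
      2 * (q ^ (2 * J) * nP) + 4 * (q ^ (2 * J) / 8 * nP) + 4 * q ^ (2 * J) * m ^ 2 := by
    have i1 := ((fam_sq (fam_iter hG hPa J)).integrable h).const_mul 2
    have i2 := ((fam_sq (fam_iter hG hP0 J)).integrable h).const_mul 4
    rw [← integral_const_mul]
    calc _ ≤ ∫ U, (2 * (Bop G)^[J] (fun x y U => |P x y U|) x y U ^ 2 +
          4 * (Bop G)^[J] (fun x y U => P x y U - m) x y U ^ 2 + 4 * q ^ (2 * J) * m ^ 2) ∂iid V := by
          refine integral_mono_of_nonneg (ae_of_all _ fun U => by positivity)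
            ((i1.add i2).add (integrable_const _)) (ae_of_all _ fun U => ?_)
          obtain ⟨-, b2, b3⟩ := hcmp J x y h U
          have b4 := sq_le_sq' (abs_le.1 b2).1 (abs_le.1 b2).2
          rw [b3] at b4
          simp only [pow_mul']
          set a := (Bop G)^[J] (fun x y U => P x y U - m) x y U
          set t := T^[J] P x y U
          set Q : ℝ := q ^ J
          nlinarith [sq_nonneg (a - Q * m), sq_nonneg (2 * Q * t - 2 * (a + Q * m))]
      _ ≤ _ := by
          rw [integral_add (by exact i1.add i2) (integrable_const _), integral_add i1 i2,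
            integral_const_mul, integral_const_mul]
          simp only [integral_const, probReal_univ, smul_eq_mul, one_mul]
          gcongr
          refine h2.trans ?_
          gcongr
  have h5 : ∫ U, T^[J] P x y U ^ 2 ∂iid V ≤ 5 / 8 * nP + m ^ 2 := by
    refine le_of_mul_le_mul_left (h4.trans_eq (by ring)) (show 0 < 4 * (q : ℝ) ^ (2 * J) by
      positivity)
  have h6 : nP ≤ 4 / 3 * ∫ U, T^[J] P x y U ^ 2 ∂iid V +
      4 * ∫ U, (P x y U - T^[J] P x y U) ^ 2 ∂iid V := by
    have i1 := ((fam_sq (hR J)).integrable h).const_mul (4 / 3)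
    have i2 := ((fam_sq (hP.sub (hR J))).integrable h).const_mul 4
    rw [← integral_const_mul, ← integral_const_mul, ← integral_add i1 i2]
    refine integral_mono_of_nonneg (ae_of_all _ fun U => sq_nonneg _) (i1.add i2)
      (ae_of_all _ fun U => ?_)
    simp only
    nlinarith [sq_nonneg (3 * P x y U - 4 * T^[J] P x y U)]
  have h7 := hE J
  have h8 : nP ≤ (24 * 2 ^ (J + 1) + 8) * (nS + m ^ 2) := by
    have : 0 ≤ 2 ^ (J + 1) * m ^ 2 := by positivity
    nlinarith
  calc _ ≤ q ^ 2 * nP := hP.integral_bop_sq hG h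
    _ ≤ q ^ 2 * ((24 * 2 ^ (J + 1) + 8) * (nS + m ^ 2)) := by gcongr
    _ = _ := by ring

end Vale.Agent.P161
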