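import Vale.Agent.P161.MMLim
import Vale.Agent.P161.Temper
import Vale.Agent.P161.Indep

/-!
Definitions for the analysis at the critical point.
-/

open MeasureTheory ProbabilityTheory Filter Topology Finset
open scoped Classical NNReal ENNReal

namespace Vale.Agent.P161

variable {V : Type} (G : SimpleGraph V) [G.LocallyFinite]

/-- The logarithmic factor. -/
noncomputable def ell (t : ℝ) : ℝ := 1 - Real.log t

/-- Mean of the squared norm of a branch. -/
noncomputable def nn (θ : ℝ) (m : (V → unitInterval) → V → ℝ) (x y : V) : ℝ :=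
  ∫ U, NN G θ (m U) x y ∂iid V

/-- Second moment of the magnetisation. -/
noncomputable def xx (m : (V → unitInterval) → V → ℝ) (v : V) : ℝ := ∫ U, m U v ^ 2 ∂iid V

/-- An equivariant solution started at a positive dyadic time, with its one dimensional laws. -/
structure CS (N : Noise V (iid V)) (β s : ℝ) (m : ℝ → (V → unitInterval) → V → ℝ) : Prop where
  pos : 0 < s
  dy : Dy s
  sol : Sol G N β s m
  equi : ∀ t, Equi G (m t)
  law : ∀ t, Dy t → s ≤ t → t ≤ 1 → LawLim G (iid V) β s t (m t)

/-- Tail bounds at time `t`. -/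
structure Good (β C t : ℝ) (m : (V → unitInterval) → V → ℝ) : Prop where
  meas : Measurable m
  equi : Equi G m
  bd : ∀ x y, G.Adj x y → ∀ U, NN G (th β t) (m U) x y ≤ C / t
  tailN : ∀ x y, G.Adj x y → ∀ l, 1 ≤ l → (iid V).real
    {U | C * ell t / √t + C * (ell t + Real.log l) ≤ NN G (th β t) (m U) x y} ≤ Real.exp (-l)
  tailm : ∀ v l, 1 ≤ l → (iid V).real {U | C * l * √t * ell t < m U v ^ 2} ≤ C * Real.exp (-l)

/-- The weight in the comparison of two fields. -/
noncomputable def HH (θ : ℝ) (m m' : V → ℝ) (x y : V) : ℝ :=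
  (1 + NN G θ m' x y + ∑ z ∈ ch G x y, (NN G θ m y z + NN G θ m' y z) +
    ∑ w ∈ ch G y x, (NN G θ m x w + NN G θ m' x w)) *
  (|clip (m x)| + |clip (m y)| + |clip (m' x)| + |clip (m' y)|) *
  (|clip (m x) - clip (m' x)| + |clip (m y) - clip (m' y)|)

variable {G}

lemma one_le_ell {t : ℝ} (h0 : 0 < t) (h1 : t ≤ 1) : 1 ≤ ell t := by
  have := Real.log_nonpos h0.le h1
  unfold ell
  linarith

lemma ell_anti {t t' : ℝ} (h0 : 0 < t) (h : t ≤ t') : ell t' ≤ ell t := by
  have := Real.log_le_log h0 h
  unfold ell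
  linarith

/-- Invariance of the law of an equivariant pair of fields at a vertex. -/
lemma integral_vert_eq {q : ℕ} (hG : Reg G q) {m m' : (V → unitInterval) → V → ℝ}
    (hm : Measurable m) (he : Equi G m) (hm' : Measurable m') (he' : Equi G m') {f : ℝ × ℝ → ℝ}
    (hf : Measurable f) (v v' : V) :
    ∫ U, f (m U v, m' U v) ∂iid V = ∫ U, f (m U v', m' U v') ∂iid V := by
  obtain ⟨g, rfl⟩ := hG.exists_iso_vert v v'
  have h1 : Measurable fun U => f (m U (g v), m' U (g v)) := hf.comp (by fun_prop)
  rw [← (measurePreserving_act g).map_eq,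
    integral_map (measurePreserving_act g).aemeasurable h1.aestronglyMeasurable,
    (measurePreserving_act g).map_eq]
  simp only [he g, he' g, act, RelIso.symm_apply_apply]

end Vale.Agent.P161
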