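import Vale.Agent.P161.Crit

/-!
The limit field at the critical point.
-/

open MeasureTheory ProbabilityTheory Filter Topology Finset
open scoped Classical NNReal ENNReal

namespace Vale.Agent.P161

variable {V : Type} {G : SimpleGraph V} [G.LocallyFinite] {q : ℕ} {β : ℝ} {N : Noise V (iid V)}

lemma tm_one (a : ℕ) : tm a 1 = eta a := by simp [tm_eq]

lemma tm_one_pos (a : ℕ) : 0 < tm a 1 := tm_one a ▸ eta_pos a

lemma tm_one_le (a : ℕ) : tm a 1 ≤ 1 := tm_one a ▸ eta_le_one a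

lemma tm_one_anti {a b : ℕ} (h : a ≤ b) : tm b 1 ≤ tm a 1 := by
  unfold tm
  gcongr
  exact one_le_two

lemma crit_lt (hG : Reg G q) (hβ : 0 ≤ β) (hc : q * Real.tanh β ^ 2 = 1) {t : ℝ} (h0 : 0 < t)
    (h1 : t ≤ 1) : q * th β t ^ 2 < 1 := by
  obtain ⟨c, C, hc0, -, -, h⟩ := th_gap hβ (by exact_mod_cast hG.two) hc
  have := (h t h0.le h1).1
  have := mul_pos hc0 h0
  linarith

lemma crit_unif (hG : Reg G q) (hβ : 0 ≤ β) (hc : q * Real.tanh β ^ 2 = 1)
    (m : ℕ → ℝ → (V → unitInterval) → V → ℝ) (hm : ∀ a, CS G N β (tm a 1) (m a)) {x y : V}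
    (hxy : G.Adj x y) : ∃ φ : ℕ → ℕ, StrictMono φ ∧ ∀ (i : ℕ) (δ : ℝ), 0 < δ → ∃ A, ∀ a ≥ A, ∀ b ≥ A,
      ∀ t, Dy t → tm i 1 ≤ t → t ≤ 1 →
        |nn G (th β t) (m (φ a) t) x y - nn G (th β t) (m (φ b) t) x y| ≤ δ := by
  let T := {t : ℝ // Dy t ∧ 0 < t ∧ t ≤ 1}
  have : Countable T := ((Set.countable_range fun p : ℕ × ℕ => tm p.1 p.2).mono
    (s₁ := {t : ℝ | Dy t ∧ 0 < t ∧ t ≤ 1}) (by
      rintro t ⟨⟨J, k, h⟩, -⟩
      exact ⟨(J, k), h.symm⟩)).to_subtype
  obtain ⟨n, -, φ, hφ, hn⟩ := (isCompact_univ_pi fun t : T =>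
    isCompact_Icc (a := (0 : ℝ)) (b := 4 / (1 - q * th β t ^ 2))).tendsto_subseq
    (x := fun a (t : T) => nn G (th β t) (m a t) x y) fun a t _ => by
      have h := crit_lt hG hβ hc t.2.2.1 t.2.2.2
      have h0 := th_nonneg hβ t.2.2.2
      have h1 : ∀ U, 0 ≤ NN G (th β t) (m a t U) x y := fun U =>
        zero_le_one.trans (one_le_MM hG h0 le_rfl h hxy)
      exact ⟨integral_nonneg h1, (integral_mono_of_nonneg (ae_of_all _ h1) (integrable_const _)
        (ae_of_all _ fun U => MM_le hG h0 le_rfl h hxy)).trans (by simp)⟩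
  refine ⟨φ, hφ, fun i δ hδ => ?_⟩
  obtain ⟨C, hC, hcont⟩ := dyn_cont (N := N) hG hβ hc (tm_one_pos i)
  have t1 : Tendsto (fun L => C * √(eta (L + i) : ℝ)) atTop (𝓝 0) := by
    simpa using ((tendsto_add_atTop_iff_nat i).2 tendsto_eta).sqrt.const_mul C
  obtain ⟨L, hL⟩ := (t1.eventually (ge_mem_nhds (show 0 < δ / 4 by positivity))).exists
  rw [add_comm] at hL
  have h1 : ∀ᶠ a in atTop, ∀ k ∈ range (2 ^ (i + L) + 1),
      ∀ h : Dy (tm (i + L) k) ∧ 0 < tm (i + L) k ∧ tm (i + L) k ≤ 1,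
      |nn G (th β (tm (i + L) k)) (m (φ a) (tm (i + L) k)) x y - n ⟨_, h⟩| ≤ δ / 4 :=
    (eventually_all_finset _).2 fun k _ => eventually_all.2 fun h =>
      (Metric.tendsto_nhds.1 (tendsto_pi_nhds.1 hn ⟨_, h⟩) _ (by positivity)).mono
        fun a ha => ha.le
  obtain ⟨A, hA⟩ := eventually_atTop.1 (h1.and (eventually_ge_atTop i))
  refine ⟨A, fun a ha b hb t ht hit ht1 => ?_⟩
  have ht0 := (tm_one_pos i).trans_le hit
  set k := ⌊t * 2 ^ (i + L)⌋₊ with hk
  have hp : (0 : ℝ) < 2 ^ (i + L) := by positivity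
  have e1 : tm (i + L) k ≤ t := by
    rw [tm, div_le_iff₀ hp]
    exact Nat.floor_le (by positivity)
  have e2 : t - tm (i + L) k ≤ eta (i + L) := by
    rw [sub_le_iff_le_add', ← tm_succ, tm, le_div_iff₀ hp]
    push_cast
    exact (Nat.lt_floor_add_one _).le
  have e3 : tm i 1 ≤ tm (i + L) k := by
    rw [← tm_mul i L] at hit ⊢
    exact tm_mono _ (Nat.le_floor ((div_le_iff₀ hp).1 hit))
  have e4 : k ∈ range (2 ^ (i + L) + 1) :=
    mem_range_succ_iff.2 (tm_le_iff.1 ((e1.trans ht1).trans_eq (tm_pow _).symm))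
  have e5 : Dy (tm (i + L) k) ∧ 0 < tm (i + L) k ∧ tm (i + L) k ≤ 1 :=
    ⟨⟨_, _, rfl⟩, (tm_one_pos i).trans_le e3, e1.trans ht1⟩
  have e6 : ∀ a ≥ A, |nn G (th β t) (m (φ a) t) x y - n ⟨_, e5⟩| ≤ δ / 2 := fun a ha => by
    have f1 := hcont _ _ (hm (φ a)) (tm_one_anti ((hA a ha).2.trans (hφ.id_le a))) _ _ e5.1 ht e3 e1
      ht1 x y hxy
    have f2 := mul_le_mul_of_nonneg_left (Real.sqrt_le_sqrt e2) hC
    have f3 := abs_le.1 ((hA a ha).1 k e4 e5)
    have f4 := abs_le.1 f1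
    rw [abs_le]
    constructor <;> linarith
  have f1 := abs_le.1 (e6 a ha)
  have f2 := abs_le.1 (e6 b hb)
  rw [abs_le]
  constructor <;> linarith

theorem crit_field (hG : Reg G q) (hβ : 0 ≤ β) (hc : q * Real.tanh β ^ 2 = 1)
    (m : ℕ → ℝ → (V → unitInterval) → V → ℝ) (hm : ∀ a, CS G N β (tm a 1) (m a)) :
    ∃ X : (V → unitInterval) → V → ℝ, Measurable[N.F 1] X ∧ Equi G X ∧
      ∀ S : Finset V, (G.induce (S : Set V)).Connected → ∀ η : V → Bool,
        ∫ U, ∏ v ∈ S, (1 + spin (η v) * clip (X U v)) / 2 ∂iid V =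
          1 / 2 * ∏ e ∈ edgesIn G S, edgeWeight (Real.tanh β) η e := by
  obtain ⟨x⟩ := hG.tree.connected.nonempty
  obtain ⟨y, hxy⟩ := hG.exists_adj x
  obtain ⟨φ, hφ, hu⟩ := crit_unif hG hβ hc m hm hxy
  have h1 : ∀ n : ℕ, ∃ A, ∀ a ≥ A, ∀ b ≥ A, ∀ v,
      nrm (iid V) (fun U => m (φ a) 1 U v - m (φ b) 1 U v) ≤ (1 / 2) ^ n := fun n => by
    obtain ⟨i, δ, hδ, h⟩ := crit_close (N := N) hG hβ hc (δ := ((1 / 2) ^ n) ^ 2) (by positivity)
    obtain ⟨A, hA⟩ := hu i δ hδ
    have h2 : ∀ a ≥ A + i + 1, 2 * tm (φ a) 1 ≤ tm i 1 := fun a ha => by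
      have := tm_one_anti (show i + 1 ≤ φ a by have := hφ.id_le a; simp only [id] at this; omega)
      have h3 := eta_add i 1
      simp only [tm_one] at this ⊢
      linarith
    exact ⟨A + i + 1, fun a ha b hb v => (nrm_le_iff (by positivity)).2
      (h _ _ _ _ (hm _) (hm _) (h2 a ha) (h2 b hb) x y hxy (hA a (by omega) b (by omega)) v)⟩
  choose A hA using h1
  obtain ⟨ψ, hψ, hψA⟩ := extraction_forall_of_eventually fun n => eventually_ge_atTop (A n)
  have hd : Dy 1 := ⟨0, 1, by simp [tm]⟩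
  have hme := fun a => (hm a).sol.meas 1 zero_le_one
  have hlaw := fun a => (hm a).law 1 hd (tm_one_le a) le_rfl
  have hmv := fun a v => (measurable_pi_apply v).comp (N.measurable_of (hme a))
  have key := fun v => (l2_limit (P := iid V) (f := fun n U => m (φ (ψ n)) 1 U v)
    (fun n => MemLp.of_bound (hmv _ v).aestronglyMeasurable 1
      ((hlaw _).abs_le (N.measurable_of (hme _)) v)) summable_geometric_two fun n a b ha hb =>
      hA n _ ((hψA n).trans (hψ.monotone ha)) _ ((hψA n).trans (hψ.monotone hb)) v).1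
  refine ⟨fun U v => limUnder atTop fun n => m (φ (ψ n)) 1 U v, ?_, fun g U => ?_,
    fun S hS η => ?_⟩
  · refine @measurable_pi_lambda _ _ _ (N.F _) _ _ fun v => ?_
    have h : ∀ n, Measurable fun U : Past N 1 => m (φ (ψ n)) 1 U v := fun n =>
      (measurable_pi_apply v).comp (hme _)
    exact (StronglyMeasurable.limUnder (l := atTop) fun n => (h n).stronglyMeasurable).measurable
  · funext v
    simp only [(hm _).equi 1 g U, act]
  have hcont : Continuous fun m : V → ℝ => ∏ v ∈ S, (1 + spin (η v) * clip (m v)) / 2 :=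
    continuous_finsetProd _ fun v _ => (continuous_const.add (continuous_const.mul
      (continuous_clip.comp (continuous_apply v)))).div_const 2
  have := countable_V hG.tree.connected
  have t1 := tendsto_integral_of_dominated_convergence (μ := iid V)
    (F := fun n U => ∏ v ∈ S, (1 + spin (η v) * clip (m (φ (ψ n)) 1 U v)) / 2) (fun _ => 1)
    (fun n => (hcont.measurable.comp (N.measurable_of (hme _))).aestronglyMeasurable)
    (integrable_const _) (fun n => ae_of_all _ fun U => by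
      rw [Real.norm_eq_abs, Finset.abs_prod]
      refine Finset.prod_le_one (fun v _ => abs_nonneg _) fun v _ => ?_
      have := abs_le.1 (abs_clip_le_one (m (φ (ψ n)) 1 U v))
      rw [abs_le]
      cases η v <;> simp only [spin, if_true, Bool.false_eq_true, if_false] <;>
        constructor <;> linarith)
    (f := fun U => ∏ v ∈ S, (1 + spin (η v) * clip (limUnder atTop fun n => m (φ (ψ n)) 1 U v)) / 2)
    (by
      filter_upwards [ae_all_iff.2 key] with U hU
      exact (hcont.tendsto _).comp (tendsto_pi_nhds.2 hU))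
  simp only [(hlaw _).final hG.tree hβ (tm_one_le _) S hS η] at t1
  refine tendsto_nhds_unique t1 ?_
  have t2 : Tendsto (fun n => th β (tm (φ (ψ n)) 1)) atTop (𝓝 (Real.tanh β)) := by
    have := ((continuous_th β).tendsto 0).comp (tendsto_eta.comp (hφ.comp hψ).tendsto_atTop)
    simpa [th, tm_one, Function.comp_def] using this
  simp only [edgeWeight_eq]
  exact (tendsto_finsetProd _ fun e _ => ((t2.mul_const _).const_add 1).div_const 2).const_mul _

end Vale.Agent.P161
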