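import Mathlib

/-! Definitions used in the statement for P161. -/

namespace Vale.Agent.P161

open MeasureTheory

/-- The spin value `1` or `-1` encoded by a Boolean. -/
def spin (b : Bool) : ℝ := if b then 1 else -1

/-- The edge factor `(1 + θ η_u η_v) / 2` of the unordered pair `{u, v}`. -/
noncomputable def edgeWeight {V : Type*} (θ : ℝ) (η : V → Bool) : Sym2 V → ℝ :=
  Sym2.lift ⟨fun u v => (1 + θ * spin (η u) * spin (η v)) / 2, fun u v => by ring⟩

open Classical in
/-- `μ` is the free zero-field Ising measure with parameter `θ` on the tree `G`. -/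
def IsFreeIsing {V : Type*} (G : SimpleGraph V) (θ : ℝ) (μ : Measure (V → Bool)) : Prop :=
  IsProbabilityMeasure μ ∧
    ∀ D : Finset V, (G.induce (D : Set V)).Connected → ∀ η : V → Bool,
      μ.real {x | ∀ v ∈ D, x v = η v} =
        1 / 2 * ∏ e ∈ D.sym2.filter (· ∈ G.edgeSet), edgeWeight θ η e

/-- `ν` is a factor of i.i.d. uniform labels, equivariant under all automorphisms of `G`. -/
def IsFactorOfIID {V : Type*} (G : SimpleGraph V) (ν : Measure (V → Bool)) : Prop :=
  ∃ Φ : (V → unitInterval) → (V → Bool), Measurable Φ ∧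
    (Measure.infinitePi fun _ : V => (volume : Measure unitInterval)).map Φ = ν ∧
    ∀ g : G ≃g G, ∀ᵐ U ∂(Measure.infinitePi fun _ : V => (volume : Measure unitInterval)),
      Φ (fun v => U (g.symm v)) = fun v => Φ U (g.symm v)

end Vale.Agent.P161
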