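import Vale.Agent.P161.Static

/-!
Growth of the second moment along a solution.
-/

open MeasureTheory ProbabilityTheory Filter Topology Finset
open scoped Classical NNReal ENNReal

namespace Vale.Agent.P161

variable {V : Type} {G : SimpleGraph V} [G.LocallyFinite] {q : ℕ} {β : ℝ} {N : Noise V (iid V)}

namespace DynA

lemma tm_pos {J k : ℕ} (h : 0 < k) : 0 < tm J k := by unfold tm; positivity

lemma sum_ell_aux (J k : ℕ) :
    ∑ i ∈ Ico 1 (k + 1), eta J * ell (tm J i) ≤ tm J k * (2 - Real.log (tm J k)) := by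
  induction k with
  | zero => simp [tm]
  | succ k ih =>
    rw [sum_Ico_succ_top (by omega), tm_succ]
    have hη := eta_pos J
    have hu := tm_nonneg J k
    have key : tm J k * (Real.log (tm J k + eta J) - Real.log (tm J k)) ≤ eta J := by
      rcases hu.eq_or_lt with h | h
      · rw [← h, zero_mul]
        exact hη.le
      · rw [← Real.log_div (by positivity) h.ne']
        have h1 := Real.log_le_sub_one_of_pos (show 0 < (tm J k + eta J) / tm J k by positivity)
        have h2 : tm J k * ((tm J k + eta J) / tm J k - 1) = eta J := by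
          field_simp
          ring
        exact (mul_le_mul_of_nonneg_left h1 hu).trans_eq h2
    unfold ell at ih ⊢
    nlinarith

lemma mul_ell_le {t : ℝ} (h0 : 0 < t) : t * ell t ≤ 2 * √t := by
  have hs : 0 < √t := Real.sqrt_pos.2 h0
  have h1 := Real.log_le_sub_one_of_pos (inv_pos.2 hs)
  rw [Real.log_inv, Real.log_sqrt h0.le] at h1
  have h2 : √t * √t = t := Real.mul_self_sqrt h0.le
  have h3 : t * (√t)⁻¹ = √t := by
    field_simp
    linarith
  have h4 := mul_le_mul_of_nonneg_left h1 h0.le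
  unfold ell
  nlinarith

end DynA

open DynA

theorem sum_ell_le {J k₀ k : ℕ} (h0 : 0 < k₀) (h : k₀ ≤ k) (h1 : k ≤ 2 ^ J) :
    ∑ i ∈ Ico k₀ k, eta J * ell (tm J i) ≤ 2 * tm J k * ell (tm J k) := by
  have e1 : ∑ i ∈ Ico k₀ k, eta J * ell (tm J i) ≤ ∑ i ∈ Ico 1 (k + 1), eta J * ell (tm J i) := by
    refine sum_le_sum_of_subset_of_nonneg (Ico_subset_Ico h0 (Nat.le_succ k)) fun i hi _ => ?_
    rw [mem_Ico] at hi
    exact mul_nonneg (eta_pos J).le
      (zero_le_one.trans (one_le_ell (tm_pos hi.1) (tm_le_one (by omega))))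
  refine e1.trans ((sum_ell_aux J k).trans ?_)
  have h2 := Real.log_nonpos (tm_nonneg J k) (tm_le_one h1)
  have h3 := tm_nonneg J k
  unfold ell
  nlinarith

namespace DynA

/-- The real variable part of the argument. -/
lemma seq_bound {A B C : ℝ} (hA : 0 ≤ A) (hB : 1 ≤ B) (hC : 1 ≤ C) {J k₀ k : ℕ} (h0 : 0 < k₀)
    (h : k₀ ≤ k) (h1 : k ≤ 2 ^ J) {x n : ℕ → ℝ} (hx0 : x k₀ = 0)
    (hmono : ∀ i, k₀ ≤ i → i < k → x i ≤ x (i + 1))
    (hup : ∀ i, k₀ ≤ i → i < k → x (i + 1) - x i ≤ eta J * (A * n i + 2))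
    (hlo : ∀ i, k₀ ≤ i → i < k → eta J * n i ≤ B * (x (i + 1) - x i + eta J * ell (tm J i)))
    (hn0 : ∀ i, k₀ ≤ i → i ≤ k → 0 ≤ n i)
    (hn1 : ∀ i, k₀ ≤ i → i ≤ k → n i * (tm J i + x i) ≤ C * ell (tm J i))
    (hn2 : ∀ i, k₀ ≤ i → i ≤ k → 1 ≤ C * (n i + ell (tm J i)) * (tm J i + x i))
    (hη : eta J * (A * (C * ell (tm J k₀) / tm J k₀) + 2) ≤ √(tm J k₀)) :
    x k ≤ (6 + 2 * A * C) * √(tm J k) * ell (tm J k) ∧
    (2 * tm J k₀ ≤ tm J k → n k ≤ C * (2 * C * (5 * B + 4)) * ell (tm J k) / √(tm J k)) ∧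
    ∑ i ∈ Ico k₀ k, eta J * n i ≤ B * (8 + 2 * A * C) * √(tm J k) * ell (tm J k) := by
  have hηp := eta_pos J
  have hs : 0 < tm J k₀ := tm_pos h0
  have ht : ∀ i, k₀ ≤ i → tm J k₀ ≤ tm J i := fun i hi => tm_mono J hi
  have htp : ∀ i, k₀ ≤ i → 0 < tm J i := fun i hi => hs.trans_le (ht i hi)
  have hl : ∀ i, k₀ ≤ i → i ≤ k → 1 ≤ ell (tm J i) := fun i hi hi' =>
    one_le_ell (htp i hi) (tm_le_one (hi'.trans h1))
  have hxm : ∀ i j, k₀ ≤ i → i ≤ j → j ≤ k → x i ≤ x j := by
    intro i j hi hij hj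
    induction j, hij using Nat.le_induction with
    | base => exact le_rfl
    | succ j hij ih => exact (ih (by omega)).trans (hmono j (by omega) (by omega))
  have hx : ∀ i, k₀ ≤ i → i ≤ k → 0 ≤ x i := fun i hi hi' => hx0 ▸ hxm k₀ i le_rfl hi hi'
  set t := tm J k with htdef
  have ht0 : 0 < t := htp k h
  have ht1 : t ≤ 1 := tm_le_one h1
  set w := √t with hw
  have hw0 : 0 < w := Real.sqrt_pos.2 ht0
  have hw1 : w ≤ 1 := Real.sqrt_le_one.2 ht1
  have hww : w * w = t := Real.mul_self_sqrt ht0.le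
  have htw : t ≤ w := by nlinarith
  have hL := hl k h le_rfl
  set L := ell t with hLdef
  have hS := sum_ell_le h0 h h1
  rw [← htdef, ← hLdef] at hS
  have hAC : 0 ≤ A * C := mul_nonneg hA (by linarith)
  have ind : ∀ j, k₀ ≤ j → j ≤ k →
      x j ≤ 2 * w + (A * C + 2) / w * ∑ i ∈ Ico k₀ j, eta J * ell (tm J i) := by
    intro j hj hjk
    induction j, hj using Nat.le_induction with
    | base =>
      rw [hx0, Ico_self, sum_empty, mul_zero]
      linarith
    | succ j hj ih =>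
      have e1 := hup j hj hjk
      have e2 := hn1 j hj (by omega)
      have e3 := hl j hj (by omega)
      have e4 := hn0 j hj (by omega)
      have e5 := hx j hj (by omega)
      by_cases hc : x j ≤ w
      · have e6 : n j ≤ C * ell (tm J k₀) / tm J k₀ := by
          rw [le_div_iff₀ hs]
          have e7 := ell_anti hs (ht j hj)
          have e8 : n j * tm J k₀ ≤ n j * (tm J j + x j) :=
            mul_le_mul_of_nonneg_left (by linarith [ht j hj]) e4
          have e9 : C * ell (tm J j) ≤ C * ell (tm J k₀) :=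
            mul_le_mul_of_nonneg_left e7 (by linarith)
          linarith
        have e7 : eta J * (A * n j + 2) ≤
            eta J * (A * (C * ell (tm J k₀) / tm J k₀) + 2) := by gcongr
        have e8 : √(tm J k₀) ≤ w := Real.sqrt_le_sqrt (ht k h)
        have e9 : 0 ≤ (A * C + 2) / w * ∑ i ∈ Ico k₀ (j + 1), eta J * ell (tm J i) := by
          refine mul_nonneg (by positivity) (sum_nonneg fun i hi => ?_)
          rw [mem_Ico] at hi
          exact mul_nonneg hηp.le (zero_le_one.trans (hl i hi.1 (by omega)))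
        linarith
      · rw [sum_Ico_succ_top hj, mul_add]
        have e6 : A * n j + 2 ≤ (A * C + 2) / w * ell (tm J j) := by
          rw [div_mul_eq_mul_div, le_div_iff₀ hw0]
          have e7 : n j * w ≤ n j * (tm J j + x j) :=
            mul_le_mul_of_nonneg_left (by linarith [htp j hj, not_le.1 hc]) e4
          have e8 : A * (n j * w) ≤ A * (C * ell (tm J j)) :=
            mul_le_mul_of_nonneg_left (e7.trans e2) hA
          nlinarith
        have e7 := mul_le_mul_of_nonneg_left e6 hηp.le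
        have e8 := ih (by omega)
        nlinarith
  have g1 : x k ≤ (6 + 2 * A * C) * w * L := by
    refine (ind k h le_rfl).trans ?_
    have e1 : (A * C + 2) / w * ∑ i ∈ Ico k₀ k, eta J * ell (tm J i) ≤
        (A * C + 2) / w * (2 * t * L) := mul_le_mul_of_nonneg_left hS (by positivity)
    have e2 : (A * C + 2) / w * (2 * t * L) = (A * C + 2) * 2 * w * L := by
      rw [← hww]
      field_simp
    nlinarith
  have g2 : ∑ i ∈ Ico k₀ k, eta J * n i ≤ B * (x k + 2 * t * L) := by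
    have e1 : ∑ i ∈ Ico k₀ k, eta J * n i ≤
        ∑ i ∈ Ico k₀ k, B * (x (i + 1) - x i + eta J * ell (tm J i)) :=
      sum_le_sum fun i hi => hlo i (mem_Ico.1 hi).1 (mem_Ico.1 hi).2
    rw [← mul_sum _ _ B, sum_add_distrib, sum_Ico_sub x h, hx0, sub_zero] at e1
    refine e1.trans (mul_le_mul_of_nonneg_left (by linarith) (by linarith))
  refine ⟨g1, fun h2 => ?_, g2.trans ?_⟩
  · set W := t + x k with hW
    have hW0 : 0 < W := by linarith [hx k h le_rfl]
    have e1 : ∀ i ∈ Ico k₀ k, (eta J : ℝ) ≤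
        C * W * (eta J * n i + eta J * ell (tm J i)) := by
      intro i hi
      rw [mem_Ico] at hi
      have f1 := hn2 i hi.1 hi.2.le
      have f2 : tm J i + x i ≤ W :=
        add_le_add (tm_mono J hi.2.le) (hxm i k hi.1 hi.2.le le_rfl)
      have f3 : 0 ≤ C * (n i + ell (tm J i)) :=
        mul_nonneg (by linarith) (by linarith [hn0 i hi.1 hi.2.le, hl i hi.1 hi.2.le])
      have f4 := f1.trans (mul_le_mul_of_nonneg_left f2 f3)
      have f5 := mul_le_mul_of_nonneg_left f4 hηp.le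
      linarith
    have e2 := sum_le_sum e1
    rw [← mul_sum, sum_add_distrib, sum_const, Nat.card_Ico, nsmul_eq_mul, Nat.cast_sub h,
      sub_mul, ← tm_eq, ← tm_eq, ← htdef] at e2
    have e3 := mul_ell_le ht0
    rw [← hw, ← hLdef] at e3
    have e4 : ∑ i ∈ Ico k₀ k, eta J * n i + ∑ i ∈ Ico k₀ k, eta J * ell (tm J i) ≤
        B * W + (4 * B + 4) * w := by
      have f1 : B * (x k + 2 * t * L) ≤ B * (W + 4 * w) :=
        mul_le_mul_of_nonneg_left (by linarith) (by linarith)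
      linarith
    have e5 : t / 2 ≤ C * W * (B * W + (4 * B + 4) * w) :=
      le_trans (by linarith) (e2.trans (mul_le_mul_of_nonneg_left e4 (by positivity)))
    have e6 : w ≤ 2 * C * (5 * B + 4) * W := by
      rcases le_total w W with hc | hc
      · have f1 : 1 ≤ 2 * C * (5 * B + 4) := by nlinarith
        nlinarith
      · have f1 : B * W ≤ B * w := mul_le_mul_of_nonneg_left hc (by linarith)
        have f2 : C * W * (B * W + (4 * B + 4) * w) ≤ C * W * ((5 * B + 4) * w) :=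
          mul_le_mul_of_nonneg_left (by linarith) (by positivity)
        have f3 : w * w ≤ (2 * C * (5 * B + 4) * W) * w := by linarith
        exact le_of_mul_le_mul_right f3 hw0
    rw [le_div_iff₀ hw0]
    have e7 := hn1 k h le_rfl
    rw [← htdef, ← hW, ← hLdef] at e7
    have e8 := mul_le_mul_of_nonneg_left e6 (hn0 k h le_rfl)
    have e9 := mul_le_mul_of_nonneg_left e7 (show 0 ≤ 2 * C * (5 * B + 4) by positivity)
    linarith
  · have e1 : t * L ≤ w * L := mul_le_mul_of_nonneg_right htw (by linarith)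
    rw [mul_assoc B, mul_assoc B]
    refine mul_le_mul_of_nonneg_left (by linarith) (by linarith)

lemma rho_lt (hG : Reg G q) (hβ : 0 ≤ β) (hc : q * Real.tanh β ^ 2 = 1) {s : ℝ} (h0 : 0 < s)
    (h1 : s ≤ 1) : q * th β s ^ 2 < 1 := by
  obtain ⟨c, C, hc0, -, -, h⟩ := th_gap hβ (show (2 : ℝ) ≤ q by exact_mod_cast hG.two) hc
  have := (h s h0.le h1).1
  have := mul_pos hc0 h0
  linarith

/-- One step of the second moment. -/
lemma step (hG : Reg G q) (hβ : 0 ≤ β) {ρ s : ℝ} (hρ : ρ < 1) (hs : q * th β s ^ 2 ≤ ρ)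
    {J r k : ℕ} (hr : ρ ^ r * (4 / (1 - ρ)) ≤ 1) {Y : ℕ → (V → unitInterval) → V → ℝ}
    (h : Approx G N β s J r 1 Set.univ Y) (he : Equi G (Y k)) (hk : s ≤ tm J k) (hk' : k < 2 ^ J)
    {x y : V} (hxy : G.Adj x y) :
    xx (Y k) x ≤ xx (Y (k + 1)) x ∧
    xx (Y (k + 1)) x - xx (Y k) x ≤
      eta J * (2 * (β * (q + 1)) * nn G (th β (tm J k)) (Y k) x y + 2) ∧
    eta J * (β * (∫ U, vf (Y k U) x ^ 2 * NN G (th β (tm J k)) (Y k U) x y ∂iid V - 1)) ≤
      2 * (xx (Y (k + 1)) x - xx (Y k) x) + 2 * eta J := by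
  have ht := tm_le_one hk'.le
  have hρk := th_rho hβ hs hk ht
  have h0 := th_nonneg hβ ht
  have hη := eta_pos J
  have mY : Measurable (Y k) := N.measurable_of (h.meas k)
  have m0 := h.memLp k x
  have d1 := ml_sub (h.memLp (k + 1) x) (h.memLp k x)
  have i1 := memLp_incr hG hβ hρ ht hρk (h.meas k) r x
  have e1 := int_sq_add m0 d1
  have e2 := h.mart k hk hk' x (Set.mem_univ x) _ (h.meas_apply k x) m0
  have e3 := int_sq_add_le i1 (ml_sub d1 i1)
  have e3' := int_sq_sub_le d1 (ml_sub d1 i1)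
  have e4 := incr_sq hG hβ hρ ht hρk (h.meas k) r x
  have e5 := h.err k hk hk' x (Set.mem_univ x)
  have e6 := int_sq_nonneg (P := iid V) fun U => Y (k + 1) U x - Y k U x
  simp only [add_sub_cancel, sub_sub_cancel] at e1 e3 e3'
  have fN := fam_NN hG h0 hρk hρ mY he
  have c := coef_th hβ ht hρk (h.meas k) x
  have u1 : ∫ U, vf (Y k U) x ^ 2 * MI G (af (th β (tm J k)) (Y k U)) (bf (th β (tm J k)) (Y k U))
      (af (th β (tm J k)) (Y k U)) (bf (th β (tm J k)) (Y k U)) r x ∂iid V ≤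
      (q + 1) * nn G (th β (tm J k)) (Y k) x y := by
    have iN : ∀ z ∈ G.neighborFinset x,
        Integrable (fun U => NN G (th β (tm J k)) (Y k U) x z) (iid V) :=
      fun z hz => fN.integrable (by simpa using hz)
    refine (integral_mono_of_nonneg
      (ae_of_all _ fun U => mul_nonneg (sq_nonneg _) (MI_self_nonneg _ _))
      (integrable_finsetSum _ iN) (ae_of_all _ fun U => ?_)).trans ?_
    · refine (mul_le_of_le_one_left (MI_self_nonneg _ _)
        (sq_le_one_of_abs (abs_vf_le _ _))).trans ?_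
      exact sum_le_sum fun z hz => M_le_MM hG h0 hρk hρ (by simpa using hz) r
    · rw [integral_finsetSum _ iN]
      exact sum_nb_le hG x fun z hz => (fN.integral_eq hG hz hxy).le
  have u2 : ∫ U, vf (Y k U) x ^ 2 * NN G (th β (tm J k)) (Y k U) x y ∂iid V - 1 ≤
      ∫ U, vf (Y k U) x ^ 2 * MI G (af (th β (tm J k)) (Y k U)) (bf (th β (tm J k)) (Y k U))
      (af (th β (tm J k)) (Y k U)) (bf (th β (tm J k)) (Y k U)) r x ∂iid V := by
    have iv : Integrable (fun U => vf (Y k U) x ^ 2 * NN G (th β (tm J k)) (Y k U) x y)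
        (iid V) := (((fam_vf mY he).comp (continuous_pow 2)).mul fN).integrable hxy
    have ma := fun a b => N.measurable_of (c.ma a b)
    have mb := fun a b => N.measurable_of (c.mb a b)
    have iI : Integrable (fun U => vf (Y k U) x ^ 2 * MI G (af (th β (tm J k)) (Y k U))
        (bf (th β (tm J k)) (Y k U)) (af (th β (tm J k)) (Y k U))
        (bf (th β (tm J k)) (Y k U)) r x) (iid V) :=
      integrable_of_bdd (((N.measurable_of c.mα).pow_const 2).mul (measurable_MI ma mb ma mb r x))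
        (c := (q + 1) * (4 / (1 - ρ))) fun U => by
          rw [abs_of_nonneg (mul_nonneg (sq_nonneg _) (MI_self_nonneg _ _))]
          exact (mul_le_of_le_one_left (MI_self_nonneg _ _)
            (sq_le_one_of_abs (abs_vf_le _ _))).trans (MI_self_le hG (c.bd U) hρ r x)
    have i2 := integral_sub iv (integrable_const (μ := iid V) (1 : ℝ))
    simp only [integral_const, probReal_univ, smul_eq_mul, mul_one] at i2
    rw [← i2]
    refine integral_mono (iv.sub (integrable_const _)) iI fun U => ?_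
    have f1 := (NN_sub_M (m := Y k U) hG h0 hρk hρ hxy r).trans hr
    have f2 : M G (af (th β (tm J k)) (Y k U)) (bf (th β (tm J k)) (Y k U))
        (af (th β (tm J k)) (Y k U)) (bf (th β (tm J k)) (Y k U)) r x y ≤
        MI G (af (th β (tm J k)) (Y k U)) (bf (th β (tm J k)) (Y k U))
        (af (th β (tm J k)) (Y k U)) (bf (th β (tm J k)) (Y k U)) r x :=
      single_le_sum (f := fun z => M G (af (th β (tm J k)) (Y k U)) (bf (th β (tm J k)) (Y k U))
        (af (th β (tm J k)) (Y k U)) (bf (th β (tm J k)) (Y k U)) r x z)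
        (fun z _ => M_self_nonneg r x z) (by simpa using hxy)
    have f3 := sq_le_one_of_abs (abs_vf_le (Y k U) x)
    have f4 := sq_nonneg (vf (Y k U) x)
    simp only
    nlinarith
  have v1 := mul_le_mul_of_nonneg_left (mul_le_mul_of_nonneg_left u1 hβ) hη.le
  have v2 := mul_le_mul_of_nonneg_left (mul_le_mul_of_nonneg_left u2 hβ) hη.le
  unfold xx
  refine ⟨?_, ?_, ?_⟩ <;> linarith

end DynA

theorem dyn_mean (hG : Reg G q) (hβ : 0 ≤ β) (hc : q * Real.tanh β ^ 2 = 1) :
    ∃ C : ℝ, 1 ≤ C ∧ ∀ (s : ℝ) (m : ℝ → (V → unitInterval) → V → ℝ), CS G N β s m →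
      ∀ t, Dy t → s ≤ t → t ≤ 1 → ∀ x y, G.Adj x y →
      xx (m t) x ≤ C * √t * ell t ∧
      (2 * s ≤ t → nn G (th β t) (m t) x y ≤ C * ell t / √t) ∧
      ∃ J₀, ∀ J ≥ J₀, ∀ k₀ k, s = tm J k₀ → t = tm J k →
        ∑ i ∈ Ico k₀ k, eta J * nn G (th β (tm J i)) (m (tm J i)) x y ≤ C * √t * ell t := by
  obtain ⟨C, hC, hst⟩ := static_mean hG hβ hc
  have hβ0 : 0 < β := lt_of_le_of_ne hβ fun h => by simp [← h] at hc
  set A : ℝ := 2 * (β * (q + 1)) with hA
  have hA0 : 0 ≤ A := by positivity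
  set B : ℝ := C * (2 / β + 2) with hB
  have h2β : 0 < 2 / β := by positivity
  have hB1 : 1 ≤ B := by nlinarith
  set C₁ : ℝ := 6 + 2 * A * C with hC₁
  set C₂ : ℝ := C * (2 * C * (5 * B + 4)) with hC₂
  set C₃ : ℝ := B * (8 + 2 * A * C) with hC₃
  have hAC : 0 ≤ A * C := mul_nonneg hA0 (by linarith)
  have p1 : 1 ≤ C₁ := by linarith
  have p2 : 0 ≤ C₂ := by positivity
  have p3 : 0 ≤ C₃ := by positivity
  refine ⟨C₁ + C₂ + C₃, by linarith, fun s m hm t ht hst' ht1 x y hxy => ?_⟩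
  have hs0 := hm.pos
  have ht0 : 0 < t := hs0.trans_le hst'
  have hρ := rho_lt hG hβ hc hs0 (hst'.trans ht1)
  set ρ : ℝ := q * th β s ^ 2 with hρdef
  have hρ0 : 0 ≤ ρ := by positivity
  obtain ⟨J₁, r₀, hap⟩ := hm.sol.approx 1 one_pos
  obtain ⟨r, hr1, hr2⟩ : ∃ r, r ≥ r₀ ∧ ρ ^ r * (4 / (1 - ρ)) ≤ 1 := by
    have h1 := (tendsto_pow_atTop_nhds_zero_of_lt_one hρ0 hρ).mul_const (4 / (1 - ρ))
    rw [zero_mul] at h1
    exact ((eventually_ge_atTop r₀).and (h1.eventually_le_const one_pos)).exists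
  obtain ⟨J₂, hJ₂⟩ : ∃ J₂, ∀ J ≥ J₂, eta J * (A * (C * ell s / s) + 2) ≤ √s := by
    have h1 := tendsto_eta.mul_const (A * (C * ell s / s) + 2)
    rw [zero_mul] at h1
    exact eventually_atTop.1 (h1.eventually_le_const (Real.sqrt_pos.2 hs0))
  have hw : 0 ≤ √t := Real.sqrt_nonneg t
  have hL : 0 ≤ ell t := zero_le_one.trans (one_le_ell ht0 ht1)
  have key : ∀ J ≥ max J₁ J₂, ∀ k₀ k, s = tm J k₀ → t = tm J k →
      xx (m t) x ≤ C₁ * √t * ell t ∧
      (2 * s ≤ t → nn G (th β t) (m t) x y ≤ C₂ * ell t / √t) ∧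
      ∑ i ∈ Ico k₀ k, eta J * nn G (th β (tm J i)) (m (tm J i)) x y ≤ C₃ * √t * ell t := by
    intro J hJ k₀ k hk₀ hk
    have ha := hap J (le_of_max_le_left hJ) r hr1
    have h0 : 0 < k₀ := by
      refine Nat.pos_of_ne_zero fun h => ?_
      rw [h] at hk₀
      simp [hk₀, tm] at hs0
    have h : k₀ ≤ k := tm_le_iff.1 (hk₀ ▸ hk ▸ hst')
    have h1 : k ≤ 2 ^ J := tm_le_iff.1 (by rw [tm_pow, ← hk]; exact ht1)
    have hsi : ∀ i, k₀ ≤ i → s ≤ tm J i := fun i hi => hk₀ ▸ tm_mono J hi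
    have hi1 : ∀ i, i ≤ k → tm J i ≤ 1 := fun i hi => tm_le_one (hi.trans h1)
    have mY : ∀ i, Measurable (m (tm J i)) := fun i => N.measurable_of (ha.meas i)
    have hstep := fun i (hi : k₀ ≤ i) (hi' : i < k) =>
      step hG hβ hρ le_rfl hr2 ha (hm.equi (tm J i)) (hsi i hi) (hi'.trans_le h1) hxy
    have hstat := fun i (hi : k₀ ≤ i) (hi' : i ≤ k) =>
      hst s (tm J i) (m (tm J i)) (hs0.trans_le (hsi i hi)) (hi1 i hi') (mY i) (hm.equi _)
        (hm.law _ ⟨J, i, rfl⟩ (hsi i hi) (hi1 i hi')) x y hxy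
    have main := seq_bound hA0 hB1 hC h0 h h1 (x := fun i => xx (m (tm J i)) x)
      (n := fun i => nn G (th β (tm J i)) (m (tm J i)) x y)
      (by simp [xx, ← hk₀, hm.sol.zero s le_rfl])
      (fun i hi hi' => (hstep i hi hi').1) (fun i hi hi' => (hstep i hi hi').2.1)
      (fun i hi hi' => ?_) (fun i hi hi' => ?_) (fun i hi hi' => (hstat i hi hi').1)
      (fun i hi hi' => (hstat i hi hi').2.1) (hk₀ ▸ hJ₂ J (le_of_max_le_right hJ))
    · rw [← hk, ← hk₀] at main
      exact main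
    · have e1 := (hstep i hi hi').2.2
      have e2 := (hstep i hi hi').1
      have e3 := (hstat i hi hi'.le).2.2
      have e4 := one_le_ell (hs0.trans_le (hsi i hi)) (hi1 i hi'.le)
      have hη := eta_pos J
      set I := ∫ U, vf (m (tm J i) U) x ^ 2 * NN G (th β (tm J i)) (m (tm J i) U) x y ∂iid V
      set D := xx (m (tm J (i + 1))) x - xx (m (tm J i)) x with hD
      have hD0 : 0 ≤ D := by linarith
      have e5 : eta J * (I - 1) ≤ 2 / β * (D + eta J) := by
        rw [div_mul_eq_mul_div, le_div_iff₀ hβ0]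
        linarith
      have e6 := mul_le_mul_of_nonneg_left e3 hη.le
      have e7 : (eta J : ℝ) ≤ eta J * ell (tm J i) := le_mul_of_one_le_right hη.le e4
      have e8 := mul_le_mul_of_nonneg_left e7 h2β.le
      have e9 : eta J * (I + ell (tm J i)) ≤ (2 / β + 2) * (D + eta J * ell (tm J i)) := by
        linarith
      have e10 := mul_le_mul_of_nonneg_left e9 (show 0 ≤ C by linarith)
      rw [hB]
      linarith
    · have e1 := hi1 i hi'
      exact integral_nonneg fun U => zero_le_one.trans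
        (one_le_MM hG (th_nonneg hβ e1) (th_rho hβ le_rfl (hsi i hi) e1) hρ hxy)
  obtain ⟨J₃, hJ₃⟩ := hm.dy.exists_level
  obtain ⟨J₄, hJ₄⟩ := ht.exists_level
  obtain ⟨k₀, hk₀⟩ := hJ₃ (max J₁ J₂ + J₃ + J₄) (by omega)
  obtain ⟨k, hk⟩ := hJ₄ (max J₁ J₂ + J₃ + J₄) (by omega)
  obtain ⟨g1, g2, -⟩ := key _ (by omega) k₀ k hk₀ hk
  refine ⟨g1.trans ?_, fun h => (g2 h).trans ?_, max J₁ J₂, fun J hJ k₀ k hk₀ hk =>
    (key J hJ k₀ k hk₀ hk).2.2.trans ?_⟩
  · gcongr
    linarith
  · gcongr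
    linarith
  · gcongr
    linarith

theorem dyn_cont (hG : Reg G q) (hβ : 0 ≤ β) (hc : q * Real.tanh β ^ 2 = 1) {τ : ℝ} (hτ : 0 < τ) :
    ∃ C : ℝ, 0 ≤ C ∧ ∀ (s : ℝ) (m : ℝ → (V → unitInterval) → V → ℝ), CS G N β s m → s ≤ τ →
      ∀ t t', Dy t → Dy t' → τ ≤ t → t ≤ t' → t' ≤ 1 → ∀ x y, G.Adj x y →
      |nn G (th β t) (m t) x y - nn G (th β t') (m t') x y| ≤ C * √(t' - t) := by
  by_cases hτ1 : τ ≤ 1
  swap
  · exact ⟨0, le_rfl, fun s m _ _ t t' _ _ h1 h2 h3 => absurd (h1.trans (h2.trans h3)) hτ1⟩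
  have hρ := rho_lt hG hβ hc hτ hτ1
  set ρ : ℝ := q * th β τ ^ 2 with hρdef
  have hρ0 : 0 ≤ ρ := by positivity
  have hρ1 : 0 < 1 - ρ := by linarith
  have hq : (2 : ℝ) ≤ q := by exact_mod_cast hG.two
  set D : ℝ := 2 * (β * ((q + 1) * (4 / (1 - ρ)))) + 2 * 1 with hD
  have hD0 : 0 ≤ D := by positivity
  set E : ℝ := 4 + 2 * (q * (4 / (1 - ρ))) with hE
  have hE0 : 0 ≤ E := by positivity
  have hCL : 0 ≤ CL := zero_le_one.trans one_le_CL
  refine ⟨E * (CL * (β + √D + √D)) / (1 - ρ), by positivity,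
    fun s m hm hs t t' ht ht' h1 h2 h3 x y hxy => ?_⟩
  have ht1 := h2.trans h3
  have mX : Measurable (m t) := N.measurable_of (hm.sol.meas t (hτ.le.trans h1))
  have mX' : Measurable (m t') := N.measurable_of (hm.sol.meas t' (hτ.le.trans (h1.trans h2)))
  have h0 := th_nonneg hβ ht1
  have h0' := th_nonneg hβ h3
  have hr := th_rho hβ hρdef.ge h1 ht1
  have hr' := th_rho hβ hρdef.ge (h1.trans h2) h3
  obtain ⟨J₁, r, hap⟩ := hm.sol.approx 1 one_pos
  obtain ⟨J₃, hJ₃⟩ := ht.exists_level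
  obtain ⟨J₄, hJ₄⟩ := ht'.exists_level
  obtain ⟨j, hj⟩ := hJ₃ (J₁ + J₃ + J₄) (by omega)
  obtain ⟨k, hk⟩ := hJ₄ (J₁ + J₃ + J₄) (by omega)
  have ha := (hap (J₁ + J₃ + J₄) (by omega) r le_rfl).mono hs le_rfl subset_rfl
  set J := J₁ + J₃ + J₄
  obtain ⟨n, rfl⟩ := Nat.exists_eq_add_of_le (tm_le_iff.1 (hj ▸ hk ▸ h2 : tm J j ≤ tm J k))
  have hn : j + n ≤ 2 ^ J := tm_le_iff.1 (by rw [tm_pow, ← hk]; exact h3)
  have hd : tm J n = t' - t := by
    rw [hj, hk, tm_eq, tm_eq, tm_eq]
    push_cast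
    ring
  have hL : ∀ v, MemLp (fun U => m t U v - m t' U v) 2 (iid V) := fun v => by
    rw [hj, hk]
    exact ml_sub (ha.memLp j v) (ha.memLp (j + n) v)
  have hw0 : 0 ≤ √(t' - t) := Real.sqrt_nonneg _
  have hb : ∀ v, ∫ U, |m t U v - m t' U v| ∂iid V ≤ √D * √(t' - t) := fun v => by
    have e := ha.incr_bound hG hβ hρ hρdef.ge (hj ▸ h1) (Set.mem_univ v) n hn
    simp only [← hj, ← hk, hd] at e
    refine (integral_abs_le_nrm (hL v)).trans ?_
    rw [nrm_sub_comm, ← Real.sqrt_mul hD0]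
    exact Real.sqrt_le_sqrt e
  have fN := fam_NN hG h0 hr hρ mX (hm.equi t)
  have fN' := fam_NN hG h0' hr' hρ mX' (hm.equi t')
  have fP := (fN.sub fN').comp continuous_abs
  have fb := ((fam_bf h0 (th_lt_one β t) mX (hm.equi t)).sub
    (fam_bf h0' (th_lt_one β t') mX' (hm.equi t'))).comp continuous_abs
  have b1 : ∫ U, |bf (th β t) (m t U) x y - bf (th β t') (m t' U) x y| ∂iid V ≤
      CL * (β + √D + √D) * √(t' - t) := by
    have i0 := fun v => ((hL v).integrable one_le_two).abs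
    have i1 : Integrable (fun U => |th β t - th β t'| + |m t U x - m t' U x|) (iid V) :=
      (integrable_const _).add (i0 x)
    have i2 : Integrable (fun U => |th β t - th β t'| + |m t U x - m t' U x| +
      |m t U y - m t' U y|) (iid V) := i1.add (i0 y)
    refine (integral_mono (fb.integrable hxy) (i2.const_mul CL) fun U =>
      (bf_spec h0 (hG.sq_le_half (hr.trans hρ.le)) h0' (hG.sq_le_half (hr'.trans hρ.le))
        _ _ x y).1).trans ?_
    rw [integral_const_mul, integral_add i1 (i0 y), integral_add (integrable_const _) (i0 x),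
      mul_assoc]
    refine mul_le_mul_of_nonneg_left ?_ hCL
    have e1 := th_lip hβ t t'
    rw [abs_sub_comm t t', abs_of_nonneg (sub_nonneg.2 h2)] at e1
    have e2 : t' - t ≤ √(t' - t) := by
      have f1 : √(t' - t) ≤ 1 := Real.sqrt_le_one.2 (by linarith)
      have f2 := Real.mul_self_sqrt (sub_nonneg.2 h2)
      nlinarith
    have e3 := mul_le_mul_of_nonneg_left e2 hβ
    simp only [integral_const, probReal_univ, smul_eq_mul, one_mul]
    linarith [hb x, hb y]
  have b2 : ∀ U, |NN G (th β t) (m t U) x y - NN G (th β t') (m t' U) x y| ≤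
      E * |bf (th β t) (m t U) x y - bf (th β t') (m t' U) x y| + ρ / q *
        Bop G (fun x y U => |NN G (th β t) (m t U) x y - NN G (th β t') (m t' U) x y|) x y U := by
    intro U
    have e1 := MM_eq (m := m t U) (m' := m t U) hG h0 hr hρ hxy
    have e2 := MM_eq (m := m t' U) (m' := m t' U) hG h0' hr' hρ hxy
    have c1 := bf_nonneg h0 (th_lt_one β t) (m t U) x y
    have c2 := (bf_le h0 (th_lt_one β t) (m t U) x y).trans (th_lt_one β t).le
    have c3 := bf_nonneg h0' (th_lt_one β t') (m t' U) x y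
    have c4 := (bf_le h0' (th_lt_one β t') (m t' U) x y).trans (th_lt_one β t').le
    have c5 := (bd_field h0 (th_lt_one β t) hr (m t U)).b_le x y
    have s0 : 0 ≤ ∑ z ∈ ch G x y, MM G (th β t') (m t' U) (m t' U) y z :=
      sum_nonneg fun z hz => zero_le_one.trans (one_le_MM hG h0' hr' hρ (mem_ch.1 hz).1)
    have s1 : ∑ z ∈ ch G x y, MM G (th β t') (m t' U) (m t' U) y z ≤ q * (4 / (1 - ρ)) := by
      simpa [hG.card_ch hxy] using sum_le_card_nsmul (ch G x y) _ _
        fun z hz => MM_le (m := m t' U) (m' := m t' U) hG h0' hr' hρ (mem_ch.1 hz).1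
    have s2 := abs_sum_le_sum_abs (fun z => MM G (th β t) (m t U) (m t U) y z -
      MM G (th β t') (m t' U) (m t' U) y z) (ch G x y)
    rw [sum_sub_distrib] at s2
    unfold Bop NN
    rw [e1, e2]
    unfold af
    set b := bf (th β t) (m t U) x y
    set b' := bf (th β t') (m t' U) x y
    set S := ∑ z ∈ ch G x y, MM G (th β t) (m t U) (m t U) y z
    set S' := ∑ z ∈ ch G x y, MM G (th β t') (m t' U) (m t' U) y z
    have e3 : (1 + b) * (1 + b) + b * b * S - ((1 + b') * (1 + b') + b' * b' * S') =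
        (b - b') * (2 + b + b' + (b + b') * S') + b ^ 2 * (S - S') := by ring
    rw [e3]
    refine (abs_add_le _ _).trans (add_le_add ?_ ?_)
    · rw [abs_mul, mul_comm, abs_of_nonneg (by positivity)]
      refine mul_le_mul_of_nonneg_right ?_ (abs_nonneg _)
      have : (b + b') * S' ≤ 2 * (q * (4 / (1 - ρ))) := by
        gcongr
        linarith
      linarith
    · rw [abs_mul, abs_sq]
      refine mul_le_mul ?_ s2 (abs_nonneg _) (by positivity)
      rw [le_div_iff₀ (by linarith)]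
      linarith
  have b3 := integral_mono (fP.integrable hxy)
    (((fb.integrable hxy).const_mul E).add (((fP.bop hG).integrable hxy).const_mul (ρ / q))) b2
  rw [integral_add' ((fb.integrable hxy).const_mul E)
    (((fP.bop hG).integrable hxy).const_mul (ρ / q)), integral_const_mul, integral_const_mul,
    fP.integral_bop hG hxy, ← mul_assoc, div_mul_cancel₀ _ (by positivity)] at b3
  unfold nn
  rw [← integral_sub (fN.integrable hxy) (fN'.integrable hxy)]
  refine (abs_integral_le_integral_abs).trans ?_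
  rw [div_mul_eq_mul_div, le_div_iff₀ hρ1]
  have b4 := mul_le_mul_of_nonneg_left b1 hE0
  linarith

end Vale.Agent.P161
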