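import Vale.Agent.P161.DynA

/-!
Sub-Gaussian tails of the magnetisation.
-/

open MeasureTheory ProbabilityTheory Filter Topology Finset
open scoped Classical NNReal ENNReal

namespace Vale.Agent.P161

variable {V : Type} {G : SimpleGraph V} [G.LocallyFinite] {q : ℕ} {β : ℝ} {N : Noise V (iid V)}

namespace DynB

variable {Ω : Type} [mΩ : MeasurableSpace Ω] {P : Measure Ω} [IsProbabilityMeasure P]
  {N : Noise V P} {ρ s κ : ℝ} {J r : ℕ} {W : Set V} {Y : ℕ → Ω → V → ℝ}

variable (G N β J r Y) in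
/-- The martingale part of an approximate solution. -/
noncomputable def Mt (v : V) (j n : ℕ) (ω : Ω) : ℝ :=
  ∑ i ∈ range n, incr G β r (tm J (j + i)) (Y (j + i) ω) (N.z J (j + i) ω) v

variable (G β J r Y) in
/-- Its conditional variance. -/
noncomputable def Vt (v : V) (j n : ℕ) (ω : Ω) : ℝ :=
  ∑ i ∈ range n, β * eta J * (vf (Y (j + i) ω) v ^ 2 *
    MI G (af (th β (tm J (j + i))) (Y (j + i) ω)) (bf (th β (tm J (j + i))) (Y (j + i) ω))
      (af (th β (tm J (j + i))) (Y (j + i) ω)) (bf (th β (tm J (j + i))) (Y (j + i) ω)) r v)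

omit [IsProbabilityMeasure P] in
lemma meas_Mt (hβ : 0 ≤ β) (hs : q * th β s ^ 2 ≤ ρ) (h : Approx G N β s J r κ W Y) {j : ℕ}
    (hj : s ≤ tm J j) (v : V) (n : ℕ) (hn : j + n ≤ 2 ^ J) :
    Measurable[N.F (tm J (j + n))] (Mt G β N J r Y v j n) := by
  refine Finset.measurable_sum _ fun i hi => ?_
  rw [mem_range] at hi
  have ht := tm_le_one (show j + i ≤ 2 ^ J by omega)
  have hρ := th_rho hβ hs (hj.trans (tm_mono J (show j ≤ j + i by omega))) ht
  refine N.measurable_mono (t := tm J (j + i + 1)) ?_ (tm_mono J (by omega))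
  simpa only [incr, mul_assoc] using ((coef_th hβ ht hρ (h.meas (j + i)) v).meas r v).const_mul √β

omit [IsProbabilityMeasure P] in
lemma meas_Vt (hβ : 0 ≤ β) (hs : q * th β s ^ 2 ≤ ρ) (h : Approx G N β s J r κ W Y) {j : ℕ}
    (hj : s ≤ tm J j) (v : V) (n : ℕ) (hn : j + n ≤ 2 ^ J) :
    Measurable[N.F (tm J (j + n))] (Vt G β J r Y v j n) := by
  refine Finset.measurable_sum _ fun i hi => ?_
  rw [mem_range] at hi
  have ht := tm_le_one (show j + i ≤ 2 ^ J by omega)
  have hρ := th_rho hβ hs (hj.trans (tm_mono J (show j ≤ j + i by omega))) ht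
  have c := coef_th hβ ht hρ (h.meas (j + i)) v
  exact N.measurable_mono (((c.mα.pow_const 2).mul
    (measurable_MI (Ω := Past N (tm J (j + i))) c.ma c.mb c.ma c.mb r v)).const_mul _)
    (tm_mono J (by omega))

lemma exp_mart (hG : Reg G q) (hβ : 0 ≤ β) (hs : q * th β s ^ 2 ≤ ρ)
    (h : Approx G N β s J r κ W Y) {j : ℕ} (hj : s ≤ tm J j) (v : V) (u : ℝ) (n : ℕ)
    (hn : j + n ≤ 2 ^ J) :
    Integrable (fun ω => Real.exp (u * Mt G β N J r Y v j n ω -
      u ^ 2 * Vt G β J r Y v j n ω / 2)) P ∧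
    ∫ ω, Real.exp (u * Mt G β N J r Y v j n ω - u ^ 2 * Vt G β J r Y v j n ω / 2) ∂P = 1 := by
  induction n with
  | zero => simp [Mt, Vt]
  | succ n ih =>
    obtain ⟨i1, i2⟩ := ih (by omega)
    have ht := tm_le_one (show j + n ≤ 2 ^ J by omega)
    have hρ := th_rho hβ hs (hj.trans (tm_mono J (show j ≤ j + n by omega))) ht
    have hm : Measurable[N.F (tm J (j + n))] fun ω => Real.exp (u * Mt G β N J r Y v j n ω -
        u ^ 2 * Vt G β J r Y v j n ω / 2) :=
      Real.measurable_exp.comp (((meas_Mt hβ hs h hj v n (by omega)).const_mul u).sub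
        (((meas_Vt hβ hs h hj v n (by omega)).const_mul _).div_const 2))
    have key := (coef_th hβ ht hρ (h.meas (j + n)) v).exp hG r v (u * √β) hm
      (fun _ => (Real.exp_pos _).le) i1
    simp only [← Real.exp_add] at key
    have e : ∀ ω, u * Mt G β N J r Y v j (n + 1) ω - u ^ 2 * Vt G β J r Y v j (n + 1) ω / 2 =
        u * Mt G β N J r Y v j n ω - u ^ 2 * Vt G β J r Y v j n ω / 2 +
          (u * √β * (vf (Y (j + n) ω) v * KI G (af (th β (tm J (j + n))) (Y (j + n) ω))
            (bf (th β (tm J (j + n))) (Y (j + n) ω)) (N.z J (j + n) ω) r v) -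
          (u * √β) ^ 2 * eta J * (vf (Y (j + n) ω) v ^ 2 *
            MI G (af (th β (tm J (j + n))) (Y (j + n) ω)) (bf (th β (tm J (j + n))) (Y (j + n) ω))
              (af (th β (tm J (j + n))) (Y (j + n) ω)) (bf (th β (tm J (j + n))) (Y (j + n) ω))
              r v) / 2) := by
      intro ω
      simp only [Mt, Vt, sum_range_succ, incr, mul_pow, Real.sq_sqrt hβ]
      ring
    simp only [e]
    exact ⟨key.1, key.2.trans i2⟩

lemma err_sum (hG : Reg G q) (hβ : 0 ≤ β) (hρ : ρ < 1) (hs : q * th β s ^ 2 ≤ ρ)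
    (h : Approx G N β s J r κ W Y) {j : ℕ} (hj : s ≤ tm J j) {v : V} (hv : v ∈ W) (n : ℕ)
    (hn : j + n ≤ 2 ^ J) :
    MemLp (fun ω => Y (j + n) ω v - Y j ω v - Mt G β N J r Y v j n ω) 2 P ∧
      ∫ ω, (Y (j + n) ω v - Y j ω v - Mt G β N J r Y v j n ω) ^ 2 ∂P ≤ κ * tm J n := by
  induction n with
  | zero => simp [Mt, tm]
  | succ n ih =>
    obtain ⟨m0, e6⟩ := ih (by omega)
    have hk : s ≤ tm J (j + n) := hj.trans (tm_mono J (by omega))
    have ht := tm_le_one (show j + n ≤ 2 ^ J by omega)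
    have hρk := th_rho hβ hs hk ht
    have d1 := ml_sub (h.memLp (j + n + 1) v) (h.memLp (j + n) v)
    have i1 := memLp_incr hG hβ hρ ht hρk (h.meas (j + n)) r v
    have hZ : Measurable[N.F (tm J (j + n))]
        fun ω => Y (j + n) ω v - Y j ω v - Mt G β N J r Y v j n ω :=
      ((h.meas_apply _ v).sub (N.measurable_mono (h.meas_apply j v) (tm_mono J (by omega)))).sub
        (meas_Mt hβ hs h hj v n (by omega))
    have e : ∀ ω, Y (j + (n + 1)) ω v - Y j ω v - Mt G β N J r Y v j (n + 1) ω =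
        (Y (j + n) ω v - Y j ω v - Mt G β N J r Y v j n ω) + (Y (j + n + 1) ω v - Y (j + n) ω v -
          incr G β r (tm J (j + n)) (Y (j + n) ω) (N.z J (j + n) ω) v) := by
      intro ω
      simp only [Mt, sum_range_succ, ← add_assoc]
      ring
    simp only [e]
    refine ⟨ml_add m0 (ml_sub d1 i1), ?_⟩
    have e2 : ∫ ω, (Y (j + n) ω v - Y j ω v - Mt G β N J r Y v j n ω) *
        (Y (j + n + 1) ω v - Y (j + n) ω v -
          incr G β r (tm J (j + n)) (Y (j + n) ω) (N.z J (j + n) ω) v) ∂P = 0 := by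
      simp only [mul_sub _ (Y (j + n + 1) _ v - Y (j + n) _ v)]
      rw [integral_sub (int_mul m0 d1) (int_mul m0 i1), h.mart _ hk (by omega) v hv _ hZ m0,
        incr_orth hG hβ hρ ht hρk (h.meas _) r v hZ m0, sub_self]
    have e5 := h.err (j + n) hk (by omega) v hv
    rw [int_sq_add m0 (ml_sub d1 i1), e2, tm_succ]
    linarith

omit [IsProbabilityMeasure P] in
lemma markov {f : Ω → ℝ} (hf : Integrable f P) (h0 : ∀ ω, 0 ≤ f ω) {a b : ℝ} (ha : 0 < a)
    (h : ∫ ω, f ω ∂P ≤ a * b) : P.real {ω | a ≤ f ω} ≤ b :=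
  le_of_mul_le_mul_left ((mul_meas_ge_le_integral_of_nonneg (ae_of_all _ h0) hf a).trans h) ha

lemma alg {A y l v M x : ℝ} (hA : 0 < A) (hy : 0 < y) (hy2 : y ^ 2 = 2 * A * l) (h5 : v ≤ A)
    (h2 : (x - M) ^ 2 < y ^ 2) (h3 : y / A * M - (y / A) ^ 2 * v / 2 < l)
    (h4 : -(y / A) * M - (-(y / A)) ^ 2 * v / 2 < l) : x ^ 2 ≤ 8 * A * l := by
  have h6 : (y / A) ^ 2 * v / 2 ≤ l := by
    calc _ ≤ (y / A) ^ 2 * A / 2 := by gcongr
      _ = l := by rw [div_pow, hy2]; field_simp
  have h7 : y / A * y = 2 * l := by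
    rw [div_mul_eq_mul_div, ← sq, hy2]
    field_simp
  have hu : 0 < y / A := by positivity
  rw [neg_sq] at h4
  have h8 : M < y := lt_of_mul_lt_mul_left (by linarith) hu.le
  have h9 : -M < y := lt_of_mul_lt_mul_left (by linarith) hu.le
  have h10 := abs_lt.1 (abs_lt_of_sq_lt_sq h2 hy.le)
  have h11 : x ^ 2 ≤ (2 * y) ^ 2 := sq_le_sq' (by linarith) (by linarith)
  rw [mul_pow, hy2] at h11
  linarith

end DynB

open DynB in
theorem dyn_tail (hG : Reg G q) (hβ : 0 ≤ β) (hc : q * Real.tanh β ^ 2 = 1) :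
    ∃ C : ℝ, 1 ≤ C ∧ ∀ (s : ℝ) (m : ℝ → (V → unitInterval) → V → ℝ), CS G N β s m →
      ∀ t, Dy t → s ≤ t → t ≤ 1 → ∀ v l, 1 ≤ l →
      (iid V).real {U | C * l * √t * ell t < m t U v ^ 2} ≤ C * Real.exp (-l) := by
  obtain ⟨C₁, hC₁, H₁⟩ := static_tail hG hβ hc
  obtain ⟨C₂, hC₂, H₂⟩ := dyn_mean (N := N) hG hβ hc
  obtain ⟨c, C', hc0, -, -, hgap⟩ := th_gap hβ (by exact_mod_cast hG.two) hc
  set B : ℝ := β * (q + 1) with hB
  have hB0 : 0 ≤ B := by positivity
  set K : ℝ := B * (C₂ + 2 * (C₁ * (2 + C₁))) + 1 with hK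
  have hKB : B + 1 ≤ K := by
    have := mul_le_mul_of_nonneg_left (show 1 ≤ C₂ + 2 * (C₁ * (2 + C₁)) by nlinarith) hB0
    linarith
  refine ⟨8 * K, by linarith, fun s m hm t hd hst ht1 v l hl => ?_⟩
  have ht0 : 0 < t := hm.pos.trans_le hst
  have hl1 := one_le_ell ht0 ht1
  have hsq : t ≤ √t := Real.le_sqrt_of_sq_le (by nlinarith)
  have hsq0 : 0 < √t := Real.sqrt_pos.2 ht0
  have hmeas : ∀ t, 0 ≤ t → Measurable (m t) := fun t ht => N.measurable_of (hm.sol.meas t ht)
  rcases le_or_gt 1 (l * t) with hlt | hlt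
  · have h0 : iid V {U | 8 * K * l * √t * ell t < m t U v ^ 2} = 0 := by
      refine measure_mono_null (fun U hU => ?_)
        (ae_iff.1 ((hm.law t hd hst ht1).abs_le (hmeas t ht0.le) v))
      intro h
      have h1 := sq_le_one_of_abs h
      have h2 : 1 ≤ l * √t := hlt.trans (by gcongr)
      have h3 : 1 ≤ 8 * K * (l * √t) * ell t :=
        one_le_mul_of_one_le_of_one_le (one_le_mul_of_one_le_of_one_le (by linarith) h2) hl1
      simp only [Set.mem_ofPred_eq] at hU
      linarith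
    rw [measureReal_def, h0, ENNReal.toReal_zero]
    have : 0 ≤ K := by linarith
    positivity
  set A : ℝ := K * √t * ell t with hA
  have hA0 : 0 < A := mul_pos (mul_pos (by linarith) hsq0) (by linarith)
  set y : ℝ := √(2 * A * l) with hy
  have hy2 : y ^ 2 = 2 * A * l := Real.sq_sqrt (by positivity)
  have hy0 : 0 < y := Real.sqrt_pos.2 (by positivity)
  obtain ⟨J₁, r, hap⟩ := hm.sol.approx (y ^ 2 * Real.exp (-l)) (by positivity)
  obtain ⟨J₂, hJ₂⟩ := hm.dy.exists_level
  obtain ⟨J₃, hJ₃⟩ := hd.exists_level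
  choose! J₄ hJ₄ using fun w hw => (H₂ s m hm t hd hst ht1 v w hw).2.2
  set J := max (max J₁ J₂) (max J₃ ((G.neighborFinset v).sup J₄)) with hJ
  have h := hap J (by omega) r le_rfl
  obtain ⟨j, hj⟩ := hJ₂ J (by omega)
  obtain ⟨k, hk⟩ := hJ₃ J (by omega)
  obtain ⟨n, rfl⟩ := Nat.exists_eq_add_of_le (tm_le_iff.1 (hj ▸ hk ▸ hst : tm J j ≤ tm J k))
  have hn : j + n ≤ 2 ^ J := tm_le_iff.1 (by rw [tm_pow, ← hk]; exact ht1)
  have hj0 : 0 < j := by
    rcases Nat.eq_zero_or_pos j with h0 | h0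
    · have := hm.pos
      simp [hj, h0, tm] at this
    · exact h0
  have hs1 : s ≤ 1 := hst.trans ht1
  have hρ : q * th β s ^ 2 < 1 := by
    have := (hgap s hm.pos.le hs1).1
    have := mul_pos hc0 hm.pos
    linarith
  have hti : ∀ i < n, s ≤ tm J (j + i) ∧ tm J (j + i) ≤ t := fun i hi =>
    ⟨hj.trans_le (tm_mono J (by omega)), (tm_mono J (by omega)).trans hk.ge⟩
  have hη := eta_pos J
  have hnt : tm J n ≤ t := (tm_mono J (by omega)).trans hk.ge
  let g : ℕ → V → (V → unitInterval) → ℝ := fun i w U =>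
    max (NN G (th β (tm J i)) (m (tm J i) U) v w - nn G (th β (tm J i)) (m (tm J i)) v w -
      C₁ * (ell (tm J i) + Real.log ((C₁ + 1) / tm J i))) 0
  have hg : ∀ i < n, ∀ w, G.Adj v w → Integrable (g (j + i) w) (iid V) ∧
      ∫ U, g (j + i) w U ∂iid V ≤ Real.exp (-l) := by
    intro i hi w hw
    obtain ⟨h1, h2⟩ := hti i hi
    have h0 := hm.pos.trans_le h1
    have h3 := h2.trans ht1
    have hF := fam_NN hG (th_nonneg hβ h3) (th_rho hβ le_rfl h1 h3) hρ (hmeas _ h0.le)
      (hm.equi _)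
    obtain ⟨D, hD⟩ := hF.bdd
    refine ⟨(((integrable_of_bdd (hF.meas v w) (hD v w hw)).sub (integrable_const _)).sub
      (integrable_const _)).pos_part, ?_⟩
    refine ((H₁ s _ _ h0 h3 (hmeas _ h0.le) (hm.equi _) (hm.law _ ⟨_, _, rfl⟩ h1 h3) v w hw).2
      ((C₁ + 1) / tm J (j + i)) ((one_le_div h0).2 (by linarith))).2.trans ?_
    have h4 : l ≤ 1 / tm J (j + i) := by
      rw [le_div_iff₀ h0]
      exact (mul_le_mul_of_nonneg_left h2 (zero_le_one.trans hl)).trans hlt.le
    calc _ ≤ Real.exp (C₁ / tm J (j + i)) * Real.exp (-((C₁ + 1) / tm J (j + i))) := by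
          gcongr
          linarith [Real.add_one_le_exp (C₁ / tm J (j + i))]
      _ ≤ _ := by
          rw [← Real.exp_add, add_div]
          exact Real.exp_le_exp.2 (by linarith)
  let W : (V → unitInterval) → ℝ := fun U =>
    ∑ i ∈ range n, β * eta J * ∑ w ∈ G.neighborFinset v, g (j + i) w U
  have hWi : ∀ i ∈ range n, Integrable
      (fun U => β * eta J * ∑ w ∈ G.neighborFinset v, g (j + i) w U) (iid V) := fun i hi =>
    (integrable_finsetSum _ fun w hw => (hg i (mem_range.1 hi) w (by simpa using hw)).1).const_mul _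
  have pW : (iid V).real {U | t ≤ W U} ≤ B * Real.exp (-l) := by
    refine markov (integrable_finsetSum _ hWi) (fun U => sum_nonneg fun i _ =>
      mul_nonneg (by positivity) (sum_nonneg fun w _ => le_max_right _ _)) ht0 ?_
    rw [integral_finsetSum _ hWi]
    refine (sum_le_card_nsmul _ _ (eta J * (B * Real.exp (-l))) fun i hi => ?_).trans ?_
    · rw [integral_const_mul, integral_finsetSum _ fun w hw =>
        (hg i (mem_range.1 hi) w (by simpa using hw)).1]
      refine (mul_le_mul_of_nonneg_left (sum_nb_le hG v fun w hw => (hg i (mem_range.1 hi) w hw).2)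
        (by positivity)).trans_eq ?_
      rw [hB]
      ring
    · rw [card_range, nsmul_eq_mul, ← mul_assoc, ← tm_eq]
      gcongr
  have hV : ∀ U, W U < t → Vt G β J r (fun k => m (tm J k)) v j n U ≤ A := by
    intro U hU
    have e1 : Vt G β J r (fun k => m (tm J k)) v j n U ≤ W U +
        (β * ∑ w ∈ G.neighborFinset v, ∑ i ∈ range n,
          eta J * nn G (th β (tm J (j + i))) (m (tm J (j + i))) v w +
        B * (C₁ * (2 + C₁)) * ∑ i ∈ range n, eta J * ell (tm J (j + i))) := by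
      rw [sum_comm, mul_sum, mul_sum, ← sum_add_distrib, ← sum_add_distrib]
      refine sum_le_sum fun i hi => ?_
      obtain ⟨h1, h2⟩ := hti i (mem_range.1 hi)
      have h0 := hm.pos.trans_le h1
      have h3 := h2.trans ht1
      have h4 := one_le_ell h0 h3
      have h5 : Real.log ((C₁ + 1) / tm J (j + i)) ≤ (1 + C₁) * ell (tm J (j + i)) := by
        rw [Real.log_div (by linarith) h0.ne']
        have := Real.log_le_sub_one_of_pos (show 0 < C₁ + 1 by linarith)
        have h6 : C₁ ≤ C₁ * ell (tm J (j + i)) := le_mul_of_one_le_right (by linarith) h4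
        unfold ell at h6 ⊢
        linarith
      have h6 : vf (m (tm J (j + i)) U) v ^ 2 *
          MI G (af (th β (tm J (j + i))) (m (tm J (j + i)) U))
            (bf (th β (tm J (j + i))) (m (tm J (j + i)) U))
            (af (th β (tm J (j + i))) (m (tm J (j + i)) U))
            (bf (th β (tm J (j + i))) (m (tm J (j + i)) U)) r v ≤
          ∑ w ∈ G.neighborFinset v, g (j + i) w U +
            (∑ w ∈ G.neighborFinset v, nn G (th β (tm J (j + i))) (m (tm J (j + i))) v w +
              (q + 1) * (C₁ * (2 + C₁) * ell (tm J (j + i)))) := by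
        refine (mul_le_of_le_one_left (MI_self_nonneg _ _) (sq_le_one_of_abs (abs_vf_le _ _))).trans
          ?_
        rw [← add_assoc, ← sum_add_distrib, ← sub_le_iff_le_add', MI, ← sum_sub_distrib]
        refine sum_nb_le hG v fun w hw => ?_
        have h7 := M_le_MM (m := m (tm J (j + i)) U) (m' := m (tm J (j + i)) U) hG
          (th_nonneg hβ h3) (th_rho hβ le_rfl h1 h3) hρ hw r
        have h8 : _ ≤ g (j + i) w U := le_max_left _ _
        have h9 := mul_le_mul_of_nonneg_left h5 (show 0 ≤ C₁ by linarith)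
        unfold NN at h8
        linarith
      refine (mul_le_mul_of_nonneg_left h6 (by positivity)).trans_eq ?_
      rw [← mul_sum, hB]
      ring
    have e2 : ∑ w ∈ G.neighborFinset v, ∑ i ∈ range n,
        eta J * nn G (th β (tm J (j + i))) (m (tm J (j + i))) v w ≤ (q + 1) * (C₂ * √t * ell t) :=
      sum_nb_le hG v fun w hw => by
        have := hJ₄ w hw J (by
          have := le_sup (f := J₄) ((G.mem_neighborFinset v w).2 hw)
          omega) j (j + n) hj hk
        rwa [sum_Ico_eq_sum_range, add_tsub_cancel_left] at this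
    have e3 := sum_ell_le hj0 (Nat.le_add_right j n) hn
    rw [sum_Ico_eq_sum_range, add_tsub_cancel_left, ← hk] at e3
    have e4 := mul_le_mul_of_nonneg_left e2 hβ
    have e5 : 2 * t * ell t ≤ 2 * √t * ell t := by gcongr
    have e6 := mul_le_mul_of_nonneg_left (e3.trans e5)
      (show 0 ≤ B * (C₁ * (2 + C₁)) from mul_nonneg hB0 (by positivity))
    have e7 : √t ≤ √t * ell t := le_mul_of_one_le_right hsq0.le hl1
    have e8 : A = β * ((q + 1) * (C₂ * √t * ell t)) + B * (C₁ * (2 + C₁)) * (2 * √t * ell t) +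
        √t * ell t := by
      rw [hA, hK, hB]
      ring
    linarith
  have pM : ∀ u : ℝ, (iid V).real {U | Real.exp l ≤
      Real.exp (u * Mt G β N J r (fun k => m (tm J k)) v j n U -
        u ^ 2 * Vt G β J r (fun k => m (tm J k)) v j n U / 2)} ≤ Real.exp (-l) := fun u => by
    obtain ⟨i1, i2⟩ := exp_mart hG hβ le_rfl h hj.le v u n hn
    exact markov i1 (fun _ => (Real.exp_pos _).le) (Real.exp_pos _)
      (by rw [i2, ← Real.exp_add]; simp)
  obtain ⟨i1, i2⟩ := err_sum hG hβ hρ le_rfl h hj.le (Set.mem_univ v) n hn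
  simp only [← hk, ← hj, hm.sol.zero s le_rfl, sub_zero] at i1 i2
  have pE : (iid V).real {U | y ^ 2 ≤ (m t U v - Mt G β N J r (fun k => m (tm J k)) v j n U) ^ 2} ≤
      Real.exp (-l) :=
    markov i1.integrable_sq (fun _ => sq_nonneg _) (by positivity)
      (i2.trans (mul_le_of_le_one_right (by positivity) (hnt.trans ht1)))
  refine (measureReal_mono (fun U hU => ?_)).trans ((measureReal_union_le _ _).trans
    ((add_le_add ((measureReal_union_le _ _).trans (add_le_add pW pE))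
      ((measureReal_union_le _ _).trans (add_le_add (pM (y / A)) (pM (-(y / A)))))).trans ?_))
  · by_contra hne
    simp only [Set.mem_union, Set.mem_ofPred_eq, not_or, not_le, Real.exp_lt_exp] at hne hU
    obtain ⟨⟨h1, h2⟩, h3, h4⟩ := hne
    have h11 := alg hA0 hy0 hy2 (hV U h1) h2 h3 h4
    rw [hA] at h11
    linarith
  · have := mul_le_mul_of_nonneg_right (show B + 3 ≤ 8 * K by linarith) (Real.exp_pos (-l)).le
    linarith

theorem dyn_good (hG : Reg G q) (hβ : 0 ≤ β) (hc : q * Real.tanh β ^ 2 = 1) :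
    ∃ C : ℝ, 1 ≤ C ∧ ∀ (s : ℝ) (m : ℝ → (V → unitInterval) → V → ℝ), CS G N β s m →
      ∀ t, Dy t → 2 * s ≤ t → t ≤ 1 → Good G β C t (m t) := by
  obtain ⟨C₁, hC₁, H₁⟩ := static_tail hG hβ hc
  obtain ⟨C₂, hC₂, H₂⟩ := dyn_mean (N := N) hG hβ hc
  obtain ⟨C₃, hC₃, H₃⟩ := dyn_tail (N := N) hG hβ hc
  refine ⟨C₁ + C₂ + C₃, by linarith, fun s m hm t hd hst ht1 => ?_⟩
  have hs := hm.pos
  have hst' : s ≤ t := by linarith
  have ht0 : 0 < t := by linarith
  have hl1 := one_le_ell ht0 ht1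
  have hme : Measurable (m t) := N.measurable_of (hm.sol.meas t ht0.le)
  have H := H₁ s t (m t) ht0 ht1 hme (hm.equi t) (hm.law t hd hst' ht1)
  refine ⟨hme, hm.equi t, fun x y hxy U => ((H x y hxy).1 U).trans (by gcongr; linarith),
    fun x y hxy l hl => (measureReal_mono fun U hU => ?_).trans ((H x y hxy).2 l hl).1,
    fun v l hl => (measureReal_mono fun U hU => ?_).trans
      ((H₃ s m hm t hd hst' ht1 v l hl).trans (by gcongr; linarith))⟩
  · have := Real.log_nonneg hl
    refine le_trans (add_le_add (((H₂ s m hm t hd hst' ht1 x y hxy).2.1 hst).trans ?_) ?_) hU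
    · gcongr
      linarith
    · gcongr
      linarith
  · refine lt_of_le_of_lt ?_ (Set.mem_ofPred_eq ▸ hU)
    gcongr
    linarith

end Vale.Agent.P161
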