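import Vale.Agent.P161.Approx

/-!
The Euler scheme and its limit.
-/

open MeasureTheory ProbabilityTheory Filter Topology Finset
open scoped Classical NNReal ENNReal

namespace Vale.Agent.P161

variable {V : Type} {G : SimpleGraph V} [G.LocallyFinite] {q : ℕ} {ρ β s : ℝ}

variable (G) in
/-- The Euler scheme of level `J`. -/
noncomputable def euler (β s : ℝ) (J : ℕ) (z : ℕ → Sym2 V → ℝ) : ℕ → V → ℝ
  | 0 => 0
  | k + 1 => fun v => euler β s J z k v +
      if s ≤ tm J k ∧ k < 2 ^ J then incr G β J (tm J k) (euler β s J z k) (z k) v else 0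

variable (G) in
/-- The limit of the Euler schemes. -/
noncomputable def sol (β s : ℝ) (z : ℕ → ℕ → Sym2 V → ℝ) (t : ℝ) : V → ℝ :=
  fun v => limUnder atTop fun L => euler G β s L (z L) ⌊t * 2 ^ L⌋₊ v

lemma euler_zero {J : ℕ} (z : ℕ → Sym2 V → ℝ) {k : ℕ} (hk : tm J k ≤ s) :
    euler G β s J z k = 0 := by
  induction k with
  | zero => rfl
  | succ k ih =>
    have h : tm J k < s := by linarith [tm_succ J k, eta_pos J]
    funext v
    simp [euler, ih h.le, not_le.2 h]

lemma euler_const {J : ℕ} (z : ℕ → Sym2 V → ℝ) {k : ℕ} (hk : 2 ^ J ≤ k) :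
    euler G β s J z k = euler G β s J z (2 ^ J) := by
  induction k, hk using Nat.le_induction with
  | base => rfl
  | succ k hk ih =>
    funext v
    simp [euler, ih, not_lt.2 hk]

lemma incr_iso (g : G ≃g G) (r : ℕ) (t : ℝ) (m : V → ℝ) {ζ ζ' : Sym2 V → ℝ}
    (h : ∀ e, ζ' (e.map g) = ζ e) (v : V) :
    incr G β r t (act g m) ζ' (g v) = incr G β r t m ζ v := by
  unfold incr
  rw [KI_iso g (a := af (th β t) m) (b := bf (th β t) m) _ _ h] <;> simp [vf, af, bf, act]

lemma euler_iso (g : G ≃g G) {J : ℕ} {z z' : ℕ → Sym2 V → ℝ}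
    (h : ∀ k e, z' k (e.map g) = z k e) (k : ℕ) :
    euler G β s J z' k = act g (euler G β s J z k) := by
  induction k with
  | zero => rfl
  | succ k ih =>
    funext v
    obtain ⟨v, rfl⟩ := g.surjective v
    simp only [euler, ih, incr_iso g J _ _ (h k)]
    simp [act]

lemma sol_iso (g : G ≃g G) {z z' : ℕ → ℕ → Sym2 V → ℝ}
    (h : ∀ J k e, z' J k (e.map g) = z J k e) (t : ℝ) :
    sol G β s z' t = act g (sol G β s z t) := by
  funext v
  simp only [sol, euler_iso g (h _), act]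

lemma tm_floor_le {t : ℝ} (ht : 0 ≤ t) (L : ℕ) : tm L ⌊t * 2 ^ L⌋₊ ≤ t := by
  rw [tm, div_le_iff₀ (by positivity)]
  exact Nat.floor_le (by positivity)

lemma floor_tm (J L k : ℕ) : ⌊tm J k * 2 ^ (J + L)⌋₊ = k * 2 ^ L := by
  have : tm J k * 2 ^ (J + L) = ((k * 2 ^ L : ℕ) : ℝ) := by
    unfold tm; push_cast; rw [pow_add]; field_simp
  rw [this, Nat.floor_natCast]

lemma sol_zero (hs : 0 ≤ s) (z : ℕ → ℕ → Sym2 V → ℝ) {t : ℝ} (ht : t ≤ s) (v : V) :
    sol G β s z t v = 0 := by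
  have : ∀ L, euler G β s L (z L) ⌊t * 2 ^ L⌋₊ = 0 := fun L => by
    refine euler_zero _ ?_
    rcases le_total 0 t with h | h
    · exact (tm_floor_le h L).trans ht
    · rw [Nat.floor_of_nonpos (mul_nonpos_of_nonpos_of_nonneg h (by positivity))]
      simpa [tm] using hs
  simp only [sol, this]
  exact tendsto_const_nhds.limUnder_eq

variable {Ω : Type} [mΩ : MeasurableSpace Ω] {P : Measure Ω} (N : Noise V P)

lemma measurable_incr {t : ℝ} {X : Ω → V → ℝ} {ζ : Ω → Sym2 V → ℝ} (hX : Measurable X)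
    (hζ : Measurable ζ) (r : ℕ) (v : V) : Measurable fun ω => incr G β r t (X ω) (ζ ω) v :=
  (((measurable_vf v).comp hX).const_mul _).mul
    (measurable_KI (fun x y => (measurable_af _ x y).comp hX)
      (fun x y => (measurable_bf _ x y).comp hX) (fun e => (measurable_pi_apply e).comp hζ) r v)

lemma euler_meas (J k : ℕ) :
    Measurable[N.F (tm J k)] fun ω => euler G β s J (fun i => N.z J i ω) k := by
  induction k with
  | zero => exact measurable_const
  | succ k ih =>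
    have h1 := N.measurable_mono ih (tm_mono J (Nat.le_succ k))
    refine @measurable_pi_lambda _ _ _ (N.F _) _ _ fun v => ?_
    simp only [euler]
    refine Measurable.add ((measurable_pi_apply v).comp h1) ?_
    split_ifs
    · exact measurable_incr (Ω := Past N (tm J (k + 1))) h1 (N.meas J k) J v
    · exact measurable_const

lemma sol_meas {t : ℝ} (ht : 0 ≤ t) :
    Measurable[N.F t] fun ω => sol G β s (fun J k => N.z J k ω) t := by
  refine @measurable_pi_lambda _ _ _ (N.F _) _ _ fun v => ?_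
  have h : ∀ L, Measurable fun ω : Past N t =>
      euler G β s L (fun k => N.z L k ω) ⌊t * 2 ^ L⌋₊ v := fun L =>
    (measurable_pi_apply v).comp (N.measurable_mono (euler_meas N L _) (tm_floor_le ht L))
  exact (StronglyMeasurable.limUnder (l := atTop) fun L => (h L).stronglyMeasurable).measurable

variable [IsProbabilityMeasure P]

lemma euler_approx (hG : Reg G q) (hβ : 0 ≤ β) (hρ : ρ < 1) (hs : q * th β s ^ 2 ≤ ρ) {J r : ℕ}
    (hr : r ≤ J) : Approx G N β s J r (β * ((q + 1) * (4 / (1 - ρ))) * ρ ^ r) Set.univ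
      fun k ω => euler G β s J (fun i => N.z J i ω) k := by
  refine ⟨euler_meas N J, fun k v => ?_, fun k hk hk' v _ Z hZ hZ2 => ?_, fun k hk hk' v _ => ?_⟩
  · induction k with
    | zero => exact MemLp.zero
    | succ k ih =>
      simp only [euler]
      refine ml_add ih ?_
      split_ifs with h
      · exact memLp_incr hG hβ hρ (tm_le_one h.2.le) (th_rho hβ hs h.1 (tm_le_one h.2.le))
          (euler_meas N J k) J v
      · exact MemLp.zero
  · simp only [euler, hk, hk', and_self, if_true, add_sub_cancel_left]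
    exact incr_orth hG hβ hρ (tm_le_one hk'.le) (th_rho hβ hs hk (tm_le_one hk'.le))
      (euler_meas N J k) J v hZ hZ2
  · simp only [euler, hk, hk', and_self, if_true, add_sub_cancel_left]
    exact incr_tail hG hβ hρ (tm_le_one hk'.le) (th_rho hβ hs hk (tm_le_one hk'.le))
      (euler_meas N J k) hr v

variable {N}

/-- Limits of approximate solutions. -/
lemma Approx.limit (hG : Reg G q) (hβ : 0 ≤ β) (hρ : ρ < 1) (hs : q * th β s ^ 2 ≤ ρ) {J r : ℕ}
    {κ : ℝ} (hκ : 0 ≤ κ) {Y : ℕ → ℕ → Ω → V → ℝ} {X : ℕ → Ω → V → ℝ}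
    (h : ∀ᶠ n in atTop, Approx G N β s J r κ Set.univ (Y n))
    (hm : ∀ k, Measurable[N.F (tm J k)] (X k)) (hL : ∀ k v, MemLp (fun ω => X k ω v) 2 P)
    {e : ℕ → ℝ} (he : Tendsto e atTop (𝓝 0))
    (hY : ∀ᶠ n in atTop, ∀ k v, nrm P (fun ω => Y n k ω v - X k ω v) ≤ e n) :
    Approx G N β s J r κ Set.univ X := by
  refine ⟨hm, hL, fun k hk hk' v _ Z hZ hZ2 => ?_, fun k hk hk' v _ => ?_⟩
  · refine abs_nonpos_iff.1 ?_
    have h1 : Tendsto (fun n => nrm P Z * (e n + e n)) atTop (𝓝 0) := by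
      simpa using (he.add he).const_mul (nrm P Z)
    refine ge_of_tendsto h1 ?_
    filter_upwards [h, hY] with n h hY
    have d1 := ml_sub (h.memLp (k + 1) v) (hL (k + 1) v)
    have d2 := ml_sub (h.memLp k v) (hL k v)
    have e1 : ∀ ω, Z ω * (X (k + 1) ω v - X k ω v) = Z ω * (Y n (k + 1) ω v - Y n k ω v) -
        Z ω * (Y n (k + 1) ω v - X (k + 1) ω v - (Y n k ω v - X k ω v)) := fun ω => by ring
    simp only [e1]
    rw [integral_sub (int_mul hZ2 (ml_sub (h.memLp _ v) (h.memLp _ v)))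
      (int_mul hZ2 (ml_sub d1 d2)), h.mart k hk hk' v trivial Z hZ hZ2, zero_sub, abs_neg]
    refine (abs_integral_mul_le_nrm hZ2 (ml_sub d1 d2)).trans ?_
    exact mul_le_mul_of_nonneg_left ((nrm_sub_le d1 d2).trans (add_le_add (hY _ _) (hY _ _)))
      (nrm_nonneg _)
  · obtain ⟨C, hC, hlip⟩ := incr_lip hG hβ hρ
    have ht := tm_le_one hk'.le
    have hρk := th_rho hβ hs hk ht
    have hη := eta_pos J
    rw [← Real.sq_sqrt (show 0 ≤ κ * eta J by positivity), ← nrm_le_iff (Real.sqrt_nonneg _)]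
    have h1 : Tendsto (fun n => √(κ * eta J) + (e n + e n + √(C * eta J) * e n)) atTop
        (𝓝 √(κ * eta J)) := by
      simpa using ((he.add he).add (he.const_mul √(C * eta J))).const_add √(κ * eta J)
    refine ge_of_tendsto h1 ?_
    filter_upwards [h, hY] with n h hY
    have d1 := ml_sub (h.memLp (k + 1) v) (hL (k + 1) v)
    have d2 := ml_sub (h.memLp k v) (hL k v)
    have i1 := memLp_incr hG hβ hρ ht hρk (h.meas k) r v
    have i2 := memLp_incr hG hβ hρ ht hρk (hm k) r v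
    have he0 : 0 ≤ e n := (nrm_nonneg _).trans (hY k v)
    have e1 : ∀ ω, X (k + 1) ω v - X k ω v - incr G β r (tm J k) (X k ω) (N.z J k ω) v =
        (Y n (k + 1) ω v - Y n k ω v - incr G β r (tm J k) (Y n k ω) (N.z J k ω) v) -
        (Y n (k + 1) ω v - X (k + 1) ω v - (Y n k ω v - X k ω v) -
          (incr G β r (tm J k) (Y n k ω) (N.z J k ω) v -
            incr G β r (tm J k) (X k ω) (N.z J k ω) v)) := fun ω => by ring
    simp only [e1]
    refine (nrm_sub_le (ml_sub (ml_sub (h.memLp _ v) (h.memLp _ v)) i1)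
      (ml_sub (ml_sub d1 d2) (ml_sub i1 i2))).trans (add_le_add ?_ ?_)
    · exact Real.sqrt_le_sqrt (h.err k hk hk' v trivial)
    refine (nrm_sub_le (ml_sub d1 d2) (ml_sub i1 i2)).trans (add_le_add ?_ ?_)
    · exact (nrm_sub_le d1 d2).trans (add_le_add (hY _ _) (hY _ _))
    rw [nrm_le_iff (by positivity), mul_pow, Real.sq_sqrt (by positivity)]
    refine (hlip (ε := e n ^ 2) ht ht hρk hρk (h.meas k) (hm k)
      (fun u => ml_sub (h.memLp k u) (hL k u)) (fun u _ => (nrm_le_iff he0).1 (hY k u))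
      (deep_univ r v)).trans_eq ?_
    ring

variable (N)

theorem sol_sol (hG : Reg G q) (hβ : 0 ≤ β) (hs : q * th β s ^ 2 < 1) (hd : Dy s) (hs1 : s ≤ 1) :
    Sol G N β s fun t ω => sol G β s (fun J k => N.z J k ω) t := by
  have hs0 : 0 ≤ s := by obtain ⟨J, k, rfl⟩ := hd; exact tm_nonneg J k
  refine ⟨fun t ht => sol_meas N ht, fun t ht ω v => sol_zero hs0 _ ht v, ?_⟩
  set ρ := q * th β s ^ 2 with hρ
  have hρ0 : 0 ≤ ρ := by positivity
  have h1 : 0 < 1 - ρ := by linarith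
  set c := β * ((q + 1) * (4 / (1 - ρ))) with hc
  have hc0 : 0 ≤ c := by positivity
  obtain ⟨C₁, hC₁, hsub⟩ := subsample hG hβ hs
  obtain ⟨C₂, hC₂, hcmp⟩ := compare hG hβ hs
  obtain ⟨a, ha⟩ := hd.exists_level
  have hc1 : Tendsto (fun r : ℕ => c * ρ ^ r) atTop (𝓝 0) := by
    simpa using (tendsto_pow_atTop_nhds_zero_of_lt_one hρ0 hs).const_mul c
  obtain ⟨r₁, hr₁⟩ := eventually_atTop.1 (hc1.eventually (ge_mem_nhds one_pos))
  let E : ℕ → ℕ → Ω → V → ℝ := fun L k ω => euler G β s L (fun i => N.z L i ω) k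
  have hE : ∀ J L r, r₁ ≤ r → r ≤ J + L → Approx G N β s J r (2 * (c * ρ ^ r) + C₁ * eta J)
      Set.univ fun k => E (J + L) (k * 2 ^ L) := fun J L r h1 h2 =>
    (hsub le_rfl (by positivity) (hr₁ r h1) (euler_approx N hG hβ hs le_rfl h2)).mono le_rfl le_rfl
      fun v _ => deep_univ r v
  set σ := √(max ρ (1 / 2)) with hσ
  have hσ1 : σ < 1 := by
    rw [hσ, Real.sqrt_lt' one_pos, one_pow]
    exact max_lt hs (by norm_num)
  have hσ0 : 0 ≤ σ := Real.sqrt_nonneg _
  have hσ2 : σ ^ 2 = max ρ (1 / 2) := Real.sq_sqrt (hρ0.trans (le_max_left _ _))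
  let b : ℕ → ℝ := fun n => √(C₂ * (2 * c + C₁)) * σ ^ n
  have hb : Summable b := (summable_geometric_of_lt_one hσ0 hσ1).mul_left _
  have hcau : ∀ J L L' k v, a ≤ J → r₁ ≤ J → nrm P (fun ω => E (J + L) (k * 2 ^ L) ω v -
      E (J + L') (k * 2 ^ L') ω v) ≤ b J := by
    intro J L L' k v hJ hJ'
    have hb0 : 0 ≤ b J := by positivity
    obtain ⟨k₀, hk₀⟩ := ha J hJ
    have hz : ∀ L k, k ≤ k₀ → ∀ ω, E (J + L) (k * 2 ^ L) ω = 0 := fun L k hk ω =>
      euler_zero _ (by rw [tm_mul, hk₀]; exact tm_mono J hk)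
    wlog hk : k ≤ 2 ^ J generalizing k with H
    · have : ∀ L ω, E (J + L) (k * 2 ^ L) ω = E (J + L) (2 ^ J * 2 ^ L) ω := fun L ω => by
        rw [← pow_add]
        exact euler_const _ (by rw [pow_add]; exact Nat.mul_le_mul_right _ (by omega))
      simpa only [this] using H (2 ^ J) le_rfl
    rcases le_total k k₀ with h | h
    · simpa [hz _ k h, nrm] using hb0
    obtain ⟨i, rfl⟩ := Nat.exists_eq_add_of_le h
    rw [nrm_le_iff hb0]
    refine (hcmp (ε := 0) le_rfl (by positivity) le_rfl (hE J L J hJ' (by omega))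
      (hE J L' J hJ' (by omega)) hk₀.le (fun v _ => by simp [hz _ k₀ le_rfl]) i hk v
      (deep_univ _ v)).trans ?_
    have e1 : ρ ^ J ≤ (σ ^ J) ^ 2 := by
      rw [← pow_mul, mul_comm, pow_mul, hσ2]
      exact pow_le_pow_left₀ hρ0 (le_max_left _ _) J
    have e2 : (eta J : ℝ) ≤ (σ ^ J) ^ 2 := by
      rw [← pow_mul, mul_comm, pow_mul, hσ2, coe_eta, ← inv_pow, ← one_div]
      exact pow_le_pow_left₀ (by norm_num) (le_max_right _ _) J
    simp only [b, mul_pow, zero_add]
    rw [Real.sq_sqrt (by positivity), mul_assoc C₂]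
    refine mul_le_mul_of_nonneg_left ?_ (by linarith)
    nlinarith [mul_le_mul_of_nonneg_left e1 hc0,
      mul_le_mul_of_nonneg_left e2 (show 0 ≤ C₁ by linarith)]
  have hlim : ∀ J k v, MemLp (fun ω => sol G β s (fun J k => N.z J k ω) (tm J k) v) 2 P ∧
      ∀ L, a + r₁ ≤ L → nrm P (fun ω => E (J + L) (k * 2 ^ L) ω v -
        sol G β s (fun J k => N.z J k ω) (tm J k) v) ≤ b (J + L) := by
    intro J k v
    obtain ⟨-, h2, h3⟩ := l2_limit' (f := fun L ω => E L ⌊tm J k * 2 ^ L⌋₊ ω v)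
      (fun L => (euler_approx N hG hβ hs le_rfl (Nat.zero_le L)).memLp _ v) hb (J + a + r₁) (by
        intro n₀ n m h0 hn hm
        obtain ⟨l, rfl⟩ := Nat.exists_eq_add_of_le (show J ≤ n₀ by omega)
        obtain ⟨n, rfl⟩ := Nat.exists_eq_add_of_le hn
        obtain ⟨m, rfl⟩ := Nat.exists_eq_add_of_le hm
        have := hcau (J + l) n m (k * 2 ^ l) v (by omega) (by omega)
        simp only [add_assoc, floor_tm] at this ⊢
        simpa only [pow_add, ← mul_assoc] using this)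
    refine ⟨h2, fun L hL => ?_⟩
    have := h3 (J + L) (by omega)
    simp only [floor_tm] at this
    exact this
  intro κ hκ
  have t1 : Tendsto (fun J => C₁ * (eta J : ℝ)) atTop (𝓝 0) := by
    simpa using tendsto_eta.const_mul C₁
  obtain ⟨J₀, hJ₀⟩ := eventually_atTop.1 (t1.eventually (ge_mem_nhds (half_pos hκ)))
  obtain ⟨r₀, hr₀⟩ := eventually_atTop.1 (hc1.eventually (ge_mem_nhds (half_pos (half_pos hκ))))
  refine ⟨J₀, max r₀ r₁, fun J hJ r hr => ?_⟩
  refine Approx.limit hG hβ hs le_rfl hκ.le (Y := fun L k => E (J + L) (k * 2 ^ L)) ?_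
    (fun k => sol_meas N (tm_nonneg J k)) (fun k v => (hlim J k v).1) (e := fun L => b (J + L))
    ?_ ?_
  · filter_upwards [eventually_ge_atTop r] with L hL
    refine (hE J L r (by omega) (by omega)).mono le_rfl ?_ le_rfl
    linarith [hJ₀ J hJ, hr₀ r (by omega)]
  · simpa only [add_comm J] using (tendsto_add_atTop_iff_nat J).2 hb.tendsto_atTop_zero
  · filter_upwards [eventually_ge_atTop (a + r₁)] with L hL k v using (hlim J k v).2 L hL

theorem exists_sol (hG : Reg G q) (hβ : 0 ≤ β) (hs : q * th β s ^ 2 < 1) (hd : Dy s) (hs1 : s ≤ 1)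
    (N : Noise V (iid V)) (hN : NoiseEqui G N) :
    ∃ m : ℝ → (V → unitInterval) → V → ℝ, Sol G N β s m ∧ ∀ t, Equi G (m t) :=
  ⟨_, sol_sol N hG hβ hs hd hs1, fun t g U => sol_iso g (fun J k e => hN g J k U e) t⟩

end Vale.Agent.P161
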