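import Vale.Agent.P161.Free
import Vale.Agent.P161.GaussCM
import Vale.Agent.P161.Alg

/-!
The last step: independent spins with the given magnetisations.
-/

open MeasureTheory ProbabilityTheory Filter Topology Finset
open scoped Classical NNReal ENNReal

namespace Vale.Agent.P161

variable {V : Type} {G : SimpleGraph V} [G.LocallyFinite] {θ : ℝ}

namespace FinalAux

/-- The biased coin. -/
noncomputable def coin (p : ℝ) (t : unitInterval) : Bool := decide ((t : ℝ) < (1 + clip p) / 2)

lemma measurable_coin : Measurable fun x : ℝ × unitInterval => coin x.1 x.2 := by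
  apply measurable_to_bool
  have : (fun x : ℝ × unitInterval => coin x.1 x.2) ⁻¹' {true}
      = {x | (x.2 : ℝ) < (1 + clip x.1) / 2} := by
    ext x; simp [coin]
  rw [this]
  exact measurableSet_lt (measurable_subtype_coe.comp measurable_snd)
    ((measurable_const.add (continuous_clip.measurable.comp measurable_fst)).div_const _)

lemma integral_coin (p : ℝ) (b : Bool) :
    ∫ t : unitInterval, (if coin p t = b then (1 : ℝ) else 0) = (1 + spin b * clip p) / 2 := by
  have h := abs_le.mp (abs_clip_le_one p)
  let x : unitInterval := ⟨(1 + clip p) / 2, by constructor <;> linarith [h.1, h.2]⟩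
  have hx : (x : ℝ) = (1 + clip p) / 2 := rfl
  cases b
  · have : (fun t : unitInterval => if coin p t = false then (1 : ℝ) else 0)
        = (Set.Ici x).indicator 1 := by
      ext t
      simp only [coin, decide_eq_false_iff_not, not_lt, Set.indicator, Set.mem_Ici, Pi.one_apply,
        ← hx, Subtype.coe_le_coe]
    rw [this, integral_indicator_one measurableSet_Ici, Measure.real, unitInterval.volume_Ici,
      ENNReal.toReal_ofReal (by linarith [h.2]), hx]
    simp [spin]; ring
  · have : (fun t : unitInterval => if coin p t = true then (1 : ℝ) else 0)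
        = (Set.Iio x).indicator 1 := by
      ext t
      simp only [coin, decide_eq_true_eq, Set.indicator, Set.mem_Iio, Pi.one_apply,
        ← hx, Subtype.coe_lt_coe]
    rw [this, integral_indicator_one measurableSet_Iio, Measure.real, unitInterval.volume_Iio,
      ENNReal.toReal_ofReal (by linarith [h.1]), hx]
    simp [spin]

lemma measurable_ind (b : Bool) : Measurable fun c : Bool => if c = b then (1 : ℝ) else 0 :=
  measurable_of_finite _

lemma measurableSet_cyl' (D : Finset V) (η : V → Bool) :
    MeasurableSet {x : V → Bool | ∀ v ∈ D, x v = η v} := by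
  have : {x : V → Bool | ∀ v ∈ D, x v = η v} = ⋂ v ∈ D, (fun x : V → Bool => x v) ⁻¹' {η v} := by
    ext x; simp
  rw [this]
  exact D.measurableSet_biInter fun v _ => measurable_pi_apply v (measurableSet_singleton _)

end FinalAux

open FinalAux in
theorem fiid_of_field (hc : G.Connected) (N : Noise V (iid V)) (hN : NoiseEqui G N)
    {m : (V → unitInterval) → V → ℝ} (hm : Measurable[N.F 1] m) (he : Equi G m)
    (hlaw : ∀ S : Finset V, (G.induce (S : Set V)).Connected → ∀ η : V → Bool,
      ∫ U, ∏ v ∈ S, (1 + spin (η v) * clip (m U v)) / 2 ∂iid V =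
        1 / 2 * ∏ e ∈ edgesIn G S, edgeWeight θ η e)
    {μ : Measure (V → Bool)} (hμ : IsFreeIsing G θ μ) : IsFactorOfIID G μ := by
  obtain ⟨u, hu, hmap⟩ := exists_unif (η := eta 0) (by simp [eta])
  have hm' : Measurable m := hm.mono (N.le 1) le_rfl
  have hz : Measurable (N.z 0 1) := (N.meas 0 1).mono (N.le _) le_rfl
  have hind : IndepFun m (N.z 0 1) (iid V) := by
    rw [IndepFun_iff_Indep]
    have h := N.indep 0 1
    have e : tm 0 1 = 1 := by simp [tm]
    rw [e] at h
    exact indep_of_indep_of_le_left h hm.comap_le
  let Ψ : (V → ℝ) × (Sym2 V → ℝ) → V → Bool := fun p v => coin (p.1 v) (u (p.2 s(v, v)))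
  have hΨv : ∀ v, Measurable fun p => Ψ p v := fun v =>
    measurable_coin.comp (f := fun p : (V → ℝ) × (Sym2 V → ℝ) => (p.1 v, u (p.2 s(v, v))))
      (((measurable_pi_apply v).comp measurable_fst).prodMk
        (hu.comp ((measurable_pi_apply s(v, v)).comp measurable_snd)))
  have hΨ : Measurable Ψ := measurable_pi_lambda _ hΨv
  have hp : Measurable fun U => (m U, N.z 0 1 U) := hm'.prodMk hz
  have hΦ : Measurable fun U => Ψ (m U, N.z 0 1 U) := hΨ.comp hp
  refine ⟨fun U => Ψ (m U, N.z 0 1 U), hΦ, ?_, fun g => Eventually.of_forall fun U => ?_⟩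
  · refine IsFreeIsing.unique hc ?_ hμ
    refine ⟨Measure.isProbabilityMeasure_map (μ := iid V) hΦ.aemeasurable, fun D hD η => ?_⟩
    change (Measure.map (fun U => Ψ (m U, N.z 0 1 U)) (iid V)).real _
      = 1 / 2 * ∏ e ∈ edgesIn G D, edgeWeight θ η e
    rw [← hlaw D hD η, ← integral_indicator_one (measurableSet_cyl' D η)]
    have e1 : ({x : V → Bool | ∀ v ∈ D, x v = η v}.indicator (1 : (V → Bool) → ℝ))
        = fun x => ∏ v ∈ D, if x v = η v then (1 : ℝ) else 0 := by
      ext x
      rw [prod_ite_zero, prod_const_one]
      simp [Set.indicator]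
    have hF : Measurable fun x : V → Bool => ∏ v ∈ D, if x v = η v then (1 : ℝ) else 0 :=
      Finset.measurable_prod _ fun v _ => (measurable_ind (η v)).comp (measurable_pi_apply v)
    have hb : ∀ x : V → Bool, ‖∏ v ∈ D, if x v = η v then (1 : ℝ) else 0‖ ≤ 1 := by
      intro x
      rw [prod_ite_zero, prod_const_one]
      split_ifs <;> simp
    have : IsProbabilityMeasure ((iid V).map m) :=
      Measure.isProbabilityMeasure_map hm'.aemeasurable
    rw [e1, show (fun U => Ψ (m U, N.z 0 1 U)) = Ψ ∘ fun U => (m U, N.z 0 1 U) from rfl,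
      ← Measure.map_map hΨ hp, integral_map hΨ.aemeasurable hF.aestronglyMeasurable,
      hind.map_prod_eq_prod_map_map hm'.aemeasurable hz.aemeasurable, N.law,
      integral_prod (fun p => ∏ v ∈ D, if Ψ p v = η v then (1 : ℝ) else 0)
        (Integrable.of_bound (hF.comp hΨ).aestronglyMeasurable 1
        (Eventually.of_forall fun p => hb _))]
    have e2 : ∀ a : V → ℝ, ∫ z, (∏ v ∈ D, if Ψ (a, z) v = η v then (1 : ℝ) else 0) ∂gam V (eta 0)
        = ∏ v ∈ D, (1 + spin (η v) * clip (a v)) / 2 := by
      intro a
      have hc : ∀ v, Measurable fun t : unitInterval =>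
          if coin (a v) t = η v then (1 : ℝ) else 0 := fun v =>
        (measurable_ind (η v)).comp (measurable_coin.comp (measurable_const.prodMk measurable_id))
      rw [gam_prod (eta 0) D (fun v => {s(v, v)}) (fun i _ j _ hij => by simpa using hij)
        (fun v z => if Ψ (a, z) v = η v then (1 : ℝ) else 0)
        (fun v _ => (hc v).comp (hu.comp (measurable_pi_apply s(v, v))))
        (fun v _ => ⟨1, fun z => by split_ifs <;> simp⟩)
        (fun v _ z z' h => by simp only [Ψ, h s(v, v) rfl])]
      refine prod_congr rfl fun v _ => ?_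
      rw [← integral_coin, ← hmap, integral_map hu.aemeasurable (hc v).aestronglyMeasurable,
        ← Measure.infinitePi_map_eval (fun _ : Sym2 V => gaussianReal 0 (eta 0)) s(v, v),
        integral_map (measurable_pi_apply _).aemeasurable
          ((hc v).comp hu).aestronglyMeasurable]
      rfl
    simp only [e2]
    rw [integral_map hm'.aemeasurable]
    exact (Finset.measurable_prod _ fun v _ => (measurable_const.add (measurable_const.mul
      (continuous_clip.measurable.comp (measurable_pi_apply v)))).div_const _).aestronglyMeasurable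
  · funext v
    have h1 : m (act g U) v = m U (g.symm v) := by rw [he g U]; rfl
    have h2 := hN g 0 1 U s(g.symm v, g.symm v)
    simp only [Sym2.map_mk, RelIso.apply_symm_apply] at h2
    change coin (m (act g U) v) (u (N.z 0 1 (act g U) s(v, v))) = coin _ _
    rw [h1, h2]

end Vale.Agent.P161
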