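import Vale.Agent.P161.Geom

/-!
Existence and uniqueness of the free state.
-/

open MeasureTheory ProbabilityTheory Filter Topology Finset
open scoped Classical NNReal ENNReal

namespace Vale.Agent.P161

namespace FreeAux

variable {V : Type} {G : SimpleGraph V}

/-- The neighbour of `v` in the direction of `o`. -/
noncomputable def par (G : SimpleGraph V) (o v : V) : V :=
  if h : ∃ z, G.Adj v z ∧ G.dist z o < G.dist v o then h.choose else v

lemma par_spec (hT : G.IsTree) {o v : V} (h : v ≠ o) :
    G.Adj v (par G o v) ∧ G.dist (par G o v) o + 1 = G.dist v o := by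
  have hex := exists_closer hT.connected (y := v) (u := o) h.symm
  have h1 := hex.choose_spec
  rw [par, dif_pos hex]
  have := dist_adj hT h1.1 o
  exact ⟨h1.1, by omega⟩

lemma eq_par (hT : G.IsTree) {o v w : V} (h : G.Adj v w) (hw : G.dist w o < G.dist v o) :
    w = par G o v := by
  have hv : v ≠ o := by
    rintro rfl
    simp at hw
  have := par_spec hT hv
  exact closer_unique hT h this.1 hw (by omega)

lemma desc_far (hT : G.IsTree) {o v : V} (hv : v ≠ o) : ∀ (n : ℕ) (u : V), G.dist u o = n →
    u ∈ Br G (par G o v) v → u = v ∨ G.dist v o < G.dist u o := by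
  have hp := par_spec hT hv
  intro n
  induction n using Nat.strong_induction_on with
  | _ n ih =>
    intro u hu hb
    by_cases huv : u = v
    · exact Or.inl huv
    have huo : u ≠ o := by
      rintro rfl
      simp only [Br, Set.mem_ofPred_eq] at hb
      omega
    have hq := par_spec hT huo
    rcases Br_cut hT hp.1.symm hb hq.1 with h3 | h3
    · rcases ih _ (by omega) _ rfl h3 with h4 | h4
      · rw [h4] at hq; right; omega
      · right; omega
    · exact absurd h3.1 huv

lemma par_mem (hT : G.IsTree) {o r v : V} {D : Finset V} (hD : (G.induce (D : Set V)).Connected)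
    (hr : r ∈ D) (hmin : ∀ u ∈ D, G.dist r o ≤ G.dist u o) (hv : v ∈ D) (hvr : v ≠ r) :
    v ≠ o ∧ par G o v ∈ D := by
  have hvo : v ≠ o := by
    rintro rfl
    have := hmin v hv
    rw [SimpleGraph.dist_self, Nat.le_zero, hT.connected.dist_eq_zero_iff] at this
    exact hvr this.symm
  have hp := par_spec hT hvo
  refine ⟨hvo, Br_conv hT hD hp.1 hv hr ?_⟩
  rw [Br_compl hT hp.1.symm]
  intro hb
  rcases desc_far hT hvo _ r rfl hb with h | h
  · exact hvr h.symm
  · have := hmin v hv
    omega

/-- Spins computed along `n` steps towards the root. -/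
noncomputable def itr (G : SimpleGraph V) (o : V) (ξ : V → Bool) : ℕ → V → Bool
  | 0, v => ξ v
  | n + 1, v => ξ v == itr G o ξ n (par G o v)

/-- The spin configuration built from independent edge variables. -/
noncomputable def cfg (G : SimpleGraph V) (o : V) (ξ : V → Bool) (v : V) : Bool :=
  itr G o ξ (G.dist v o) v

lemma measurable_itr (o : V) (n : ℕ) : ∀ v, Measurable fun ξ => itr G o ξ n v := by
  induction n with
  | zero => exact fun v => measurable_pi_apply v
  | succ n ih =>
    intro v
    exact (measurable_of_finite fun p : Bool × Bool => p.1 == p.2).comp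
      ((measurable_pi_apply v).prodMk (ih (par G o v)))

lemma measurable_cfg (o : V) : Measurable (cfg G o) :=
  measurable_pi_lambda _ fun v => measurable_itr o _ v

lemma cfg_step (hT : G.IsTree) {o v : V} (h : v ≠ o) (ξ : V → Bool) :
    cfg G o ξ v = (ξ v == cfg G o ξ (par G o v)) := by
  rw [cfg, ← (par_spec hT h).2]
  rfl

/-- Flip of the root variable. -/
noncomputable def flp (o : V) (v : V) (b : Bool) : Bool := if v = o then !b else b

lemma cfg_flp (hT : G.IsTree) (o : V) (ξ : V → Bool) : ∀ (n : ℕ) (v : V), G.dist v o = n →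
    cfg G o (fun u => flp o u (ξ u)) v = !cfg G o ξ v := by
  intro n
  induction n with
  | zero =>
    intro v hv
    have : v = o := hT.connected.dist_eq_zero_iff.1 hv
    subst this
    simp [cfg, itr, flp]
  | succ n ih =>
    intro v hv
    have hvo : v ≠ o := by
      rintro rfl
      simp at hv
    have := (par_spec hT hvo).2
    rw [cfg_step hT hvo, cfg_step hT hvo, ih _ (by omega), flp, if_neg hvo]
    cases ξ v <;> cases cfg G o ξ (par G o v) <;> rfl

/-- Bernoulli measure. -/
noncomputable def bern (p : ℝ) : Measure Bool :=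
  ENNReal.ofReal p • Measure.dirac true + ENNReal.ofReal (1 - p) • Measure.dirac false

lemma bern_true (p : ℝ) : bern p {true} = ENNReal.ofReal p := by simp [bern]

lemma bern_false (p : ℝ) : bern p {false} = ENNReal.ofReal (1 - p) := by simp [bern]

lemma bern_prob {p : ℝ} (h0 : 0 ≤ p) (h1 : p ≤ 1) : IsProbabilityMeasure (bern p) := by
  constructor
  simp only [bern, Measure.add_apply, Measure.smul_apply, measure_univ, smul_eq_mul, mul_one]
  rw [← ENNReal.ofReal_add h0 (by linarith)]
  simp

lemma bern_not : (bern (1 / 2)).map (fun b => !b) = bern (1 / 2) := by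
  refine Measure.ext_of_singleton fun b => ?_
  rw [Measure.map_apply (measurable_of_finite _) (measurableSet_singleton _)]
  have e : (1 : ℝ) - 1 / 2 = 1 / 2 := by norm_num
  cases b
  · have : (fun b => !b) ⁻¹' {false} = {true} := by ext b; cases b <;> simp
    rw [this, bern_true, bern_false, e]
  · have : (fun b => !b) ⁻¹' {true} = {false} := by ext b; cases b <;> simp
    rw [this, bern_true, bern_false, e]

lemma prod_edges (hT : G.IsTree) {o r : V} {D : Finset V} (hD : (G.induce (D : Set V)).Connected)
    (hr : r ∈ D) (hmin : ∀ u ∈ D, G.dist r o ≤ G.dist u o) (F : Sym2 V → ℝ) :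
    ∏ e ∈ D.sym2.filter (· ∈ G.edgeSet), F e = ∏ v ∈ D.erase r, F s(v, par G o v) := by
  symm
  refine prod_bij (fun v _ => s(v, par G o v)) (fun v hv => ?_) (fun v hv w hw h => ?_)
    (fun e he => ?_) fun _ _ => rfl
  · obtain ⟨h1, h2⟩ := mem_erase.1 hv
    obtain ⟨h3, h4⟩ := par_mem hT hD hr hmin h2 h1
    exact mem_filter.2 ⟨mk_mem_sym2_iff.2 ⟨h2, h4⟩, (par_spec hT h3).1⟩
  · obtain ⟨h1, h2⟩ := mem_erase.1 hv
    obtain ⟨h1', h2'⟩ := mem_erase.1 hw
    have a1 := (par_spec hT (par_mem hT hD hr hmin h2 h1).1).2
    have a2 := (par_spec hT (par_mem hT hD hr hmin h2' h1').1).2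
    rcases Sym2.eq_iff.1 h with h3 | h3
    · exact h3.1
    · rw [h3.2] at a1
      rw [← h3.1] at a2
      omega
  · have key : ∀ a b, a ∈ D → b ∈ D → G.Adj a b → G.dist b o < G.dist a o →
        ∃ v, ∃ _ : v ∈ D.erase r, s(v, par G o v) = s(a, b) := by
      intro a b ha hb hab hd
      refine ⟨a, mem_erase.2 ⟨?_, ha⟩, by rw [← eq_par hT hab hd]⟩
      rintro rfl
      have := hmin b hb
      omega
    induction e using Sym2.ind with
    | _ a b =>
      obtain ⟨h1, h2⟩ := mem_filter.1 he
      obtain ⟨ha, hb⟩ := mk_mem_sym2_iff.1 h1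
      have hab : G.Adj a b := h2
      rcases dist_adj hT hab o with h3 | h3
      · exact key a b ha hb hab (by omega)
      · rw [Sym2.eq_swap]
        exact key b a hb ha hab.symm (by omega)

end FreeAux

open FreeAux

variable {V : Type} {G : SimpleGraph V} [G.LocallyFinite] {θ : ℝ}

theorem IsFreeIsing.unique (hc : G.Connected) {μ ν : Measure (V → Bool)} (hμ : IsFreeIsing G θ μ)
    (hν : IsFreeIsing G θ ν) : μ = ν := by
  have := hμ.1
  have := hν.1
  refine IsProjectiveLimit.unique (P := fun I => μ.map I.restrict) (fun _ => rfl) fun I => ?_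
  obtain ⟨D, hD, hI⟩ := exists_deep hc I 0
  have hID : I ⊆ D := fun v hv => (hI v hv).self
  have key : ν.map D.restrict = μ.map D.restrict := by
    refine Measure.ext_of_singleton fun a => ?_
    rw [Measure.map_apply (measurable_restrict D) (measurableSet_singleton _),
      Measure.map_apply (measurable_restrict D) (measurableSet_singleton _)]
    set η : V → Bool := fun v => if h : v ∈ D then a ⟨v, h⟩ else true with hη
    have e : (D.restrict : (V → Bool) → _) ⁻¹' {a} = {x | ∀ v ∈ D, x v = η v} := by
      ext x
      simp only [Set.mem_preimage, Set.mem_singleton_iff, Set.mem_ofPred_eq, hη]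
      constructor
      · rintro rfl v hv
        simp [hv]
      · intro h
        funext v
        simpa [v.2] using h v v.2
    rw [e, ← measureReal_eq_measureReal_iff, hμ.2 D hD, hν.2 D hD]
  have e : (I.restrict : (V → Bool) → _) = restrict₂ (π := fun _ => Bool) hID ∘ D.restrict := rfl
  beta_reduce
  rw [e, ← Measure.map_map (measurable_restrict₂ hID) (measurable_restrict D), key,
    Measure.map_map (measurable_restrict₂ hID) (measurable_restrict D)]

theorem exists_isFreeIsing (hT : G.IsTree) (hθ : |θ| ≤ 1) : ∃ μ, IsFreeIsing G θ μ := by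
  obtain ⟨o⟩ := hT.connected.nonempty
  obtain ⟨hθ1, hθ2⟩ := abs_le.1 hθ
  set m : V → Measure Bool := fun v => if v = o then bern (1 / 2) else bern ((1 + θ) / 2) with hm
  have hprob : ∀ v, IsProbabilityMeasure (m v) := fun v => by
    simp only [hm]
    split_ifs
    · exact bern_prob (by norm_num) (by norm_num)
    · exact bern_prob (by linarith) (by linarith)
  set P := Measure.infinitePi m with hP
  have hfl : P.map (fun ξ u => flp o u (ξ u)) = P := by
    rw [hP, Measure.infinitePi_map_pi m fun u => measurable_of_finite (flp o u)]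
    congr 1
    funext u
    by_cases h : u = o
    · have : flp o u = fun b => !b := by funext b; simp [flp, h]
      simp only [hm, this, if_pos h, bern_not]
    · have : flp o u = id := by funext b; simp [flp, h]
      rw [this, Measure.map_id]
  have hflm : Measurable fun (ξ : V → Bool) u => flp o u (ξ u) :=
    measurable_pi_lambda _ fun u => (measurable_of_finite (flp o u)).comp (measurable_pi_apply u)
  refine ⟨P.map (cfg G o), Measure.isProbabilityMeasure_map (measurable_cfg o).aemeasurable,
    fun D hD η => ?_⟩
  obtain ⟨r, hr, hmin⟩ := exists_min_image D (fun u => G.dist u o)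
    (let ⟨x⟩ := hD.nonempty; ⟨x.1, x.2⟩)
  have hcyl : MeasurableSet {x : V → Bool | ∀ v ∈ D, x v = η v} := by
    have : {x : V → Bool | ∀ v ∈ D, x v = η v} = Set.pi D fun v => {η v} := by
      ext x; simp
    rw [this]
    exact MeasurableSet.pi D.countable_toSet fun _ _ => measurableSet_singleton _
  set E : Set (V → Bool) := Set.pi (D.erase r : Finset V) fun v => {η v == η (par G o v)} with hE
  have hEm : MeasurableSet E :=
    MeasurableSet.pi (Finset.countable_toSet _) fun _ _ => measurableSet_singleton _
  set A : Bool → Set (V → Bool) := fun b => {ξ | cfg G o ξ r = b} with hA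
  have hAm : ∀ b, MeasurableSet (A b) := fun b =>
    (measurable_itr o _ r) (measurableSet_singleton b)
  have e1 : cfg G o ⁻¹' {x | ∀ v ∈ D, x v = η v} = E ∩ A (η r) := by
    ext ξ
    simp only [hE, hA, Set.mem_preimage, Set.mem_ofPred_eq, Set.mem_inter_iff, Set.mem_pi,
      mem_coe, Set.mem_singleton_iff]
    constructor
    · intro h
      refine ⟨fun v hv => ?_, h r hr⟩
      obtain ⟨h1, h2⟩ := mem_erase.1 hv
      obtain ⟨h3, h4⟩ := par_mem hT hD hr hmin h2 h1
      rw [← h v h2, ← h _ h4, cfg_step hT h3]
      cases ξ v <;> cases cfg G o ξ (par G o v) <;> rfl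
    · rintro ⟨h1, h2⟩
      have key : ∀ (n : ℕ) (v : V), G.dist v o = n → v ∈ D → cfg G o ξ v = η v := by
        intro n
        induction n using Nat.strong_induction_on with
        | _ n ih =>
          intro v hn hv
          by_cases hvr : v = r
          · rw [hvr, h2]
          obtain ⟨h3, h4⟩ := par_mem hT hD hr hmin hv hvr
          have := (par_spec hT h3).2
          rw [cfg_step hT h3, ih _ (by omega) _ rfl h4, h1 v (mem_erase.2 ⟨hvr, hv⟩)]
          cases η v <;> cases η (par G o v) <;> rfl
      exact fun v hv => key _ v rfl hv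
  have e2 : P (E ∩ A (η r)) = P (E \ A (η r)) := by
    conv_lhs => rw [← hfl]
    rw [Measure.map_apply hflm (hEm.inter (hAm _))]
    congr 1
    ext ξ
    simp only [hE, hA, Set.mem_preimage, Set.mem_ofPred_eq, Set.mem_inter_iff, Set.mem_pi,
      mem_coe, Set.mem_singleton_iff, Set.mem_sdiff, cfg_flp hT o ξ _ r rfl]
    refine and_congr (forall₂_congr fun v hv => ?_) ?_
    · obtain ⟨h1, h2⟩ := mem_erase.1 hv
      rw [flp, if_neg (par_mem hT hD hr hmin h2 h1).1]
    · cases cfg G o ξ r <;> cases η r <;> simp
  have e3 : P.real (E ∩ A (η r)) = 1 / 2 * P.real E := by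
    have h1 := measureReal_inter_add_sdiff (μ := P) (s := E) (hAm (η r))
    have h2 : P.real (E ∩ A (η r)) = P.real (E \ A (η r)) := by
      simp only [Measure.real, e2]
    linarith
  rw [map_measureReal_apply (measurable_cfg o) hcyl, e1, e3, prod_edges hT hD hr hmin]
  congr 1
  rw [Measure.real, hE, hP, Measure.infinitePi_pi m fun _ _ => measurableSet_singleton _,
    ENNReal.toReal_prod]
  refine prod_congr rfl fun v hv => ?_
  obtain ⟨h1, h2⟩ := mem_erase.1 hv
  simp only [hm, if_neg (par_mem hT hD hr hmin h2 h1).1, edgeWeight, Sym2.lift_mk]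
  have b1 : (bern ((1 + θ) / 2) {true}).toReal = (1 + θ) / 2 := by
    rw [bern_true, ENNReal.toReal_ofReal (by linarith)]
  have b2 : (bern ((1 + θ) / 2) {false}).toReal = (1 - θ) / 2 := by
    rw [bern_false, ENNReal.toReal_ofReal (by linarith)]; ring
  cases η v <;> cases η (par G o v) <;> simp [spin, b1, b2] <;> ring

end Vale.Agent.P161
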