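import Vale.Agent.P161.MAlg

/-!
Conditioning on the past: isometry and exponential identities for one step.
-/

open MeasureTheory ProbabilityTheory Filter Topology Finset
open scoped Classical NNReal ENNReal

namespace Vale.Agent.P161

variable {V : Type} {Ω : Type} [mΩ : MeasurableSpace Ω] {P : Measure Ω} (N : Noise V P)

/-- The sample space with the sigma-algebra of the past. -/
def Past (_ : Noise V P) (_ : ℝ) : Type := Ω

instance (t : ℝ) : MeasurableSpace (Past N t) := N.F t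

lemma Noise.measurable_of {S : Type} [MeasurableSpace S] {t : ℝ} {f : Ω → S}
    (hf : Measurable[N.F t] f) : Measurable f := hf.mono (N.le t) le_rfl

lemma Noise.measurable_mono {S : Type} [MeasurableSpace S] {t t' : ℝ} {f : Ω → S}
    (hf : Measurable[N.F t] f) (h : t ≤ t') : Measurable[N.F t'] f := hf.mono (N.mono h) le_rfl

lemma Noise.measurable_z (J k : ℕ) : Measurable (N.z J k) := N.measurable_of (N.meas J k)

lemma tm_nonneg (J k : ℕ) : 0 ≤ tm J k := by unfold tm; positivity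

lemma coe_eta (J : ℕ) : (eta J : ℝ) = (2 ^ J)⁻¹ := by simp [eta]

lemma eta_pos (J : ℕ) : (0 : ℝ) < eta J := by rw [coe_eta]; positivity

lemma eta_le_one (J : ℕ) : (eta J : ℝ) ≤ 1 := by
  rw [coe_eta]; exact inv_le_one_of_one_le₀ (one_le_pow₀ one_le_two)

lemma tm_eq (J k : ℕ) : tm J k = k * eta J := by rw [coe_eta, tm, div_eq_mul_inv]

lemma tm_succ (J k : ℕ) : tm J (k + 1) = tm J k + eta J := by
  rw [tm_eq, tm_eq]; push_cast; ring

lemma tm_mono (J : ℕ) : Monotone (tm J) := fun a b h => by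
  unfold tm; gcongr

lemma tm_le_iff {J a b : ℕ} : tm J a ≤ tm J b ↔ a ≤ b := by
  rw [tm, tm, div_le_div_iff_of_pos_right (by positivity), Nat.cast_le]

lemma tm_pow (J : ℕ) : tm J (2 ^ J) = 1 := by simp [tm]

lemma tm_le_one {J k : ℕ} (h : k ≤ 2 ^ J) : tm J k ≤ 1 := tm_pow J ▸ tm_mono J h

lemma tm_mul (J L k : ℕ) : tm (J + L) (k * 2 ^ L) = tm J k := by
  unfold tm; push_cast; rw [pow_add]; field_simp

lemma eta_add (J L : ℕ) : (2 : ℝ) ^ L * eta (J + L) = eta J := by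
  rw [coe_eta, coe_eta, pow_add]; field_simp

lemma tendsto_eta : Tendsto (fun J => (eta J : ℝ)) atTop (𝓝 0) := by
  simp only [coe_eta]
  exact tendsto_inv_atTop_zero.comp (tendsto_pow_atTop_atTop_of_one_lt one_lt_two)

lemma Dy.exists_level {t : ℝ} (h : Dy t) : ∃ J₀, ∀ J ≥ J₀, ∃ k, t = tm J k := by
  obtain ⟨J₀, k, rfl⟩ := h
  refine ⟨J₀, fun J hJ => ?_⟩
  obtain ⟨L, rfl⟩ := Nat.exists_eq_add_of_le hJ
  exact ⟨_, (tm_mul J₀ L k).symm⟩

lemma Noise.z_sum (J L k : ℕ) (ω : Ω) :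
    N.z J k ω = ∑ i ∈ range (2 ^ L), N.z (J + L) (k * 2 ^ L + i) ω := by
  induction L with
  | zero => simp
  | succ L ih =>
    have h : ∀ (n : ℕ) (f : ℕ → Sym2 V → ℝ),
        ∑ i ∈ range (n * 2), f i = ∑ i ∈ range n, (f (2 * i) + f (2 * i + 1)) := by
      intro n f
      induction n with
      | zero => simp
      | succ n ih => rw [add_mul, one_mul, sum_range_succ, sum_range_succ, sum_range_succ, ih,
          mul_comm n 2, add_assoc]
    rw [ih, pow_succ, h]
    refine sum_congr rfl fun i _ => ?_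
    rw [N.add, show 2 * (k * 2 ^ L + i) = k * (2 ^ L * 2) + 2 * i by ring, add_assoc (k * _)]
    rfl

variable [IsProbabilityMeasure P]

lemma Noise.freeze {J k : ℕ} {φ : Ω → (Sym2 V → ℝ) → ℝ}
    (hφ : Measurable fun p : Past N (tm J k) × (Sym2 V → ℝ) => φ p.1 p.2)
    (h1 : ∀ ω, Integrable (φ ω) (gam V (eta J))) {g : Ω → ℝ} (hg : Integrable g P)
    (h2 : ∀ ω, ∫ ζ, |φ ω ζ| ∂gam V (eta J) ≤ g ω) :
    Integrable (fun ω => φ ω (N.z J k ω)) P ∧
      ∫ ω, φ ω (N.z J k ω) ∂P = ∫ ω, ∫ ζ, φ ω ζ ∂gam V (eta J) ∂P := by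
  let X : Ω → Past N (tm J k) := id
  have hX : Measurable X := measurable_id'' (N.le _)
  have hi : IndepFun X (N.z J k) P := by
    rw [IndepFun_iff_Indep]
    have : MeasurableSpace.comap X inferInstance = N.F (tm J k) := MeasurableSpace.comap_id
    rw [this]
    exact N.indep J k
  have hm := hi.map_prod_eq_prod_map_map hX.aemeasurable (N.measurable_z J k).aemeasurable
  rw [N.law] at hm
  have hs := hφ.stronglyMeasurable
  have h3 : Integrable (fun p : Past N (tm J k) × (Sym2 V → ℝ) => φ p.1 p.2)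
      ((P.map X).prod (gam V (eta J))) := by
    rw [integrable_prod_iff hs.aestronglyMeasurable]
    refine ⟨ae_of_all _ h1, ?_⟩
    have h4 := hs.norm.integral_prod_right' (ν := gam V (eta J))
    rw [integrable_map_measure h4.aestronglyMeasurable hX.aemeasurable]
    refine hg.mono' (h4.comp_measurable hX).aestronglyMeasurable (ae_of_all _ fun ω => ?_)
    rw [Function.comp_apply, Real.norm_of_nonneg (integral_nonneg fun _ => norm_nonneg _)]
    exact h2 ω
  have hp := (hX.prodMk (N.measurable_z J k)).aemeasurable (μ := P)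
  constructor
  · rw [← hm, integrable_map_measure hs.aestronglyMeasurable hp] at h3
    exact h3
  · have h5 := integral_map hp (f := fun p : Past N (tm J k) × (Sym2 V → ℝ) => φ p.1 p.2)
      hs.aestronglyMeasurable
    rw [hm, integral_prod _ h3,
      integral_map hX.aemeasurable hs.integral_prod_right'.aestronglyMeasurable] at h5
    exact h5.symm

variable {G : SimpleGraph V} [G.LocallyFinite] {q : ℕ} {ρ : ℝ}

/-- Bounded coefficients known at time `t`. -/
structure Coef (t : ℝ) (q : ℕ) (ρ : ℝ) (α : Ω → ℝ) (a b : Ω → V → V → ℝ) : Prop where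
  mα : Measurable[N.F t] α
  ma : ∀ x y, Measurable[N.F t] fun ω => a ω x y
  mb : ∀ x y, Measurable[N.F t] fun ω => b ω x y
  α_le : ∀ ω, |α ω| ≤ 1
  bd : ∀ ω, Bd q ρ (a ω) (b ω)

variable {N} {J k : ℕ} {α α' : Ω → ℝ} {a b a' b' : Ω → V → V → ℝ}

omit [IsProbabilityMeasure P] in
lemma Coef.meas_prod {t : ℝ} (h : Coef N t q ρ α a b) (r : ℕ) (v : V) :
    Measurable fun p : Past N t × (Sym2 V → ℝ) => α p.1 * KI G (a p.1) (b p.1) p.2 r v :=
  (Measurable.comp (g := fun ω : Past N t => α ω) h.mα measurable_fst).mul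
    (measurable_KI (Ω := Past N t × (Sym2 V → ℝ))
      (fun x y => Measurable.comp (g := fun ω : Past N t => a ω x y) (h.ma x y) measurable_fst)
      (fun x y => Measurable.comp (g := fun ω : Past N t => b ω x y) (h.mb x y) measurable_fst)
      (fun e => (measurable_pi_apply e).comp measurable_snd) r v)

omit [IsProbabilityMeasure P] in
lemma Coef.meas (h : Coef N (tm J k) q ρ α a b) (r : ℕ) (v : V) :
    Measurable[N.F (tm J (k + 1))] fun ω => α ω * KI G (a ω) (b ω) (N.z J k ω) r v := by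
  have hk := tm_mono J (Nat.le_succ k)
  exact (N.measurable_mono h.mα hk).mul (measurable_KI (Ω := Past N (tm J (k + 1)))
    (fun x y => N.measurable_mono (h.ma x y) hk) (fun x y => N.measurable_mono (h.mb x y) hk)
    (fun e => (measurable_pi_apply e).comp (N.meas J k)) r v)

lemma integral_KI_sq (hT : G.IsTree) (a b : V → V → ℝ) (η : ℝ≥0) (r : ℕ) (v : V) (α : ℝ) :
    ∫ ζ, (α * KI G a b ζ r v) ^ 2 ∂gam V η = η * (α ^ 2 * MI G a b a b r v) := by
  simp only [mul_pow, integral_const_mul, sq (KI G a b _ r v), integral_KI_mul hT]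
  ring

lemma integral_KI_sub_sq (hT : G.IsTree) (a b a' b' : V → V → ℝ) (η : ℝ≥0) (r : ℕ) (v : V)
    (α α' : ℝ) : ∫ ζ, (α * KI G a b ζ r v - α' * KI G a' b' ζ r v) ^ 2 ∂gam V η =
      η * ∑ y ∈ G.neighborFinset v, Qf G a b a' b' r α α' v y := by
  have h := int_sq_add ((memLp_KI (G := G) (a := a) (b := b) η r v).const_mul α)
    ((memLp_KI (G := G) (a := a') (b := b') η r v).const_mul (-α'))
  have h2 : ∫ ζ, α * KI G a b ζ r v * (-α' * KI G a' b' ζ r v) ∂gam V η =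
      -(α * α') * (η * MI G a b a' b' r v) := by
    rw [← integral_KI_mul hT, ← integral_const_mul]
    congr 1
    funext ζ
    ring
  rw [integral_KI_sq hT, integral_KI_sq hT, h2] at h
  simp only [sub_eq_add_neg, ← neg_mul, h, Qf, sum_add_distrib, ← mul_sum, MI]
  ring

lemma sq_le_one_of_abs {x : ℝ} (h : |x| ≤ 1) : x ^ 2 ≤ 1 := by nlinarith [abs_le.1 h]

lemma Coef.sq (hG : Reg G q) (hρ : ρ < 1) (h : Coef N (tm J k) q ρ α a b) (r : ℕ) (v : V) :
    MemLp (fun ω => α ω * KI G (a ω) (b ω) (N.z J k ω) r v) 2 P ∧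
      ∫ ω, (α ω * KI G (a ω) (b ω) (N.z J k ω) r v) ^ 2 ∂P =
        eta J * ∫ ω, α ω ^ 2 * MI G (a ω) (b ω) (a ω) (b ω) r v ∂P := by
  obtain ⟨h1, h2⟩ := N.freeze (φ := fun ω ζ => (α ω * KI G (a ω) (b ω) ζ r v) ^ 2)
    ((h.meas_prod r v).pow_const 2) (fun ω => ((memLp_KI _ r v).const_mul _).integrable_sq)
    (integrable_const (eta J * ((q + 1) * (4 / (1 - ρ))) : ℝ)) fun ω => by
      simp only [abs_sq, integral_KI_sq hG.tree]
      refine mul_le_mul_of_nonneg_left ?_ (eta_pos J).le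
      exact (mul_le_of_le_one_left (MI_self_nonneg _ _) (sq_le_one_of_abs (h.α_le ω))).trans
        (MI_self_le hG (h.bd ω) hρ r v)
  refine ⟨(memLp_two_iff_integrable_sq
    (N.measurable_of (h.meas r v)).aestronglyMeasurable).2 h1, ?_⟩
  rw [h2]
  simp only [integral_KI_sq hG.tree, integral_const_mul]

lemma Coef.sq_le (hG : Reg G q) (hρ : ρ < 1) (h : Coef N (tm J k) q ρ α a b) (r : ℕ) (v : V) :
    ∫ ω, (α ω * KI G (a ω) (b ω) (N.z J k ω) r v) ^ 2 ∂P ≤
      eta J * ((q + 1) * (4 / (1 - ρ))) := by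
  rw [(h.sq hG hρ r v).2]
  refine mul_le_mul_of_nonneg_left ?_ (eta_pos J).le
  refine (integral_mono_of_nonneg (ae_of_all _ fun ω => mul_nonneg (sq_nonneg _)
    (MI_self_nonneg _ _)) (integrable_const ((q + 1) * (4 / (1 - ρ)) : ℝ))
    (ae_of_all _ fun ω => ?_)).trans (by simp)
  exact (mul_le_of_le_one_left (MI_self_nonneg _ _) (sq_le_one_of_abs (h.α_le ω))).trans
    (MI_self_le hG (h.bd ω) hρ r v)

lemma Coef.orth (hG : Reg G q) (hρ : ρ < 1) (h : Coef N (tm J k) q ρ α a b) (r : ℕ) (v : V)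
    {Z : Ω → ℝ} (hZ : Measurable[N.F (tm J k)] Z) (hZ2 : MemLp Z 2 P) :
    ∫ ω, Z ω * (α ω * KI G (a ω) (b ω) (N.z J k ω) r v) ∂P = 0 := by
  obtain ⟨-, h2⟩ := N.freeze (φ := fun ω ζ => Z ω * (α ω * KI G (a ω) (b ω) ζ r v))
    ((Measurable.comp (g := fun ω : Past N (tm J k) => Z ω) hZ measurable_fst).mul
      (h.meas_prod r v))
    (fun ω => (((memLp_KI _ r v).const_mul _).integrable one_le_two).const_mul _)
    (hZ2.integrable_sq.add (integrable_const (eta J * ((q + 1) * (4 / (1 - ρ))) : ℝ))) fun ω => by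
      have e1 := ((memLp_KI (G := G) (a := a ω) (b := b ω) (eta J) r v).const_mul (α ω))
      refine (integral_mono_of_nonneg (ae_of_all _ fun _ => abs_nonneg _)
        ((integrable_const (Z ω ^ 2)).add e1.integrable_sq) (ae_of_all _ fun ζ => ?_)).trans ?_
      · simp only [Pi.add_apply, abs_mul (Z ω)]
        nlinarith [sq_nonneg (|Z ω| - |α ω * KI G (a ω) (b ω) ζ r v|), sq_abs (Z ω),
          sq_abs (α ω * KI G (a ω) (b ω) ζ r v), abs_nonneg (Z ω),
          abs_nonneg (α ω * KI G (a ω) (b ω) ζ r v)]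
      · rw [integral_add' (integrable_const _) e1.integrable_sq, integral_KI_sq hG.tree]
        simp only [integral_const, probReal_univ, smul_eq_mul, one_mul, Pi.add_apply]
        refine add_le_add_right (mul_le_mul_of_nonneg_left ?_ (eta_pos J).le) _
        exact (mul_le_of_le_one_left (MI_self_nonneg _ _) (sq_le_one_of_abs (h.α_le ω))).trans
          (MI_self_le hG (h.bd ω) hρ r v)
  rw [h2]
  simp [integral_const_mul, integral_KI]

lemma Coef.sub_sq (hG : Reg G q) (hρ : ρ < 1) (h : Coef N (tm J k) q ρ α a b)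
    (h' : Coef N (tm J k) q ρ α' a' b') (r : ℕ) (v : V) :
    ∫ ω, (α ω * KI G (a ω) (b ω) (N.z J k ω) r v -
        α' ω * KI G (a' ω) (b' ω) (N.z J k ω) r v) ^ 2 ∂P =
      eta J * ∫ ω, ∑ y ∈ G.neighborFinset v,
        Qf G (a ω) (b ω) (a' ω) (b' ω) r (α ω) (α' ω) v y ∂P := by
  obtain ⟨-, h2⟩ := N.freeze (φ := fun ω ζ => (α ω * KI G (a ω) (b ω) ζ r v -
      α' ω * KI G (a' ω) (b' ω) ζ r v) ^ 2)
    (((h.meas_prod r v).sub (h'.meas_prod r v)).pow_const 2)
    (fun ω => (ml_sub ((memLp_KI _ r v).const_mul _) ((memLp_KI _ r v).const_mul _)).integrable_sq)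
    (integrable_const (eta J * ((q + 1) * (16 / (1 - ρ))) : ℝ)) fun ω => by
      simp only [abs_sq, integral_KI_sub_sq hG.tree]
      refine mul_le_mul_of_nonneg_left ?_ (eta_pos J).le
      exact sum_nb_le hG v fun y hy => Qf_le hG (h.bd ω) (h'.bd ω) hρ r (h.α_le ω) (h'.α_le ω) hy
  rw [h2]
  simp only [integral_KI_sub_sq hG.tree, integral_const_mul]

lemma Coef.tail (hG : Reg G q) (hρ : ρ < 1) (h : Coef N (tm J k) q ρ α a b) {r R : ℕ}
    (hr : r ≤ R) (v : V) :
    ∫ ω, (α ω * KI G (a ω) (b ω) (N.z J k ω) R v -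
        α ω * KI G (a ω) (b ω) (N.z J k ω) r v) ^ 2 ∂P ≤
      eta J * ((q + 1) * (ρ ^ r * (4 / (1 - ρ)))) := by
  obtain ⟨j, rfl⟩ := Nat.exists_eq_add_of_le hr
  have key : ∀ ω, ∫ ζ, (α ω * KI G (a ω) (b ω) ζ (r + j) v -
      α ω * KI G (a ω) (b ω) ζ r v) ^ 2 ∂gam V (eta J) ≤
      eta J * ((q + 1) * (ρ ^ r * (4 / (1 - ρ)))) := by
    intro ω
    simp only [← mul_sub, mul_pow, integral_const_mul]
    refine (mul_le_of_le_one_left (int_sq_nonneg _) (sq_le_one_of_abs (h.α_le ω))).trans ?_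
    rw [integral_KI_tail hG.tree]
    exact mul_le_mul_of_nonneg_left (MI_tail hG (h.bd ω) hρ r j v) (eta_pos J).le
  obtain ⟨-, h2⟩ := N.freeze (φ := fun ω ζ => (α ω * KI G (a ω) (b ω) ζ (r + j) v -
      α ω * KI G (a ω) (b ω) ζ r v) ^ 2)
    (((h.meas_prod _ v).sub (h.meas_prod r v)).pow_const 2)
    (fun ω => (ml_sub ((memLp_KI _ _ v).const_mul _) ((memLp_KI _ r v).const_mul _)).integrable_sq)
    (integrable_const (eta J * ((q + 1) * (ρ ^ r * (4 / (1 - ρ)))) : ℝ)) fun ω => by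
      simpa only [abs_sq] using key ω
  rw [h2]
  exact (integral_mono_of_nonneg (ae_of_all _ fun ω => int_sq_nonneg _) (integrable_const _)
    (ae_of_all _ key)).trans (by simp)

lemma Coef.exp (hG : Reg G q) (h : Coef N (tm J k) q ρ α a b) (r : ℕ) (v : V) (l : ℝ)
    {Z : Ω → ℝ} (hZ : Measurable[N.F (tm J k)] Z) (hZ0 : ∀ ω, 0 ≤ Z ω) (hZ1 : Integrable Z P) :
    Integrable (fun ω => Z ω * Real.exp (l * (α ω * KI G (a ω) (b ω) (N.z J k ω) r v) -
        l ^ 2 * eta J * (α ω ^ 2 * MI G (a ω) (b ω) (a ω) (b ω) r v) / 2)) P ∧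
      ∫ ω, Z ω * Real.exp (l * (α ω * KI G (a ω) (b ω) (N.z J k ω) r v) -
        l ^ 2 * eta J * (α ω ^ 2 * MI G (a ω) (b ω) (a ω) (b ω) r v) / 2) ∂P = ∫ ω, Z ω ∂P := by
  have e0 : ∀ ω ζ, Z ω * Real.exp (l * (α ω * KI G (a ω) (b ω) ζ r v) -
      l ^ 2 * eta J * (α ω ^ 2 * MI G (a ω) (b ω) (a ω) (b ω) r v) / 2) =
      Z ω * Real.exp (-(l ^ 2 * eta J * (α ω ^ 2 * MI G (a ω) (b ω) (a ω) (b ω) r v) / 2)) *
        Real.exp (l * α ω * KI G (a ω) (b ω) ζ r v) := by
    intro ω ζ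
    rw [mul_assoc (Z ω), ← Real.exp_add]
    congr 2
    ring
  have key : ∀ ω, ∫ ζ, Z ω * Real.exp (l * (α ω * KI G (a ω) (b ω) ζ r v) -
      l ^ 2 * eta J * (α ω ^ 2 * MI G (a ω) (b ω) (a ω) (b ω) r v) / 2) ∂gam V (eta J) = Z ω := by
    intro ω
    simp only [e0, integral_const_mul, integral_exp_KI hG.tree]
    rw [mul_assoc, ← Real.exp_add]
    have : -(l ^ 2 * eta J * (α ω ^ 2 * MI G (a ω) (b ω) (a ω) (b ω) r v) / 2) +
      (l * α ω) ^ 2 * eta J * MI G (a ω) (b ω) (a ω) (b ω) r v / 2 = 0 := by ring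
    rw [this, Real.exp_zero, mul_one]
  have m1 : Measurable fun ω : Past N (tm J k) =>
      l ^ 2 * eta J * (α ω ^ 2 * MI G (a ω) (b ω) (a ω) (b ω) r v) / 2 :=
    (((h.mα.pow_const 2).mul (measurable_MI (Ω := Past N (tm J k)) h.ma h.mb h.ma h.mb r v)
      ).const_mul _).div_const 2
  obtain ⟨h1, h2⟩ := N.freeze (φ := fun ω ζ => Z ω *
      Real.exp (l * (α ω * KI G (a ω) (b ω) ζ r v) -
        l ^ 2 * eta J * (α ω ^ 2 * MI G (a ω) (b ω) (a ω) (b ω) r v) / 2))
    ((Measurable.comp (g := fun ω : Past N (tm J k) => Z ω) hZ measurable_fst).mul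
      ((((h.meas_prod r v).const_mul l).sub (m1.comp measurable_fst)).exp))
    (fun ω => by simpa only [e0] using (integrable_exp_KI _ r v _).const_mul _) hZ1 fun ω => by
      simp only [abs_of_nonneg (mul_nonneg (hZ0 ω) (Real.exp_pos _).le), key, le_refl]
  exact ⟨h1, by rw [h2]; simp only [key]⟩

end Vale.Agent.P161
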