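import Vale.Agent.P161.Basic

/-!
Geometry of regular trees.
-/

open MeasureTheory ProbabilityTheory Filter Topology Finset
open scoped Classical NNReal ENNReal

namespace Vale.Agent.P161

variable {V : Type} {G : SimpleGraph V}

lemma dist_adj (hT : G.IsTree) {x y : V} (h : G.Adj x y) (u : V) :
    G.dist x u = G.dist y u + 1 ∨ G.dist y u = G.dist x u + 1 := by
  have := hT.dist_eq_dist_add_one_of_adj u h
  rwa [G.dist_comm (u := u) (v := x), G.dist_comm (u := u) (v := y)] at this

lemma closer_unique (hT : G.IsTree) {y z z' u : V} (h : G.Adj y z) (h' : G.Adj y z')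
    (hz : G.dist z u < G.dist y u) (hz' : G.dist z' u < G.dist y u) : z = z' := by
  have h1 := dist_adj hT h u
  have h2 := dist_adj hT h' u
  obtain ⟨p, hp⟩ := hT.connected.exists_walk_length_eq_dist z u
  obtain ⟨p', hp'⟩ := hT.connected.exists_walk_length_eq_dist z' u
  have e1 : (SimpleGraph.Walk.cons h p).IsPath :=
    SimpleGraph.Walk.isPath_of_length_eq_dist _ (by simp; omega)
  have e2 : (SimpleGraph.Walk.cons h' p').IsPath :=
    SimpleGraph.Walk.isPath_of_length_eq_dist _ (by simp; omega)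
  have e3 := (hT.existsUnique_path y u).unique e1 e2
  have e4 := congrArg (fun w => w.getVert 1) e3
  simpa using e4

lemma exists_closer (hc : G.Connected) {y u : V} (h : u ≠ y) :
    ∃ z, G.Adj y z ∧ G.dist z u < G.dist y u := by
  obtain ⟨p, hp⟩ := hc.exists_walk_length_eq_dist y u
  cases p with
  | nil => exact absurd rfl h
  | cons hz p =>
    refine ⟨_, hz, ?_⟩
    have := SimpleGraph.dist_le p
    simp at hp
    omega

lemma self_mem_Br {x y : V} (h : G.Adj x y) : y ∈ Br G x y := by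
  have := SimpleGraph.dist_eq_one_iff_adj.2 h
  simp [Br, this]

lemma not_mem_Br (x y : V) : x ∉ Br G x y := by simp [Br]

lemma Br_compl (hT : G.IsTree) {x y : V} (h : G.Adj x y) (u : V) :
    u ∈ Br G y x ↔ u ∉ Br G x y := by
  have := dist_adj hT h u
  simp only [Br, Set.mem_ofPred_eq]
  omega

lemma Br_sub (hT : G.IsTree) {x y z : V} (h : G.Adj x y) (hz : G.Adj y z) (hne : z ≠ x) :
    Br G y z ⊆ Br G x y := by
  intro u hu
  by_contra hx
  exact hne (closer_unique hT hz h.symm hu ((Br_compl hT h u).2 hx))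

lemma Br_disj (hT : G.IsTree) {y z z' u : V} (h : G.Adj y z) (h' : G.Adj y z') (hne : z ≠ z')
    (hu : u ∈ Br G y z) : u ∉ Br G y z' :=
  fun hu' => hne (closer_unique hT h h' hu hu')

lemma Br_cover (hT : G.IsTree) {y u : V} (h : u ≠ y) : ∃ z, G.Adj y z ∧ u ∈ Br G y z :=
  exists_closer hT.connected h

lemma Br_cut (hT : G.IsTree) {x y u u' : V} (h : G.Adj x y) (hu : u ∈ Br G x y)
    (h' : G.Adj u u') : u' ∈ Br G x y ∨ (u = y ∧ u' = x) := by
  by_contra hn
  push Not at hn
  have hu' := (Br_compl hT h u').2 hn.1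
  simp only [Br, Set.mem_ofPred_eq] at hu hu'
  have a1 := dist_adj hT h u
  have a2 := dist_adj hT h u'
  have a3 := dist_adj hT h' x
  have a4 := dist_adj hT h' y
  rw [G.dist_comm (u := u), G.dist_comm (u := u')] at a3 a4
  have b1 : G.dist y u' = G.dist y u + 1 := by omega
  have b2 : G.dist x u = G.dist x u' + 1 := by omega
  by_cases huy : u = y
  · refine hn.2 huy ?_
    subst huy
    have : G.dist x u' = 0 := by
      have := SimpleGraph.dist_eq_one_iff_adj.2 h
      omega
    exact (hT.connected.dist_eq_zero_iff.1 this).symm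
  · obtain ⟨w, hw, hwd⟩ := exists_closer hT.connected (y := u) (u := y) (Ne.symm huy)
    have c1 := dist_adj hT h w
    rw [G.dist_comm (u := w), G.dist_comm (u := u)] at hwd
    have c2 : w = u' := closer_unique hT (u := x) hw h'
      (by rw [G.dist_comm (u := w), G.dist_comm (u := u)]; omega)
      (by rw [G.dist_comm (u := u'), G.dist_comm (u := u)]; omega)
    subst c2
    omega

lemma Br_conv (hT : G.IsTree) {D : Set V} (hD : (G.induce D).Connected) {x y u : V}
    (h : G.Adj x y) (hx : x ∈ D) (hu : u ∈ D) (hb : u ∈ Br G x y) : y ∈ D := by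
  obtain ⟨p⟩ := hD ⟨u, hu⟩ ⟨x, hx⟩
  have key : ∀ (a b : D) (p : (G.induce D).Walk a b), a.1 ∈ Br G x y → b.1 ∉ Br G x y → y ∈ D := by
    intro a b p
    induction p with
    | nil => intro h1 h2; exact absurd h1 h2
    | @cons a c b hac p ih =>
      intro h1 h2
      rcases Br_cut hT h h1 (show G.Adj a.1 c.1 from hac) with h3 | h3
      · exact ih h3 h2
      · exact h3.1 ▸ a.2
  exact key _ _ p hb (not_mem_Br x y)

lemma self_mem_EB {x y : V} (h : G.Adj x y) : s(x, y) ∈ EB G x y := by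
  refine ⟨h, fun u hu => ?_⟩
  rcases Sym2.mem_iff.1 hu with rfl | rfl
  · exact Or.inr rfl
  · exact Or.inl (self_mem_Br h)

lemma EB_sub (hT : G.IsTree) {x y z : V} (h : G.Adj x y) (hz : G.Adj y z) (hne : z ≠ x) :
    EB G y z ⊆ EB G x y := by
  rintro e ⟨he, hu⟩
  refine ⟨he, fun u h1 => Or.inl ?_⟩
  rcases hu u h1 with h2 | rfl
  · exact Br_sub hT h hz hne h2
  · exact self_mem_Br h

lemma not_mem_EB (hT : G.IsTree) {x y z : V} (h : G.Adj x y) (hz : G.Adj y z) (hne : z ≠ x) :
    s(x, y) ∉ EB G y z := by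
  rintro ⟨-, hu⟩
  rcases hu x (Sym2.mem_mk_left _ _) with h2 | h2
  · exact not_mem_Br x y (Br_sub hT h hz hne h2)
  · exact h.ne h2

lemma EB_disj (hT : G.IsTree) {y z z' : V} (h : G.Adj y z) (h' : G.Adj y z') (hne : z ≠ z')
    {e : Sym2 V} (he : e ∈ EB G y z) : e ∉ EB G y z' := by
  rintro ⟨-, hu'⟩
  obtain ⟨he, hu⟩ := he
  have key : ∀ u ∈ e, u = y := by
    intro u h1
    rcases hu u h1 with h2 | h2
    · rcases hu' u h1 with h3 | h3
      · exact absurd h3 (Br_disj hT h h' hne h2)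
      · exact h3
    · exact h2
  induction e using Sym2.ind with
  | h a b =>
    exact (show G.Adj a b from he).ne
      ((key a (Sym2.mem_mk_left _ _)).trans (key b (Sym2.mem_mk_right _ _)).symm)

lemma EB_cover (hT : G.IsTree) (v : V) {e : Sym2 V} (he : e ∈ G.edgeSet) :
    ∃ y, G.Adj v y ∧ e ∈ EB G v y := by
  have key : ∀ a b, G.Adj a b → a ≠ v → ∃ y, G.Adj v y ∧ s(a, b) ∈ EB G v y := by
    intro a b hab ha
    obtain ⟨y, hy, hay⟩ := Br_cover hT ha
    refine ⟨y, hy, hab, fun u hu => ?_⟩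
    rcases Sym2.mem_iff.1 hu with rfl | rfl
    · exact Or.inl hay
    · rcases Br_cut hT hy hay hab with h | h
      · exact Or.inl h
      · exact Or.inr h.2
  induction e using Sym2.ind with
  | h a b =>
    have hab : G.Adj a b := he
    by_cases ha : a = v
    · rw [Sym2.eq_swap]
      exact key b a hab.symm fun hb => hab.ne (ha.trans hb.symm)
    · exact key a b hab ha

/-- An edge is either in the branch `(x,y)`, or has both ends outside `Br G x y`. -/
lemma EB_or_out (hT : G.IsTree) {x y : V} (h : G.Adj x y) {e : Sym2 V} (he : e ∈ G.edgeSet) :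
    e ∈ EB G x y ∨ ∀ u ∈ e, u ∉ Br G x y := by
  by_contra hn
  push Not at hn
  obtain ⟨h1, u, hu, hb⟩ := hn
  refine h1 ⟨he, fun w hw => ?_⟩
  by_cases hwu : w = u
  · exact Or.inl (hwu ▸ hb)
  have : e = s(u, w) := (Sym2.mem_and_mem_iff (Ne.symm hwu)).1 ⟨hu, hw⟩
  subst this
  rcases Br_cut hT h hb (show G.Adj u w from he) with h2 | h2
  · exact Or.inl h2
  · exact Or.inr h2.2

/-- An edge of the branch `(x,y)` other than `xy` has both ends in `Br G x y`. -/
lemma EB_in (hT : G.IsTree) {x y : V} (h : G.Adj x y) {e : Sym2 V} (he : e ∈ EB G x y)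
    (hne : e ≠ s(x, y)) : ∀ u ∈ e, u ∈ Br G x y := by
  intro u hu
  rcases he.2 u hu with h1 | rfl
  · exact h1
  exfalso
  obtain ⟨w, rfl⟩ := Sym2.mem_iff_exists.1 hu
  have hw : G.Adj u w := he.1
  rcases he.2 w (Sym2.mem_mk_right _ _) with h2 | h2
  · rcases Br_cut hT h h2 hw.symm with h3 | h3
    · exact not_mem_Br _ _ h3
    · exact hne (by rw [h3.1])
  · exact hw.ne h2.symm

lemma iso_dist (g : G ≃g G) (hc : G.Connected) (u v : V) : G.dist (g u) (g v) = G.dist u v := by
  have key : ∀ (g : G ≃g G) u v, G.dist (g u) (g v) ≤ G.dist u v := by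
    intro g u v
    obtain ⟨p, hp⟩ := hc.exists_walk_length_eq_dist u v
    have := SimpleGraph.dist_le (p.map g.toHom)
    rwa [SimpleGraph.Walk.length_map, hp] at this
  refine le_antisymm (key g u v) ?_
  simpa using key g.symm (g u) (g v)

lemma Deep.self {W : Set V} {r : ℕ} {v : V} (h : Deep G W r v) : v ∈ W := h v (by simp)

lemma Deep.mono {W : Set V} {r r' : ℕ} {v : V} (h : Deep G W r v) (hr : r' ≤ r) : Deep G W r' v :=
  fun u hu => h u (hu.trans hr)

lemma Deep.subset {W W' : Set V} {r : ℕ} {v : V} (h : Deep G W r v) (hW : W ⊆ W') :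
    Deep G W' r v := fun u hu => hW (h u hu)

lemma Deep.add (hc : G.Connected) {W : Set V} {a b : ℕ} {v : V} (h : Deep G W (a + b) v) :
    Deep G {u | Deep G W a u} b v := fun u hu w hw =>
  h w ((hc.dist_triangle (v := u)).trans (by omega))

lemma Deep.adj (hc : G.Connected) {W : Set V} {r : ℕ} {v y : V} (h : Deep G W (r + 1) v)
    (hy : G.Adj v y) : Deep G W r y :=
  Deep.add hc h y (SimpleGraph.dist_eq_one_iff_adj.2 hy).le

lemma deep_univ (r : ℕ) (v : V) : Deep G Set.univ r v := fun _ _ => trivial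

section

variable [G.LocallyFinite]

lemma mem_ch {x y z : V} : z ∈ ch G x y ↔ G.Adj y z ∧ z ≠ x := by
  simp [ch, and_comm]

lemma Reg.card_nb {q : ℕ} (hG : Reg G q) (v : V) : (G.neighborFinset v).card = q + 1 := by
  rw [SimpleGraph.card_neighborFinset_eq_degree, hG.deg]

lemma Reg.card_ch {q : ℕ} (hG : Reg G q) {x y : V} (h : G.Adj x y) : (ch G x y).card = q := by
  rw [ch, card_erase_of_mem (by simpa using h.symm), hG.card_nb]
  simp

lemma Reg.exists_adj {q : ℕ} (hG : Reg G q) (v : V) : ∃ y, G.Adj v y := by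
  obtain ⟨y, hy⟩ := card_pos.1 (show 0 < (G.neighborFinset v).card by rw [hG.card_nb]; omega)
  exact ⟨y, by simpa using hy⟩

lemma Reg.exists_ch {q : ℕ} (hG : Reg G q) {x y : V} (h : G.Adj x y) : ∃ z, z ∈ ch G x y :=
  card_pos.1 (by rw [hG.card_ch h]; have := hG.two; omega)

lemma mem_Br_iff (hT : G.IsTree) {x y : V} (h : G.Adj x y) (u : V) :
    u ∈ Br G x y ↔ u = y ∨ ∃ z ∈ ch G x y, u ∈ Br G y z := by
  constructor
  · intro hu
    by_cases huy : u = y
    · exact Or.inl huy
    obtain ⟨z, hz, huz⟩ := Br_cover hT huy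
    refine Or.inr ⟨z, mem_ch.2 ⟨hz, ?_⟩, huz⟩
    rintro rfl
    exact (Br_compl hT h u).1 huz hu
  · rintro (rfl | ⟨z, hz, huz⟩)
    · exact self_mem_Br h
    · exact Br_sub hT h (mem_ch.1 hz).1 (mem_ch.1 hz).2 huz

lemma mem_EB_iff (hT : G.IsTree) {x y : V} (h : G.Adj x y) (e : Sym2 V) :
    e ∈ EB G x y ↔ e = s(x, y) ∨ ∃ z ∈ ch G x y, e ∈ EB G y z := by
  constructor
  · intro he
    by_cases hne : e = s(x, y)
    · exact Or.inl hne
    obtain ⟨z, hz, hez⟩ := EB_cover hT y he.1
    refine Or.inr ⟨z, mem_ch.2 ⟨hz, ?_⟩, hez⟩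
    rintro rfl
    have h1 := EB_in hT h he hne
    have h2 := EB_in hT hz hez (by rwa [Sym2.eq_swap])
    obtain ⟨u, hu⟩ : ∃ u, u ∈ e := ⟨_, Sym2.out_fst_mem e⟩
    exact (Br_compl hT h u).1 (h2 u hu) (h1 u hu)
  · rintro (rfl | ⟨z, hz, hez⟩)
    · exact self_mem_EB h
    · exact EB_sub hT h (mem_ch.1 hz).1 (mem_ch.1 hz).2 hez

lemma finite_ball (hc : G.Connected) (o : V) (R : ℕ) : {u | G.dist o u ≤ R}.Finite := by
  induction R with
  | zero =>
    refine (Set.finite_singleton o).subset fun u hu => ?_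
    exact (hc.dist_eq_zero_iff.1 (Nat.le_zero.1 hu)).symm
  | succ R ih =>
    refine ((Set.finite_singleton o).union
      (ih.biUnion fun v _ => (G.neighborSet v).toFinite)).subset fun u hu => ?_
    by_cases huo : o = u
    · exact Or.inl huo.symm
    obtain ⟨w, hw, hd⟩ := exists_closer hc huo
    rw [G.dist_comm (u := w), G.dist_comm (u := u)] at hd
    exact Or.inr (Set.mem_biUnion (show w ∈ {u | G.dist o u ≤ R} from
      Nat.lt_succ_iff.1 (hd.trans_le hu)) hw.symm)

lemma countable_V (hc : G.Connected) : Countable V := by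
  obtain ⟨o⟩ := hc.nonempty
  have : (Set.univ : Set V) = ⋃ n, {u | G.dist o u ≤ n} :=
    (Set.eq_univ_of_forall fun v => Set.mem_iUnion.2 ⟨G.dist o v, le_refl (G.dist o v)⟩).symm
  exact Set.countable_univ_iff.1
    (this ▸ Set.countable_iUnion fun n => (finite_ball hc o n).countable)

omit [G.LocallyFinite] in
lemma ball_connected (hc : G.Connected) (o : V) (R : ℕ) :
    (G.induce {u | G.dist o u ≤ R}).Connected := by
  have ho : o ∈ {u | G.dist o u ≤ R} := by simp
  have key : ∀ (n : ℕ) (v : V) (hv : v ∈ {u | G.dist o u ≤ R}), G.dist o v ≤ n →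
      (G.induce {u | G.dist o u ≤ R}).Reachable ⟨o, ho⟩ ⟨v, hv⟩ := by
    intro n
    induction n with
    | zero =>
      intro v hv h
      obtain rfl : o = v := hc.dist_eq_zero_iff.1 (Nat.le_zero.1 h)
      rfl
    | succ n ih =>
      intro v hv h
      by_cases hov : o = v
      · subst hov; rfl
      obtain ⟨w, hw, hd⟩ := exists_closer hc hov
      rw [G.dist_comm (u := w), G.dist_comm (u := v)] at hd
      have hw' : w ∈ {u | G.dist o u ≤ R} := (hd.trans_le hv).le
      exact (ih w hw' (by omega)).trans (SimpleGraph.Adj.reachable hw.symm)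
  rw [SimpleGraph.connected_iff_exists_forall_reachable]
  exact ⟨⟨o, ho⟩, fun v => key _ v.1 v.2 le_rfl⟩

/-- An exhaustion by finite connected sets. -/
lemma exists_exh (hc : G.Connected) : ∃ D : ℕ → Finset V,
    (∀ n, (G.induce (D n : Set V)).Connected) ∧ ∀ v R, ∀ᶠ n in atTop, Deep G (D n) R v := by
  obtain ⟨o⟩ := hc.nonempty
  refine ⟨fun n => (finite_ball hc o n).toFinset, fun n => ?_, fun v R => ?_⟩
  · rw [Set.Finite.coe_toFinset]
    exact ball_connected hc o n
  · filter_upwards [eventually_ge_atTop (G.dist o v + R)] with n hn u hu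
    rw [Set.Finite.coe_toFinset]
    exact (hc.dist_triangle (v := v)).trans (by omega)

/-- Every finite set is deep inside some finite connected set. -/
lemma exists_deep (hc : G.Connected) (S : Finset V) (R : ℕ) : ∃ D : Finset V,
    (G.induce (D : Set V)).Connected ∧ ∀ v ∈ S, Deep G D R v := by
  obtain ⟨D, h1, h2⟩ := exists_exh hc
  obtain ⟨n, hn⟩ := ((eventually_all_finset S).2 fun v _ => h2 v R).exists
  exact ⟨D n, h1 n, hn⟩

lemma sum_nb_iso (g : G ≃g G) (v : V) (f : V → ℝ) :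
    ∑ y ∈ G.neighborFinset (g v), f y = ∑ y ∈ G.neighborFinset v, f (g y) := by
  symm
  refine sum_bij (fun y _ => g y) (fun y hy => ?_) (fun _ _ _ _ h => g.injective h)
    (fun y hy => ⟨g.symm y, ?_, by simp⟩) fun _ _ => rfl
  · simpa [g.map_adj_iff] using hy
  · rw [SimpleGraph.mem_neighborFinset] at hy ⊢
    rw [← g.map_adj_iff]
    simpa using hy

lemma sum_ch_iso (g : G ≃g G) (x y : V) (f : V → ℝ) :
    ∑ z ∈ ch G (g x) (g y), f z = ∑ z ∈ ch G x y, f (g z) := by
  symm
  refine sum_bij (fun z _ => g z) (fun z hz => ?_) (fun _ _ _ _ h => g.injective h)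
    (fun z hz => ⟨g.symm z, ?_, by simp⟩) fun _ _ => rfl
  · rw [mem_ch] at hz ⊢
    exact ⟨g.map_adj_iff.2 hz.1, fun h => hz.2 (g.injective h)⟩
  · rw [mem_ch] at hz ⊢
    refine ⟨?_, fun h => hz.2 (by rw [← h]; simp)⟩
    rw [← g.map_adj_iff]
    simpa using hz.1

end

end Vale.Agent.P161
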