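import Vale.Agent.P161.Geom
import Vale.Agent.P161.Alg

/-!
Finite volume Ising models on trees.
-/

open MeasureTheory ProbabilityTheory Filter Topology Finset
open scoped Classical NNReal ENNReal

namespace Vale.Agent.P161

variable {V : Type} {G : SimpleGraph V} {D : Finset V} {B : ℝ} {h : Sym2 V → ℝ}

namespace IsingAux

lemma wt_pos (η : V → Bool) : 0 < wt G D B h η := Real.exp_pos _

lemma Z_pos : 0 < ∑ σ : D → Bool, wt G D B h (ext D σ) :=
  Finset.sum_pos (fun _ _ => wt_pos _) Finset.univ_nonempty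

lemma abs_sp (b : Bool) : |spin b| = 1 := by cases b <;> simp [spin]

lemma sp_sq (b : Bool) : spin b * spin b = 1 := by cases b <;> simp [spin]

lemma sp_not (b : Bool) : spin (!b) = -spin b := by cases b <;> simp [spin]

lemma ind_eq (a b : Bool) : (if a = b then (1 : ℝ) else 0) = (1 + spin b * spin a) / 2 := by
  cases a <;> cases b <;> simp [spin]

lemma mem_edgesIn {u v : V} : s(u, v) ∈ edgesIn G D ↔ (u ∈ D ∧ v ∈ D) ∧ G.Adj u v := by
  simp [edgesIn]

lemma mem_of_edgesIn {e : Sym2 V} (he : e ∈ edgesIn G D) :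
    e ∈ G.edgeSet ∧ ∀ u ∈ e, u ∈ D := by
  induction e using Sym2.ind with
  | h a b =>
    rw [mem_edgesIn] at he
    refine ⟨he.2, fun u hu => ?_⟩
    rcases Sym2.mem_iff.1 hu with rfl | rfl
    · exact he.1.1
    · exact he.1.2

lemma ext_not (σ : D → Bool) {v : V} (hv : v ∈ D) :
    ext D (fun u => !σ u) v = !ext D σ v := by simp [ext, hv]

/-- Flipping all spins is a bijection. -/
lemma sum_flp (f : (D → Bool) → ℝ) : ∑ σ : D → Bool, f (fun u => !σ u) = ∑ σ : D → Bool, f σ := by
  have hi : Function.Involutive (fun (σ : D → Bool) => fun u => !σ u) := fun σ => by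
    funext u; simp
  exact Equiv.sum_comp hi.toPerm f

lemma edgeSpin_flip (σ : D → Bool) {e : Sym2 V} (he : e ∈ edgesIn G D) :
    edgeSpin (ext D fun u => !σ u) e = edgeSpin (ext D σ) e := by
  induction e using Sym2.ind with
  | h a b =>
    rw [mem_edgesIn] at he
    simp [edgeSpin, ext_not σ he.1.1, ext_not σ he.1.2, sp_not]

lemma esum_flp (σ : D → Bool) {e : Sym2 V} (he : e ∈ edgesIn G D) :
    esum (ext D fun u => !σ u) e = -esum (ext D σ) e := by
  induction e using Sym2.ind with
  | h a b =>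
    rw [mem_edgesIn] at he
    simp [esum, ext_not σ he.1.1, ext_not σ he.1.2, sp_not]
    ring

lemma edgeSpin_congr {η η' : V → Bool} {e : Sym2 V} (H : ∀ u ∈ e, η u = η' u) :
    edgeSpin η e = edgeSpin η' e := by
  induction e using Sym2.ind with
  | h a b => simp [edgeSpin, H a (Sym2.mem_mk_left _ _), H b (Sym2.mem_mk_right _ _)]

lemma esum_congr {η η' : V → Bool} {e : Sym2 V} (H : ∀ u ∈ e, η u = η' u) :
    esum η e = esum η' e := by
  induction e using Sym2.ind with
  | h a b => simp [esum, H a (Sym2.mem_mk_left _ _), H b (Sym2.mem_mk_right _ _)]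

end IsingAux

open IsingAux

lemma ex_congr {φ ψ : (V → Bool) → ℝ} (H : ∀ σ, φ (ext D σ) = ψ (ext D σ)) :
    ex G D B h φ = ex G D B h ψ := by
  unfold ex
  simp only [H]

lemma ex_const (c : ℝ) : ex G D B h (fun _ => c) = c := by
  unfold ex
  rw [← Finset.sum_mul, mul_div_cancel_left₀ _ Z_pos.ne']

lemma ex_add (φ ψ : (V → Bool) → ℝ) :
    ex G D B h (fun η => φ η + ψ η) = ex G D B h φ + ex G D B h ψ := by
  unfold ex
  rw [← add_div, ← Finset.sum_add_distrib]
  simp only [mul_add]

lemma ex_mul (c : ℝ) (φ : (V → Bool) → ℝ) : ex G D B h (fun η => c * φ η) = c * ex G D B h φ := by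
  unfold ex
  rw [← mul_div_assoc, Finset.mul_sum]
  simp only [mul_left_comm]

lemma ex_sum {ι : Type} (s : Finset ι) (φ : ι → (V → Bool) → ℝ) :
    ex G D B h (fun η => ∑ i ∈ s, φ i η) = ∑ i ∈ s, ex G D B h (φ i) := by
  unfold ex
  rw [← Finset.sum_div, Finset.sum_comm]
  simp only [Finset.mul_sum]

lemma ex_mono {φ ψ : (V → Bool) → ℝ} (H : ∀ η, φ η ≤ ψ η) : ex G D B h φ ≤ ex G D B h ψ := by
  unfold ex
  exact div_le_div_of_nonneg_right
    (Finset.sum_le_sum fun σ _ => mul_le_mul_of_nonneg_left (H _) (wt_pos _).le) Z_pos.le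

lemma abs_ex_le {φ : (V → Bool) → ℝ} {C : ℝ} (H : ∀ η, |φ η| ≤ C) : |ex G D B h φ| ≤ C := by
  rw [abs_le]
  constructor
  · rw [← ex_const (G := G) (D := D) (B := B) (h := h) (-C)]
    exact ex_mono fun η => (abs_le.1 (H η)).1
  · conv_rhs => rw [← ex_const (G := G) (D := D) (B := B) (h := h) C]
    exact ex_mono fun η => (abs_le.1 (H η)).2

lemma abs_pm_le (v : V) : |pm G D B h v| ≤ 1 := abs_ex_le fun _ => (abs_sp _).le

lemma measurable_ex {Ω : Type} [MeasurableSpace Ω] {h : Ω → Sym2 V → ℝ} (hh : Measurable h)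
    {φ : Ω → (V → Bool) → ℝ} (hφ : ∀ η, Measurable fun ω => φ ω η) :
    Measurable fun ω => ex G D B (h ω) (φ ω) := by
  have hw : ∀ η, Measurable fun ω => wt G D B (h ω) η := fun η => by
    unfold wt
    refine Real.measurable_exp.comp (Finset.measurable_sum _ fun e _ => ?_)
    exact measurable_const.add (((measurable_pi_apply e).comp hh).mul measurable_const)
  unfold ex
  exact (Finset.measurable_sum _ fun σ _ => (hw _).mul (hφ _)).div
    (Finset.measurable_sum _ fun σ _ => hw _)

lemma measurable_pm : Measurable (pm G D B) :=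
  measurable_pi_lambda _ fun _ => measurable_ex measurable_id fun _ => measurable_const

lemma pm_neg {v : V} (hv : v ∈ D) : pm G D B (-h) v = -pm G D B h v := by
  have hw : ∀ σ : D → Bool, wt G D B (-h) (ext D fun u => !σ u) = wt G D B h (ext D σ) := by
    intro σ
    unfold wt
    congr 1
    refine Finset.sum_congr rfl fun e he => ?_
    rw [edgeSpin_flip σ he, esum_flp σ he]
    simp
  unfold pm ex
  rw [← sum_flp fun σ => wt G D B (-h) (ext D σ) * spin (ext D σ v),
    ← sum_flp fun σ => wt G D B (-h) (ext D σ), ← neg_div, ← Finset.sum_neg_distrib]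
  simp only [hw, ext_not _ hv, sp_not, mul_neg]

/-- Independence, under the uniform law, of functions of disjoint sets of spins. -/
lemma sum_mul_sum {A : Set V} {f g : (V → Bool) → ℝ} (hf : DependsOn f A) (hg : DependsOn g Aᶜ) :
    (∑ σ : D → Bool, f (ext D σ) * g (ext D σ)) * 2 ^ D.card =
      (∑ σ : D → Bool, f (ext D σ)) * ∑ σ : D → Bool, g (ext D σ) := by
  let mix : (D → Bool) → (D → Bool) → (D → Bool) := fun σ τ u => if u.1 ∈ A then σ u else τ u
  let T : (D → Bool) × (D → Bool) → (D → Bool) × (D → Bool) :=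
    fun p => (mix p.1 p.2, mix p.2 p.1)
  have hi : Function.Involutive T := fun p => by
    ext u <;> by_cases hu : u.1 ∈ A <;> simp [T, mix, hu]
  have h1 : ∀ σ τ, f (ext D (mix σ τ)) = f (ext D σ) := fun σ τ => hf fun u hu => by
    by_cases hD : u ∈ D <;> simp [ext, mix, hD, hu]
  have h2 : ∀ σ τ, g (ext D (mix σ τ)) = g (ext D τ) := fun σ τ => hg fun u hu => by
    have hu' : u ∉ A := hu
    by_cases hD : u ∈ D <;> simp [ext, mix, hD, hu']
  have h3 := Equiv.sum_comp hi.toPerm fun p => f (ext D p.1) * g (ext D p.1)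
  simp only [Function.Involutive.coe_toPerm, T, h1, h2] at h3
  rw [Finset.sum_mul_sum, ← Fintype.sum_prod_type', h3, Fintype.sum_prod_type, Finset.sum_mul]
  refine Finset.sum_congr rfl fun σ _ => ?_
  simp [mul_comm]

namespace IsingAux

lemma alg_indep {N Z A E F P Q P₀ Q₀ : ℝ} (hN : 0 < N) (hZ : 0 < Z) (e1 : A * N = P * Q)
    (e2 : E * N = P * Q₀) (e3 : F * N = P₀ * Q) (e4 : Z * N = P₀ * Q₀) :
    A / Z = E / Z * (F / Z) := by
  have h : A * Z = E * F := by
    apply mul_right_cancel₀ (mul_pos hN hN).ne'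
    calc A * Z * (N * N) = (A * N) * (Z * N) := by ring
      _ = (E * N) * (F * N) := by rw [e1, e2, e3, e4]; ring
      _ = _ := by ring
  field_simp
  exact h

lemma alg_raw {N Z C t I I' P Q A A' : ℝ} (hN : 0 < N) (hZ : 0 < Z) (hI : 0 < I)
    (e : A * N = I * P) (e' : A' * N = I' * Q) :
    C * (A + t * A') / Z = C * I / (N * Z) * (P + t * (I' / I) * Q) := by
  rw [eq_div_of_mul_eq hN.ne' e, eq_div_of_mul_eq hN.ne' e']
  field_simp

lemma alg_raw' {N Z C t I I' P Q A A' : ℝ} (hN : 0 < N) (hZ : 0 < Z) (hI : 0 < I)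
    (e : A * N = I' * P) (e' : A' * N = I * Q) :
    C * (A + t * A') / Z = C * I / (N * Z) * (I' / I * P + t * Q) := by
  rw [eq_div_of_mul_eq hN.ne' e, eq_div_of_mul_eq hN.ne' e']
  field_simp

/-- Independence when the weight factorises. -/
lemma ex_indep {A : Set V} {w₁ w₂ f g : (V → Bool) → ℝ} (hw : ∀ η, wt G D B h η = w₁ η * w₂ η)
    (h₁ : DependsOn w₁ A) (h₂ : DependsOn w₂ Aᶜ) (hf : DependsOn f A) (hg : DependsOn g Aᶜ) :
    ex G D B h (fun η => f η * g η) = ex G D B h f * ex G D B h g := by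
  have hZ := Z_pos (G := G) (D := D) (B := B) (h := h)
  have hN : (0 : ℝ) < 2 ^ D.card := by positivity
  have d1 : DependsOn (fun η => w₁ η * f η) A := fun _ _ H => by simp only [h₁ H, hf H]
  have d2 : DependsOn (fun η => w₂ η * g η) Aᶜ := fun _ _ H => by simp only [h₂ H, hg H]
  have e1 := sum_mul_sum (D := D) d1 d2
  have e2 := sum_mul_sum (D := D) d1 h₂
  have e3 := sum_mul_sum (D := D) h₁ d2
  have e4 := sum_mul_sum (D := D) h₁ h₂
  unfold ex
  simp only [hw] at hZ ⊢
  have r1 : ∑ σ : D → Bool, w₁ (ext D σ) * w₂ (ext D σ) * (f (ext D σ) * g (ext D σ)) =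
      ∑ σ : D → Bool, w₁ (ext D σ) * f (ext D σ) * (w₂ (ext D σ) * g (ext D σ)) :=
    Finset.sum_congr rfl fun _ _ => by ring
  have r2 : ∑ σ : D → Bool, w₁ (ext D σ) * w₂ (ext D σ) * f (ext D σ) =
      ∑ σ : D → Bool, w₁ (ext D σ) * f (ext D σ) * w₂ (ext D σ) :=
    Finset.sum_congr rfl fun _ _ => by ring
  have r3 : ∑ σ : D → Bool, w₁ (ext D σ) * w₂ (ext D σ) * g (ext D σ) =
      ∑ σ : D → Bool, w₁ (ext D σ) * (w₂ (ext D σ) * g (ext D σ)) :=
    Finset.sum_congr rfl fun _ _ => by ring
  rw [r1, r2, r3]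
  exact alg_indep hN hZ e1 e2 e3 e4

/-- The part of the edge sum carried by `A`. -/
noncomputable def esumOn (A : Set V) (η : V → Bool) : Sym2 V → ℝ :=
  Sym2.lift ⟨fun u v => (if u ∈ A then spin (η u) else 0) + (if v ∈ A then spin (η v) else 0),
    fun _ _ => add_comm _ _⟩

lemma esumOn_add (A : Set V) (η : V → Bool) (e : Sym2 V) :
    esum η e = esumOn A η e + esumOn Aᶜ η e := by
  induction e using Sym2.ind with
  | h a b => by_cases ha : a ∈ A <;> by_cases hb : b ∈ A <;> simp [esum, esumOn, ha, hb, add_comm]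

lemma esumOn_dep (A : Set V) (e : Sym2 V) : DependsOn (fun η => esumOn A η e) A := by
  intro η η' H
  induction e using Sym2.ind with
  | h a b =>
    by_cases ha : a ∈ A <;> by_cases hb : b ∈ A <;> simp [esumOn, ha, hb, H a, H b]

lemma ex_indep_zero {A : Set V} {f g : (V → Bool) → ℝ} (hf : DependsOn f A)
    (hg : DependsOn g Aᶜ) :
    ex G D 0 h (fun η => f η * g η) = ex G D 0 h f * ex G D 0 h g := by
  refine ex_indep (w₁ := fun η => Real.exp (∑ e ∈ edgesIn G D, h e * esumOn A η e))
    (w₂ := fun η => Real.exp (∑ e ∈ edgesIn G D, h e * esumOn Aᶜ η e)) (fun η => ?_)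
    (fun η η' H => ?_) (fun η η' H => ?_) hf hg
  · unfold wt
    rw [← Real.exp_add, ← Finset.sum_add_distrib]
    congr 1
    refine Finset.sum_congr rfl fun e _ => ?_
    rw [esumOn_add A]
    ring
  · simp only [fun e => esumOn_dep A e H]
  · simp only [fun e => esumOn_dep Aᶜ e H]

lemma ex_ind (v : V) (b : Bool) :
    ex G D B h (fun η => if η v = b then 1 else 0) = (1 + spin b * pm G D B h v) / 2 := by
  have : (fun η : V → Bool => if η v = b then (1 : ℝ) else 0) =
      fun η => 1 / 2 + (spin b / 2) * spin (η v) := by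
    funext η
    rw [ind_eq]
    ring
  rw [this, ex_add, ex_const, ex_mul, pm]
  ring

lemma ind_insert (S : Finset V) (v : V) (η η₀ : V → Bool) :
    (if ∀ u ∈ insert v S, η u = η₀ u then (1 : ℝ) else 0) =
      (if η v = η₀ v then 1 else 0) * if ∀ u ∈ S, η u = η₀ u then 1 else 0 := by
  rw [ite_zero_mul_ite_zero, one_mul]
  simp only [Finset.forall_mem_insert]

lemma ind_dep (S : Finset V) (η₀ : V → Bool) {A : Set V} (hA : ∀ u ∈ S, u ∈ A) :
    DependsOn (fun η : V → Bool => if ∀ u ∈ S, η u = η₀ u then (1 : ℝ) else 0) A := by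
  intro η η' H
  have : (∀ u ∈ S, η u = η₀ u) ↔ ∀ u ∈ S, η' u = η₀ u :=
    forall₂_congr fun u hu => by rw [H u (hA u hu)]
  simp only [this]

end IsingAux

/-- At zero coupling the spins are independent. -/
theorem ex_zero_coupling {S : Finset V} (hS : S ⊆ D) (η₀ : V → Bool) :
    ex G D 0 h (fun η => if ∀ v ∈ S, η v = η₀ v then 1 else 0) =
      ∏ v ∈ S, (1 + spin (η₀ v) * pm G D 0 h v) / 2 := by
  clear hS
  induction S using Finset.induction_on with
  | empty => simpa using ex_const 1
  | insert v S hv ih =>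
    simp only [ind_insert]
    rw [ex_indep_zero (A := {v}) (fun η η' H => by simp only [H v rfl])
      (ind_dep S η₀ fun u hu hu' => hv ((Set.mem_singleton_iff.1 hu') ▸ hu)), ih, ex_ind,
      Finset.prod_insert hv]

namespace IsingAux

/-- The weight of the `y` side of the edge `xy`. -/
noncomputable def win (G : SimpleGraph V) (D : Finset V) (B : ℝ) (h : Sym2 V → ℝ) (x y : V)
    (η : V → Bool) : ℝ :=
  Real.exp (∑ e ∈ ((edgesIn G D).filter (· ∈ EB G x y)).erase s(x, y),
    (B * edgeSpin η e + h e * esum η e) + h s(x, y) * spin (η y))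

/-- The weight of the `x` side of the edge `xy`. -/
noncomputable def wout (G : SimpleGraph V) (D : Finset V) (B : ℝ) (h : Sym2 V → ℝ) (x y : V)
    (η : V → Bool) : ℝ :=
  Real.exp (∑ e ∈ (edgesIn G D).filter (· ∉ EB G x y),
    (B * edgeSpin η e + h e * esum η e) + h s(x, y) * spin (η x))

/-- The cavity magnetisation of `y`. -/
noncomputable def cv (G : SimpleGraph V) (D : Finset V) (B : ℝ) (h : Sym2 V → ℝ) (x y : V) : ℝ :=
  (∑ σ : D → Bool, win G D B h x y (ext D σ) * spin (ext D σ y)) /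
    ∑ σ : D → Bool, win G D B h x y (ext D σ)

variable {x y : V}

lemma win_dep (hT : G.IsTree) (hxy : G.Adj x y) : DependsOn (win G D B h x y) (Br G x y) := by
  intro η η' H
  unfold win
  rw [H y (self_mem_Br hxy)]
  congr 2
  refine Finset.sum_congr rfl fun e he => ?_
  rw [Finset.mem_erase, Finset.mem_filter] at he
  have := EB_in hT hxy he.2.2 he.1
  rw [edgeSpin_congr fun u hu => H u (this u hu), esum_congr fun u hu => H u (this u hu)]

lemma wout_dep (hT : G.IsTree) (hxy : G.Adj x y) : DependsOn (wout G D B h x y) (Br G x y)ᶜ := by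
  intro η η' H
  unfold wout
  rw [H x (not_mem_Br x y)]
  congr 2
  refine Finset.sum_congr rfl fun e he => ?_
  rw [Finset.mem_filter] at he
  have := (EB_or_out hT hxy (mem_of_edgesIn he.1).1).resolve_left he.2
  rw [edgeSpin_congr fun u hu => H u (this u hu), esum_congr fun u hu => H u (this u hu)]

lemma exp_spin (B : ℝ) (a b : Bool) :
    Real.exp (B * (spin a * spin b)) = Real.cosh B * (1 + Real.tanh B * (spin a * spin b)) := by
  have hc := (Real.cosh_pos B).ne'
  have h1 : Real.exp B = Real.cosh B * (1 + Real.tanh B) := by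
    rw [Real.tanh_eq_sinh_div_cosh, mul_add, mul_div_cancel₀ _ hc, mul_one, Real.cosh_add_sinh]
  have h2 : Real.exp (-B) = Real.cosh B * (1 - Real.tanh B) := by
    rw [Real.tanh_eq_sinh_div_cosh, mul_sub, mul_div_cancel₀ _ hc, mul_one, Real.cosh_sub_sinh]
  cases a <;> cases b <;> simp [spin, h1, h2, sub_eq_add_neg]

lemma wt_eq (hxy : G.Adj x y) (hx : x ∈ D) (hy : y ∈ D) (η : V → Bool) :
    wt G D B h η = Real.cosh B * (win G D B h x y η * wout G D B h x y η *
      (1 + Real.tanh B * (spin (η x) * spin (η y)))) := by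
  have hm : s(x, y) ∈ (edgesIn G D).filter (· ∈ EB G x y) :=
    Finset.mem_filter.2 ⟨mem_edgesIn.2 ⟨⟨hx, hy⟩, hxy⟩, self_mem_EB hxy⟩
  rw [mul_left_comm, ← exp_spin]
  unfold wt win wout
  rw [← Real.exp_add, ← Real.exp_add,
    ← Finset.sum_filter_add_sum_filter_not (edgesIn G D) (· ∈ EB G x y),
    ← Finset.add_sum_erase _ _ hm]
  congr 1
  simp only [edgeSpin, esum, Sym2.lift_mk]
  ring

lemma win_pos (η : V → Bool) : 0 < win G D B h x y η := Real.exp_pos _

lemma wout_pos (η : V → Bool) : 0 < wout G D B h x y η := Real.exp_pos _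

lemma abs_avg_le {w : (D → Bool) → ℝ} (hw : ∀ σ, 0 < w σ) (b : (D → Bool) → Bool) :
    |(∑ σ, w σ * spin (b σ)) / ∑ σ, w σ| ≤ 1 := by
  have hZ : 0 < ∑ σ, w σ := Finset.sum_pos (fun σ _ => hw σ) Finset.univ_nonempty
  rw [abs_div, abs_of_pos hZ, div_le_one hZ]
  refine (Finset.abs_sum_le_sum_abs _ _).trans (le_of_eq ?_)
  refine Finset.sum_congr rfl fun σ _ => ?_
  rw [abs_mul, abs_sp, mul_one, abs_of_pos (hw σ)]

lemma abs_cv_le : |cv G D B h x y| ≤ 1 := abs_avg_le (fun _ => win_pos _) _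

/-- Unnormalised expectation on the `x` side. -/
noncomputable def Out (G : SimpleGraph V) (D : Finset V) (B : ℝ) (h : Sym2 V → ℝ) (x y : V)
    (φ : (V → Bool) → ℝ) : ℝ :=
  ∑ σ : D → Bool, wout G D B h x y (ext D σ) * φ (ext D σ)

lemma raw (hT : G.IsTree) (hxy : G.Adj x y) (hx : x ∈ D) (hy : y ∈ D) :
    ∃ c : ℝ, 0 < c ∧ ∀ φ : (V → Bool) → ℝ, DependsOn φ (Br G x y)ᶜ →
      ex G D B h φ = c * (Out G D B h x y φ +
        Real.tanh B * cv G D B h x y * Out G D B h x y fun η => φ η * spin (η x)) ∧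
      ex G D B h (fun η => φ η * spin (η y)) = c * (cv G D B h x y * Out G D B h x y φ +
        Real.tanh B * Out G D B h x y fun η => φ η * spin (η x)) := by
  have hZ := Z_pos (G := G) (D := D) (B := B) (h := h)
  have hN : (0 : ℝ) < 2 ^ D.card := by positivity
  have hI : 0 < ∑ σ : D → Bool, win G D B h x y (ext D σ) :=
    Finset.sum_pos (fun _ _ => win_pos _) Finset.univ_nonempty
  refine ⟨Real.cosh B * (∑ σ : D → Bool, win G D B h x y (ext D σ)) /
    (2 ^ D.card * ∑ σ : D → Bool, wt G D B h (ext D σ)), by have := Real.cosh_pos B; positivity,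
    fun φ hφ => ?_⟩
  have i0 := win_dep (D := D) (B := B) (h := h) hT hxy
  have i1 : DependsOn (fun η => win G D B h x y η * spin (η y)) (Br G x y) := fun _ _ H => by
    simp only [i0 H, H y (self_mem_Br hxy)]
  have o0 : DependsOn (fun η => wout G D B h x y η * φ η) (Br G x y)ᶜ := fun _ _ H => by
    simp only [wout_dep hT hxy H, hφ H]
  have o1 : DependsOn (fun η => wout G D B h x y η * (φ η * spin (η x))) (Br G x y)ᶜ :=
    fun _ _ H => by simp only [wout_dep hT hxy H, hφ H, H x (not_mem_Br x y)]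
  have e00 := sum_mul_sum (D := D) i0 o0
  have e01 := sum_mul_sum (D := D) i0 o1
  have e10 := sum_mul_sum (D := D) i1 o0
  have e11 := sum_mul_sum (D := D) i1 o1
  have r1 : ∑ σ : D → Bool, wt G D B h (ext D σ) * φ (ext D σ) = Real.cosh B *
      (∑ σ : D → Bool, win G D B h x y (ext D σ) * (wout G D B h x y (ext D σ) * φ (ext D σ)) +
        Real.tanh B * ∑ σ : D → Bool, win G D B h x y (ext D σ) * spin (ext D σ y) *
          (wout G D B h x y (ext D σ) * (φ (ext D σ) * spin (ext D σ x)))) := by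
    rw [Finset.mul_sum, ← Finset.sum_add_distrib, Finset.mul_sum]
    refine Finset.sum_congr rfl fun σ _ => ?_
    rw [wt_eq hxy hx hy]
    ring
  have r2 : ∑ σ : D → Bool, wt G D B h (ext D σ) * (φ (ext D σ) * spin (ext D σ y)) =
      Real.cosh B * (∑ σ : D → Bool, win G D B h x y (ext D σ) * spin (ext D σ y) *
        (wout G D B h x y (ext D σ) * φ (ext D σ)) +
        Real.tanh B * ∑ σ : D → Bool, win G D B h x y (ext D σ) *
          (wout G D B h x y (ext D σ) * (φ (ext D σ) * spin (ext D σ x)))) := by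
    rw [Finset.mul_sum, ← Finset.sum_add_distrib, Finset.mul_sum]
    refine Finset.sum_congr rfl fun σ _ => ?_
    rw [wt_eq hxy hx hy]
    have := sp_sq (ext D σ y)
    linear_combination (Real.cosh B * Real.tanh B * win G D B h x y (ext D σ) *
      wout G D B h x y (ext D σ) * φ (ext D σ) * spin (ext D σ x)) * this
  unfold ex cv Out
  rw [r1, r2]
  exact ⟨alg_raw hN hZ hI e00 e11, alg_raw' hN hZ hI e10 e01⟩

lemma dep_mul_x {φ : (V → Bool) → ℝ} (hφ : DependsOn φ (Br G x y)ᶜ) :
    DependsOn (fun η => φ η * spin (η x)) (Br G x y)ᶜ := fun _ _ H => by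
  simp only [hφ H, H x (not_mem_Br x y)]

lemma raw_x (φ : (V → Bool) → ℝ) :
    (Out G D B h x y fun η => φ η * spin (η x) * spin (η x)) = Out G D B h x y φ := by
  simp only [mul_assoc, sp_sq, mul_one]

lemma tanh_nonneg (hB : 0 ≤ B) : 0 ≤ Real.tanh B := by
  rw [Real.tanh_eq_sinh_div_cosh]
  exact div_nonneg (Real.sinh_nonneg_iff.2 hB) (Real.cosh_pos B).le

lemma bf_eq (hT : G.IsTree) (hB : 0 ≤ B) (hxy : G.Adj x y) (hx : x ∈ D) (hy : y ∈ D) :
    bf (Real.tanh B) (pm G D B h) x y = Real.tanh B * (1 - cv G D B h x y ^ 2) /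
      (1 - Real.tanh B ^ 2 * cv G D B h x y ^ 2) := by
  obtain ⟨c, hc, H⟩ := raw (B := B) (h := h) hT hxy hx hy
  have d1 : DependsOn (fun _ : V → Bool => (1 : ℝ)) (Br G x y)ᶜ := fun _ _ _ => rfl
  obtain ⟨a1, a2⟩ := H _ d1
  obtain ⟨a3, -⟩ := H _ (dep_mul_x d1)
  rw [raw_x] at a3
  rw [ex_const] at a1
  simp only [one_mul] at a1 a2 a3
  have hO : 0 < Out G D B h x y fun _ => 1 :=
    Finset.sum_pos (fun _ _ => mul_pos (wout_pos _) one_pos) Finset.univ_nonempty
  set a' := (Out G D B h x y fun η => spin (η x)) / Out G D B h x y fun _ => 1 with ha'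
  have hb : |a'| ≤ 1 := by
    have := abs_avg_le (D := D) (w := fun σ => wout G D B h x y (ext D σ))
      (fun _ => wout_pos _) fun σ => ext D σ x
    simpa [ha', Out] using this
  have hx' : (Out G D B h x y fun η => spin (η x)) = a' * Out G D B h x y fun _ => 1 := by
    rw [ha', div_mul_cancel₀ _ hO.ne']
  rw [hx'] at a1 a2 a3
  have hd : 1 + Real.tanh B * cv G D B h x y * a' ≠ 0 := by
    intro h0
    have : (1 : ℝ) = 0 := by
      rw [a1]
      linear_combination (c * Out G D B h x y fun _ => 1) * h0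
    exact one_ne_zero this
  have px : pm G D B h x = (a' + Real.tanh B * cv G D B h x y) /
      (1 + Real.tanh B * cv G D B h x y * a') := by
    rw [eq_div_iff hd, pm, a3]
    linear_combination (-(a' + Real.tanh B * cv G D B h x y)) * a1
  have py : pm G D B h y = (cv G D B h x y + Real.tanh B * a') /
      (1 + Real.tanh B * cv G D B h x y * a') := by
    rw [eq_div_iff hd, pm, a2]
    linear_combination (-(cv G D B h x y + Real.tanh B * a')) * a1
  rw [bf, clip_eq (abs_pm_le x), clip_eq (abs_pm_le y), bco, px, py,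
    cav_eq (tanh_nonneg hB) (Real.tanh_lt_one B) abs_cv_le hb]

lemma cv_zero (hy : y ∈ D) : cv G D B 0 x y = 0 := by
  have hw : ∀ σ : D → Bool, win G D B 0 x y (ext D fun u => !σ u) = win G D B 0 x y (ext D σ) := by
    intro σ
    unfold win
    simp only [Pi.zero_apply, zero_mul, add_zero]
    congr 1
    refine Finset.sum_congr rfl fun e he => ?_
    rw [edgeSpin_flip σ (Finset.mem_filter.1 (Finset.mem_erase.1 he).2).1]
  have := sum_flp fun σ : D → Bool => win G D B 0 x y (ext D σ) * spin (ext D σ y)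
  simp only [hw, ext_not _ hy, sp_not, mul_neg, Finset.sum_neg_distrib] at this
  have h0 : ∑ σ : D → Bool, win G D B 0 x y (ext D σ) * spin (ext D σ y) = 0 := by linarith
  rw [cv, h0, zero_div]

lemma step_zero (hT : G.IsTree) (hxy : G.Adj x y) (hx : x ∈ D) (hy : y ∈ D)
    {φ : (V → Bool) → ℝ} (hφ : DependsOn φ (Br G x y)ᶜ) :
    ex G D B 0 (fun η => φ η * spin (η y)) =
      Real.tanh B * ex G D B 0 (fun η => φ η * spin (η x)) := by
  obtain ⟨c, hc, H⟩ := raw (B := B) (h := 0) hT hxy hx hy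
  rw [(H _ hφ).2, (H _ (dep_mul_x hφ)).1, cv_zero hy]
  ring

lemma dist_Br (hT : G.IsTree) (hxy : G.Adj x y) {u o : V} (hu : u ∈ Br G x y)
    (ho : o ∉ Br G x y) : G.dist u y + G.dist y o ≤ G.dist u o := by
  obtain ⟨p, hp⟩ := hT.connected.exists_walk_length_eq_dist u o
  rw [← hp]
  clear hp
  induction p with
  | nil => exact absurd hu ho
  | @cons a c b hac p ih =>
    rw [SimpleGraph.Walk.length_cons]
    rcases Br_cut hT hxy hu hac with h3 | h3
    · have h4 := ih h3 ho
      have h5 := dist_adj hT hac y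
      omega
    · obtain ⟨rfl, rfl⟩ := h3
      have h4 := SimpleGraph.dist_le p
      have h5 := dist_adj hT hac b
      rw [SimpleGraph.dist_self]
      omega

lemma zero_field_aux (hT : G.IsTree) (o : V) (η₀ : V → Bool) (n : ℕ) : ∀ S : Finset V,
    S.card ≤ n → S ⊆ D → o ∈ S →
    (∀ y ∈ S, ∀ x, G.Adj y x → G.dist x o < G.dist y o → x ∈ S) →
    ex G D B 0 (fun η => if ∀ v ∈ S, η v = η₀ v then 1 else 0) =
      1 / 2 * ∏ e ∈ edgesIn G S, edgeWeight (Real.tanh B) η₀ e := by
  induction n with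
  | zero =>
    intro S hn _ ho _
    have := Finset.card_pos.2 ⟨o, ho⟩
    omega
  | succ n ih =>
    intro S hn hS ho hcl
    obtain ⟨y, hy, hmax⟩ := Finset.exists_max_image S (fun u => G.dist u o) ⟨o, ho⟩
    by_cases hyo : o = y
    · subst hyo
      have hSo : S = {o} := by
        refine Finset.eq_singleton_iff_unique_mem.2 ⟨ho, fun u hu => ?_⟩
        have := hmax u hu
        rw [SimpleGraph.dist_self] at this
        exact hT.connected.dist_eq_zero_iff.1 (Nat.le_zero.1 this)
      have hE : edgesIn G S = ∅ := by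
        refine Finset.eq_empty_of_forall_notMem fun e he => ?_
        induction e using Sym2.ind with
        | h a b =>
          rw [mem_edgesIn, hSo, Finset.mem_singleton, Finset.mem_singleton] at he
          exact he.2.ne (he.1.1.trans he.1.2.symm)
      have hp : pm G D B 0 o = 0 := by
        have := pm_neg (G := G) (B := B) (h := 0) (hS ho)
        rw [neg_zero] at this
        linarith
      rw [hE, hSo]
      simp only [Finset.mem_singleton, forall_eq]
      rw [ex_ind, hp]
      simp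
    · obtain ⟨x, hyx, hd⟩ := exists_closer hT.connected hyo
      have hx : x ∈ S := hcl y hy x hyx hd
      have hoB : o ∉ Br G x y := (Br_compl hT hyx.symm o).1 hd
      have hout : ∀ u ∈ S.erase y, u ∈ (Br G x y)ᶜ := by
        intro u hu hb
        rw [Finset.mem_erase] at hu
        have h1 := dist_Br hT hyx.symm hb hoB
        have h2 := hmax u hu.2
        exact hu.1 (hT.connected.dist_eq_zero_iff.1 (by omega))
      have hx' : x ∈ S.erase y := Finset.mem_erase.2 ⟨hyx.ne', hx⟩
      have IH := ih (S.erase y) (by rw [Finset.card_erase_of_mem hy]; omega)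
        ((Finset.erase_subset _ _).trans hS) (Finset.mem_erase.2 ⟨hyo, ho⟩) (by
          intro u hu w huw hw
          refine Finset.mem_erase.2 ⟨?_, hcl u (Finset.mem_erase.1 hu).2 w huw hw⟩
          rintro rfl
          have := hmax u (Finset.mem_erase.1 hu).2
          omega)
      have hE : edgesIn G S = insert s(x, y) (edgesIn G (S.erase y)) := by
        ext e
        induction e using Sym2.ind with
        | h a b =>
          rw [Finset.mem_insert, mem_edgesIn, mem_edgesIn]
          have key : ∀ w ∈ S, G.Adj y w → w = x := by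
            intro w hw hyw
            rcases Br_cut hT hyx.symm (self_mem_Br hyx.symm) hyw with h3 | h3
            · exact absurd h3 (hout w (Finset.mem_erase.2 ⟨hyw.ne', hw⟩))
            · exact h3.2
          constructor
          · rintro ⟨⟨ha, hb⟩, hab⟩
            by_cases hay : a = y
            · subst hay
              rw [key b hb hab]
              exact Or.inl (Sym2.eq_swap)
            by_cases hby : b = y
            · subst hby
              rw [key a ha hab.symm]
              exact Or.inl rfl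
            exact Or.inr ⟨⟨Finset.mem_erase.2 ⟨hay, ha⟩, Finset.mem_erase.2 ⟨hby, hb⟩⟩, hab⟩
          · rintro (h1 | ⟨⟨ha, hb⟩, hab⟩)
            · rw [← mem_edgesIn, h1, mem_edgesIn]
              exact ⟨⟨hx, hy⟩, hyx.symm⟩
            · exact ⟨⟨(Finset.mem_erase.1 ha).2, (Finset.mem_erase.1 hb).2⟩, hab⟩
      have hnot : s(x, y) ∉ edgesIn G (S.erase y) := by
        rw [mem_edgesIn]
        simp
      have hst := step_zero (B := B) hT hyx.symm (hS hx) (hS hy) (ind_dep (S.erase y) η₀ hout)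
      have hxx : (fun η : V → Bool => (if ∀ u ∈ S.erase y, η u = η₀ u then (1 : ℝ) else 0) *
          spin (η x)) = fun η => spin (η₀ x) * if ∀ u ∈ S.erase y, η u = η₀ u then 1 else 0 := by
        funext η
        split_ifs with h1
        · rw [h1 x hx', mul_comm]
        · simp
      have hind : (fun η : V → Bool => if ∀ v ∈ S, η v = η₀ v then (1 : ℝ) else 0) =
          fun η => 1 / 2 * (if ∀ u ∈ S.erase y, η u = η₀ u then (1 : ℝ) else 0) +
            spin (η₀ y) / 2 * ((if ∀ u ∈ S.erase y, η u = η₀ u then (1 : ℝ) else 0) *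
              spin (η y)) := by
        funext η
        have := ind_insert (S.erase y) y η η₀
        rw [Finset.insert_erase hy] at this
        rw [this, ind_eq]
        ring
      rw [hind, ex_add, ex_mul, ex_mul, hst, hxx, ex_mul, IH, hE, Finset.prod_insert hnot]
      simp only [edgeWeight, Sym2.lift_mk]
      ring

end IsingAux

/-- Marginals at zero field. -/
theorem ex_zero_field (hT : G.IsTree) {S : Finset V} (hS : S ⊆ D)
    (hc : (G.induce (S : Set V)).Connected) (η₀ : V → Bool) :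
    ex G D B 0 (fun η => if ∀ v ∈ S, η v = η₀ v then 1 else 0) =
      1 / 2 * ∏ e ∈ edgesIn G S, edgeWeight (Real.tanh B) η₀ e := by
  obtain ⟨⟨o, ho⟩⟩ := hc.nonempty
  exact zero_field_aux hT o η₀ _ S le_rfl hS ho fun y hy x hyx hd =>
    Br_conv hT hc hyx hy ho hd

/-- The regression coefficient of a dart only depends on the fields in its branch. -/
theorem bf_pm_congr (hT : G.IsTree) (hB : 0 ≤ B) {x y : V} (hxy : G.Adj x y) (hx : x ∈ D)
    (hy : y ∈ D) {h' : Sym2 V → ℝ} (hh : ∀ e ∈ EB G x y, h e = h' e) :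
    bf (Real.tanh B) (pm G D B h) x y = bf (Real.tanh B) (pm G D B h') x y := by
  have hw : win G D B h x y = win G D B h' x y := by
    funext η
    unfold win
    rw [hh _ (self_mem_EB hxy)]
    congr 2
    refine Finset.sum_congr rfl fun e he => ?_
    rw [hh e (Finset.mem_filter.1 (Finset.mem_erase.1 he).2).2]
  rw [bf_eq hT hB hxy hx hy, bf_eq hT hB hxy hx hy, cv, cv, hw]

/-- Markov property along an edge. -/
theorem cov_step (hT : G.IsTree) (hB : 0 ≤ B) {x y : V} (hxy : G.Adj x y) (hx : x ∈ D)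
    (hy : y ∈ D) {φ : (V → Bool) → ℝ} (hφ : DependsOn φ (Br G x y)ᶜ) :
    ex G D B h (fun η => φ η * spin (η y)) - ex G D B h φ * pm G D B h y =
      bf (Real.tanh B) (pm G D B h) x y *
        (ex G D B h (fun η => φ η * spin (η x)) - ex G D B h φ * pm G D B h x) := by
  obtain ⟨c, hc, H⟩ := raw (B := B) (h := h) hT hxy hx hy
  have d1 : DependsOn (fun _ : V → Bool => (1 : ℝ)) (Br G x y)ᶜ := fun _ _ _ => rfl
  obtain ⟨a1, a2⟩ := H _ d1
  obtain ⟨a3, -⟩ := H _ (dep_mul_x d1)
  obtain ⟨b1, b2⟩ := H _ hφ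
  obtain ⟨b3, -⟩ := H _ (dep_mul_x hφ)
  rw [raw_x] at a3 b3
  rw [ex_const] at a1
  simp only [one_mul] at a1 a2 a3
  have hd : 1 - Real.tanh B ^ 2 * cv G D B h x y ^ 2 ≠ 0 := by
    have h1 : Real.tanh B ^ 2 < 1 := by
      have := tanh_nonneg hB
      have := Real.tanh_lt_one B
      nlinarith
    have h2 : cv G D B h x y ^ 2 ≤ 1 := by
      have := abs_le.1 (abs_cv_le (G := G) (D := D) (B := B) (h := h) (x := x) (y := y))
      nlinarith
    have h3 := sq_nonneg (Real.tanh B)
    nlinarith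
  rw [bf_eq hT hB hxy hx hy, div_mul_eq_mul_div, eq_div_iff hd, pm, pm, a2, a3, b1, b2, b3]
  generalize (Out G D B h x y fun η => φ η * spin (η x)) = Q at *
  generalize Out G D B h x y φ = P at *
  generalize (Out G D B h x y fun η => spin (η x)) = X at *
  generalize (Out G D B h x y fun _ => 1) = O at *
  generalize cv G D B h x y = a at *
  generalize Real.tanh B = t at *
  linear_combination (c * (a * P + t * Q) * (1 - t ^ 2 * a ^ 2) -
    t * (1 - a ^ 2) * c * (Q + t * a * P)) * a1

namespace IsingAux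

/-- Covariance. -/
noncomputable def Cov (G : SimpleGraph V) (D : Finset V) (B : ℝ) (h : Sym2 V → ℝ)
    (φ ψ : (V → Bool) → ℝ) : ℝ :=
  ex G D B h (fun η => φ η * ψ η) - ex G D B h φ * ex G D B h ψ

lemma Cov_add (φ ψ χ : (V → Bool) → ℝ) :
    Cov G D B h φ (fun η => ψ η + χ η) = Cov G D B h φ ψ + Cov G D B h φ χ := by
  unfold Cov
  simp only [mul_add]
  rw [ex_add, ex_add]
  ring

lemma Cov_mul (c : ℝ) (φ ψ : (V → Bool) → ℝ) :
    Cov G D B h φ (fun η => c * ψ η) = c * Cov G D B h φ ψ := by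
  unfold Cov
  simp only [fun η => mul_left_comm (φ η) c (ψ η)]
  rw [ex_mul, ex_mul]
  ring

lemma Cov_sum {ι : Type} (s : Finset ι) (φ : (V → Bool) → ℝ) (ψ : ι → (V → Bool) → ℝ) :
    Cov G D B h φ (fun η => ∑ i ∈ s, ψ i η) = ∑ i ∈ s, Cov G D B h φ (ψ i) := by
  unfold Cov
  simp only [Finset.mul_sum]
  rw [ex_sum, ex_sum, Finset.mul_sum, Finset.sum_sub_distrib]

lemma branch [G.LocallyFinite] (hT : G.IsTree) (hD : (G.induce (D : Set V)).Connected)
    (hB : 0 ≤ B) (ζ : Sym2 V → ℝ) (R : ℕ) : ∀ x y : V, G.Adj x y → x ∈ D →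
    (D.filter (· ∈ Br G x y)).card ≤ R → ∀ φ : (V → Bool) → ℝ, DependsOn φ (Br G x y)ᶜ →
    Cov G D B h φ (fun η => ∑ e ∈ (edgesIn G D).filter (· ∈ EB G x y), ζ e * esum η e) =
      K G (rD D (af (Real.tanh B) (pm G D B h))) (rD D (bf (Real.tanh B) (pm G D B h))) ζ R x y *
        Cov G D B h φ fun η => spin (η x) := by
  have out : ∀ x y : V, G.Adj x y → x ∈ D → y ∉ D → ∀ φ : (V → Bool) → ℝ,
      Cov G D B h φ (fun η => ∑ e ∈ (edgesIn G D).filter (· ∈ EB G x y), ζ e * esum η e) = 0 := by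
    intro x y hxy hx hy φ
    have hE : (edgesIn G D).filter (· ∈ EB G x y) = ∅ := by
      refine Finset.eq_empty_of_forall_notMem fun e he => hy ?_
      rw [Finset.mem_filter] at he
      by_cases hne : e = s(x, y)
      · exact (mem_of_edgesIn he.1).2 y (hne ▸ Sym2.mem_mk_right _ _)
      · exact Br_conv hT hD hxy hx ((mem_of_edgesIn he.1).2 _ (Sym2.out_fst_mem e))
          (EB_in hT hxy he.2 hne _ (Sym2.out_fst_mem e))
    rw [hE, Cov_sum]
    simp
  induction R with
  | zero =>
    intro x y hxy hx hR φ hφ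
    have hy : y ∉ D := fun hy => by
      have : 0 < (D.filter (· ∈ Br G x y)).card :=
        Finset.card_pos.2 ⟨y, Finset.mem_filter.2 ⟨hy, self_mem_Br hxy⟩⟩
      omega
    rw [out x y hxy hx hy]
    simp [K]
  | succ R ih =>
    intro x y hxy hx hR φ hφ
    by_cases hy : y ∈ D
    swap
    · rw [out x y hxy hx hy]
      simp [K, rD, hy]
    have hE : ∀ f : Sym2 V → ℝ, ∑ e ∈ (edgesIn G D).filter (· ∈ EB G x y), f e =
        f s(x, y) + ∑ z ∈ ch G x y, ∑ e ∈ (edgesIn G D).filter (· ∈ EB G y z), f e := by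
      intro f
      rw [← Finset.sum_biUnion, ← Finset.sum_insert]
      · congr 1
        ext e
        simp only [Finset.mem_filter, Finset.mem_insert, Finset.mem_biUnion,
          mem_EB_iff hT hxy e]
        constructor
        · rintro ⟨h1, h2 | ⟨z, hz, h2⟩⟩
          · exact Or.inl h2
          · exact Or.inr ⟨z, hz, h1, h2⟩
        · rintro (rfl | ⟨z, hz, h1, h2⟩)
          · exact ⟨mem_edgesIn.2 ⟨⟨hx, hy⟩, hxy⟩, Or.inl rfl⟩
          · exact ⟨h1, Or.inr ⟨z, hz, h2⟩⟩
      · simp only [Finset.mem_filter, Finset.mem_biUnion]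
        rintro ⟨z, hz, -, h2⟩
        exact not_mem_EB hT hxy (mem_ch.1 hz).1 (mem_ch.1 hz).2 h2
      · intro z hz z' hz' hne
        refine Finset.disjoint_left.2 fun e h1 h2 => ?_
        exact EB_disj hT (mem_ch.1 hz).1 (mem_ch.1 hz').1 hne (Finset.mem_filter.1 h1).2
          (Finset.mem_filter.1 h2).2
    have hstep : (Cov G D B h φ fun η => spin (η y)) =
        bf (Real.tanh B) (pm G D B h) x y * Cov G D B h φ fun η => spin (η x) :=
      cov_step hT hB hxy hx hy hφ
    simp only [hE]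
    rw [Cov_add, Cov_mul, Cov_sum]
    simp only [esum, Sym2.lift_mk]
    rw [Cov_add]
    have hch : ∀ z ∈ ch G x y,
        Cov G D B h φ (fun η => ∑ e ∈ (edgesIn G D).filter (· ∈ EB G y z), ζ e * esum η e) =
          K G (rD D (af (Real.tanh B) (pm G D B h))) (rD D (bf (Real.tanh B) (pm G D B h)))
            ζ R y z * Cov G D B h φ fun η => spin (η y) := by
      intro z hz
      have hsub := Br_sub hT hxy (mem_ch.1 hz).1 (mem_ch.1 hz).2
      refine ih y z (mem_ch.1 hz).1 hy ?_ φ (hφ.mono (Set.compl_subset_compl.2 hsub))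
      have : (D.filter (· ∈ Br G y z)).card < (D.filter (· ∈ Br G x y)).card := by
        refine Finset.card_lt_card ⟨fun u hu => ?_, fun hs => ?_⟩
        · rw [Finset.mem_filter] at hu ⊢
          exact ⟨hu.1, hsub hu.2⟩
        · exact not_mem_Br y z
            (Finset.mem_filter.1 (hs (Finset.mem_filter.2 ⟨hy, self_mem_Br hxy⟩))).2
      omega
    have hch' := Finset.sum_congr rfl hch
    simp only [esum] at hch'
    rw [hch', ← Finset.sum_mul, hstep]
    simp only [K, rD, hx, hy, and_self, if_true, af]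
    ring

end IsingAux

/-- Covariance of a spin with a linear form in the edge sums. -/
theorem cov_formula [G.LocallyFinite] (hT : G.IsTree) (hD : (G.induce (D : Set V)).Connected)
    (hB : 0 ≤ B) {v : V} (hv : v ∈ D) (ζ : Sym2 V → ℝ) {R : ℕ} (hR : D.card ≤ R) :
    ex G D B h (fun η => spin (η v) * ∑ e ∈ edgesIn G D, ζ e * esum η e) -
        pm G D B h v * ex G D B h (fun η => ∑ e ∈ edgesIn G D, ζ e * esum η e) =
      vf (pm G D B h) v * KI G (rD D (af (Real.tanh B) (pm G D B h)))
        (rD D (bf (Real.tanh B) (pm G D B h))) ζ R v := by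
  have hE : ∀ f : Sym2 V → ℝ, ∑ e ∈ edgesIn G D, f e =
      ∑ y ∈ G.neighborFinset v, ∑ e ∈ (edgesIn G D).filter (· ∈ EB G v y), f e := by
    intro f
    rw [← Finset.sum_biUnion]
    · congr 1
      ext e
      simp only [Finset.mem_filter, Finset.mem_biUnion, SimpleGraph.mem_neighborFinset]
      constructor
      · intro h1
        obtain ⟨y, hy, h2⟩ := EB_cover hT v (mem_of_edgesIn h1).1
        exact ⟨y, hy, h1, h2⟩
      · rintro ⟨y, -, h1, -⟩
        exact h1
    · intro z hz z' hz' hne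
      refine Finset.disjoint_left.2 fun e h1 h2 => ?_
      exact EB_disj hT (by simpa using hz) (by simpa using hz') hne (Finset.mem_filter.1 h1).2
        (Finset.mem_filter.1 h2).2
  have hvar : (Cov G D B h (fun η => spin (η v)) fun η => spin (η v)) = vf (pm G D B h) v := by
    unfold Cov
    simp only [sp_sq]
    rw [ex_const, vf, clip_eq (abs_pm_le v), pm]
    ring
  change Cov G D B h (fun η => spin (η v)) (fun η => ∑ e ∈ edgesIn G D, ζ e * esum η e) = _
  have hfun : (fun η : V → Bool => ∑ e ∈ edgesIn G D, ζ e * esum η e) = fun η =>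
      ∑ y ∈ G.neighborFinset v, ∑ e ∈ (edgesIn G D).filter (· ∈ EB G v y), ζ e * esum η e :=
    funext fun η => hE _
  rw [hfun, Cov_sum, KI, Finset.mul_sum]
  refine Finset.sum_congr rfl fun y hy => ?_
  rw [SimpleGraph.mem_neighborFinset] at hy
  rw [branch hT hD hB ζ R v y hy hv ((Finset.card_filter_le _ _).trans hR) _
    (fun η η' H => by simp only [H v (not_mem_Br v y)]), hvar, mul_comm]

end Vale.Agent.P161
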