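import Mathlib

/-!
Elementary `L²` estimates.
-/

open MeasureTheory Filter Topology Finset
open scoped NNReal ENNReal

namespace Vale.Agent.P161

variable {Ω : Type} [MeasurableSpace Ω] {P : Measure Ω} {f g : Ω → ℝ}

lemma int_mul (hf : MemLp f 2 P) (hg : MemLp g 2 P) : Integrable (fun ω => f ω * g ω) P :=
  hf.integrable_mul hg

lemma ml_add (hf : MemLp f 2 P) (hg : MemLp g 2 P) : MemLp (fun ω => f ω + g ω) 2 P := hf.add hg

lemma ml_sub (hf : MemLp f 2 P) (hg : MemLp g 2 P) : MemLp (fun ω => f ω - g ω) 2 P := hf.sub hg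

lemma int_sq_nonneg (f : Ω → ℝ) : 0 ≤ ∫ ω, f ω ^ 2 ∂P := integral_nonneg fun _ => sq_nonneg _

lemma int_sq_add (hf : MemLp f 2 P) (hg : MemLp g 2 P) :
    ∫ ω, (f ω + g ω) ^ 2 ∂P = ∫ ω, f ω ^ 2 ∂P + 2 * ∫ ω, f ω * g ω ∂P + ∫ ω, g ω ^ 2 ∂P := by
  have h : Integrable (fun ω => f ω ^ 2 + 2 * (f ω * g ω)) P :=
    hf.integrable_sq.add ((int_mul hf hg).const_mul 2)
  rw [← integral_const_mul, ← integral_add hf.integrable_sq ((int_mul hf hg).const_mul 2),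
    ← integral_add h hg.integrable_sq]
  congr 1
  funext ω
  ring

lemma int_sq_add_le' (hf : MemLp f 2 P) (hg : MemLp g 2 P) {ε : ℝ} (hε : 0 < ε) :
    ∫ ω, (f ω + g ω) ^ 2 ∂P ≤ (1 + ε) * ∫ ω, f ω ^ 2 ∂P + (1 + ε⁻¹) * ∫ ω, g ω ^ 2 ∂P := by
  rw [← integral_const_mul, ← integral_const_mul,
    ← integral_add (hf.integrable_sq.const_mul _) (hg.integrable_sq.const_mul _)]
  refine integral_mono (hf.add hg).integrable_sq
    ((hf.integrable_sq.const_mul _).add (hg.integrable_sq.const_mul _)) fun ω => ?_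
  have h : (1 + ε) * f ω ^ 2 + (1 + ε⁻¹) * g ω ^ 2 - (f ω + g ω) ^ 2 =
      ε⁻¹ * (ε * f ω - g ω) ^ 2 := by
    field_simp
    ring
  have h2 : 0 ≤ ε⁻¹ * (ε * f ω - g ω) ^ 2 := by positivity
  simp only
  linarith

lemma int_sq_add_le (hf : MemLp f 2 P) (hg : MemLp g 2 P) :
    ∫ ω, (f ω + g ω) ^ 2 ∂P ≤ 2 * ∫ ω, f ω ^ 2 ∂P + 2 * ∫ ω, g ω ^ 2 ∂P := by
  have := int_sq_add_le' hf hg one_pos
  norm_num at this
  exact this

lemma int_sq_sub_le (hf : MemLp f 2 P) (hg : MemLp g 2 P) :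
    ∫ ω, (f ω - g ω) ^ 2 ∂P ≤ 2 * ∫ ω, f ω ^ 2 ∂P + 2 * ∫ ω, g ω ^ 2 ∂P := by
  simpa [sub_eq_add_neg] using int_sq_add_le hf hg.neg

lemma int_sq_sub_comm (f g : Ω → ℝ) : ∫ ω, (f ω - g ω) ^ 2 ∂P = ∫ ω, (g ω - f ω) ^ 2 ∂P := by
  congr 1
  funext ω
  ring

/-- The `L²` norm. -/
noncomputable def nrm (P : Measure Ω) (f : Ω → ℝ) : ℝ := √(∫ ω, f ω ^ 2 ∂P)

lemma nrm_nonneg (f : Ω → ℝ) : 0 ≤ nrm P f := Real.sqrt_nonneg _

lemma nrm_sq (f : Ω → ℝ) : nrm P f ^ 2 = ∫ ω, f ω ^ 2 ∂P := Real.sq_sqrt (int_sq_nonneg f)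

lemma nrm_le_iff {c : ℝ} (hc : 0 ≤ c) : nrm P f ≤ c ↔ ∫ ω, f ω ^ 2 ∂P ≤ c ^ 2 :=
  Real.sqrt_le_left hc

lemma integral_mul_le_nrm (hf : MemLp f 2 P) (hg : MemLp g 2 P) :
    ∫ ω, f ω * g ω ∂P ≤ nrm P f * nrm P g := by
  have key : ∀ t : ℝ, 0 ≤ (∫ ω, g ω ^ 2 ∂P) * (t * t) + (2 * ∫ ω, f ω * g ω ∂P) * t +
      ∫ ω, f ω ^ 2 ∂P := by
    intro t
    have h1 := int_sq_add hf (hg.const_mul t)
    have h2 := int_sq_nonneg (P := P) fun ω => f ω + t * g ω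
    have h3 : ∫ ω, f ω * (t * g ω) ∂P = t * ∫ ω, f ω * g ω ∂P := by
      rw [← integral_const_mul]; congr 1; funext ω; ring
    have h4 : ∫ ω, (t * g ω) ^ 2 ∂P = t ^ 2 * ∫ ω, g ω ^ 2 ∂P := by
      rw [← integral_const_mul]; congr 1; funext ω; ring
    rw [h1, h3, h4] at h2
    linarith
  have h := discrim_le_zero key
  rw [discrim, ← nrm_sq, ← nrm_sq] at h
  refine (abs_le_of_sq_le_sq' ?_ (mul_nonneg (nrm_nonneg _) (nrm_nonneg _))).2
  nlinarith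

lemma nrm_neg (f : Ω → ℝ) : nrm P (fun ω => -f ω) = nrm P f := by simp [nrm]

lemma nrm_abs (f : Ω → ℝ) : nrm P (fun ω => |f ω|) = nrm P f := by simp [nrm]

lemma abs_integral_mul_le_nrm (hf : MemLp f 2 P) (hg : MemLp g 2 P) :
    |∫ ω, f ω * g ω ∂P| ≤ nrm P f * nrm P g := by
  refine abs_le.2 ⟨?_, integral_mul_le_nrm hf hg⟩
  have := integral_mul_le_nrm hf.neg hg
  have h2 : nrm P (-f) = nrm P f := nrm_neg f
  simp only [Pi.neg_apply, neg_mul, integral_neg, h2] at this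
  linarith

lemma nrm_add_le (hf : MemLp f 2 P) (hg : MemLp g 2 P) :
    nrm P (fun ω => f ω + g ω) ≤ nrm P f + nrm P g := by
  rw [nrm_le_iff (add_nonneg (nrm_nonneg _) (nrm_nonneg _)), int_sq_add hf hg, ← nrm_sq, ← nrm_sq]
  have := integral_mul_le_nrm hf hg
  nlinarith

lemma nrm_sub_le (hf : MemLp f 2 P) (hg : MemLp g 2 P) :
    nrm P (fun ω => f ω - g ω) ≤ nrm P f + nrm P g := by
  have := nrm_add_le hf hg.neg
  have h2 : nrm P (-g) = nrm P g := nrm_neg g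
  simpa [sub_eq_add_neg, h2] using this

lemma nrm_sub_comm (f g : Ω → ℝ) : nrm P (fun ω => f ω - g ω) = nrm P fun ω => g ω - f ω := by
  rw [nrm, nrm, int_sq_sub_comm]

lemma nrm_triangle {h : Ω → ℝ} (hf : MemLp f 2 P) (hg : MemLp g 2 P) (hh : MemLp h 2 P) :
    nrm P (fun ω => f ω - h ω) ≤ nrm P (fun ω => f ω - g ω) + nrm P fun ω => g ω - h ω := by
  simpa using nrm_add_le (ml_sub hf hg) (ml_sub hg hh)

lemma nrm_const_mul (c : ℝ) (f : Ω → ℝ) : nrm P (fun ω => c * f ω) = |c| * nrm P f := by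
  simp only [nrm, mul_pow, integral_const_mul]
  rw [Real.sqrt_mul (sq_nonneg c), Real.sqrt_sq_eq_abs]

lemma nrm_mono (hg : MemLp g 2 P) (h : ∀ᵐ ω ∂P, |f ω| ≤ |g ω|) : nrm P f ≤ nrm P g :=
  Real.sqrt_le_sqrt (integral_mono_of_nonneg (ae_of_all _ fun _ => sq_nonneg _) hg.integrable_sq
    (h.mono fun _ h => sq_le_sq.2 h))

lemma integral_abs_le_nrm [IsProbabilityMeasure P] (hf : MemLp f 2 P) :
    ∫ ω, |f ω| ∂P ≤ nrm P f := by
  have := integral_mul_le_nrm hf.abs (memLp_const (1 : ℝ))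
  simpa [nrm] using this

lemma eLpNorm_eq_nrm (hf : MemLp f 2 P) : eLpNorm f 2 P = ENNReal.ofReal (nrm P f) := by
  rw [hf.eLpNorm_eq_integral_rpow_norm two_ne_zero ENNReal.ofNat_ne_top, nrm, Real.sqrt_eq_rpow]
  simp

/-- Orthogonal sums. -/
lemma int_sq_sum_orth {d : ℕ → Ω → ℝ} (n : ℕ) (hd : ∀ i < n, MemLp (d i) 2 P)
    (ho : ∀ i < n, ∫ ω, (∑ j ∈ range i, d j ω) * d i ω ∂P = 0) :
    ∫ ω, (∑ j ∈ range n, d j ω) ^ 2 ∂P = ∑ j ∈ range n, ∫ ω, d j ω ^ 2 ∂P := by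
  induction n with
  | zero => simp
  | succ n ih =>
    simp only [sum_range_succ]
    rw [int_sq_add (memLp_finsetSum _ fun j hj => hd j (by simp at hj; omega)) (hd n (by omega)),
      ho n (by omega), ih (fun i hi => hd i (by omega)) fun i hi => ho i (by omega)]
    ring

/-- Fast Cauchy sequences converge almost surely and in `L²`. -/
lemma l2_limit {f : ℕ → Ω → ℝ} (hf : ∀ n, MemLp (f n) 2 P) {b : ℕ → ℝ} (hb : Summable b)
    (h : ∀ N n m, N ≤ n → N ≤ m → nrm P (fun ω => f n ω - f m ω) ≤ b N) :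
    (∀ᵐ ω ∂P, Tendsto (f · ω) atTop (𝓝 (limUnder atTop (f · ω)))) ∧
      MemLp (fun ω => limUnder atTop (f · ω)) 2 P ∧
      Tendsto (fun n => nrm P fun ω => f n ω - limUnder atTop (f · ω)) atTop (𝓝 0) := by
  have hb0 : ∀ N, 0 ≤ b N := fun N => (nrm_nonneg _).trans (h N N N le_rfl le_rfl)
  let B : ℕ → ℝ≥0∞ := fun N => ENNReal.ofReal (b N + (1 / 2) ^ N)
  have hB : ∑' i, B i ≠ ∞ := by
    rw [← ENNReal.ofReal_tsum_of_nonneg (fun N => add_nonneg (hb0 N) (by positivity))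
      (hb.add summable_geometric_two)]
    exact ENNReal.ofReal_ne_top
  have hc : ∀ N n m : ℕ, N ≤ n → N ≤ m → eLpNorm (f n - f m) 2 P < B N := by
    intro N n m hn hm
    rw [eLpNorm_eq_nrm ((hf n).sub (hf m))]
    refine (ENNReal.ofReal_lt_ofReal_iff (add_pos_of_nonneg_of_pos (hb0 N) (by positivity))).2 ?_
    exact (h N n m hn hm).trans_lt (lt_add_of_pos_right _ (by positivity))
  have h1 : ∀ᵐ ω ∂P, Tendsto (f · ω) atTop (𝓝 (limUnder atTop (f · ω))) :=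
    (Lp.ae_tendsto_of_cauchy_eLpNorm (fun n => (hf n).1) one_le_two hB hc).mono
      fun ω h => tendsto_nhds_limUnder h
  have h2 := Lp.cauchy_tendsto_of_tendsto (fun n => (hf n).1) _ hB hc h1
  have h3 := Lp.memLp_of_cauchy_tendsto one_le_two hf _
    (aestronglyMeasurable_of_tendsto_ae atTop (fun n => (hf n).1) h1) h2
  refine ⟨h1, h3, ?_⟩
  have h4 := (ENNReal.tendsto_toReal ENNReal.zero_ne_top).comp h2
  simp only [ENNReal.toReal_zero] at h4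
  refine h4.congr fun n => ?_
  simp only [Function.comp_apply]
  rw [eLpNorm_eq_nrm ((hf n).sub h3), ENNReal.toReal_ofReal (nrm_nonneg _)]
  rfl

lemma l2_limit' {f : ℕ → Ω → ℝ} (hf : ∀ n, MemLp (f n) 2 P) {b : ℕ → ℝ} (hb : Summable b)
    (n₀ : ℕ) (h : ∀ N n m, n₀ ≤ N → N ≤ n → N ≤ m → nrm P (fun ω => f n ω - f m ω) ≤ b N) :
    (∀ᵐ ω ∂P, Tendsto (f · ω) atTop (𝓝 (limUnder atTop (f · ω)))) ∧
      MemLp (fun ω => limUnder atTop (f · ω)) 2 P ∧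
      ∀ N, n₀ ≤ N → nrm P (fun ω => f N ω - limUnder atTop (f · ω)) ≤ b N := by
  obtain ⟨h1, h2, h3⟩ := l2_limit (f := fun n => f (n + n₀)) (fun n => hf _)
    ((summable_nat_add_iff n₀).2 hb) fun N n m hn hm =>
      h (N + n₀) (n + n₀) (m + n₀) (by omega) (by omega) (by omega)
  have e : ∀ ω, (limUnder atTop fun n => f (n + n₀) ω) = limUnder atTop (f · ω) := fun ω => by
    unfold limUnder
    rw [show Filter.map (fun n => f (n + n₀) ω) atTop =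
      Filter.map (f · ω) (Filter.map (· + n₀) atTop) from rfl, map_add_atTop_eq_nat n₀]
  simp only [e] at h1 h2 h3
  refine ⟨h1.mono fun ω h => (tendsto_add_atTop_iff_nat n₀).1 h, h2, fun N hN => ?_⟩
  have h4 := h3.const_add (b N)
  rw [add_zero] at h4
  refine ge_of_tendsto h4 ?_
  filter_upwards [eventually_ge_atTop N] with n hn
  exact (nrm_triangle (hf N) (hf (n + n₀)) h2).trans
    (add_le_add_left (h N N (n + n₀) hN le_rfl (by omega)) _)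

/-- Summable `L²` errors tend to zero almost surely. -/
lemma ae_tendsto_of_nrm {f : ℕ → Ω → ℝ} (hf : ∀ n, MemLp (f n) 2 P) (hg : MemLp g 2 P)
    {b : ℕ → ℝ} (hb : Summable b) (hb' : Antitone b)
    (h : ∀ᶠ n in atTop, nrm P (fun ω => f n ω - g ω) ≤ b n) :
    ∀ᵐ ω ∂P, Tendsto (f · ω) atTop (𝓝 (g ω)) := by
  obtain ⟨n₀, hn₀⟩ := eventually_atTop.1 h
  have hb1 : Summable fun n => 2 * b (n + n₀) := ((summable_nat_add_iff n₀).2 hb).mul_left 2
  obtain ⟨h1, h2, h3⟩ := l2_limit (f := fun n => f (n + n₀)) (fun n => hf _) hb1 (by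
    intro N n m hn hm
    refine (nrm_triangle (hf _) hg (hf _)).trans ?_
    rw [nrm_sub_comm g]
    have e1 := (hn₀ (n + n₀) (by omega)).trans (hb' (show N + n₀ ≤ n + n₀ by omega))
    have e2 := (hn₀ (m + n₀) (by omega)).trans (hb' (show N + n₀ ≤ m + n₀ by omega))
    linarith)
  set l := fun ω => limUnder atTop fun n => f (n + n₀) ω
  have h4 : nrm P (fun ω => l ω - g ω) ≤ 0 := by
    have h5 : Tendsto (fun n => (nrm P fun ω => f (n + n₀) ω - l ω) + b (n + n₀)) atTop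
        (𝓝 (0 + 0)) := h3.add ((summable_nat_add_iff n₀).2 hb).tendsto_atTop_zero
    rw [add_zero] at h5
    refine ge_of_tendsto' h5 fun n => (nrm_triangle h2 (hf (n + n₀)) hg).trans ?_
    rw [nrm_sub_comm l]
    exact add_le_add_right (hn₀ _ (by omega)) _
  have h6 : ∫ ω, (l ω - g ω) ^ 2 ∂P = 0 := by
    rw [← nrm_sq, le_antisymm h4 (nrm_nonneg _)]
    simp
  rw [integral_eq_zero_iff_of_nonneg (fun _ => sq_nonneg _) (ml_sub h2 hg).integrable_sq] at h6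
  filter_upwards [h1, h6] with ω h1 h6
  have : l ω = g ω := by simpa [sub_eq_zero] using h6
  rw [← this]
  exact (tendsto_add_atTop_iff_nat n₀).1 h1

end Vale.Agent.P161
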