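import Vale.Agent.P161.Gauss
import Vale.Agent.P161.Alg
import Vale.Agent.P161.L2

/-!
Deterministic estimates for the inner products `M`.
-/

open MeasureTheory ProbabilityTheory Filter Topology Finset
open scoped Classical NNReal ENNReal

namespace Vale.Agent.P161

variable {V : Type} {G : SimpleGraph V} [G.LocallyFinite] {q : ℕ} {ρ : ℝ}
  {a b a' b' : V → V → ℝ}

/-- Bounded coefficients. -/
structure Bd (q : ℕ) (ρ : ℝ) (a b : V → V → ℝ) : Prop where
  a_le : ∀ x y, |a x y| ≤ 2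
  b_nonneg : ∀ x y, 0 ≤ b x y
  b_le : ∀ x y, q * b x y ^ 2 ≤ ρ

lemma bf_nonneg {θ : ℝ} (h0 : 0 ≤ θ) (h1 : θ < 1) (m : V → ℝ) (x y : V) : 0 ≤ bf θ m x y :=
  bco_nonneg h0 h1 (abs_clip_le_one _) (abs_clip_le_one _)

lemma bf_le {θ : ℝ} (h0 : 0 ≤ θ) (h1 : θ < 1) (m : V → ℝ) (x y : V) : bf θ m x y ≤ θ :=
  bco_le h0 h1 (abs_clip_le_one _) (abs_clip_le_one _)

lemma bd_field {θ : ℝ} (h0 : 0 ≤ θ) (h1 : θ < 1) (h : q * θ ^ 2 ≤ ρ) (m : V → ℝ) :
    Bd q ρ (af θ m) (bf θ m) := by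
  refine ⟨fun x y => ?_, bf_nonneg h0 h1 m, fun x y => le_trans ?_ h⟩
  · have := bf_nonneg h0 h1 m x y
    have := bf_le h0 h1 m x y
    rw [af, abs_le]
    constructor <;> linarith
  · have := bf_nonneg h0 h1 m x y
    have := bf_le h0 h1 m x y
    gcongr

lemma Bd.rD (h : Bd q ρ a b) (hρ : 0 ≤ ρ) (D : Finset V) : Bd q ρ (rD D a) (rD D b) := by
  refine ⟨fun x y => ?_, fun x y => ?_, fun x y => ?_⟩ <;> unfold P161.rD <;> split_ifs
  exacts [h.a_le x y, by simp, h.b_nonneg x y, le_rfl, h.b_le x y, by simpa using hρ]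

lemma Bd.mono {ρ' : ℝ} (h : Bd q ρ a b) (hρ : ρ ≤ ρ') : Bd q ρ' a b :=
  ⟨h.a_le, h.b_nonneg, fun x y => (h.b_le x y).trans hρ⟩

variable (G) in
/-- Squared norm of `α κ - α' κ'`. -/
noncomputable def Qf (a b a' b' : V → V → ℝ) (r : ℕ) (α α' : ℝ) (x y : V) : ℝ :=
  α ^ 2 * M G a b a b r x y - 2 * α * α' * M G a b a' b' r x y + α' ^ 2 * M G a' b' a' b' r x y

lemma Qf_zero (α α' : ℝ) (x y : V) : Qf G a b a' b' 0 α α' x y = 0 := by simp [Qf, M]

lemma Qf_succ (r : ℕ) (α α' : ℝ) (x y : V) : Qf G a b a' b' (r + 1) α α' x y =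
    (α * a x y - α' * a' x y) ^ 2 +
      ∑ z ∈ ch G x y, Qf G a b a' b' r (α * b x y) (α' * b' x y) y z := by
  simp only [Qf, M, sum_add_distrib, sum_sub_distrib, ← mul_sum]
  ring

lemma Qf_nonneg (r : ℕ) (α α' : ℝ) (x y : V) : 0 ≤ Qf G a b a' b' r α α' x y := by
  induction r generalizing α α' x y with
  | zero => rw [Qf_zero]
  | succ r ih =>
    rw [Qf_succ]
    exact add_nonneg (sq_nonneg _) (sum_nonneg fun z _ => ih _ _ _ _)

lemma Qf_le_succ (r : ℕ) (α α' : ℝ) (x y : V) :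
    Qf G a b a' b' r α α' x y ≤ Qf G a b a' b' (r + 1) α α' x y := by
  induction r generalizing α α' x y with
  | zero => rw [Qf_zero]; exact Qf_nonneg _ _ _ _ _
  | succ r ih =>
    rw [Qf_succ, Qf_succ]
    exact add_le_add_right (sum_le_sum fun z _ => ih _ _ _ _) _

lemma Qf_mono (α α' : ℝ) (x y : V) : Monotone fun r => Qf G a b a' b' r α α' x y :=
  monotone_nat_of_le_succ fun r => Qf_le_succ r α α' x y

lemma Qf_split (r : ℕ) (α α' : ℝ) (x y : V) {ε : ℝ} (hε : 0 < ε) :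
    Qf G a b a' b' r α α' x y ≤ (1 + ε) * α ^ 2 * Qf G a b a' b' r 1 1 x y +
      (1 + ε⁻¹) * (α - α') ^ 2 * M G a' b' a' b' r x y := by
  have h := Qf_nonneg (G := G) (a := a) (b := b) (a' := a') (b' := b') r (ε * α)
    (ε * α + (α - α')) x y
  have h2 : (1 + ε) * α ^ 2 * Qf G a b a' b' r 1 1 x y +
      (1 + ε⁻¹) * (α - α') ^ 2 * M G a' b' a' b' r x y - Qf G a b a' b' r α α' x y =
      ε⁻¹ * Qf G a b a' b' r (ε * α) (ε * α + (α - α')) x y := by
    simp only [Qf]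
    field_simp
    ring
  have h3 := mul_nonneg (inv_nonneg.2 hε.le) h
  linarith

lemma M_self_eq (r : ℕ) (x y : V) : M G a b a b r x y = Qf G a b a b r 1 0 x y := by simp [Qf]

lemma M_self_nonneg (r : ℕ) (x y : V) : 0 ≤ M G a b a b r x y :=
  M_self_eq (G := G) r x y ▸ Qf_nonneg _ _ _ _ _

lemma M_self_mono (x y : V) : Monotone fun r => M G a b a b r x y := by
  simpa only [M_self_eq] using Qf_mono 1 0 x y

lemma M_le_half (r : ℕ) (x y : V) :
    M G a b a' b' r x y ≤ (M G a b a b r x y + M G a' b' a' b' r x y) / 2 := by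
  have := Qf_nonneg (G := G) (a := a) (b := b) (a' := a') (b' := b') r 1 1 x y
  simp only [Qf] at this
  linarith

lemma mul_sum_ch_le (hG : Reg G q) {x y : V} (hxy : G.Adj x y) {w c : ℝ} (hw : 0 ≤ w)
    (hρ : q * w ≤ ρ) (hc : 0 ≤ c) {f : V → ℝ} (hf : ∀ z ∈ ch G x y, f z ≤ c) :
    w * ∑ z ∈ ch G x y, f z ≤ ρ * c := by
  have h1 : ∑ z ∈ ch G x y, f z ≤ q * c := by
    simpa [hG.card_ch hxy] using sum_le_card_nsmul _ _ _ hf
  calc w * ∑ z ∈ ch G x y, f z ≤ w * (q * c) := by gcongr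
    _ = q * w * c := by ring
    _ ≤ ρ * c := by gcongr

lemma M_self_le (hG : Reg G q) (h : Bd q ρ a b) (hρ : ρ < 1) (r : ℕ) {x y : V} (hxy : G.Adj x y) :
    M G a b a b r x y ≤ 4 / (1 - ρ) := by
  have h1 : 0 < 1 - ρ := by linarith
  induction r generalizing x y with
  | zero => simp only [M]; positivity
  | succ r ih =>
    simp only [M]
    have h2 := mul_sum_ch_le hG hxy (sq_nonneg _) (h.b_le x y) (c := 4 / (1 - ρ)) (by positivity)
      fun z hz => ih (mem_ch.1 hz).1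
    have h3 : a x y * a x y ≤ 4 := by nlinarith [abs_le.1 (h.a_le x y)]
    have h4 : 4 + ρ * (4 / (1 - ρ)) = 4 / (1 - ρ) := by field_simp; ring
    rw [← sq (b x y)]
    linarith

lemma M_tail (hG : Reg G q) (h : Bd q ρ a b) (hρ : ρ < 1) (r k : ℕ) {x y : V} (hxy : G.Adj x y) :
    M G a b a b (r + k) x y - M G a b a b r x y ≤ ρ ^ r * (4 / (1 - ρ)) := by
  have h1 : 0 < 1 - ρ := by linarith
  have h0 : 0 ≤ ρ := le_trans (by positivity) (h.b_le x y)
  induction r generalizing x y with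
  | zero => simpa [M] using M_self_le hG h hρ k hxy
  | succ r ih =>
    rw [show r + 1 + k = (r + k) + 1 by ring]
    simp only [M]
    have h2 := mul_sum_ch_le hG hxy (sq_nonneg _) (h.b_le x y) (c := ρ ^ r * (4 / (1 - ρ)))
      (by positivity) fun z hz => ih (mem_ch.1 hz).1
    rw [sum_sub_distrib] at h2
    rw [← sq (b x y), pow_succ ρ]
    linarith

lemma sum_nb_le (hG : Reg G q) (v : V) {c : ℝ} {f : V → ℝ} (hf : ∀ y, G.Adj v y → f y ≤ c) :
    ∑ y ∈ G.neighborFinset v, f y ≤ (q + 1) * c := by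
  simpa [hG.deg] using sum_le_card_nsmul (G.neighborFinset v) f c fun y hy => hf y (by simpa using hy)

lemma MI_self_nonneg (r : ℕ) (v : V) : 0 ≤ MI G a b a b r v :=
  sum_nonneg fun _ _ => M_self_nonneg _ _ _

lemma MI_self_le (hG : Reg G q) (h : Bd q ρ a b) (hρ : ρ < 1) (r : ℕ) (v : V) :
    MI G a b a b r v ≤ (q + 1) * (4 / (1 - ρ)) :=
  sum_nb_le hG v fun _ hy => M_self_le hG h hρ r hy

lemma MI_tail (hG : Reg G q) (h : Bd q ρ a b) (hρ : ρ < 1) (r k : ℕ) (v : V) :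
    MI G a b a b (r + k) v - MI G a b a b r v ≤ (q + 1) * (ρ ^ r * (4 / (1 - ρ))) := by
  rw [MI, MI, ← sum_sub_distrib]
  exact sum_nb_le hG v fun _ hy => M_tail hG h hρ r k hy

lemma Qf_le (hG : Reg G q) (h : Bd q ρ a b) (h' : Bd q ρ a' b') (hρ : ρ < 1) (r : ℕ) {α α' : ℝ}
    (hα : |α| ≤ 1) (hα' : |α'| ≤ 1) {x y : V} (hxy : G.Adj x y) :
    Qf G a b a' b' r α α' x y ≤ 16 / (1 - ρ) := by
  have h1 := Qf_nonneg (G := G) (a := a) (b := b) (a' := a') (b' := b') r α (-α') x y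
  have h2 := M_self_le hG h hρ r hxy
  have h3 := M_self_le hG h' hρ r hxy
  have h4 := M_self_nonneg (G := G) (a := a) (b := b) r x y
  have h5 := M_self_nonneg (G := G) (a := a') (b := b') r x y
  have h6 : α ^ 2 ≤ 1 := by nlinarith [abs_le.1 hα]
  have h7 : α' ^ 2 ≤ 1 := by nlinarith [abs_le.1 hα']
  have h8 := mul_le_of_le_one_left h4 h6
  have h9 := mul_le_of_le_one_left h5 h7
  simp only [Qf] at h1 ⊢
  have : 16 / (1 - ρ) = 4 * (4 / (1 - ρ)) := by ring
  nlinarith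

section

variable {Ω : Type} [MeasurableSpace Ω] {P : Measure Ω} [IsProbabilityMeasure P]
  {a b a' b' : Ω → V → V → ℝ}

omit [IsProbabilityMeasure P] in
lemma measurable_Qf (ha : ∀ x y, Measurable fun ω => a ω x y)
    (hb : ∀ x y, Measurable fun ω => b ω x y) (ha' : ∀ x y, Measurable fun ω => a' ω x y)
    (hb' : ∀ x y, Measurable fun ω => b' ω x y) {α α' : Ω → ℝ} (hα : Measurable α)
    (hα' : Measurable α') (r : ℕ) (x y : V) :
    Measurable fun ω => Qf G (a ω) (b ω) (a' ω) (b' ω) r (α ω) (α' ω) x y := by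
  have h1 := measurable_M (G := G) ha hb ha hb r x y
  have h2 := measurable_M (G := G) ha hb ha' hb' r x y
  have h3 := measurable_M (G := G) ha' hb' ha' hb' r x y
  unfold Qf
  fun_prop

lemma integrable_of_bdd {f : Ω → ℝ} (hf : Measurable f) {c : ℝ} (h : ∀ ω, |f ω| ≤ c) :
    Integrable f P :=
  (integrable_const c).mono' hf.aestronglyMeasurable (ae_of_all _ h)

/-- Crude comparison below the threshold. -/
lemma integral_Qf_le (hG : Reg G q) (hρ : ρ < 1) (ha : ∀ x y, Measurable fun ω => a ω x y)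
    (hb : ∀ x y, Measurable fun ω => b ω x y) (ha' : ∀ x y, Measurable fun ω => a' ω x y)
    (hb' : ∀ x y, Measurable fun ω => b' ω x y) (h : ∀ ω, Bd q ρ (a ω) (b ω))
    (h' : ∀ ω, Bd q ρ (a' ω) (b' ω)) {W : Set V} {S : ℝ} (hS0 : 0 ≤ S)
    (hS : ∀ x y, G.Adj x y → x ∈ W → y ∈ W →
      ∫ ω, (a ω x y - a' ω x y) ^ 2 ∂P ≤ S ∧ ∫ ω, (b ω x y - b' ω x y) ^ 2 ∂P ≤ S)
    (r : ℕ) {x y : V} (hxy : G.Adj x y) (hx : Deep G W r x) :
    ∫ ω, Qf G (a ω) (b ω) (a' ω) (b' ω) r 1 1 x y ∂P ≤ 26 * q / (1 - ρ) ^ 3 * S := by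
  have h1 : 0 < 1 - ρ := by linarith
  have hq : (2 : ℝ) ≤ q := by exact_mod_cast hG.two
  have hne : Nonempty Ω := nonempty_of_isProbabilityMeasure P
  have h0 : 0 ≤ ρ := le_trans (by positivity) ((h hne.some).b_le x y)
  have hint : ∀ r x y, G.Adj x y →
      Integrable (fun ω => Qf G (a ω) (b ω) (a' ω) (b' ω) r 1 1 x y) P := fun r x y hxy =>
    integrable_of_bdd (measurable_Qf ha hb ha' hb' measurable_const measurable_const r x y)
      fun ω => by
        rw [abs_of_nonneg (Qf_nonneg _ _ _ _ _)]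
        exact Qf_le hG (h ω) (h' ω) hρ r (by simp) (by simp) hxy
  induction r generalizing x y with
  | zero => simp only [Qf_zero, integral_zero]; positivity
  | succ r ih =>
    have hy := hx.adj hG.tree.connected hxy
    obtain ⟨hSa, hSb⟩ := hS x y hxy hx.self hy.self
    have ia : Integrable (fun ω => (a ω x y - a' ω x y) ^ 2) P :=
      integrable_of_bdd (((ha x y).sub (ha' x y)).pow_const 2) (c := 16) fun ω => by
        rw [abs_of_nonneg (sq_nonneg _)]
        nlinarith [abs_le.1 ((h ω).a_le x y), abs_le.1 ((h' ω).a_le x y)]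
    have ib : Integrable (fun ω => (b ω x y - b' ω x y) ^ 2) P :=
      integrable_of_bdd (((hb x y).sub (hb' x y)).pow_const 2) (c := 2) fun ω => by
        rw [abs_of_nonneg (sq_nonneg _)]
        have e1 := (h ω).b_le x y
        have e2 := (h' ω).b_le x y
        have e3 := mul_nonneg ((h ω).b_nonneg x y) ((h' ω).b_nonneg x y)
        nlinarith [sq_nonneg (b ω x y), sq_nonneg (b' ω x y)]
    have iq : Integrable (fun ω => ∑ z ∈ ch G x y,
        Qf G (a ω) (b ω) (a' ω) (b' ω) r 1 1 y z) P :=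
      integrable_finsetSum _ fun z hz => hint r y z (mem_ch.1 hz).1
    have key : ∀ ω, Qf G (a ω) (b ω) (a' ω) (b' ω) (r + 1) 1 1 x y ≤
        (a ω x y - a' ω x y) ^ 2 + (1 + ρ) / 2 / q *
          ∑ z ∈ ch G x y, Qf G (a ω) (b ω) (a' ω) (b' ω) r 1 1 y z +
          12 * q / (1 - ρ) ^ 2 * (b ω x y - b' ω x y) ^ 2 := by
      intro ω
      rw [Qf_succ, add_assoc]
      simp only [one_mul]
      refine add_le_add_right ?_ _
      have hε : 0 < (1 - ρ) / 2 := by positivity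
      have e1 : (1 + (1 - ρ) / 2) * b ω x y ^ 2 ≤ (1 + ρ) / 2 / q := by
        rw [le_div_iff₀ (by positivity)]
        have := (h ω).b_le x y
        nlinarith
      have e2 : (1 + ((1 - ρ) / 2)⁻¹) * (4 / (1 - ρ)) ≤ 12 / (1 - ρ) ^ 2 := by
        rw [inv_div, le_div_iff₀ (by positivity)]
        field_simp
        linarith
      have e3 : ∀ z ∈ ch G x y, Qf G (a ω) (b ω) (a' ω) (b' ω) r (b ω x y) (b' ω x y) y z ≤
          (1 + ρ) / 2 / q * Qf G (a ω) (b ω) (a' ω) (b' ω) r 1 1 y z +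
            12 / (1 - ρ) ^ 2 * (b ω x y - b' ω x y) ^ 2 := by
        intro z hz
        refine (Qf_split r _ _ y z hε).trans (add_le_add ?_ ?_)
        · exact mul_le_mul_of_nonneg_right e1 (Qf_nonneg _ _ _ _ _)
        · calc _ ≤ (1 + ((1 - ρ) / 2)⁻¹) * (b ω x y - b' ω x y) ^ 2 * (4 / (1 - ρ)) := by
                gcongr
                exact M_self_le hG (h' ω) hρ r (mem_ch.1 hz).1
            _ = (1 + ((1 - ρ) / 2)⁻¹) * (4 / (1 - ρ)) * (b ω x y - b' ω x y) ^ 2 := by ring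
            _ ≤ _ := by gcongr
      refine (sum_le_sum e3).trans (le_of_eq ?_)
      rw [sum_add_distrib, ← mul_sum, sum_const, hG.card_ch hxy, nsmul_eq_mul]
      ring
    have i1 : Integrable (fun ω => (a ω x y - a' ω x y) ^ 2 + (1 + ρ) / 2 / q *
        ∑ z ∈ ch G x y, Qf G (a ω) (b ω) (a' ω) (b' ω) r 1 1 y z) P := ia.add (iq.const_mul _)
    refine (integral_mono (hint _ x y hxy) (i1.add (ib.const_mul _)) key).trans ?_
    rw [integral_add' i1 (ib.const_mul _), integral_add ia (iq.const_mul _), integral_const_mul,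
      integral_const_mul, integral_finsetSum _ fun z hz => hint r y z (mem_ch.1 hz).1]
    have e4 := mul_sum_ch_le hG hxy (w := (1 + ρ) / 2 / q) (ρ := (1 + ρ) / 2) (by positivity)
      (le_of_eq (by field_simp)) (c := 26 * q / (1 - ρ) ^ 3 * S) (by positivity)
      fun z hz => ih (mem_ch.1 hz).1 hy
    have e5 : 12 * q / (1 - ρ) ^ 2 * ∫ ω, (b ω x y - b' ω x y) ^ 2 ∂P ≤
        12 * q / (1 - ρ) ^ 2 * S := by gcongr
    have e6 : S ≤ q / (1 - ρ) ^ 2 * S := by
      refine le_mul_of_one_le_left hS0 ?_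
      rw [le_div_iff₀ (by positivity)]
      nlinarith
    have e7 : q / (1 - ρ) ^ 2 * S + (1 + ρ) / 2 * (26 * q / (1 - ρ) ^ 3 * S) +
        12 * q / (1 - ρ) ^ 2 * S = 26 * q / (1 - ρ) ^ 3 * S := by
      field_simp
      ring
    linarith

end

end Vale.Agent.P161
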