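import Vale.Agent.P161.Approx

/-!
The infinite depth inner products.
-/

open MeasureTheory ProbabilityTheory Filter Topology Finset
open scoped Classical NNReal ENNReal

namespace Vale.Agent.P161

variable {V : Type} {G : SimpleGraph V} [G.LocallyFinite] {q : ℕ} {ρ θ : ℝ} {m m' : V → ℝ}
  {x y : V}

namespace MMAux

lemma lt_one (hG : Reg G q) (h : q * θ ^ 2 ≤ ρ) (hρ : ρ < 1) : θ < 1 := by
  have := lt_one_alg (hG.sq_le_half (h.trans hρ.le))
  linarith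

lemma one_le_af (h0 : 0 ≤ θ) (h1 : θ < 1) (m : V → ℝ) (x y : V) : 1 ≤ af θ m x y :=
  le_add_of_nonneg_right (bf_nonneg h0 h1 m x y)

lemma M_mono (h0 : 0 ≤ θ) (h1 : θ < 1) (x y : V) :
    Monotone fun r => M G (af θ m) (bf θ m) (af θ m') (bf θ m') r x y := by
  refine monotone_nat_of_le_succ fun r => ?_
  have hb := fun x y => mul_nonneg (bf_nonneg h0 h1 m x y) (bf_nonneg h0 h1 m' x y)
  induction r generalizing x y with
  | zero =>
    simp only [M, sum_const_zero, mul_zero, add_zero]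
    exact mul_nonneg (zero_le_one.trans (one_le_af h0 h1 m x y))
      (zero_le_one.trans (one_le_af h0 h1 m' x y))
  | succ r ih =>
    rw [M, M]
    exact add_le_add_right (mul_le_mul_of_nonneg_left (sum_le_sum fun z _ => ih y z) (hb x y)) _

lemma M_le (hG : Reg G q) (h0 : 0 ≤ θ) (h : q * θ ^ 2 ≤ ρ) (hρ : ρ < 1) (hxy : G.Adj x y)
    (r : ℕ) : M G (af θ m) (bf θ m) (af θ m') (bf θ m') r x y ≤ 4 / (1 - ρ) := by
  have h1 := M_self_le hG (bd_field h0 (lt_one hG h hρ) h m) hρ r hxy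
  have h2 := M_self_le hG (bd_field h0 (lt_one hG h hρ) h m') hρ r hxy
  have h3 := M_le_half (G := G) (a := af θ m) (b := bf θ m) (a' := af θ m') (b' := bf θ m') r x y
  linarith

lemma bdd (hG : Reg G q) (h0 : 0 ≤ θ) (h : q * θ ^ 2 ≤ ρ) (hρ : ρ < 1) (hxy : G.Adj x y) :
    BddAbove (Set.range fun r => M G (af θ m) (bf θ m) (af θ m') (bf θ m') r x y) :=
  ⟨_, by rintro _ ⟨r, rfl⟩; exact M_le hG h0 h hρ hxy r⟩

end MMAux

open MMAux

lemma tendsto_MM (hG : Reg G q) (h0 : 0 ≤ θ) (h : q * θ ^ 2 ≤ ρ) (hρ : ρ < 1) (hxy : G.Adj x y) :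
    Tendsto (fun r => M G (af θ m) (bf θ m) (af θ m') (bf θ m') r x y) atTop
      (𝓝 (MM G θ m m' x y)) :=
  tendsto_atTop_ciSup (M_mono h0 (lt_one hG h hρ) x y) (bdd hG h0 h hρ hxy)

lemma M_le_MM (hG : Reg G q) (h0 : 0 ≤ θ) (h : q * θ ^ 2 ≤ ρ) (hρ : ρ < 1) (hxy : G.Adj x y)
    (r : ℕ) : M G (af θ m) (bf θ m) (af θ m') (bf θ m') r x y ≤ MM G θ m m' x y :=
  le_ciSup (bdd hG h0 h hρ hxy) r

lemma one_le_MM (hG : Reg G q) (h0 : 0 ≤ θ) (h : q * θ ^ 2 ≤ ρ) (hρ : ρ < 1) (hxy : G.Adj x y) :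
    1 ≤ MM G θ m m' x y := by
  refine le_trans ?_ (M_le_MM hG h0 h hρ hxy 1)
  simp only [M, sum_const_zero, mul_zero, add_zero]
  exact one_le_mul_of_one_le_of_one_le (one_le_af h0 (lt_one hG h hρ) m x y)
    (one_le_af h0 (lt_one hG h hρ) m' x y)

lemma MM_le (hG : Reg G q) (h0 : 0 ≤ θ) (h : q * θ ^ 2 ≤ ρ) (hρ : ρ < 1) (hxy : G.Adj x y) :
    MM G θ m m' x y ≤ 4 / (1 - ρ) :=
  ciSup_le (M_le hG h0 h hρ hxy)

lemma MM_le_half (hG : Reg G q) (h0 : 0 ≤ θ) (h : q * θ ^ 2 ≤ ρ) (hρ : ρ < 1) (hxy : G.Adj x y) :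
    MM G θ m m' x y ≤ (NN G θ m x y + NN G θ m' x y) / 2 :=
  ciSup_le fun r => (M_le_half r x y).trans (div_le_div_of_nonneg_right
    (add_le_add (M_le_MM hG h0 h hρ hxy r) (M_le_MM hG h0 h hρ hxy r)) zero_le_two)

lemma MM_eq (hG : Reg G q) (h0 : 0 ≤ θ) (h : q * θ ^ 2 ≤ ρ) (hρ : ρ < 1) (hxy : G.Adj x y) :
    MM G θ m m' x y = af θ m x y * af θ m' x y +
      bf θ m x y * bf θ m' x y * ∑ z ∈ ch G x y, MM G θ m m' y z :=
  tendsto_nhds_unique ((tendsto_MM hG h0 h hρ hxy).comp (tendsto_add_atTop_nat 1))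
    (((tendsto_finsetSum _ fun _ hz => tendsto_MM hG h0 h hρ (mem_ch.1 hz).1).const_mul
      _).const_add _)

lemma NN_sub_M (hG : Reg G q) (h0 : 0 ≤ θ) (h : q * θ ^ 2 ≤ ρ) (hρ : ρ < 1) (hxy : G.Adj x y)
    (r : ℕ) : NN G θ m x y - M G (af θ m) (bf θ m) (af θ m) (bf θ m) r x y ≤
      ρ ^ r * (4 / (1 - ρ)) := by
  refine le_of_tendsto' (((tendsto_MM hG h0 h hρ hxy).comp (tendsto_add_atTop_nat r)).sub_const _)
    fun k => ?_
  simpa only [Function.comp, add_comm k] using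
    M_tail hG (bd_field h0 (lt_one hG h hρ) h m) hρ r k hxy

lemma Qf_le_lim (hG : Reg G q) (h0 : 0 ≤ θ) (h : q * θ ^ 2 ≤ ρ) (hρ : ρ < 1) (hxy : G.Adj x y)
    (r : ℕ) (α α' : ℝ) : Qf G (af θ m) (bf θ m) (af θ m') (bf θ m') r α α' x y ≤
      α ^ 2 * NN G θ m x y - 2 * α * α' * MM G θ m m' x y + α' ^ 2 * NN G θ m' x y :=
  (Qf_mono α α' x y).ge_of_tendsto ((((tendsto_MM hG h0 h hρ hxy).const_mul _).sub
    ((tendsto_MM hG h0 h hρ hxy).const_mul _)).add ((tendsto_MM hG h0 h hρ hxy).const_mul _)) r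

lemma measurable_MM {Ω : Type} [MeasurableSpace Ω] {X X' : Ω → V → ℝ} (hX : Measurable X)
    (hX' : Measurable X') (θ : ℝ) (x y : V) : Measurable fun ω => MM G θ (X ω) (X' ω) x y :=
  Measurable.iSup fun r => measurable_M (fun x y => (measurable_af θ x y).comp hX)
    (fun x y => (measurable_bf θ x y).comp hX) (fun x y => (measurable_af θ x y).comp hX')
    (fun x y => (measurable_bf θ x y).comp hX') r x y

lemma MM_iso (g : G ≃g G) (θ : ℝ) (m m' : V → ℝ) (x y : V) :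
    MM G θ (act g m) (act g m') (g x) (g y) = MM G θ m m' x y :=
  iSup_congr fun r => M_iso g (by simp [af, bf, act]) (by simp [bf, act]) (by simp [af, bf, act])
    (by simp [bf, act]) r x y

variable {X X' : (V → unitInterval) → V → ℝ}

omit [G.LocallyFinite] in
lemma fam_clip (hX : Measurable X) (he : Equi G X) : Fam G fun x _ U => clip (X U x) :=
  ⟨fun x _ => continuous_clip.measurable.comp ((measurable_pi_apply x).comp hX),
    ⟨1, fun _ _ _ _ => abs_clip_le_one _⟩, fun g _ _ _ => ae_of_all _ fun U => by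
      simp [he g, act]⟩

omit [G.LocallyFinite] in
lemma fam_vf (hX : Measurable X) (he : Equi G X) : Fam G fun x _ U => vf (X U) x :=
  ⟨fun x _ => (measurable_vf x).comp hX, ⟨1, fun _ _ _ _ => abs_vf_le _ _⟩,
    fun g _ _ _ => ae_of_all _ fun U => by simp [he g, act, vf]⟩

omit [G.LocallyFinite] in
lemma fam_cav (h0 : 0 ≤ θ) (h1 : θ < 1) (hX : Measurable X) (he : Equi G X) :
    Fam G fun x y U => cav θ (clip (X U x)) (clip (X U y)) :=
  ⟨fun x y => (measurable_cav θ).comp (((fam_clip hX he).meas x y).prodMk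
      ((fam_clip hX he).meas y x)),
    ⟨1, fun _ _ _ _ => abs_cav_le h0 h1 (abs_clip_le_one _) (abs_clip_le_one _)⟩,
    fun g _ _ _ => ae_of_all _ fun U => by simp [he g, act]⟩

omit [G.LocallyFinite] in
lemma fam_bf (h0 : 0 ≤ θ) (h1 : θ < 1) (hX : Measurable X) (he : Equi G X) :
    Fam G fun x y U => bf θ (X U) x y :=
  ⟨fun x y => (measurable_bf θ x y).comp hX, ⟨θ, fun x y _ U => by
      rw [abs_of_nonneg (bf_nonneg h0 h1 _ x y)]; exact bf_le h0 h1 _ x y⟩,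
    fun g _ _ _ => ae_of_all _ fun U => by simp [he g, act, bf]⟩

lemma fam_MM (hG : Reg G q) (h0 : 0 ≤ θ) (h : q * θ ^ 2 ≤ ρ) (hρ : ρ < 1) (hX : Measurable X)
    (he : Equi G X) (hX' : Measurable X') (he' : Equi G X') :
    Fam G fun x y U => MM G θ (X U) (X' U) x y :=
  ⟨fun x y => measurable_MM hX hX' θ x y, ⟨4 / (1 - ρ), fun x y hxy U => by
      rw [abs_of_nonneg (zero_le_one.trans (one_le_MM hG h0 h hρ hxy))]
      exact MM_le hG h0 h hρ hxy⟩,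
    fun g _ _ _ => ae_of_all _ fun U => by rw [he g, he' g, MM_iso]⟩

lemma fam_NN (hG : Reg G q) (h0 : 0 ≤ θ) (h : q * θ ^ 2 ≤ ρ) (hρ : ρ < 1) (hX : Measurable X)
    (he : Equi G X) : Fam G fun x y U => NN G θ (X U) x y :=
  fam_MM hG h0 h hρ hX he hX he

end Vale.Agent.P161
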