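import Vale.Agent.P161.Sub
import Vale.Agent.P161.CritLim

/-!
The factor of IID property at the threshold.
-/

open MeasureTheory

namespace Vale.Agent.P161

variable {V : Type} {G : SimpleGraph V}

theorem fiid_crit [G.LocallyFinite] {q : ℕ} (hG : Reg G q) {β : ℝ} (hβ : 0 ≤ β)
    (hc : q * Real.tanh β ^ 2 = 1) {μ : Measure (V → Bool)} (hμ : IsFreeIsing G (Real.tanh β) μ) :
    IsFactorOfIID G μ := by
  obtain ⟨N, hN⟩ := exists_noise hG.tree.connected
  have hs := fun a => crit_lt hG hβ hc (tm_one_pos a) (tm_one_le a)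
  choose m hm he using fun a => exists_sol hG hβ (hs a) ⟨a, 1, rfl⟩ (tm_one_le a) N hN
  obtain ⟨X, h1, h2, h3⟩ := crit_field hG hβ hc m fun a => ⟨tm_one_pos a, ⟨a, 1, rfl⟩, hm a, he a,
    fun t ht => (hm a).lawLim hG hβ (hs a) ⟨a, 1, rfl⟩ ht⟩
  exact fiid_of_field hG.tree.connected N hN h1 h2 h3 hμ

end Vale.Agent.P161
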