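import Vale.Agent.P161.Geom

/-!
Construction of equivariant Brownian noise from i.i.d. labels.
-/

open MeasureTheory ProbabilityTheory Filter Topology Finset
open scoped Classical NNReal ENNReal

namespace Vale.Agent.P161

namespace NoiseAux

section gauss

variable {ι Ω : Type} [MeasurableSpace Ω] {P : Measure Ω} {Z : Ω → ι → ℝ}

/-- A finite linear combination of coordinates. -/
noncomputable def lin (Z : Ω → ι → ℝ) (c : ι →₀ ℝ) (ω : Ω) : ℝ :=
  Finsupp.linearCombination ℝ (Z ω) c

/-- The inner product of two coefficient vectors. -/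
noncomputable def ip (c c' : ι →₀ ℝ) : ℝ := Finsupp.linearCombination ℝ (c' : ι → ℝ) c

omit [MeasurableSpace Ω] in
lemma lin_add (c c' : ι →₀ ℝ) : lin Z (c + c') = lin Z c + lin Z c' := by
  funext ω
  simp [lin]

omit [MeasurableSpace Ω] in
lemma lin_single (i : ι) (r : ℝ) : lin Z (Finsupp.single i r) = fun ω => r * Z ω i := by
  funext ω
  simp [lin]

omit [MeasurableSpace Ω] in
lemma lin_zero : lin Z 0 = fun _ => 0 := by
  funext ω
  simp [lin]

lemma ip_add_left (a b c : ι →₀ ℝ) : ip (a + b) c = ip a c + ip b c := by simp [ip]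

lemma ip_smul_left (r : ℝ) (a c : ι →₀ ℝ) : ip (r • a) c = r * ip a c := by simp [ip]

lemma ip_single_left (i : ι) (r : ℝ) (c : ι →₀ ℝ) : ip (Finsupp.single i r) c = r * c i := by
  simp [ip]

lemma ip_add_right (a b c : ι →₀ ℝ) : ip a (b + c) = ip a b + ip a c := by
  induction a using Finsupp.induction_linear with
  | zero => simp [ip]
  | add a a' h h' => rw [ip_add_left, ip_add_left, ip_add_left, h, h']; ring
  | single i r => simp [ip_single_left, mul_add]

lemma ip_smul_right (r : ℝ) (a c : ι →₀ ℝ) : ip a (r • c) = r * ip a c := by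
  induction a using Finsupp.induction_linear with
  | zero => simp [ip]
  | add a a' h h' => rw [ip_add_left, ip_add_left, h, h']; ring
  | single i s => simp [ip_single_left, mul_left_comm]

lemma ip_single_right (i : ι) (r : ℝ) (c : ι →₀ ℝ) : ip c (Finsupp.single i r) = r * c i := by
  induction c using Finsupp.induction_linear with
  | zero => simp [ip]
  | add a a' h h' => rw [ip_add_left, h, h', Finsupp.add_apply]; ring
  | single j s =>
    rw [ip_single_left, Finsupp.single_apply, Finsupp.single_apply]
    by_cases h : i = j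
    · simp [h, mul_comm]
    · simp [h, Ne.symm h]

lemma measurable_lin (hZ : Measurable Z) (c : ι →₀ ℝ) : Measurable (lin Z c) := by
  induction c using Finsupp.induction_linear with
  | zero => rw [lin_zero]; exact measurable_const
  | add a b h h' => rw [lin_add]; exact h.add h'
  | single i r => rw [lin_single]; exact ((measurable_pi_apply i).comp hZ).const_mul r

/-- The coordinates of `Z` are i.i.d. standard Gaussians. -/
structure Std (P : Measure Ω) (Z : Ω → ι → ℝ) : Prop where
  prob : IsProbabilityMeasure P
  meas : Measurable Z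
  law : P.map Z = Measure.infinitePi fun _ : ι => gaussianReal 0 1

lemma Std.map_eval (h : Std P Z) (i : ι) : P.map (fun ω => Z ω i) = gaussianReal 0 1 := by
  have h1 := Measure.infinitePi_map_eval (fun _ : ι => gaussianReal 0 1) i
  rw [← h.law, Measure.map_map (measurable_pi_apply i) h.meas] at h1
  exact h1

lemma Std.hasLaw (h : Std P Z) (i : ι) : HasLaw (fun ω => Z ω i) (gaussianReal 0 1) P :=
  ⟨((measurable_pi_apply i).comp h.meas).aemeasurable, h.map_eval i⟩

lemma Std.indep (h : Std P Z) : iIndepFun (fun i ω => Z ω i) P := by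
  have := h.prob
  rw [iIndepFun_iff_map_fun_eq_infinitePi_map (X := fun i ω => Z ω i)
    fun i => (measurable_pi_apply i).comp h.meas]
  simp only [h.map_eval]
  exact h.law

lemma Std.process (h : Std P Z) : IsGaussianProcess (fun i ω => Z ω i) P :=
  ⟨fun I => iIndepFun.hasGaussianLaw (X := fun (i : I) ω => Z ω i)
    (fun i => (h.hasLaw i).hasGaussianLaw) (h.indep.restrict I)⟩

lemma Std.process_lin (h : Std P Z) : IsGaussianProcess (lin Z) P :=
  h.process.of_isGaussianProcess fun c => ⟨c.support,
    ∑ i : c.support, c i • ContinuousLinearMap.proj (R := ℝ) (φ := fun _ : c.support => ℝ) i,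
    fun ω => by
      simp [lin, Finsupp.linearCombination_apply, Finsupp.sum,
        Finset.sum_attach c.support fun i => c i * Z ω i]⟩

lemma Std.memLp (h : Std P Z) (c : ι →₀ ℝ) : MemLp (lin Z c) 2 P :=
  (h.process_lin.hasGaussianLaw_eval c).memLp_two

lemma Std.integral_lin (h : Std P Z) (c : ι →₀ ℝ) : ∫ ω, lin Z c ω ∂P = 0 := by
  induction c using Finsupp.induction_linear with
  | zero => simp [lin_zero]
  | add a b ha hb =>
    rw [lin_add]
    simp only [Pi.add_apply]
    rw [integral_add (h.process_lin.hasGaussianLaw_eval a).integrable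
      (h.process_lin.hasGaussianLaw_eval b).integrable, ha, hb, add_zero]
  | single i r =>
    rw [lin_single, integral_const_mul, (h.hasLaw i).integral_eq, integral_id_gaussianReal,
      mul_zero]

lemma Std.cov_lin (h : Std P Z) (c c' : ι →₀ ℝ) : cov[lin Z c, lin Z c'; P] = ip c c' := by
  have := h.prob
  induction c using Finsupp.induction_linear with
  | zero => simp [lin_zero, ip]
  | add a b ha hb =>
    rw [lin_add, covariance_add_left (h.memLp _) (h.memLp _) (h.memLp _), ha, hb, ip_add_left]
  | single i r =>
    induction c' using Finsupp.induction_linear with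
    | zero => simp [lin_zero, ip]
    | add a b ha hb =>
      rw [lin_add, covariance_add_right (h.memLp _) (h.memLp _) (h.memLp _), ha, hb, ip_add_right]
    | single j s =>
      rw [lin_single, lin_single, covariance_const_mul_left, covariance_const_mul_right,
        ip_single_left, Finsupp.single_apply]
      split_ifs with hij
      · subst hij
        rw [covariance_self (h.hasLaw j).aemeasurable, (h.hasLaw j).variance_eq,
          variance_id_gaussianReal]
        simp
      · rw [(h.indep.indepFun (Ne.symm hij)).covariance_eq_zero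
          (h.hasLaw i).hasGaussianLaw.memLp_two (h.hasLaw j).hasGaussianLaw.memLp_two]
        simp

end gauss

section levy

variable {S : Type}

/-- Coefficients of the dyadic increments in the Haar basis. -/
noncomputable def co (e : S) : ℕ → ℕ → (S × ℕ × ℕ →₀ ℝ)
  | 0, k => Finsupp.single (e, 0, k) 1
  | J + 1, k => (1 / 2 : ℝ) • co e J (k / 2) +
      Finsupp.single (e, J + 1, k / 2) ((-1) ^ k * √((2 ^ J)⁻¹) / 2)

lemma co_add (e : S) (J k : ℕ) : co e J k = co e (J + 1) (2 * k) + co e (J + 1) (2 * k + 1) := by
  have h1 : 2 * k / 2 = k := by omega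
  have h2 : (2 * k + 1) / 2 = k := by omega
  rw [co, co, h1, h2, add_add_add_comm, ← add_smul, ← Finsupp.single_add, pow_succ, pow_mul]
  norm_num [neg_div]

lemma co_apply_eq_zero (e e' : S) (J k j i : ℕ) (h : J < j) : co e J k (e', j, i) = 0 := by
  induction J generalizing k with
  | zero => rw [co, Finsupp.single_eq_of_ne (by simp; omega)]
  | succ J ih =>
    rw [co, Finsupp.add_apply, Finsupp.smul_apply, ih _ (by omega),
      Finsupp.single_eq_of_ne (by simp; omega)]
    simp

lemma ip_co (e e' : S) (J k k' : ℕ) :
    ip (co e J k) (co e' J k') = if e = e' ∧ k = k' then (2 ^ J)⁻¹ else 0 := by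
  induction J generalizing k k' with
  | zero => simp [co, ip_single_left, Finsupp.single_apply, eq_comm]
  | succ J ih =>
    rw [co, co, ip_add_left, ip_add_right, ip_add_right, ip_smul_left, ip_smul_right, ih,
      ip_single_right, ip_single_left, ip_single_left, Finsupp.smul_apply, Finsupp.smul_apply,
      co_apply_eq_zero _ _ _ _ _ _ (Nat.lt_succ_self J),
      co_apply_eq_zero _ _ _ _ _ _ (Nat.lt_succ_self J), Finsupp.single_apply]
    have hs : √((2 ^ J)⁻¹ : ℝ) * √((2 ^ J)⁻¹) = (2 ^ J)⁻¹ := Real.mul_self_sqrt (by positivity)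
    by_cases he : e = e'
    · subst he
      by_cases hk : k = k'
      · subst hk
        have h1 : ((-1 : ℝ) ^ k) * (-1) ^ k = 1 := by rw [← mul_pow]; simp
        simp only [and_self, if_true, smul_zero, mul_zero, add_zero, zero_add, pow_succ, mul_inv]
        linear_combination (√((2 ^ J)⁻¹ : ℝ) * √((2 ^ J)⁻¹) / 4) * h1 + (1 / 4) * hs
      · by_cases hk2 : k / 2 = k' / 2
        · have h1 : ((-1 : ℝ) ^ k) * (-1) ^ k' = -1 := by
            rw [← pow_add]
            exact Odd.neg_one_pow (Nat.odd_iff.mpr (by omega))
          simp only [hk, hk2, and_self, if_true, smul_zero, mul_zero, add_zero, zero_add,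
            and_false, if_false]
          linear_combination (√((2 ^ J)⁻¹ : ℝ) * √((2 ^ J)⁻¹) / 4) * h1 - (1 / 4) * hs
        · simp [hk, hk2, Ne.symm hk2]
    · simp [he, Ne.symm he]

lemma ip_co_left (e e' : S) (d j k K : ℕ) (h : (k + 1) * 2 ^ d ≤ K) :
    ip (co e j k) (co e' (j + d) K) = 0 := by
  induction d generalizing j k with
  | zero => rw [add_zero, ip_co, if_neg (by omega)]
  | succ d ih =>
    have h1 : j + (d + 1) = j + 1 + d := by omega
    rw [pow_succ] at h
    rw [co_add e j k, ip_add_left, h1, ih _ _ (by nlinarith [Nat.zero_le (2 ^ d)]),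
      ih _ _ (by nlinarith), add_zero]

lemma ip_co_right (e e' : S) (d J k K : ℕ) (h : k + 1 ≤ K * 2 ^ d) :
    ip (co e (J + d) k) (co e' J K) = 0 := by
  induction d generalizing J K with
  | zero => rw [add_zero, ip_co, if_neg (by omega)]
  | succ d ih =>
    have h1 : J + (d + 1) = J + 1 + d := by omega
    rw [pow_succ] at h
    rw [co_add e' J K, ip_add_right, h1, ih _ _ (by nlinarith),
      ih _ _ (by nlinarith [Nat.zero_le (2 ^ d)]), add_zero]

lemma ip_co_of_tm (e e' : S) (j k J K : ℕ) (h : tm j (k + 1) ≤ tm J K) :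
    ip (co e j k) (co e' J K) = 0 := by
  unfold tm at h
  rw [div_le_div_iff₀ (by positivity) (by positivity)] at h
  have h' : (k + 1) * 2 ^ J ≤ K * 2 ^ j := by exact_mod_cast h
  rcases le_total j J with hj | hj
  · obtain ⟨d, rfl⟩ := Nat.exists_eq_add_of_le hj
    refine ip_co_left e e' d j k K (Nat.le_of_mul_le_mul_right (c := 2 ^ j) ?_ (by positivity))
    rw [pow_add] at h'
    nlinarith
  · obtain ⟨d, rfl⟩ := Nat.exists_eq_add_of_le hj
    refine ip_co_right e e' d J k K (Nat.le_of_mul_le_mul_right (c := 2 ^ J) ?_ (by positivity))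
    rw [pow_add] at h'
    nlinarith

lemma linearCombination_co_congr {e e' : S} {ξ ξ' : S × ℕ × ℕ → ℝ}
    (h : ∀ a, ξ (e, a) = ξ' (e', a)) (J k : ℕ) :
    Finsupp.linearCombination ℝ ξ (co e J k) = Finsupp.linearCombination ℝ ξ' (co e' J k) := by
  induction J generalizing k with
  | zero => simp [co, h]
  | succ J ih => simp [co, h, ih]

end levy

theorem exists_noise_of_std {V Ω : Type} [mΩ : MeasurableSpace Ω] {P : Measure Ω}
    {Z : Ω → Sym2 V × ℕ × ℕ → ℝ} (h : Std P Z) :
    ∃ N : Noise V P, ∀ J k ω e, N.z J k ω e = lin Z (co e J k) ω := by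
  have := h.prob
  let X : (t : ℝ) → Ω → {p : ℕ × ℕ // tm p.1 (p.2 + 1) ≤ t} × Sym2 V → ℝ :=
    fun t ω s => lin Z (co s.2 s.1.1.1 s.1.1.2) ω
  have hX : ∀ t (p : ℕ × ℕ) (hp : tm p.1 (p.2 + 1) ≤ t) e,
      Measurable[MeasurableSpace.comap (X t) inferInstance] (lin Z (co e p.1 p.2)) := by
    intro t p hp e
    have h1 := (measurable_pi_apply (⟨p, hp⟩, e)).comp (comap_measurable (X t))
    exact h1
  refine ⟨⟨fun t => MeasurableSpace.comap (X t) inferInstance, fun t t' htt => ?_, fun t => ?_,
    fun J k ω e => lin Z (co e J k) ω, fun J k => ?_, fun J k ω => ?_, fun J k => ?_,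
    fun J k => ?_⟩, fun _ _ _ _ => rfl⟩
  · refine Measurable.comap_le ?_
    let := MeasurableSpace.comap (X t') inferInstance
    exact measurable_pi_lambda _ fun s => hX t' s.1.1 (s.1.2.trans htt) s.2
  · exact Measurable.comap_le (measurable_pi_lambda _ fun s => measurable_lin h.meas _)
  · let := MeasurableSpace.comap (X (tm J (k + 1))) inferInstance
    exact measurable_pi_lambda _ fun e => hX _ (J, k) le_rfl e
  · funext e
    rw [co_add e J k, lin_add]
    rfl
  · have h1 : iIndepFun (fun e => lin Z (co e J k)) P := by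
      rw [iIndepFun_iff_finset]
      intro s
      refine HasGaussianLaw.iIndepFun_of_covariance_eq_zero
        ((h.process_lin.comp_right fun e => co e J k).hasGaussianLaw s) fun i j hij => ?_
      refine (h.cov_lin _ _).trans ?_
      rw [ip_co, if_neg fun hc => hij (Subtype.ext hc.1)]
    rw [h1.map_fun_eq_infinitePi_map fun e => measurable_lin h.meas _, gam]
    congr 1
    funext e
    rw [(h.process_lin.hasGaussianLaw_eval _).map_eq_gaussianReal, h.integral_lin,
      ← covariance_self (measurable_lin h.meas _).aemeasurable, h.cov_lin, ip_co,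
      if_pos ⟨rfl, rfl⟩]
    congr 1
    apply NNReal.eq
    rw [Real.coe_toNNReal _ (by positivity)]
    simp [eta]
  · rw [← IndepFun_iff_Indep]
    refine IsGaussianProcess.indepFun_of_covariance_eq_zero
      (X := fun (s : {p : ℕ × ℕ // tm p.1 (p.2 + 1) ≤ tm J k} × Sym2 V) =>
        lin Z (co s.2 s.1.1.1 s.1.1.2)) (Y := fun e => lin Z (co e J k)) ?_
      (fun _ => (measurable_lin h.meas _).aemeasurable)
      (fun _ => (measurable_lin h.meas _).aemeasurable) fun s e => ?_
    · refine (h.process_lin.comp_right (Sum.elim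
        (fun s : {p : ℕ × ℕ // tm p.1 (p.2 + 1) ≤ tm J k} × Sym2 V => co s.2 s.1.1.1 s.1.1.2)
        fun e => co e J k)).congr ?_
      rintro (s | e) <;> exact EventuallyEq.rfl
    · rw [h.cov_lin, ip_co_of_tm _ _ _ _ _ _ s.1.2]

section labels

variable {V : Type}

/-- Slots of the payload of a vertex. -/
abbrev Slot : Type := ℕ × ℕ × ℕ × ℕ

/-- A measurable map turning one uniform variable into countably many Gaussian variables. -/
noncomputable def tau : unitInterval → (Bool × Slot → ℝ) :=
  Classical.choose (Measure.exists_measurable_map_eq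
    (Measure.infinitePi fun _ : Bool × Slot => gaussianReal 0 1))

lemma measurable_tau : Measurable tau :=
  (Classical.choose_spec (Measure.exists_measurable_map_eq
    (Measure.infinitePi fun _ : Bool × Slot => gaussianReal 0 1))).1

lemma map_tau : (volume : Measure unitInterval).map tau =
    Measure.infinitePi fun _ => gaussianReal 0 1 :=
  (Classical.choose_spec (Measure.exists_measurable_map_eq
    (Measure.infinitePi fun _ : Bool × Slot => gaussianReal 0 1))).2

/-- Rank of `v` among the vertices at the same distance from `u`. -/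
noncomputable def rank (G : SimpleGraph V) (O : V → ℝ) (u v : V) : ℕ :=
  {w | G.dist u w = G.dist u v ∧ O w < O v}.ncard

/-- The value proposed by `u` for the pair `u, v`. -/
noncomputable def pre (G : SimpleGraph V) (O : V → ℝ) (Y : V × Slot → ℝ) (a : ℕ × ℕ) (u v : V) :
    ℝ := Y (u, G.dist u v, rank G O u v, a)

/-- The value attached to an unordered pair. -/
noncomputable def val (G : SimpleGraph V) (O : V → ℝ) (Y : V × Slot → ℝ) (a : ℕ × ℕ) :
    Sym2 V → ℝ :=
  Sym2.lift ⟨fun u v => (if O u < O v then pre G O Y a u v else 0) +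
      (if O v < O u then pre G O Y a v u else 0) + (if u = v then pre G O Y a u u else 0),
    fun u v => by
      by_cases h : u = v
      · subst h
        rfl
      · beta_reduce
        rw [if_neg h, if_neg (Ne.symm h), add_comm (if O u < O v then _ else _)]⟩

/-- The splitting of the labels into keys and payloads. -/
noncomputable def split (U : V → unitInterval) : (V × Slot → ℝ) × (V × Slot → ℝ) :=
  (fun q => tau (U q.1) (false, q.2), fun q => tau (U q.1) (true, q.2))

/-- The family of Gaussian variables attached to unordered pairs. -/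
noncomputable def fam (G : SimpleGraph V) (q : (V × Slot → ℝ) × (V × Slot → ℝ))
    (i : Sym2 V × ℕ × ℕ) : ℝ := val G (fun w => q.1 (w, 0)) q.2 i.2 i.1

lemma measurable_split : Measurable (split (V := V)) := by
  refine Measurable.prodMk (measurable_pi_lambda _ fun q => ?_)
    (measurable_pi_lambda _ fun q => ?_)
  all_goals exact (measurable_pi_apply _).comp (measurable_tau.comp (measurable_pi_apply _))

lemma map_split : (iid V).map split =
    (Measure.infinitePi fun _ : V × Slot => gaussianReal 0 1).prod
      (Measure.infinitePi fun _ : V × Slot => gaussianReal 0 1) := by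
  have h1 := Measure.infinitePi_map_pi (fun _ : V => (volume : Measure unitInterval))
    (f := fun _ => tau) fun _ => measurable_tau
  simp only [map_tau] at h1
  have h2 := Measure.infinitePi_map_curry_symm (fun (_ : V) (_ : Bool × Slot) => gaussianReal 0 1)
  have h3 := Measure.map_infinitePi_infinitePi_of_inj
    (P := fun _ : V × (Bool × Slot) => gaussianReal 0 1)
    (f := fun q : Bool × (V × Slot) => (q.2.1, (q.1, q.2.2))) (by
      rintro ⟨a, b, c⟩ ⟨a', b', c'⟩ h
      simp only [Prod.mk.injEq] at h
      simp [h.1, h.2.1, h.2.2])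
  have h4 := Measure.infinitePi_map_curry (fun (_ : Bool) (_ : V × Slot) => gaussianReal 0 1)
  have h5 := Measure.infinitePi_map_eval_prod
    (P := fun _ : Bool => Measure.infinitePi fun _ : V × Slot => gaussianReal 0 1) (i := false)
    (j := true) (by simp)
  have hm : Measurable fun (U : V → unitInterval) (v : V) => tau (U v) :=
    measurable_pi_lambda _ fun v => measurable_tau.comp (measurable_pi_apply v)
  rw [← h5, ← h4, ← h3, ← h2, ← h1, Measure.map_map (by fun_prop) (by fun_prop),
    Measure.map_map (by fun_prop) (by fun_prop), Measure.map_map (by fun_prop) (by fun_prop),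
    Measure.map_map (by fun_prop) hm]
  rfl

lemma ae_injective [Countable V] : ∀ᵐ O ∂(Measure.infinitePi fun _ : V × Slot => gaussianReal 0 1),
    ∀ w w' : V, w ≠ w' → O (w, 0) ≠ O (w', 0) := by
  refine ae_all_iff.2 fun w => ae_all_iff.2 fun w' => ?_
  by_cases h : w = w'
  · exact ae_of_all _ fun _ h' => absurd h h'
  have h1 := Measure.infinitePi_map_eval_prod (P := fun _ : V × Slot => gaussianReal 0 1)
    (i := (w, 0)) (j := (w', 0)) (by simp [h])
  have hd : MeasurableSet {p : ℝ × ℝ | p.1 = p.2} :=
    measurableSet_eq_fun measurable_fst measurable_snd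
  have := nullSingletonClass_gaussianReal (μ := 0) one_ne_zero
  have h2 : ((gaussianReal 0 1).prod (gaussianReal 0 1)) {p : ℝ × ℝ | p.1 = p.2} = 0 := by
    rw [Measure.prod_apply hd]
    have : ∀ x : ℝ, Prod.mk x ⁻¹' {p : ℝ × ℝ | p.1 = p.2} = {x} := by
      intro x
      ext y
      simp [eq_comm]
    simp [this]
  rw [← h1, Measure.map_apply (by fun_prop) hd] at h2
  filter_upwards [measure_eq_zero_iff_ae_notMem.1 h2] with O hO _ using hO

lemma measurable_fam [Countable V] (G : SimpleGraph V) : Measurable (fam G) := by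
  have hO : ∀ w : V, Measurable fun q : (V × Slot → ℝ) × (V × Slot → ℝ) => q.1 (w, 0) :=
    fun w => (measurable_pi_apply _).comp measurable_fst
  have hpre : ∀ a (u v : V), Measurable fun q : (V × Slot → ℝ) × (V × Slot → ℝ) =>
      pre G (fun w => q.1 (w, 0)) q.2 a u v := by
    intro a u v
    have h1 : Measurable fun p : (V × Slot → ℝ) × ℕ => p.1 (u, G.dist u v, p.2, a) :=
      measurable_from_prod_countable_left fun k => measurable_pi_apply (u, G.dist u v, k, a)
    have h2 : Measurable fun q : (V × Slot → ℝ) × (V × Slot → ℝ) =>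
        rank G (fun w => q.1 (w, 0)) u v :=
      measurable_ncard.comp (measurable_set_iff.2 fun w =>
        measurable_const.and (measurableSet_lt (hO w) (hO v)).mem)
    exact h1.comp (measurable_snd.prodMk h2)
  refine measurable_pi_lambda _ fun i => ?_
  obtain ⟨e, a⟩ := i
  induction e using Sym2.ind with
  | h u v =>
    refine Measurable.add (Measurable.add ?_ ?_) ?_
    · exact Measurable.ite (measurableSet_lt (hO u) (hO v)) (hpre a u v) measurable_const
    · exact Measurable.ite (measurableSet_lt (hO v) (hO u)) (hpre a v u) measurable_const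
    · exact Measurable.ite (MeasurableSet.const _) (hpre a u u) measurable_const

variable {G : SimpleGraph V} [G.LocallyFinite]

lemma rank_lt (hc : G.Connected) {O : V → ℝ} {u v v' : V} (h : G.dist u v = G.dist u v')
    (hO : O v < O v') : rank G O u v < rank G O u v' := by
  refine Set.ncard_lt_ncard ⟨fun w hw => ⟨hw.1.trans h, hw.2.trans hO⟩, fun hs => ?_⟩
    ((finite_ball hc u (G.dist u v')).subset fun w hw => hw.1.le)
  exact lt_irrefl _ (hs (show v ∈ {w | G.dist u w = G.dist u v' ∧ O w < O v'} from ⟨h, hO⟩)).2

lemma exists_slot (hc : G.Connected) {O : V → ℝ} (hO : ∀ w w', w ≠ w' → O w ≠ O w') :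
    ∃ f : Sym2 V × ℕ × ℕ → V × Slot, Function.Injective f ∧
      ∀ Y i, val G O Y i.2 i.1 = Y (f i) := by
  have key : ∀ e : Sym2 V, ∃ u v, e = s(u, v) ∧ ∀ Y a, val G O Y a e = pre G O Y a u v := by
    intro e
    induction e using Sym2.ind with
    | h u v =>
      by_cases h : u = v
      · exact ⟨u, v, rfl, fun Y a => by simp [val, h]⟩
      · rcases lt_or_gt_of_ne (hO u v h) with h' | h'
        · exact ⟨u, v, rfl, fun Y a => by simp [val, h, h', h'.not_gt]⟩
        · exact ⟨v, u, Sym2.eq_swap, fun Y a => by simp [val, h, h', h'.not_gt]⟩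
  choose u v h1 h2 using key
  refine ⟨fun i => (u i.1, G.dist (u i.1) (v i.1), rank G O (u i.1) (v i.1), i.2), ?_,
    fun Y i => h2 _ _ _⟩
  rintro ⟨e, a⟩ ⟨e', a'⟩ h
  simp only [Prod.mk.injEq] at h
  obtain ⟨h3, h4, h5, h6⟩ := h
  rw [← h3] at h4 h5
  have h7 : v e = v e' := by
    by_contra hne
    rcases lt_or_gt_of_ne (hO _ _ hne) with h | h
    · exact (rank_lt hc h4 h).ne h5
    · exact (rank_lt hc h4.symm h).ne' h5
  rw [h1 e, h1 e', h3, h7, h6]

lemma std_fam (hc : G.Connected) : Std (iid V) fun U => fam G (split U) := by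
  have := countable_V hc
  refine ⟨inferInstance, (measurable_fam G).comp measurable_split, ?_⟩
  have h1 : (iid V).map (fun U => fam G (split U)) = ((iid V).map split).map (fam G) := by
    rw [Measure.map_map (measurable_fam G) measurable_split]
    rfl
  rw [h1, map_split]
  ext S hS
  rw [Measure.map_apply (measurable_fam G) hS, Measure.prod_apply (measurable_fam G hS)]
  have h2 : ∀ᵐ O ∂(Measure.infinitePi fun _ : V × Slot => gaussianReal 0 1),
      (Measure.infinitePi fun _ : V × Slot => gaussianReal 0 1) (Prod.mk O ⁻¹' (fam G ⁻¹' S)) =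
        (Measure.infinitePi fun _ : Sym2 V × ℕ × ℕ => gaussianReal 0 1) S := by
    filter_upwards [ae_injective (V := V)] with O hO
    obtain ⟨f, hf, hval⟩ := exists_slot hc (O := fun w => O (w, 0)) hO
    have h3 := Measure.map_infinitePi_infinitePi_of_inj
      (P := fun _ : V × Slot => gaussianReal 0 1) hf
    rw [← h3, Measure.map_apply (by fun_prop) hS]
    congr 1
    ext Y
    have h4 : fam G (O, Y) = fun i => Y (f i) := funext fun i => hval Y i
    simp only [Set.mem_preimage, h4]
  rw [lintegral_congr_ae h2]
  simp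

lemma fam_equi (hc : G.Connected) (g : G ≃g G) (U : V → unitInterval) (e : Sym2 V) (a : ℕ × ℕ) :
    fam G (split (act g U)) (e.map g, a) = fam G (split U) (e, a) := by
  have hpre : ∀ u v, pre G (fun w => (split (act g U)).1 (w, 0)) (split (act g U)).2 a (g u) (g v) =
      pre G (fun w => (split U).1 (w, 0)) (split U).2 a u v := by
    intro u v
    have h1 : rank G (fun w => (split (act g U)).1 (w, 0)) (g u) (g v) =
        rank G (fun w => (split U).1 (w, 0)) u v := by
      unfold rank
      refine Eq.trans ?_ (Set.ncard_image_of_injective _ g.injective)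
      congr 1
      ext w
      obtain ⟨w, rfl⟩ := g.surjective w
      simp only [Set.mem_ofPred_eq, g.injective.mem_set_image, iso_dist g hc, split, act,
        RelIso.symm_apply_apply]
    rw [pre, pre, h1, iso_dist g hc]
    simp only [split, act, RelIso.symm_apply_apply]
  induction e using Sym2.ind with
  | h u v =>
    simp only [fam, val, Sym2.map_mk, Sym2.lift_mk, hpre, g.injective.eq_iff]
    simp only [split, act, RelIso.symm_apply_apply]
    rfl

end labels

end NoiseAux

variable {V : Type} {G : SimpleGraph V} [G.LocallyFinite]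

theorem exists_noise (hc : G.Connected) : ∃ N : Noise V (iid V), NoiseEqui G N := by
  obtain ⟨N, hN⟩ := NoiseAux.exists_noise_of_std (NoiseAux.std_fam hc)
  refine ⟨N, fun g J k U e => ?_⟩
  rw [hN, hN]
  exact NoiseAux.linearCombination_co_congr (NoiseAux.fam_equi hc g U e) J k

end Vale.Agent.P161
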