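import Vale.Agent.P161.CritDefs

/-!
Estimates at a fixed time.
-/

open MeasureTheory ProbabilityTheory Filter Topology Finset
open scoped Classical NNReal ENNReal

namespace Vale.Agent.P161

variable {V : Type} {G : SimpleGraph V} [G.LocallyFinite] {q : ℕ} {β : ℝ}

namespace StaticAux

variable {s t ρ : ℝ} {m : (V → unitInterval) → V → ℝ} {x y : V}

lemma tendsto_int (hG : Reg G q) {θ : ℝ} (h0 : 0 ≤ θ) (h : q * θ ^ 2 ≤ ρ) (hρ : ρ < 1)
    (hm : Measurable m) (S : Finset V) (hS : ∀ z ∈ S, G.Adj y z) {u : ℝ} (hu : 0 ≤ u) :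
    Tendsto (fun r => ∫ U, ∏ z ∈ S, Real.exp (u * M G (af θ (m U)) (bf θ (m U)) (af θ (m U))
      (bf θ (m U)) r y z) ∂iid V) atTop
      (𝓝 (∫ U, ∏ z ∈ S, Real.exp (u * NN G θ (m U) y z) ∂iid V)) := by
  refine tendsto_integral_of_dominated_convergence
    (fun _ => ∏ z ∈ S, Real.exp (u * (4 / (1 - ρ)))) (fun r => ?_) (integrable_const _)
    (fun r => ae_of_all _ fun U => ?_) (ae_of_all _ fun U => ?_)
  · refine (Finset.measurable_prod _ fun z _ => Real.measurable_exp.comp
      (Measurable.const_mul ?_ u)).aestronglyMeasurable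
    exact measurable_M (fun x y => (measurable_af θ x y).comp hm)
      (fun x y => (measurable_bf θ x y).comp hm) (fun x y => (measurable_af θ x y).comp hm)
      (fun x y => (measurable_bf θ x y).comp hm) r y z
  · rw [Real.norm_eq_abs, abs_of_nonneg (prod_nonneg fun z _ => (Real.exp_pos _).le)]
    refine prod_le_prod (fun z _ => (Real.exp_pos _).le) fun z hz => ?_
    gcongr
    exact MMAux.M_le hG h0 h hρ (hS z hz) r
  · exact tendsto_finsetProd _ fun z hz => (Real.continuous_exp.tendsto _).comp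
      ((tendsto_MM hG h0 h hρ (hS z hz)).const_mul u)

lemma mgf_step (hG : Reg G q) (hβ : 0 ≤ β) (ht : t ≤ 1) (h : q * th β t ^ 2 ≤ ρ) (hρ : ρ < 1)
    (hm : Measurable m) (he : Equi G m) (hl : LawLim G (iid V) β s t m) (hxy : G.Adj x y)
    {u : ℝ} (hu : 0 ≤ u) : ∫ U, Real.exp (u * NN G (th β t) (m U) x y) ∂iid V ≤
      Real.exp (4 * u) * (∫ U, Real.exp (u / q * NN G (th β t) (m U) x y) ∂iid V) ^ q := by
  have h0 := th_nonneg hβ ht
  have h1 := th_lt_one β t
  have hq : (2 : ℝ) ≤ q := by exact_mod_cast hG.two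
  have hF := fun u : ℝ => (fam_NN hG h0 h hρ hm he).comp (f := fun a => Real.exp (u * a))
    (by fun_prop)
  have hu' : 0 ≤ u / q := by positivity
  have e1 : ∫ U, ∏ z ∈ ch G x y, Real.exp (u / q * NN G (th β t) (m U) y z) ∂iid V =
      ∏ z ∈ ch G x y, ∫ U, Real.exp (u / q * NN G (th β t) (m U) y z) ∂iid V := by
    refine tendsto_nhds_unique (tendsto_int hG h0 h hρ hm _ (fun z hz => (mem_ch.1 hz).1) hu') ?_
    simp only [hl.indep hG hβ ht (h.trans hρ.le) hxy]
    refine tendsto_finsetProd _ fun z hz => ?_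
    simpa using tendsto_int hG h0 h hρ hm {z} (by simpa using (mem_ch.1 hz).1) hu'
  rw [prod_congr rfl fun z hz => (hF (u / q)).integral_eq hG (mem_ch.1 hz).1 hxy, prod_const,
    hG.card_ch hxy] at e1
  rw [← e1, ← integral_const_mul]
  refine integral_mono_of_nonneg (ae_of_all _ fun U => (Real.exp_pos _).le) ?_
    (ae_of_all _ fun U => ?_)
  · refine Integrable.const_mul ?_ _
    simp only [← Real.exp_sum, ← mul_sum]
    exact (((fam_NN hG h0 h hρ hm he).bop hG).comp (f := fun a => Real.exp (u / q * a))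
      (by fun_prop)).integrable hxy
  · simp only [← Real.exp_sum, ← mul_sum, ← Real.exp_add, Real.exp_le_exp]
    have hb := bd_field h0 h1 h (m U)
    have a1 : af (th β t) (m U) x y * af (th β t) (m U) x y ≤ 4 := by
      nlinarith [abs_le.1 (hb.a_le x y)]
    have a2 : bf (th β t) (m U) x y * bf (th β t) (m U) x y ≤ 1 / q := by
      rw [le_div_iff₀ (by positivity)]
      nlinarith [hb.b_le x y]
    have a3 : 0 ≤ ∑ z ∈ ch G x y, NN G (th β t) (m U) y z :=
      sum_nonneg fun z hz => zero_le_one.trans (one_le_MM hG h0 h hρ (mem_ch.1 hz).1)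
    calc _ ≤ u * (4 + 1 / q * ∑ z ∈ ch G x y, NN G (th β t) (m U) y z) := by
          gcongr
          rw [NN, MM_eq hG h0 h hρ hxy]
          exact add_le_add a1 (mul_le_mul_of_nonneg_right a2 a3)
      _ = _ := by ring

lemma mgf_iter (hG : Reg G q) (hβ : 0 ≤ β) (ht : t ≤ 1) (h : q * th β t ^ 2 ≤ ρ) (hρ : ρ < 1)
    (hm : Measurable m) (he : Equi G m) (hl : LawLim G (iid V) β s t m) (hxy : G.Adj x y)
    (j : ℕ) {u : ℝ} (hu : 0 ≤ u) : ∫ U, Real.exp (u * NN G (th β t) (m U) x y) ∂iid V ≤
      Real.exp (4 * u * j) *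
        (∫ U, Real.exp (u / q ^ j * NN G (th β t) (m U) x y) ∂iid V) ^ (q ^ j) := by
  have hq : (2 : ℝ) ≤ q := by exact_mod_cast hG.two
  induction j generalizing u with
  | zero => simp
  | succ j ih =>
    refine (mgf_step hG hβ ht h hρ hm he hl hxy hu).trans ?_
    have := ih (u := u / q) (by positivity)
    calc _ ≤ Real.exp (4 * u) * (Real.exp (4 * (u / q) * j) * (∫ U, Real.exp (u / q / q ^ j *
          NN G (th β t) (m U) x y) ∂iid V) ^ (q ^ j)) ^ q := by
          gcongr
      _ = _ := by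
          rw [mul_pow, ← pow_mul, ← Real.exp_nat_mul, ← mul_assoc, ← Real.exp_add, div_div,
            ← pow_succ', ← pow_succ]
          congr 2
          push_cast
          field_simp
          ring

lemma mgf_small (hG : Reg G q) {θ : ℝ} (h0 : 0 ≤ θ) (h : q * θ ^ 2 ≤ ρ) (hρ : ρ < 1)
    (hm : Measurable m) (he : Equi G m) (hxy : G.Adj x y) {u : ℝ} (hu : 0 ≤ u)
    (hu1 : u * (4 / (1 - ρ)) ≤ 1) : ∫ U, Real.exp (u * NN G θ (m U) x y) ∂iid V ≤
      Real.exp (u * nn G θ m x y + (u * (4 / (1 - ρ))) ^ 2) := by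
  have hi := ((fam_NN hG h0 h hρ hm he).integrable hxy).const_mul u
  refine le_trans ?_ (Real.add_one_le_exp _)
  calc _ ≤ ∫ U, (u * NN G θ (m U) x y + ((u * (4 / (1 - ρ))) ^ 2 + 1)) ∂iid V := by
        refine integral_mono_of_nonneg (ae_of_all _ fun U => (Real.exp_pos _).le)
          (hi.add (integrable_const _)) (ae_of_all _ fun U => ?_)
        have a1 : 0 ≤ u * NN G θ (m U) x y :=
          mul_nonneg hu (zero_le_one.trans (one_le_MM hG h0 h hρ hxy))
        have a2 : u * NN G θ (m U) x y ≤ u * (4 / (1 - ρ)) :=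
          mul_le_mul_of_nonneg_left (MM_le hG h0 h hρ hxy) hu
        have a3 := (abs_le.1 (Real.abs_exp_sub_one_sub_id_le (x := u * NN G θ (m U) x y)
          (by rw [abs_of_nonneg a1]; linarith))).2
        have a4 := pow_le_pow_left₀ a1 a2 2
        simp only
        linarith
    _ = _ := by
        rw [integral_add hi (integrable_const _), integral_const_mul]
        simp [nn, add_assoc]

lemma pt1 {n η g Y T : ℝ} (a1 : 0 ≤ T) (a2 : Y - n - η ≤ T) (a5 : 0 ≤ g) (a4 : g ≤ 1)
    (hη : 0 ≤ η) : n * g ≤ g * Y + T - Y + (η + n) := by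
  rcases le_total n Y with a6 | a6 <;> nlinarith

lemma pt2 {n η g Y T : ℝ} (a1 : 0 ≤ T) (a2 : Y - n - η ≤ T) (a5 : 0 ≤ g) (a4 : g ≤ 1) :
    g * Y ≤ (n + η) * g + T := by
  nlinarith

lemma pt3 {n η u N : ℝ} (a1 : 0 ≤ N) (a5 : 0 ≤ u) (a4 : u ≤ 1) :
    N ≤ (1 - u) ^ 2 * N + 2 * (n + η) * u + 2 * max (N - n - η) 0 := by
  have a2 := le_max_left (N - n - η) 0
  have a3 := le_max_right (N - n - η) 0
  nlinarith [mul_nonneg (sq_nonneg u) a1, mul_nonneg a5 (sub_nonneg.2 a2),
    mul_nonneg a3 (sub_nonneg.2 a4)]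

lemma fin {c C0 D H CL t x l n η γ w : ℝ} (hc0 : 0 < c) (hC0 : 1 ≤ C0) (hD : 0 ≤ D)
    (hH1 : 1 ≤ H) (hCL : 1 ≤ CL) (ht0 : 0 < t) (hx0 : 0 ≤ x) (hell : 1 ≤ l) (hn0 : 0 ≤ n)
    (hη0 : 0 ≤ η) (hη1 : η ≤ H * l) (hw0 : 0 ≤ w) (k1 : c * t ≤ γ) (k2 : x ≤ 4 * CL * γ)
    (k3 : γ ≤ C0 * t + D * x) (k4 : n * γ ≤ 5 + η) (k5 : 1 / 2 ≤ (n + η) * γ)
    (k6 : n ≤ w + 2 * (n + η) * x + 1) {C : ℝ}
    (hC : C = 4 * ((1 / c + 4 * CL) * (5 + H)) + 2 * H * (C0 + D) + H + 2) :
    n * (t + x) ≤ C * l ∧ 1 ≤ C * (n + l) * (t + x) ∧ n ≤ C * (w + l) := by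
  set A := (1 / c + 4 * CL) * (5 + H) with hA
  set B := 2 * H * (C0 + D) with hB
  have hA0 : 0 ≤ A := by positivity
  have hB0 : 0 ≤ B := by positivity
  subst hC
  have c1 : n * (t + x) ≤ A * l := by
    have a1 : t ≤ 1 / c * γ := by rw [one_div, ← div_eq_inv_mul, le_div_iff₀ hc0]; linarith
    calc _ ≤ n * ((1 / c + 4 * CL) * γ) := mul_le_mul_of_nonneg_left (by linarith) hn0
      _ = (1 / c + 4 * CL) * (n * γ) := by ring
      _ ≤ (1 / c + 4 * CL) * ((5 + H) * l) :=
          mul_le_mul_of_nonneg_left (by linarith) (by positivity)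
      _ = _ := by ring
  refine ⟨c1.trans (by gcongr; linarith), ?_, ?_⟩
  · have a1 : n + η ≤ H * (n + l) := by nlinarith
    have a2 : γ ≤ (C0 + D) * (t + x) := by
      have : 0 ≤ D * t := by positivity
      nlinarith
    have a3 : (n + η) * γ ≤ H * (n + l) * ((C0 + D) * (t + x)) := by
      gcongr
      exact le_trans (by positivity) k1
    calc 1 ≤ B * (n + l) * (t + x) := by rw [hB]; linarith
      _ ≤ _ := by gcongr; linarith
  · have a0 : 0 ≤ (4 * A + B + H) * w := by positivity
    have a1 : 0 ≤ A * l := by positivity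
    have a2 : 0 ≤ B * l := by positivity
    have a3 : 0 ≤ H * l := by positivity
    rcases le_total x (1 / 4) with a4 | a4
    · have : 2 * (n + η) * x ≤ 2 * (n + η) * (1 / 4) := by gcongr
      linarith
    · have : n * (1 / 4) ≤ n * (t + x) := by gcongr; linarith
      linarith

end StaticAux

open StaticAux

theorem static_tail (hG : Reg G q) (hβ : 0 ≤ β) (hc : q * Real.tanh β ^ 2 = 1) :
    ∃ C : ℝ, 1 ≤ C ∧ ∀ (s t : ℝ) (m : (V → unitInterval) → V → ℝ), 0 < t → t ≤ 1 → Measurable m →
      Equi G m → LawLim G (iid V) β s t m → ∀ x y, G.Adj x y →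
      (∀ U, NN G (th β t) (m U) x y ≤ C / t) ∧ ∀ l, 1 ≤ l →
        (iid V).real {U | nn G (th β t) m x y + C * (ell t + Real.log l) ≤
          NN G (th β t) (m U) x y} ≤ Real.exp (-l) ∧
        ∫ U, max (NN G (th β t) (m U) x y - nn G (th β t) m x y - C * (ell t + Real.log l)) 0
          ∂iid V ≤ C / t * Real.exp (-l) := by
  have hq : (2 : ℝ) ≤ q := by exact_mod_cast hG.two
  obtain ⟨c, C0, hc0, hc1, -, hgap⟩ := th_gap hβ hq hc
  have hc4 : 4 ≤ 4 / c := by rw [le_div_iff₀ hc0]; linarith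
  refine ⟨22 + 16 * (4 / c), by linarith, fun s t m ht0 ht1 hm he hl x y hxy => ?_⟩
  have h0 := th_nonneg hβ ht1
  have h : q * th β t ^ 2 ≤ 1 - c * t := by linarith [(hgap t ht0.le ht1).1]
  have hρ : 1 - c * t < 1 := by nlinarith
  have hN := fam_NN hG h0 h hρ hm he
  have e0 : 4 / (1 - (1 - c * t)) = 4 / c / t := by rw [sub_sub_cancel, div_div]
  have hbd : ∀ U, NN G (th β t) (m U) x y ≤ (22 + 16 * (4 / c)) / t := fun U => by
    refine (MM_le hG h0 h hρ hxy).trans ?_
    rw [e0]
    gcongr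
    linarith
  refine ⟨hbd, fun l hl1 => ?_⟩
  have hell := one_le_ell ht0 ht1
  have hlog := Real.log_nonneg hl1
  set B := 4 / c / t with hB
  have hB1 : 1 ≤ B := by rw [hB, le_div_iff₀ ht0]; linarith
  have hX : 1 ≤ l * B ^ 2 := one_le_mul_of_one_le_of_one_le hl1 (one_le_pow₀ hB1)
  have hlX := Real.log_nonneg hX
  set j := ⌈2 * Real.log (l * B ^ 2)⌉₊ with hj
  have hj1 : l * B ^ 2 ≤ q ^ j := by
    calc _ = Real.exp (Real.log (l * B ^ 2)) := (Real.exp_log (by linarith)).symm
      _ ≤ Real.exp (j * Real.log 2) := by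
          have := Nat.le_ceil (2 * Real.log (l * B ^ 2))
          have := Real.log_two_gt_d9
          gcongr
          nlinarith
      _ = 2 ^ j := by rw [Real.exp_nat_mul, Real.exp_log two_pos]
      _ ≤ _ := by gcongr
  have hj2 : 4 * j + 2 ≤ (22 + 16 * (4 / c)) * (ell t + Real.log l) := by
    have a1 := (Nat.ceil_lt_add_one (show 0 ≤ 2 * Real.log (l * B ^ 2) by linarith)).le
    have a2 : Real.log (l * B ^ 2) = Real.log l + 2 * (Real.log (4 / c) - Real.log t) := by
      rw [Real.log_mul (by linarith) (by positivity), Real.log_pow, hB,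
        Real.log_div (by positivity) ht0.ne']
      simp
    have a3 := Real.log_le_sub_one_of_pos (show 0 < 4 / c by positivity)
    have a4 : ell t = 1 - Real.log t := rfl
    rw [← hj] at a1
    nlinarith
  have hu : l / q ^ j * B ^ 2 ≤ 1 := by
    rw [div_mul_eq_mul_div, div_le_one (by positivity)]
    exact hj1
  have hu0 : 0 ≤ l / q ^ j := by positivity
  have hmgf : ∫ U, Real.exp (l * NN G (th β t) (m U) x y) ∂iid V ≤
      Real.exp (l * (nn G (th β t) m x y + 4 * j + 1)) := by
    refine (mgf_iter hG hβ ht1 h hρ hm he hl hxy j (by linarith)).trans ?_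
    have := mgf_small hG h0 h hρ hm he hxy hu0 (by rw [e0]; nlinarith)
    rw [e0] at this
    calc _ ≤ Real.exp (4 * l * j) * Real.exp (l / q ^ j * nn G (th β t) m x y +
          (l / q ^ j * B) ^ 2) ^ (q ^ j) := by
          gcongr
      _ ≤ _ := by
          rw [← Real.exp_nat_mul, ← Real.exp_add, Real.exp_le_exp]
          have e : ((q ^ j : ℕ) : ℝ) * (l / q ^ j * nn G (th β t) m x y + (l / q ^ j * B) ^ 2) =
              l * nn G (th β t) m x y + l * (l / q ^ j * B ^ 2) := by
            push_cast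
            field_simp
          rw [e]
          nlinarith
  have hP : (iid V).real {U | nn G (th β t) m x y + (22 + 16 * (4 / c)) * (ell t + Real.log l) ≤
      NN G (th β t) (m U) x y} ≤ Real.exp (-l) := by
    refine (measure_ge_le_exp_mul_mgf _ (show 0 ≤ l by linarith)
      ((hN.comp (f := fun a => Real.exp (l * a)) (by fun_prop)).integrable hxy)).trans ?_
    refine (mul_le_mul_of_nonneg_left hmgf (Real.exp_pos _).le).trans ?_
    rw [← Real.exp_add, Real.exp_le_exp]
    nlinarith
  refine ⟨hP, ?_⟩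
  have hms : MeasurableSet {U | nn G (th β t) m x y + (22 + 16 * (4 / c)) * (ell t + Real.log l) ≤
      NN G (th β t) (m U) x y} := measurableSet_le measurable_const (hN.meas x y)
  have hn0 : 0 ≤ nn G (th β t) m x y :=
    integral_nonneg fun U => zero_le_one.trans (one_le_MM hG h0 h hρ hxy)
  calc _ ≤ ∫ U, Set.indicator {U | nn G (th β t) m x y + (22 + 16 * (4 / c)) *
        (ell t + Real.log l) ≤ NN G (th β t) (m U) x y} (fun _ => (22 + 16 * (4 / c)) / t) U
          ∂iid V := by
        refine integral_mono_of_nonneg (ae_of_all _ fun U => le_max_right _ _)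
          ((integrable_const _).indicator hms) (ae_of_all _ fun U => ?_)
        simp only [Set.indicator, Set.mem_ofPred_eq]
        split_ifs with hU
        · refine max_le ?_ (by positivity)
          have : 0 ≤ (22 + 16 * (4 / c)) * (ell t + Real.log l) := by positivity
          linarith [hbd U]
        · exact max_le (by linarith) le_rfl
    _ ≤ _ := by
        rw [integral_indicator_const _ hms, smul_eq_mul, mul_comm]
        gcongr

theorem static_mean (hG : Reg G q) (hβ : 0 ≤ β) (hc : q * Real.tanh β ^ 2 = 1) :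
    ∃ C : ℝ, 1 ≤ C ∧ ∀ (s t : ℝ) (m : (V → unitInterval) → V → ℝ), 0 < t → t ≤ 1 → Measurable m →
      Equi G m → LawLim G (iid V) β s t m → ∀ x y, G.Adj x y →
      nn G (th β t) m x y * (t + xx m x) ≤ C * ell t ∧
      1 ≤ C * (nn G (th β t) m x y + ell t) * (t + xx m x) ∧
      nn G (th β t) m x y ≤
        C * (∫ U, vf (m U) x ^ 2 * NN G (th β t) (m U) x y ∂iid V + ell t) := by
  have hq : (2 : ℝ) ≤ q := by exact_mod_cast hG.two
  obtain ⟨c, C0, hc0, hc1, hC0, hgap⟩ := th_gap hβ hq hc
  obtain ⟨C1, hC1, htail⟩ := static_tail hG hβ hc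
  have hCL := one_le_CL
  set H := C1 * (C1 + 2) with hH
  have hH1 : 1 ≤ H := by nlinarith
  refine ⟨4 * ((1 / c + 4 * CL) * (5 + H)) + 2 * H * (C0 + 2 * q * CL) + H + 2, by
    have : 0 ≤ 4 * ((1 / c + 4 * CL) * (5 + H)) + 2 * H * (C0 + 2 * q * CL) := by positivity
    linarith, fun s t m ht0 ht1 hm he hl x y hxy => ?_⟩
  have h0 := th_nonneg hβ ht1
  have h1 := th_lt_one β t
  obtain ⟨g1, g2⟩ := hgap t ht0.le ht1
  have h : q * th β t ^ 2 ≤ 1 - c * t := by linarith
  have hρ : 1 - c * t < 1 := by nlinarith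
  have h2 := hG.sq_le_half (h.trans hρ.le)
  have hN := fam_NN hG h0 h hρ hm he
  have hell := one_le_ell ht0 ht1
  set θ := th β t
  set n := nn G θ m x y with hn
  set η := C1 * (ell t + Real.log (C1 / t)) with hη
  have hl1 : 1 ≤ C1 / t := by rw [le_div_iff₀ ht0]; linarith
  have hη0 : 0 ≤ η := mul_nonneg (by linarith) (by linarith [Real.log_nonneg hl1])
  have hη1 : η ≤ H * ell t := by
    rw [hη, hH, mul_assoc, Real.log_div (by linarith) ht0.ne']
    have a3 := Real.log_le_sub_one_of_pos (show 0 < C1 by linarith)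
    have a4 : ell t = 1 - Real.log t := rfl
    gcongr
    nlinarith
  have hn0 : 0 ≤ n := integral_nonneg fun U => zero_le_one.trans (one_le_MM hG h0 h hρ hxy)
  have hT : Fam G fun x y U => max (NN G θ (m U) x y - n - η) 0 :=
    hN.comp (f := fun a => max (a - n - η) 0) (by fun_prop)
  have t1 : ∫ U, max (NN G θ (m U) x y - n - η) 0 ∂iid V ≤ 1 / 2 := by
    refine ((htail s t m ht0 ht1 hm he hl x y hxy).2 _ hl1).2.trans ?_
    have := Real.quadratic_le_exp_of_nonneg (show 0 ≤ C1 / t by linarith)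
    rw [Real.exp_neg, ← div_eq_mul_inv, div_le_iff₀ (Real.exp_pos _)]
    nlinarith [sq_nonneg (C1 / t - 1)]
  have hb := fam_bf h0 h1 hm he
  let g : (V → unitInterval) → ℝ := fun U => 1 - q * bf θ (m U) x y ^ 2
  let Y : (V → unitInterval) → ℝ := fun U => Bop G (fun x y U => NN G θ (m U) x y) x y U / q
  let T : (V → unitInterval) → ℝ := fun U =>
    Bop G (fun x y U => max (NN G θ (m U) x y - n - η) 0) x y U / q
  have hgF := hb.comp (f := fun a => 1 - q * a ^ 2) (by fun_prop)
  have hYF := (hN.bop hG).comp (f := fun a => a / q) (by fun_prop)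
  have ig : Integrable g (iid V) := hgF.integrable hxy
  have iY : Integrable Y (iid V) := hYF.integrable hxy
  have igY : Integrable (fun U => g U * Y U) (iid V) := (hgF.mul hYF).integrable hxy
  have iT : Integrable T (iid V) := ((hT.bop hG).integrable hxy).div_const _
  have eY : ∫ U, Y U ∂iid V = n := by
    simp only [Y]
    rw [integral_div, hN.integral_bop hG hxy, mul_div_cancel_left₀ _ (by positivity)]
    rfl
  have eT : ∫ U, T U ∂iid V ≤ 1 / 2 := by
    simp only [T]
    rwa [integral_div, hT.integral_bop hG hxy, mul_div_cancel_left₀ _ (by positivity)]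
  have pT : ∀ U, 0 ≤ T U ∧ Y U - n - η ≤ T U := fun U => by
    refine ⟨div_nonneg (sum_nonneg fun z _ => le_max_right _ _) (by positivity), ?_⟩
    have : ∑ z ∈ ch G x y, (NN G θ (m U) y z - n - η) ≤
        ∑ z ∈ ch G x y, max (NN G θ (m U) y z - n - η) 0 := sum_le_sum fun z _ => le_max_left _ _
    simp only [sum_sub_distrib, sum_const, hG.card_ch hxy, nsmul_eq_mul] at this
    simp only [T, Y, Bop]
    rw [le_div_iff₀ (by positivity)]
    refine le_trans (le_of_eq ?_) this
    field_simp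
  have pg : ∀ U, c * t ≤ g U ∧ g U ≤ 1 ∧ cav θ (clip (m U x)) (clip (m U y)) ^ 2 ≤ 2 * g U ∧
      g U ≤ C0 * t + q * CL * (clip (m U x) ^ 2 + clip (m U y) ^ 2) := fun U => by
    have a1 := (bd_field h0 h1 h (m U)).b_le x y
    have a2 := bco_sq_le h0 h2 (abs_clip_le_one (m U x)) (abs_clip_le_one (m U y))
    have a3 := (bf_spec h0 h2 h0 h2 (m U) (m U) x y).2.2.1
    have a4 := (sq_le_one_iff_abs_le_one _).2
      (abs_cav_le h0 h1 (abs_clip_le_one (m U x)) (abs_clip_le_one (m U y)))
    have a5 : q * bf θ (m U) x y ^ 2 ≤ q * θ ^ 2 * (1 - cav θ (clip (m U x)) (clip (m U y)) ^ 2 / 2) := by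
      rw [mul_assoc]
      exact mul_le_mul_of_nonneg_left a2 (by positivity)
    have a6 : q * θ ^ 2 * (1 - cav θ (clip (m U x)) (clip (m U y)) ^ 2 / 2) ≤
        1 * (1 - cav θ (clip (m U x)) (clip (m U y)) ^ 2 / 2) :=
      mul_le_mul_of_nonneg_right (by linarith) (by linarith)
    have a7 := mul_le_mul_of_nonneg_left a3 (show (0 : ℝ) ≤ q by positivity)
    simp only [g]
    refine ⟨by linarith, sub_le_self _ (by positivity), by linarith, by linarith⟩
  have egY : 1 ≤ ∫ U, g U * Y U ∂iid V ∧ ∫ U, g U * Y U ∂iid V ≤ 4 := by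
    have e : ∀ U, af θ (m U) x y * af θ (m U) x y = NN G θ (m U) x y - Y U + g U * Y U := by
      intro U
      rw [NN, MM_eq hG h0 h hρ hxy]
      simp only [g, Y, Bop, NN]
      field_simp
      ring
    have e2 : ∫ U, (NN G θ (m U) x y - Y U + g U * Y U) ∂iid V = ∫ U, g U * Y U ∂iid V := by
      rw [integral_add (by exact (hN.integrable hxy).sub iY) igY, integral_sub (hN.integrable hxy) iY,
        eY]
      simp [hn, nn]
    have i2 : Integrable (fun U => NN G θ (m U) x y - Y U + g U * Y U) (iid V) :=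
      ((hN.integrable hxy).sub iY).add igY
    rw [← e2]
    constructor
    · have := integral_mono (integrable_const (1 : ℝ)) i2 fun U => by
        simp only [← e]
        exact one_le_mul_of_one_le_of_one_le (MMAux.one_le_af h0 h1 _ x y)
          (MMAux.one_le_af h0 h1 _ x y)
      simpa using this
    · have := integral_mono i2 (integrable_const (4 : ℝ)) fun U => by
        simp only [← e]
        nlinarith [abs_le.1 ((bd_field h0 h1 h (m U)).a_le x y)]
      simpa using this
  have hcl := TemperAux.fam_sq (fam_clip hm he)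
  have ex : xx m x = ∫ U, clip (m U x) ^ 2 ∂iid V := by
    refine integral_congr_ae ?_
    filter_upwards [hl.abs_le hm x] with U hU
    rw [clip_eq hU]
  have ey : ∫ U, clip (m U y) ^ 2 ∂iid V = xx m x := by
    rw [ex]
    exact hcl.integral_eq hG hxy.symm hxy
  have hx0 : 0 ≤ xx m x := integral_nonneg fun U => sq_nonneg _
  set γ := ∫ U, g U ∂iid V with hγ
  have k1 : c * t ≤ γ := by
    simpa using integral_mono (integrable_const (c * t)) ig fun U => (pg U).1
  have k2 : xx m x ≤ 4 * CL * γ := by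
    have hcv := TemperAux.fam_sq (fam_cav h0 h1 hm he)
    have b1 : ∫ U, cav θ (clip (m U x)) (clip (m U y)) ^ 2 ∂iid V ≤ 2 * γ := by
      rw [hγ, ← integral_const_mul]
      exact integral_mono (hcv.integrable hxy) (ig.const_mul 2) fun U => (pg U).2.2.1
    have b2 := hcv.integral_eq hG hxy.symm hxy
    have b3 := integral_mono (hcl.integrable hxy.symm) (((hcv.integrable hxy).add
      (hcv.integrable hxy.symm)).const_mul CL) fun U => (bf_spec h0 h2 h0 h2 (m U) (m U) x y).2.2.2
    rw [ey, integral_const_mul, integral_add' (hcv.integrable hxy) (hcv.integrable hxy.symm),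
      b2] at b3
    refine b3.trans ?_
    nlinarith
  have k3 : γ ≤ C0 * t + 2 * q * CL * xx m x := by
    have i1 := ((hcl.integrable hxy).add (hcl.integrable hxy.symm)).const_mul (q * CL)
    have := integral_mono ig ((integrable_const (C0 * t)).add i1) fun U => (pg U).2.2.2
    rw [integral_add' (integrable_const _) i1, integral_const_mul (q * CL),
      integral_add' (hcl.integrable hxy) (hcl.integrable hxy.symm), ey, ← ex] at this
    simp only [integral_const, probReal_univ, smul_eq_mul] at this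
    linarith
  have k4 : n * γ ≤ 5 + η := by
    have := integral_mono (ig.const_mul n) (((igY.add iT).sub iY).add (integrable_const (η + n)))
      fun U => pt1 (pT U).1 (pT U).2 (le_trans (by positivity) (pg U).1) (pg U).2.1 hη0
    rw [integral_const_mul, integral_add' ((igY.add iT).sub iY) (integrable_const _),
      integral_sub' (igY.add iT) iY, integral_add' igY iT, eY] at this
    simp only [integral_const, probReal_univ, smul_eq_mul] at this
    linarith [egY.2]
  have k5 : 1 / 2 ≤ (n + η) * γ := by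
    have := integral_mono igY ((ig.const_mul (n + η)).add iT) fun U =>
      pt2 (pT U).1 (pT U).2 (le_trans (by positivity) (pg U).1) (pg U).2.1
    rw [integral_add' (ig.const_mul _) iT, integral_const_mul] at this
    linarith [egY.1]
  have hvN := (TemperAux.fam_sq (fam_vf hm he)).mul hN
  set w := ∫ U, vf (m U) x ^ 2 * NN G θ (m U) x y ∂iid V with hw
  have hw0 : 0 ≤ w := integral_nonneg fun U =>
    mul_nonneg (sq_nonneg _) (zero_le_one.trans (one_le_MM hG h0 h hρ hxy))
  have k6 : n ≤ w + 2 * (n + η) * xx m x + 1 := by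
    have i1 := (hcl.integrable hxy).const_mul (2 * (n + η))
    have i2 := (hT.integrable hxy).const_mul 2
    have := integral_mono (hN.integrable hxy) (((hvN.integrable hxy).add i1).add i2) fun U =>
      pt3 (zero_le_one.trans (one_le_MM hG h0 h hρ hxy)) (sq_nonneg _)
        ((sq_le_one_iff_abs_le_one _).2 (abs_clip_le_one (m U x)))
    rw [integral_add' ((hvN.integrable hxy).add i1) i2, integral_add' (hvN.integrable hxy) i1,
      integral_const_mul, integral_const_mul, ← ex] at this
    change n ≤ w + _ + _ at this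
    linarith
  exact fin hc0 hC0 (by positivity) hH1 hCL ht0 hx0 hell hn0 hη0 hη1 hw0 k1 k2 k3 k4 k5 k6 rfl

end Vale.Agent.P161
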