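import Vale.Agent.P161.Chain
import Vale.Agent.P161.Euler
import Vale.Agent.P161.Indep
import Vale.Agent.P161.NoiseEx
import Vale.Agent.P161.Final
import Vale.Agent.P161.Free
import Vale.Agent.P161.Converse

/-!
The factor of IID property strictly below the threshold.
-/

open MeasureTheory

namespace Vale.Agent.P161

variable {V : Type} {G : SimpleGraph V}

theorem fiid_sub [G.LocallyFinite] {q : ℕ} (hG : Reg G q) {β : ℝ} (hβ : 0 ≤ β)
    (hs : q * Real.tanh β ^ 2 < 1) {μ : Measure (V → Bool)} (hμ : IsFreeIsing G (Real.tanh β) μ) :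
    IsFactorOfIID G μ := by
  obtain ⟨N, hN⟩ := exists_noise hG.tree.connected
  have h0 : th β 0 = Real.tanh β := by simp [th]
  have hd : Dy 0 := ⟨0, 0, by simp [tm]⟩
  rw [← h0] at hs hμ
  obtain ⟨m, hm, he⟩ := exists_sol hG hβ hs hd zero_le_one N hN
  exact fiid_of_field hG.tree.connected N hN (hm.meas 1 zero_le_one) (he 1)
    ((hm.lawLim hG hβ hs hd ⟨0, 1, by simp [tm]⟩ zero_le_one le_rfl).final hG.tree hβ zero_le_one)
    hμ

lemma exists_reg {d : ℕ} (hd : 3 ≤ d) (hT : G.IsTree) (hreg : ∀ v, (G.neighborSet v).encard = d) :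
    ∃ _ : G.LocallyFinite, Reg G (d - 1) := by
  let i : G.LocallyFinite := fun v => (Set.finite_of_encard_eq_coe (hreg v)).fintype
  refine ⟨i, hT, fun v => ?_, by omega⟩
  have h := hreg v
  rw [← SimpleGraph.coe_neighborFinset, Set.encard_coe_eq_coe_finsetCard, Nat.cast_inj] at h
  rw [SimpleGraph.degree, h]
  omega

lemma sq_lt_iff {d : ℕ} (hd : 3 ≤ d) {θ : ℝ} (hθ : 0 ≤ θ) :
    (θ < 1 / √(d - 1) → ((d - 1 : ℕ) : ℝ) * θ ^ 2 < 1) ∧
      (θ = 1 / √(d - 1) → ((d - 1 : ℕ) : ℝ) * θ ^ 2 = 1) ∧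
      (1 / √(d - 1) < θ → 1 < θ * √(d - 1)) := by
  have h3 : (3 : ℝ) ≤ d := by exact_mod_cast hd
  have h1 : 0 < √((d : ℝ) - 1) := Real.sqrt_pos.2 (by linarith)
  have h2 : √((d : ℝ) - 1) ^ 2 = d - 1 := Real.sq_sqrt (by linarith)
  have h4 : ((d - 1 : ℕ) : ℝ) * θ ^ 2 = (θ * √(d - 1)) ^ 2 := by
    rw [mul_pow, h2, Nat.cast_sub (by omega)]
    push_cast
    ring
  rw [h4]
  refine ⟨fun h => ?_, fun h => ?_, fun h => (div_lt_iff₀ h1).1 h⟩
  · exact pow_lt_one₀ (by positivity) ((lt_div_iff₀ h1).1 h) two_ne_zero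
  · rw [(eq_div_iff h1.ne').1 h, one_pow]

lemma tanh_nonneg' {β : ℝ} (hβ : 0 ≤ β) : 0 ≤ Real.tanh β := by
  simpa [th] using th_nonneg hβ zero_le_one

end Vale.Agent.P161
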