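import Mathlib

/-! Edge labelling of a regular tree: involutions, words, label preserving automorphisms. -/

namespace Vale.Agent.P161

open SimpleGraph

variable {V : Type*} {G : SimpleGraph V}

theorem parent_unique (hT : G.IsTree) {r v w w' : V} (hw : G.Adj v w) (hw' : G.Adj v w')
    (h1 : G.dist r w + 1 = G.dist r v) (h2 : G.dist r w' + 1 = G.dist r v) : w = w' := by
  obtain ⟨p, hp⟩ := hT.connected.exists_walk_length_eq_dist r w
  obtain ⟨q, hq⟩ := hT.connected.exists_walk_length_eq_dist r w'
  have hp' : (p.concat hw.symm).IsPath :=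
    Walk.isPath_of_length_eq_dist _ (by simp [hp, h1])
  have hq' : (q.concat hw'.symm).IsPath :=
    Walk.isPath_of_length_eq_dist _ (by simp [hq, h2])
  have := (hT.isAcyclic.subsingleton_path r v).elim ⟨_, hp'⟩ ⟨_, hq'⟩
  have h3 : p.concat hw.symm = q.concat hw'.symm := congrArg Subtype.val this
  have h4 := congrArg Walk.penultimate h3
  simpa using h4

theorem exists_parent (hT : G.IsTree) {r v : V} (h : v ≠ r) :
    ∃ w, G.Adj v w ∧ G.dist r w + 1 = G.dist r v := by
  obtain ⟨p, hp⟩ := hT.connected.exists_walk_length_eq_dist v r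
  cases p with
  | nil => exact absurd rfl h
  | cons hadj q =>
    rename_i w
    refine ⟨w, hadj, ?_⟩
    have h1 : G.dist r w ≤ q.length := by
      rw [dist_comm]; exact dist_le q
    have h2 : q.length + 1 = G.dist r v := by
      rw [dist_comm]; simpa using hp
    rcases hT.dist_eq_dist_add_one_of_adj r hadj with h3 | h3 <;> omega

/-- A proper edge labelling of a regular graph by `Fin d`. -/
structure Lab (d : ℕ) (G : SimpleGraph V) where
  s : Fin d → V → V
  inv : ∀ a v, s a (s a v) = v
  adj : ∀ v w, G.Adj v w ↔ ∃ a, w = s a v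
  inj : ∀ v a b, s a v = s b v → a = b

theorem exists_lab {d : ℕ} (hT : G.IsTree) (hd : ∀ v, (G.neighborSet v).encard = d) :
    Nonempty (Lab d G) := by
  classical
  obtain ⟨r⟩ := hT.connected.nonempty
  have base : ∀ v, Nonempty (Fin d ≃ G.neighborSet v) := by
    intro v
    have hfin : (G.neighborSet v).Finite := Set.finite_of_encard_eq_coe (hd v)
    have := hfin.fintype
    refine ⟨(Fintype.equivFinOfCardEq ?_).symm⟩
    have := hd v
    rw [Set.encard_eq_coe_toFinset_card] at this
    simpa [Set.toFinset_card] using (ENat.natCast_inj.mp this)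
  have adjust : ∀ (v : V) (u : G.neighborSet v) (a : Fin d),
      ∃ e : Fin d ≃ G.neighborSet v, e a = u := by
    intro v u a
    obtain ⟨e⟩ := base v
    exact ⟨e.trans (Equiv.swap (e a) u), by simp⟩
  choose adj hadj using adjust
  have par : ∀ v, v ≠ r → ∃ w, G.Adj v w ∧ G.dist r w + 1 = G.dist r v :=
    fun v h => exists_parent hT h
  choose p hp1 hp2 using par
  let E : ℕ → (v : V) → (Fin d ≃ G.neighborSet v) := fun n =>
    Nat.rec (fun v => (base v).some)
      (fun _ E v => if h : v = r then (base v).some else
        adj v ⟨p v h, hp1 v h⟩ ((E (p v h)).symm ⟨v, (hp1 v h).symm⟩)) n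
  let e : (v : V) → (Fin d ≃ G.neighborSet v) := fun v => E (G.dist r v) v
  have key : ∀ v (h : v ≠ r), (e v ((e (p v h)).symm ⟨v, (hp1 v h).symm⟩) : V) = p v h := by
    intro v h
    have h2 := hp2 v h
    have : e v = adj v ⟨p v h, hp1 v h⟩ ((e (p v h)).symm ⟨v, (hp1 v h).symm⟩) := by
      show E (G.dist r v) v = _
      rw [← h2]
      simp only [E, h, dif_neg, not_false_eq_true]
      rfl
    rw [this, hadj]
  have key2 : ∀ v w (hvw : G.Adj v w), G.dist r w + 1 = G.dist r v →
      (e v ((e w).symm ⟨v, hvw.symm⟩) : V) = w := by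
    intro v w hvw hd'
    have h : v ≠ r := by
      rintro rfl
      simp at hd'
    have : w = p v h := parent_unique hT hvw (hp1 v h) hd' (hp2 v h)
    subst this
    exact key v h
  refine ⟨⟨fun a v => e v a, ?_, ?_, ?_⟩⟩
  · intro a v
    have hadj' : G.Adj v (e v a) := (e v a).2
    rcases hT.dist_eq_dist_add_one_of_adj r hadj' with h | h
    · have := key2 v (e v a) hadj' h.symm
      have h3 : (e (e v a)).symm ⟨v, hadj'.symm⟩ = a := (e v).injective (Subtype.ext this)
      rw [Equiv.symm_apply_eq] at h3
      exact (congrArg Subtype.val h3).symm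
    · have := key2 (e v a) v hadj'.symm h.symm
      have h3 : (e v).symm ⟨(e v a : V), hadj'.symm.symm⟩ = a := by
        rw [Equiv.symm_apply_eq]
      rw [h3] at this
      exact this
  · intro v w
    constructor
    · intro h
      exact ⟨(e v).symm ⟨w, h⟩, by simp⟩
    · rintro ⟨a, rfl⟩
      exact (e v a).2
  · intro v a b h
    exact (e v).injective (Subtype.ext h)

namespace Lab

variable {d : ℕ} (L : Lab d G)

/-- Apply a word (last letter first). -/
def act (α : List (Fin d)) (v : V) : V := α.foldr L.s v

@[simp] theorem act_nil (v : V) : L.act [] v = v := rfl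
@[simp] theorem act_cons (a : Fin d) (α : List (Fin d)) (v : V) :
    L.act (a :: α) v = L.s a (L.act α v) := rfl

theorem act_append (α β : List (Fin d)) (v : V) : L.act (α ++ β) v = L.act α (L.act β v) := by
  simp [act, List.foldr_append]

theorem act_reverse_act (α : List (Fin d)) (v : V) : L.act α.reverse (L.act α v) = v := by
  induction α with
  | nil => rfl
  | cons a α ih => simp [act_append, L.inv, ih]

theorem adj_s (a : Fin d) (v : V) : G.Adj v (L.s a v) := (L.adj _ _).2 ⟨a, rfl⟩

theorem dist_s (hT : G.IsTree) (r v : V) (a : Fin d) :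
    G.dist r (L.s a v) = G.dist r v + 1 ∨ G.dist r (L.s a v) + 1 = G.dist r v := by
  rcases hT.dist_eq_dist_add_one_of_adj r (L.adj_s a v) with h | h <;> omega

theorem down_unique (hT : G.IsTree) (r v : V) {a b : Fin d}
    (ha : G.dist r (L.s a v) + 1 = G.dist r v) (hb : G.dist r (L.s b v) + 1 = G.dist r v) :
    a = b :=
  L.inj v a b (parent_unique hT (L.adj_s a v) (L.adj_s b v) ha hb)

theorem exists_down (hT : G.IsTree) {r v : V} (h : v ≠ r) :
    ∃ a, G.dist r (L.s a v) + 1 = G.dist r v := by
  obtain ⟨w, hw, h2⟩ := exists_parent hT h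
  obtain ⟨a, rfl⟩ := (L.adj _ _).1 hw
  exact ⟨a, h2⟩

theorem dist_act (hT : G.IsTree) (u : V) :
    ∀ α : List (Fin d), α.IsChain (· ≠ ·) → G.dist u (L.act α u) = α.length
  | [], _ => by simp
  | [a], _ => by
    simpa using dist_eq_one_iff_adj.2 (L.adj_s a u)
  | a :: b :: β, h => by
    have h1 : (b :: β).IsChain (· ≠ ·) := h.tail
    have h2 : β.IsChain (· ≠ ·) := h1.tail
    have i1 := dist_act hT u _ h1
    have i2 := dist_act hT u _ h2
    have hab : a ≠ b := (List.isChain_cons_cons.1 h).1
    rcases L.dist_s hT u (L.act (b :: β) u) a with h3 | h3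
    · simp only [act_cons, List.length_cons] at *
      omega
    · exfalso
      apply hab
      apply L.down_unique hT u _ h3
      simp only [act_cons, L.inv, List.length_cons] at *
      omega

theorem exists_word (hT : G.IsTree) (u : V) : ∀ (n : ℕ) (v : V), G.dist u v = n →
    ∃ α : List (Fin d), α.IsChain (· ≠ ·) ∧ L.act α u = v := by
  intro n
  induction n with
  | zero =>
    intro v h
    exact ⟨[], by simp, by
      simpa using (hT.connected.dist_eq_zero_iff.1 h)⟩
  | succ n ih =>
    intro v h
    have hv : v ≠ u := by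
      rintro rfl
      simp at h
    obtain ⟨a, ha⟩ := L.exists_down hT hv
    obtain ⟨α, h1, h2⟩ := ih (L.s a v) (by omega)
    refine ⟨a :: α, ?_, by simp [h2, L.inv]⟩
    cases α with
    | nil => simp
    | cons b β =>
      refine List.isChain_cons_cons.2 ⟨?_, h1⟩
      rintro rfl
      have h3 : L.act β u = v := by
        have := congrArg (L.s a) h2
        simpa [L.inv] using this
      have i1 := L.dist_act hT u _ h1
      have i2 := L.dist_act hT u _ h1.tail
      simp only [List.tail_cons] at i2
      rw [h2] at i1
      rw [h3] at i2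
      simp at i1
      omega

theorem word_unique (hT : G.IsTree) (u : V) : ∀ (α β : List (Fin d)), α.IsChain (· ≠ ·) →
    β.IsChain (· ≠ ·) → L.act α u = L.act β u → α = β
  | [], [], _, _, _ => rfl
  | [], b :: β, h1, h2, h => by
    have i1 := L.dist_act hT u _ h1
    have i2 := L.dist_act hT u _ h2
    rw [h, i2] at i1
    simp at i1
  | a :: α, [], h1, h2, h => by
    have i1 := L.dist_act hT u _ h1
    have i2 := L.dist_act hT u _ h2
    rw [h, i2] at i1
    simp at i1
  | a :: α, b :: β, h1, h2, h => by
    have i1 := L.dist_act hT u _ h1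
    have i2 := L.dist_act hT u _ h2
    have j1 := L.dist_act hT u _ h1.tail
    have j2 := L.dist_act hT u _ h2.tail
    simp only [List.tail_cons] at j1 j2
    have hab : a = b := by
      apply L.down_unique hT u (L.act (a :: α) u)
      · simp only [act_cons, L.inv, List.length_cons] at *
        omega
      · rw [h]
        simp only [act_cons, L.inv, List.length_cons] at *
        omega
    subst hab
    have h3 : L.act α u = L.act β u := by
      have := congrArg (L.s a) h
      simpa [L.inv] using this
    rw [word_unique hT u α β h1.tail h2.tail h3]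

/-- The reduced word leading from `u` to `v`. -/
noncomputable def word (hT : G.IsTree) (u v : V) : List (Fin d) :=
  (L.exists_word hT u _ v rfl).choose

theorem word_chain (hT : G.IsTree) (u v : V) : (L.word hT u v).IsChain (· ≠ ·) :=
  (L.exists_word hT u _ v rfl).choose_spec.1

@[simp] theorem act_word (hT : G.IsTree) (u v : V) : L.act (L.word hT u v) u = v :=
  (L.exists_word hT u _ v rfl).choose_spec.2

theorem word_act (hT : G.IsTree) (u : V) {α : List (Fin d)} (h : α.IsChain (· ≠ ·)) :
    L.word hT u (L.act α u) = α :=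
  L.word_unique hT u _ _ (L.word_chain hT _ _) h (by simp)

theorem length_word (hT : G.IsTree) (u v : V) : (L.word hT u v).length = G.dist u v := by
  rw [← L.dist_act hT u _ (L.word_chain hT u v), act_word]

theorem act_word_s (hT : G.IsTree) (u v y : V) (a : Fin d) :
    L.act (L.word hT u (L.s a v)) y = L.s a (L.act (L.word hT u v) y) := by
  have hc := L.word_chain hT u v
  have hv := L.act_word hT u v
  cases hw : L.word hT u v with
  | nil =>
    rw [hw] at hv
    have : L.s a v = L.act [a] u := by simpa using congrArg (L.s a) hv.symm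
    rw [this, L.word_act hT u (by simp)]
    rfl
  | cons b β =>
    rw [hw] at hv hc
    by_cases hab : a = b
    · subst hab
      have : L.s a v = L.act β u := by rw [← hv]; simp [L.inv]
      rw [this, L.word_act hT u (α := β) hc.tail]
      simp [L.inv]
    · have : L.s a v = L.act (a :: b :: β) u := by rw [← hv]; rfl
      rw [this, L.word_act hT u (List.isChain_cons_cons.2 ⟨hab, hc⟩)]
      rfl

/-- A map commuting with all labelled steps commutes with words. -/
theorem map_act {f : V → V} (hf : ∀ a v, f (L.s a v) = L.s a (f v)) (α : List (Fin d)) (v : V) :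
    f (L.act α v) = L.act α (f v) := by
  induction α with
  | nil => rfl
  | cons a α ih => simp [hf, ih]

theorem comm_ext (hT : G.IsTree) {f g : V → V} (hf : ∀ a v, f (L.s a v) = L.s a (f v))
    (hg : ∀ a v, g (L.s a v) = L.s a (g v)) {x : V} (h : f x = g x) : f = g := by
  funext v
  rw [← L.act_word hT x v, L.map_act hf, L.map_act hg, h]

/-- The label preserving map sending `x` to `y`. -/
noncomputable def tr (hT : G.IsTree) (x y : V) (v : V) : V := L.act (L.word hT x v) y

theorem tr_s (hT : G.IsTree) (x y : V) (a : Fin d) (v : V) :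
    L.tr hT x y (L.s a v) = L.s a (L.tr hT x y v) := L.act_word_s hT x v y a

@[simp] theorem tr_self (hT : G.IsTree) (x y : V) : L.tr hT x y x = y := by
  have := L.word_act hT x (α := []) (by simp)
  simp only [act_nil] at this
  simp [tr, this]

theorem tr_tr (hT : G.IsTree) (x y z v : V) : L.tr hT y z (L.tr hT x y v) = L.tr hT x z v := by
  have := L.comm_ext hT (f := fun v => L.tr hT y z (L.tr hT x y v)) (g := L.tr hT x z)
    (fun a v => by simp [tr_s]) (L.tr_s hT x z) (x := x) (by simp)
  exact congrFun this v

@[simp] theorem tr_id (hT : G.IsTree) (x v : V) : L.tr hT x x v = v := by simp [tr]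

/-- The label preserving automorphism sending `x` to `y`. -/
noncomputable def aut (hT : G.IsTree) (x y : V) : G ≃g G where
  toFun := L.tr hT x y
  invFun := L.tr hT y x
  left_inv v := by simp [tr_tr]
  right_inv v := by simp [tr_tr]
  map_rel_iff' := by
    intro v w
    simp only [Equiv.coe_fn_mk, L.adj]
    constructor
    · rintro ⟨a, h⟩
      refine ⟨a, ?_⟩
      have := congrArg (L.tr hT y x) h
      rw [← tr_s] at this
      simpa [tr_tr] using this
    · rintro ⟨a, rfl⟩
      exact ⟨a, L.tr_s hT x y a v⟩

@[simp] theorem aut_apply (hT : G.IsTree) (x y v : V) : L.aut hT x y v = L.tr hT x y v := rfl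
@[simp] theorem aut_symm_apply (hT : G.IsTree) (x y v : V) :
    (L.aut hT x y).symm v = L.tr hT y x v := rfl

include L in
theorem countable (hT : G.IsTree) : Countable V := by
  obtain ⟨r⟩ := hT.connected.nonempty
  exact Function.Surjective.countable (f := fun α : List (Fin d) => L.act α r)
    (fun v => ⟨L.word hT r v, by simp⟩)

end Lab

end Vale.Agent.P161
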