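import Vale.Agent.P161.Geom
import Vale.Agent.P161.Tree

/-!
The automorphism group of a regular tree is transitive on paths of length two.
-/

open MeasureTheory ProbabilityTheory Filter Topology Finset
open scoped Classical NNReal ENNReal

namespace Vale.Agent.P161

variable {V : Type} {G : SimpleGraph V} [G.LocallyFinite] {q : ℕ}

theorem Reg.exists_lab (hG : Reg G q) : Nonempty (Lab (q + 1) G) := by
  refine Vale.Agent.P161.exists_lab hG.tree fun v => ?_
  rw [← hG.deg v, ← SimpleGraph.card_neighborFinset_eq_degree, ← SimpleGraph.coe_neighborFinset,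
    Set.encard_coe_eq_coe_finsetCard]

namespace TransAux

omit [G.LocallyFinite]

variable {d : ℕ}

theorem act_word_s (L L' : Lab d G) (hT : G.IsTree) (u v y : V) (a : Fin d) :
    L'.act (L.word hT u (L.s a v)) y = L'.s a (L'.act (L.word hT u v) y) := by
  have hc := L.word_chain hT u v
  have hv := L.act_word hT u v
  cases hw : L.word hT u v with
  | nil =>
    rw [hw] at hv
    have : L.s a v = L.act [a] u := by simpa using congrArg (L.s a) hv.symm
    rw [this, L.word_act hT u (by simp)]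
    rfl
  | cons b β =>
    rw [hw] at hv hc
    by_cases hab : a = b
    · subst hab
      have : L.s a v = L.act β u := by rw [← hv]; simp [L.inv]
      rw [this, L.word_act hT u (α := β) hc.tail]
      simp [L'.inv]
    · have : L.s a v = L.act (a :: b :: β) u := by rw [← hv]; rfl
      rw [this, L.word_act hT u (List.isChain_cons_cons.2 ⟨hab, hc⟩)]
      rfl

theorem word_self (L : Lab d G) (hT : G.IsTree) (x : V) : L.word hT x x = [] := by
  simpa using L.word_act hT x (α := []) (by simp)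

theorem inv_aux (L L' : Lab d G) (hT : G.IsTree) (x y v : V) :
    L.act (L'.word hT y (L'.act (L.word hT x v) y)) x = v := by
  have := L.comm_ext hT (f := fun v => L.act (L'.word hT y (L'.act (L.word hT x v) y)) x)
    (g := id) (fun a v => by simp only [act_word_s]) (fun _ _ => rfl) (x := x)
    (by simp [word_self])
  exact congrFun this v

theorem exists_iso (L L' : Lab d G) (hT : G.IsTree) (x y : V) :
    ∃ g : G ≃g G, g x = y ∧ ∀ a v, g (L.s a v) = L'.s a (g v) := by
  refine ⟨⟨⟨fun v => L'.act (L.word hT x v) y, fun v => L.act (L'.word hT y v) x,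
    inv_aux L L' hT x y, inv_aux L' L hT y x⟩, ?_⟩, ?_, ?_⟩
  · intro v w
    simp only [Equiv.coe_fn_mk]
    rw [L'.adj, L.adj v w]
    constructor
    · rintro ⟨a, h⟩
      refine ⟨a, ?_⟩
      have := congrArg (fun v => L.act (L'.word hT y v) x) h
      simpa only [act_word_s, inv_aux] using this
    · rintro ⟨a, rfl⟩
      exact ⟨a, act_word_s L L' hT x v y a⟩
  · show L'.act (L.word hT x x) y = y
    simp [word_self]
  · intro a v
    exact act_word_s L L' hT x v y a

/-- Relabelling by a permutation of the colours. -/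
def perm (L : Lab d G) (π : Equiv.Perm (Fin d)) : Lab d G where
  s a := L.s (π a)
  inv a v := L.inv _ v
  adj v w := (L.adj v w).trans
    ⟨fun ⟨a, h⟩ => ⟨π.symm a, by simpa using h⟩, fun ⟨a, h⟩ => ⟨π a, h⟩⟩
  inj v a b h := π.injective (L.inj v _ _ h)

end TransAux

theorem Reg.exists_iso_arc (hG : Reg G q) {x y z x' y' z' : V} (h : G.Adj x y)
    (hz : z ∈ ch G x y) (h' : G.Adj x' y') (hz' : z' ∈ ch G x' y') :
    ∃ g : G ≃g G, g x = x' ∧ g y = y' ∧ g z = z' := by
  obtain ⟨L⟩ := hG.exists_lab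
  obtain ⟨a, rfl⟩ := (L.adj _ _).1 h.symm
  obtain ⟨a', rfl⟩ := (L.adj _ _).1 h'.symm
  obtain ⟨c, rfl⟩ := (L.adj _ _).1 (mem_ch.1 hz).1
  obtain ⟨c', rfl⟩ := (L.adj _ _).1 (mem_ch.1 hz').1
  have hac : c ≠ a := fun h => (mem_ch.1 hz).2 (by rw [h])
  have hac' : c' ≠ a' := fun h => (mem_ch.1 hz').2 (by rw [h])
  obtain ⟨g, h1, h2⟩ := TransAux.exists_iso L (TransAux.perm L
    ((Equiv.swap a a').trans (Equiv.swap (Equiv.swap a a' c) c'))) hG.tree y y'
  refine ⟨g, ?_, h1, ?_⟩
  · rw [h2, h1]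
    show L.s (Equiv.swap (Equiv.swap a a' c) c' (Equiv.swap a a' a)) y' = _
    rw [Equiv.swap_apply_left, Equiv.swap_apply_of_ne_of_ne _ hac'.symm]
    intro h3
    apply hac
    apply (Equiv.swap a a').injective
    rw [← h3, Equiv.swap_apply_left]
  · rw [h2, h1]
    show L.s (Equiv.swap (Equiv.swap a a' c) c' (Equiv.swap a a' c)) y' = _
    rw [Equiv.swap_apply_left]

theorem Reg.exists_iso_dart (hG : Reg G q) {x y x' y' : V} (h : G.Adj x y) (h' : G.Adj x' y') :
    ∃ g : G ≃g G, g x = x' ∧ g y = y' := by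
  obtain ⟨z, hz⟩ := hG.exists_ch h
  obtain ⟨z', hz'⟩ := hG.exists_ch h'
  obtain ⟨g, h1, h2, -⟩ := hG.exists_iso_arc h hz h' hz'
  exact ⟨g, h1, h2⟩

theorem Reg.exists_iso_vert (hG : Reg G q) (x x' : V) : ∃ g : G ≃g G, g x = x' := by
  obtain ⟨y, hy⟩ := hG.exists_adj x
  obtain ⟨y', hy'⟩ := hG.exists_adj x'
  obtain ⟨g, h1, -⟩ := hG.exists_iso_dart hy hy'
  exact ⟨g, h1⟩

end Vale.Agent.P161
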